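import Vale.Agent.P335.Avg

/-!
# P335: two consequences of the spectral theorem on `Ω → ℝ` with the form `ip`
-/

namespace Vale.Agent.P335

open Finset

variable {Ω : Type*} [Fintype Ω]

theorem ip_comm' (F G : Ω → ℝ) : ip F G = ip G F := by
  unfold ip
  exact Finset.sum_congr rfl fun ω _ => mul_comm _ _

theorem inner_eq_ip' (x y : EuclideanSpace ℝ Ω) :
    inner ℝ x y = ip (WithLp.linearEquiv 2 ℝ (Ω → ℝ) x) (WithLp.linearEquiv 2 ℝ (Ω → ℝ) y) := by
  rw [PiLp.inner_apply]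
  unfold ip
  apply Finset.sum_congr rfl
  intro ω _
  simp [mul_comm]

/-- The spectral theorem in terms of `ip`. -/
theorem exists_eigenbasis (A : (Ω → ℝ) →ₗ[ℝ] (Ω → ℝ))
    (hsymm : ∀ F G, ip (A F) G = ip F (A G)) :
    ∃ (n : ℕ) (b : Fin n → (Ω → ℝ)) (μ : Fin n → ℝ), (∀ i, A (b i) = μ i • b i) ∧
      (∀ i, ip (b i) (b i) = 1) ∧ (∀ F G, ip F G = ∑ i, ip (b i) F * ip (b i) G) := by
  classical
  set e := WithLp.linearEquiv 2 ℝ (Ω → ℝ) with he
  set T : EuclideanSpace ℝ Ω →ₗ[ℝ] EuclideanSpace ℝ Ω :=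
    (e.symm : (Ω → ℝ) →ₗ[ℝ] EuclideanSpace ℝ Ω) ∘ₗ A ∘ₗ (e : EuclideanSpace ℝ Ω →ₗ[ℝ] (Ω → ℝ))
    with hT
  have heT : ∀ x, e (T x) = A (e x) := by
    intro x
    simp [hT]
  have hTs : T.IsSymmetric := by
    intro x y
    rw [inner_eq_ip', inner_eq_ip', ← he, heT, heT, hsymm]
  set B := hTs.eigenvectorBasis rfl with hB
  refine ⟨_, fun i => e (B i), hTs.eigenvalues rfl, ?_, ?_, ?_⟩
  · intro i
    rw [← heT, hB, hTs.apply_eigenvectorBasis rfl i, map_smul]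
    rfl
  · intro i
    rw [he, ← inner_eq_ip', real_inner_self_eq_norm_sq, B.orthonormal.1 i]
    norm_num
  · intro F G
    have h1 := B.sum_inner_mul_inner (e.symm F) (e.symm G)
    rw [inner_eq_ip', ← he, e.apply_symm_apply, e.apply_symm_apply] at h1
    rw [← h1]
    apply Finset.sum_congr rfl
    intro i _
    rw [real_inner_comm, inner_eq_ip', inner_eq_ip', ← he, e.apply_symm_apply,
      e.apply_symm_apply]

/-- If every eigenvalue of the symmetric operator `A` is `0` or at least `1`, then `A ≤ A²`. -/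
theorem sq_ge_of_eigen (A : (Ω → ℝ) →ₗ[ℝ] (Ω → ℝ))
    (hsymm : ∀ F G, ip (A F) G = ip F (A G))
    (heig : ∀ (μ : ℝ) (f : Ω → ℝ), f ≠ 0 → A f = μ • f → μ = 0 ∨ 1 ≤ μ) (F : Ω → ℝ) :
    ip F (A F) ≤ ip (A F) (A F) := by
  obtain ⟨n, b, μ, hb, hn, hP⟩ := exists_eigenbasis A hsymm
  have hc : ∀ i, ip (b i) (A F) = μ i * ip (b i) F := by
    intro i
    rw [← hsymm, hb]
    unfold ip
    rw [Finset.mul_sum]
    apply Finset.sum_congr rfl
    intro ω _
    simp [mul_assoc]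
  have hne : ∀ i, b i ≠ 0 := by
    intro i h
    have h1 := hn i
    rw [h] at h1
    simp [ip] at h1
  rw [hP F (A F), hP (A F) (A F)]
  apply Finset.sum_le_sum
  intro i _
  rw [hc]
  have h2 : 0 ≤ (ip (b i) F) ^ 2 := sq_nonneg _
  rcases heig (μ i) (b i) (hne i) (hb i) with h | h
  · rw [h]; simp
  · nlinarith [mul_nonneg (sub_nonneg.mpr h) h2, mul_nonneg (le_trans zero_le_one h)
      (mul_nonneg (sub_nonneg.mpr h) h2)]

/-- If `0 ≤ A ≤ A²` for the symmetric operator `A`, then `‖F‖² ≤ ⟨F, A F⟩` for `F ⟂ ker A`. -/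
theorem gap_of_sq_ge (A : (Ω → ℝ) →ₗ[ℝ] (Ω → ℝ))
    (hsymm : ∀ F G, ip (A F) G = ip F (A G))
    (hpos : ∀ F, 0 ≤ ip F (A F))
    (hsq : ∀ F, ip F (A F) ≤ ip (A F) (A F))
    (F : Ω → ℝ) (hF : ∀ f, A f = 0 → ip F f = 0) :
    ip F F ≤ ip F (A F) := by
  obtain ⟨n, b, μ, hb, hn, hP⟩ := exists_eigenbasis A hsymm
  have hsm : ∀ (c : ℝ) (G H : Ω → ℝ), ip G (c • H) = c * ip G H := by
    intro c G H
    unfold ip
    rw [Finset.mul_sum]
    apply Finset.sum_congr rfl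
    intro ω _
    simp
    ring
  have hc : ∀ i, ip (b i) (A F) = μ i * ip (b i) F := by
    intro i
    rw [← hsymm, hb, ip_comm', hsm, ip_comm']
  rw [hP F F, hP F (A F)]
  apply Finset.sum_le_sum
  intro i _
  rw [hc]
  have h1 : 0 ≤ μ i := by
    have := hpos (b i)
    rwa [hb, hsm, hn, mul_one] at this
  have h2 : μ i ≤ μ i * μ i := by
    have := hsq (b i)
    rwa [hb, hsm, hn, mul_one, hsm, ip_comm', hsm, hn, mul_one] at this
  have h3 : 0 ≤ (ip (b i) F) ^ 2 := sq_nonneg _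
  rcases h1.eq_or_lt with h0 | hpos'
  · have h4 : A (b i) = 0 := by rw [hb, ← h0, zero_smul]
    have h5 := hF (b i) h4
    rw [ip_comm'] at h5
    rw [h5]
    simp
  · have h6 : 1 ≤ μ i := by
      by_contra hlt
      push Not at hlt
      nlinarith
    nlinarith [mul_nonneg (sub_nonneg.mpr h6) h3]

end Vale.Agent.P335
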