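import Mathlib

/-!
# P335: from a Poincare inequality to a total variation bound (lazy symmetric chains)
-/

namespace Vale.Agent.P335

open Finset

variable {Ω : Type*} [Fintype Ω] [DecidableEq Ω]

omit [DecidableEq Ω] in
/-- weighted Jensen inequality for one row -/
theorem mix_jensen (K : Matrix Ω Ω ℝ) (hK0 : ∀ x y, 0 ≤ K x y) (hK1 : ∀ x, ∑ y, K x y = 1)
    (F : Ω → ℝ) (x : Ω) : (∑ y, K x y * F y) ^ 2 ≤ ∑ y, K x y * F y ^ 2 := by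
  obtain ⟨m, hm⟩ : ∃ m, m = ∑ y, K x y * F y := ⟨_, rfl⟩
  have h0 : 0 ≤ ∑ y, K x y * (F y - m) ^ 2 :=
    Finset.sum_nonneg (fun y _ => mul_nonneg (hK0 x y) (sq_nonneg _))
  have e : ∑ y, K x y * (F y - m) ^ 2 =
      ∑ y, K x y * F y ^ 2 - 2 * m * (∑ y, K x y * F y) + m ^ 2 * ∑ y, K x y := by
    rw [Finset.mul_sum, Finset.mul_sum, ← Finset.sum_sub_distrib, ← Finset.sum_add_distrib]
    apply Finset.sum_congr rfl
    intro y _
    ring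
  rw [e, hK1, ← hm] at h0
  rw [← hm]
  nlinarith

omit [DecidableEq Ω] in
theorem mix_col (K : Matrix Ω Ω ℝ) (hKs : ∀ x y, K x y = K y x) (hK1 : ∀ x, ∑ y, K x y = 1)
    (g : Ω → ℝ) : ∑ x, ∑ y, K x y * g y = ∑ y, g y := by
  rw [Finset.sum_comm]
  apply Finset.sum_congr rfl
  intro y _
  rw [← Finset.sum_mul]
  have : ∑ x, K x y = 1 := by
    rw [← hK1 y]
    exact Finset.sum_congr rfl (fun x _ => hKs x y)
  rw [this, one_mul]

omit [DecidableEq Ω] in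
theorem mix_row (K : Matrix Ω Ω ℝ) (hK1 : ∀ x, ∑ y, K x y = 1)
    (g : Ω → ℝ) : ∑ x, ∑ y, K x y * g x = ∑ x, g x := by
  apply Finset.sum_congr rfl
  intro x _
  rw [← Finset.sum_mul, hK1, one_mul]

omit [DecidableEq Ω] in
theorem mix_sq_le (K : Matrix Ω Ω ℝ) (hK0 : ∀ x y, 0 ≤ K x y)
    (hKs : ∀ x y, K x y = K y x) (hK1 : ∀ x, ∑ y, K x y = 1) (F : Ω → ℝ) :
    ∑ x, (∑ y, K x y * F y) ^ 2 ≤ ∑ x, F x ^ 2 := by
  calc ∑ x, (∑ y, K x y * F y) ^ 2 ≤ ∑ x, ∑ y, K x y * F y ^ 2 :=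
        Finset.sum_le_sum (fun x _ => mix_jensen K hK0 hK1 F x)
    _ = ∑ x, F x ^ 2 := mix_col K hKs hK1 (fun y => F y ^ 2)

omit [DecidableEq Ω] in
theorem mix_dirichlet_K (K : Matrix Ω Ω ℝ)
    (hKs : ∀ x y, K x y = K y x) (hK1 : ∀ x, ∑ y, K x y = 1) (F : Ω → ℝ) :
    ∑ x, ∑ y, K x y * (F x - F y) ^ 2 =
      2 * ∑ x, F x ^ 2 - 2 * ∑ x, F x * ∑ y, K x y * F y := by
  have e : ∀ x, ∑ y, K x y * (F x - F y) ^ 2 =
      ∑ y, K x y * F x ^ 2 - 2 * (F x * ∑ y, K x y * F y) + ∑ y, K x y * F y ^ 2 := by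
    intro x
    rw [Finset.mul_sum, Finset.mul_sum, ← Finset.sum_sub_distrib, ← Finset.sum_add_distrib]
    apply Finset.sum_congr rfl
    intro y _
    ring
  simp_rw [e]
  rw [Finset.sum_add_distrib, Finset.sum_sub_distrib, mix_row K hK1 (fun x => F x ^ 2),
    mix_col K hKs hK1 (fun y => F y ^ 2), ← Finset.mul_sum]
  ring

theorem mix_P_apply (K : Matrix Ω Ω ℝ) (x y : Ω) :
    ((1 / 2 : ℝ) • (1 : Matrix Ω Ω ℝ) + (1 / 2 : ℝ) • K) x y =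
      (1 / 2 : ℝ) * (if x = y then 1 else 0) + (1 / 2 : ℝ) * K x y := by
  simp [Matrix.add_apply, Matrix.smul_apply, Matrix.one_apply]

theorem mix_dirichlet_P (K : Matrix Ω Ω ℝ)
    (hKs : ∀ x y, K x y = K y x) (hK1 : ∀ x, ∑ y, K x y = 1) (F : Ω → ℝ) :
    (1 / 2 : ℝ) * ∑ x, ∑ y,
        ((1 / 2 : ℝ) • (1 : Matrix Ω Ω ℝ) + (1 / 2 : ℝ) • K) x y * (F x - F y) ^ 2 =
      (1 / 2 : ℝ) * (∑ x, F x ^ 2 - ∑ x, F x * ∑ y, K x y * F y) := by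
  have e : ∀ x y, ((1 / 2 : ℝ) • (1 : Matrix Ω Ω ℝ) + (1 / 2 : ℝ) • K) x y * (F x - F y) ^ 2 =
      (1 / 2 : ℝ) * (K x y * (F x - F y) ^ 2) := by
    intro x y
    rw [mix_P_apply]
    by_cases h : x = y
    · subst h; simp
    · rw [if_neg h]; ring
  simp_rw [e]
  simp_rw [← Finset.mul_sum]
  rw [mix_dirichlet_K K hKs hK1 F]
  ring

theorem mix_P_mul (K : Matrix Ω Ω ℝ) (F : Ω → ℝ) (x : Ω) :
    ∑ y, ((1 / 2 : ℝ) • (1 : Matrix Ω Ω ℝ) + (1 / 2 : ℝ) • K) x y * F y =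
      (F x + ∑ y, K x y * F y) / 2 := by
  have e : ∀ y, ((1 / 2 : ℝ) • (1 : Matrix Ω Ω ℝ) + (1 / 2 : ℝ) • K) x y * F y =
      (1 / 2 : ℝ) * (if x = y then F y else 0) + (1 / 2 : ℝ) * (K x y * F y) := by
    intro y
    rw [mix_P_apply]
    by_cases h : x = y
    · rw [if_pos h, if_pos h]; ring
    · rw [if_neg h, if_neg h]; ring
  simp_rw [e]
  rw [Finset.sum_add_distrib, ← Finset.mul_sum, ← Finset.mul_sum, Finset.sum_ite_eq]
  simp only [Finset.mem_univ, if_true]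
  ring

/-- the contraction property of the lazy chain -/
theorem mix_contract (K : Matrix Ω Ω ℝ) (hK0 : ∀ x y, 0 ≤ K x y)
    (hKs : ∀ x y, K x y = K y x) (hK1 : ∀ x, ∑ y, K x y = 1) (γ : ℝ)
    (hP : ∀ F : Ω → ℝ, ∑ x, F x = 0 →
      γ * ∑ x, F x ^ 2 ≤ (1 / 2 : ℝ) * ∑ x, ∑ y,
        ((1 / 2 : ℝ) • (1 : Matrix Ω Ω ℝ) + (1 / 2 : ℝ) • K) x y * (F x - F y) ^ 2)
    (F : Ω → ℝ) (hF : ∑ x, F x = 0) :
    ∑ x, (∑ y, ((1 / 2 : ℝ) • (1 : Matrix Ω Ω ℝ) + (1 / 2 : ℝ) • K) x y * F y) ^ 2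
      ≤ (1 - γ) * ∑ x, F x ^ 2 := by
  have h1 := hP F hF
  rw [mix_dirichlet_P K hKs hK1 F] at h1
  have h2 := mix_sq_le K hK0 hKs hK1 F
  simp_rw [mix_P_mul]
  have e : ∑ x, ((F x + ∑ y, K x y * F y) / 2) ^ 2 =
      (∑ x, F x ^ 2 + 2 * ∑ x, F x * ∑ y, K x y * F y + ∑ x, (∑ y, K x y * F y) ^ 2) / 4 := by
    rw [Finset.mul_sum, ← Finset.sum_add_distrib, ← Finset.sum_add_distrib, Finset.sum_div]
    apply Finset.sum_congr rfl
    intro x _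
    ring
  rw [e]
  linarith

/-- abstract iteration -/
theorem mix_iter (P : Matrix Ω Ω ℝ) (hPs : ∀ x y, P x y = P y x) (hP1 : ∀ x, ∑ y, P x y = 1)
    (c : ℝ) (hc : 0 ≤ c)
    (hcontr : ∀ F : Ω → ℝ, ∑ x, F x = 0 → ∑ x, (∑ y, P x y * F y) ^ 2 ≤ c * ∑ x, F x ^ 2)
    (x : Ω) (t : ℕ) :
    ∑ y, ((P ^ t) x y - 1 / (Fintype.card Ω : ℝ)) = 0 ∧
      ∑ y, ((P ^ t) x y - 1 / (Fintype.card Ω : ℝ)) ^ 2 ≤ c ^ t := by
  have hN : (0 : ℝ) < (Fintype.card Ω : ℝ) := by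
    have : 0 < Fintype.card Ω := Fintype.card_pos_iff.mpr ⟨x⟩
    exact_mod_cast this
  induction t with
  | zero =>
    have e1 : ∑ y, (if x = y then (1 : ℝ) else 0) = 1 := by
      rw [Finset.sum_ite_eq]; simp
    constructor
    · simp only [pow_zero, Matrix.one_apply]
      rw [Finset.sum_sub_distrib, e1, Finset.sum_const, Finset.card_univ, nsmul_eq_mul]
      field_simp
      ring
    · simp only [pow_zero, Matrix.one_apply]
      have e2 : ∀ y, ((if x = y then (1 : ℝ) else 0) - 1 / (Fintype.card Ω : ℝ)) ^ 2 =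
          (1 - 2 / (Fintype.card Ω : ℝ)) * (if x = y then (1 : ℝ) else 0)
            + 1 / (Fintype.card Ω : ℝ) ^ 2 := by
        intro y
        by_cases h : x = y
        · rw [if_pos h]; field_simp; ring
        · rw [if_neg h]; field_simp; ring
      simp_rw [e2]
      rw [Finset.sum_add_distrib, ← Finset.mul_sum, e1, Finset.sum_const, Finset.card_univ,
        nsmul_eq_mul]
      have : (Fintype.card Ω : ℝ) * (1 / (Fintype.card Ω : ℝ) ^ 2) = 1 / (Fintype.card Ω : ℝ) := by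
        field_simp
      rw [this]
      have h3 : 0 < 1 / (Fintype.card Ω : ℝ) := by positivity
      have h4 : 2 / (Fintype.card Ω : ℝ) = 2 * (1 / (Fintype.card Ω : ℝ)) := by ring
      rw [h4]
      linarith
  | succ t ih =>
    obtain ⟨ih1, ih2⟩ := ih
    have step : ∀ y, (P ^ (t + 1)) x y - 1 / (Fintype.card Ω : ℝ) =
        ∑ z, P y z * ((P ^ t) x z - 1 / (Fintype.card Ω : ℝ)) := by
      intro y
      rw [pow_succ, Matrix.mul_apply]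
      have : ∑ z, P y z * ((P ^ t) x z - 1 / (Fintype.card Ω : ℝ)) =
          ∑ z, (P ^ t) x z * P z y - (∑ z, P y z) * (1 / (Fintype.card Ω : ℝ)) := by
        rw [Finset.sum_mul, ← Finset.sum_sub_distrib]
        apply Finset.sum_congr rfl
        intro z _
        rw [hPs z y]
        ring
      rw [this, hP1, one_mul]
    constructor
    · simp_rw [step]
      rw [mix_col P hPs hP1]
      exact ih1
    · simp_rw [step]
      calc _ ≤ c * ∑ y, ((P ^ t) x y - 1 / (Fintype.card Ω : ℝ)) ^ 2 := hcontr _ ih1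
        _ ≤ c * c ^ t := mul_le_mul_of_nonneg_left ih2 hc
        _ = c ^ (t + 1) := by ring

/-- Let `K` be a symmetric stochastic matrix, `P = (1 + K)/2`, and assume the Poincare inequality
`γ ∑ F² ≤ (1/2) ∑∑ P x y (F x - F y)²` for all `F` with zero sum.  Then
`(1/2) ∑_y |P^t x y - 1/|Ω|| ≤ (1/2) sqrt (|Ω| (1-γ)^t)`. -/
theorem tv_le_of_poincare (K : Matrix Ω Ω ℝ) (hK0 : ∀ x y, 0 ≤ K x y)
    (hKs : ∀ x y, K x y = K y x) (hK1 : ∀ x, ∑ y, K x y = 1)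
    (γ : ℝ) (hγ0 : 0 < γ) (hγ1 : γ ≤ 1)
    (hP : ∀ F : Ω → ℝ, ∑ x, F x = 0 →
      γ * ∑ x, F x ^ 2 ≤ (1 / 2 : ℝ) * ∑ x, ∑ y,
        ((1 / 2 : ℝ) • (1 : Matrix Ω Ω ℝ) + (1 / 2 : ℝ) • K) x y * (F x - F y) ^ 2)
    (t : ℕ) (x : Ω) :
    (1 / 2 : ℝ) * ∑ y, |(((1 / 2 : ℝ) • (1 : Matrix Ω Ω ℝ) + (1 / 2 : ℝ) • K) ^ t) x y
        - 1 / (Fintype.card Ω : ℝ)|
      ≤ (1 / 2 : ℝ) * Real.sqrt ((Fintype.card Ω : ℝ) * (1 - γ) ^ t) := by
  have hPs : ∀ x y, ((1 / 2 : ℝ) • (1 : Matrix Ω Ω ℝ) + (1 / 2 : ℝ) • K) x y =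
      ((1 / 2 : ℝ) • (1 : Matrix Ω Ω ℝ) + (1 / 2 : ℝ) • K) y x := by
    intro x y
    rw [mix_P_apply, mix_P_apply, hKs x y]
    by_cases h : x = y
    · rw [if_pos h, if_pos h.symm]
    · rw [if_neg h, if_neg (fun e => h e.symm)]
  have hP1 : ∀ x, ∑ y, ((1 / 2 : ℝ) • (1 : Matrix Ω Ω ℝ) + (1 / 2 : ℝ) • K) x y = 1 := by
    intro x
    have := mix_P_mul K (fun _ => 1) x
    simp only [mul_one] at this
    rw [this, hK1]
    norm_num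
  obtain ⟨-, h2⟩ := mix_iter _ hPs hP1 (1 - γ) (by linarith)
    (mix_contract K hK0 hKs hK1 γ hP) x t
  apply mul_le_mul_of_nonneg_left _ (by norm_num)
  apply Real.le_sqrt_of_sq_le
  have h3 := sq_sum_le_card_mul_sum_sq (s := (Finset.univ : Finset Ω))
    (f := fun y => |(((1 / 2 : ℝ) • (1 : Matrix Ω Ω ℝ) + (1 / 2 : ℝ) • K) ^ t) x y
        - 1 / (Fintype.card Ω : ℝ)|)
  simp only [sq_abs, Finset.card_univ] at h3
  refine le_trans h3 ?_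
  exact mul_le_mul_of_nonneg_left h2 (Nat.cast_nonneg _)

end Vale.Agent.P335
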