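import Vale.Agent.P335.Avg

/-!
# P335: basic facts on averaging operators (self-adjoint idempotents, absorption)
-/

namespace Vale.Agent.P335

open Finset

variable {Ω : Type*} [Fintype Ω] {K K' : Type*}

theorem mem_clsOn {X : Type*} (S : Finset X) (κ : X → K) (x y : X) :
    y ∈ clsOn S κ x ↔ y ∈ S ∧ κ y = κ x := by
  classical
  simp [clsOn]

theorem mem_cls (κ : Ω → K) (ω ω' : Ω) : ω' ∈ cls κ ω ↔ κ ω' = κ ω := by
  simp [cls, mem_clsOn]

theorem self_mem_cls (κ : Ω → K) (ω : Ω) : ω ∈ cls κ ω := by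
  simp [mem_cls]

theorem avg_apply (κ : Ω → K) (F : Ω → ℝ) (ω : Ω) :
    avg κ F ω = (∑ ω' ∈ cls κ ω, F ω') / ((cls κ ω).card : ℝ) := rfl

theorem cls_eq_of_key_eq (κ : Ω → K) {ω ω' : Ω} (h : κ ω = κ ω') : cls κ ω = cls κ ω' := by
  ext x
  rw [mem_cls, mem_cls, h]

theorem avg_eq_of_key_eq (κ : Ω → K) (F : Ω → ℝ) {ω ω' : Ω} (h : κ ω = κ ω') :
    avg κ F ω = avg κ F ω' := by
  rw [avg_apply, avg_apply, cls_eq_of_key_eq κ h]

theorem avg_add (κ : Ω → K) (F G : Ω → ℝ) : avg κ (F + G) = avg κ F + avg κ G := by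
  funext ω
  simp only [avg_apply, Pi.add_apply, Finset.sum_add_distrib, add_div]

theorem avg_smul (κ : Ω → K) (c : ℝ) (F : Ω → ℝ) : avg κ (c • F) = c • avg κ F := by
  funext ω
  simp only [avg_apply, Pi.smul_apply, smul_eq_mul, ← Finset.mul_sum, mul_div_assoc]

/-- `avg κ` as a linear map. -/
noncomputable def avgL (κ : Ω → K) : (Ω → ℝ) →ₗ[ℝ] (Ω → ℝ) where
  toFun := avg κ
  map_add' := avg_add κ
  map_smul' := fun c F => by simpa using avg_smul κ c F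

@[simp] theorem avgL_apply (κ : Ω → K) (F : Ω → ℝ) : avgL κ F = avg κ F := rfl

/-- self-adjointness -/
theorem avg_symm (κ : Ω → K) (F G : Ω → ℝ) : ip (avg κ F) G = ip F (avg κ G) := by
  unfold ip
  simp only [avg_apply, Finset.sum_div, Finset.sum_mul, Finset.mul_sum]
  rw [Finset.sum_comm' (s' := fun y => cls κ y) (t' := Finset.univ)]
  · refine Finset.sum_congr rfl fun y _ => Finset.sum_congr rfl fun x hx => ?_
    rw [cls_eq_of_key_eq κ ((mem_cls κ y x).1 hx)]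
    ring
  · intro x y
    simp only [Finset.mem_univ, true_and, and_true, mem_cls]
    exact eq_comm

/-- a function which is constant on the class of `ω` is fixed at `ω` -/
theorem avg_eq_self_at (κ : Ω → K) (F : Ω → ℝ) (ω : Ω) (h : ∀ ω' ∈ cls κ ω, F ω' = F ω) :
    avg κ F ω = F ω := by
  rw [avg_apply, Finset.sum_congr rfl h, Finset.sum_const, nsmul_eq_mul]
  have hc : ((cls κ ω).card : ℝ) ≠ 0 := by
    have : 0 < (cls κ ω).card := Finset.card_pos.2 ⟨ω, self_mem_cls κ ω⟩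
    positivity
  field_simp

theorem avg_idem (κ : Ω → K) (F : Ω → ℝ) : avg κ (avg κ F) = avg κ F := by
  funext ω
  exact avg_eq_self_at κ _ ω fun ω' hω' => avg_eq_of_key_eq κ F ((mem_cls κ ω ω').1 hω')

/-- if `κ'` is coarser than `κ`, then `avg κ'` absorbs `avg κ` (tower property) -/
theorem avg_absorb_left (κ : Ω → K) (κ' : Ω → K') (h : ∀ ω ω', κ ω = κ ω' → κ' ω = κ' ω')
    (F : Ω → ℝ) : avg κ' (avg κ F) = avg κ' F := by
  classical
  funext ω₀
  rw [avg_apply, avg_apply]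
  congr 1
  set I : Ω → ℝ := fun ω => if ω ∈ cls κ' ω₀ then 1 else 0 with hI
  have hIfix : avg κ I = I := by
    funext ω
    refine avg_eq_self_at κ I ω fun ω' hω' => ?_
    have hk : κ' ω' = κ' ω := h _ _ ((mem_cls κ ω ω').1 hω')
    simp only [hI, mem_cls, hk]
  have hsum : ∀ G : Ω → ℝ, ∑ ω ∈ cls κ' ω₀, G ω = ip G I := by
    intro G
    unfold ip
    simp only [hI, mul_ite, mul_one, mul_zero]
    rw [Finset.sum_ite_mem, Finset.univ_inter]
  rw [hsum, hsum, avg_symm, hIfix]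

theorem avg_absorb_right (κ : Ω → K) (κ' : Ω → K') (h : ∀ ω ω', κ ω = κ ω' → κ' ω = κ' ω')
    (F : Ω → ℝ) : avg κ (avg κ' F) = avg κ' F := by
  funext ω
  exact avg_eq_self_at κ _ ω fun ω' hω' =>
    avg_eq_of_key_eq κ' F (h _ _ ((mem_cls κ ω ω').1 hω'))

/-- multiplication by a `κ`-invariant function commutes with `avg κ` -/
theorem avg_mul_inv (κ : Ω → K) (h F : Ω → ℝ) (hh : ∀ ω ω', κ ω = κ ω' → h ω = h ω') :
    avg κ (fun ω => h ω * F ω) = fun ω => h ω * avg κ F ω := by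
  funext ω
  rw [avg_apply, avg_apply, ← mul_div_assoc, Finset.mul_sum]
  congr 1
  refine Finset.sum_congr rfl fun ω' hω' => ?_
  rw [hh _ _ ((mem_cls κ ω ω').1 hω')]

/-- `⟨F, F - E F⟩ = ‖F - E F‖²` -/
theorem ip_self_sub_avg (κ : Ω → K) (F : Ω → ℝ) :
    ip F (F - avg κ F) = ip (F - avg κ F) (F - avg κ F) := by
  have h1 : ip (avg κ F) (avg κ F) = ip F (avg κ F) := by
    rw [avg_symm, avg_idem]
  have h2 : ip (avg κ F) F = ip F (avg κ F) := by
    unfold ip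
    exact Finset.sum_congr rfl fun ω _ => mul_comm _ _
  have e1 : ip F (F - avg κ F) = ip F F - ip F (avg κ F) := by
    unfold ip
    rw [← Finset.sum_sub_distrib]
    exact Finset.sum_congr rfl fun ω _ => by simp only [Pi.sub_apply]; ring
  have e2 : ip (F - avg κ F) (F - avg κ F)
      = ip F F - ip F (avg κ F) - ip (avg κ F) F + ip (avg κ F) (avg κ F) := by
    unfold ip
    rw [← Finset.sum_sub_distrib, ← Finset.sum_sub_distrib, ← Finset.sum_add_distrib]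
    exact Finset.sum_congr rfl fun ω _ => by simp only [Pi.sub_apply]; ring
  rw [e1, e2, h1, h2]
  ring

/-- if `F = E F` then `F` is constant on classes -/
theorem const_on_cls_of_avg_eq (κ : Ω → K) (F : Ω → ℝ) (h : avg κ F = F) {ω ω' : Ω}
    (hk : κ ω = κ ω') : F ω = F ω' := by
  rw [← h]
  exact avg_eq_of_key_eq κ F hk

/-- summation over `Ω` may be done class by class -/
theorem sum_nonneg_of_classwise (κ : Ω → K) (h : Ω → ℝ)
    (hc : ∀ ω₀, 0 ≤ ∑ ω ∈ cls κ ω₀, h ω) : 0 ≤ ∑ ω, h ω := by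
  have h1 : avg κ (fun _ => (1 : ℝ)) = fun _ => (1 : ℝ) := by
    funext ω
    exact avg_eq_self_at κ _ ω fun _ _ => rfl
  have h2 : ∑ ω, h ω = ∑ ω, avg κ h ω := by
    have := avg_symm κ h (fun _ => (1 : ℝ))
    rw [h1] at this
    unfold ip at this
    simp only [mul_one] at this
    exact this.symm
  rw [h2]
  refine Finset.sum_nonneg fun ω _ => ?_
  rw [avg_apply]
  exact div_nonneg (hc ω) (Nat.cast_nonneg _)

/-- the sum of `F` over a class equals the sum of `avg κ F` over it -/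
theorem sum_cls_avg (κ : Ω → K) (F : Ω → ℝ) (ω₀ : Ω) :
    ∑ ω ∈ cls κ ω₀, avg κ F ω = ∑ ω ∈ cls κ ω₀, F ω := by
  have hc : ((cls κ ω₀).card : ℝ) ≠ 0 := by
    have : 0 < (cls κ ω₀).card := Finset.card_pos.2 ⟨ω₀, self_mem_cls κ ω₀⟩
    positivity
  have h1 : ∀ ω ∈ cls κ ω₀, avg κ F ω = avg κ F ω₀ := fun ω hω =>
    avg_eq_of_key_eq κ F ((mem_cls κ ω₀ ω).1 hω)
  rw [Finset.sum_congr rfl h1, Finset.sum_const, nsmul_eq_mul, avg_apply]
  field_simp

/-- variance of a function on a nonempty finite set, crude bound -/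
theorem var_aux_avgBasic {X : Type*} (C : Finset X) (hC : C.Nonempty) (F : X → ℝ) :
    0 ≤ ∑ x ∈ C, ((1 / 4 : ℝ) * ∑ y ∈ C, (F x - F y) ^ 2
      - (F x - (∑ y ∈ C, F y) / (C.card : ℝ)) ^ 2) := by
  set N : ℝ := (C.card : ℝ) with hN
  set S : ℝ := ∑ y ∈ C, F y with hS
  set Q : ℝ := ∑ y ∈ C, F y ^ 2 with hQ
  have hNpos : 0 < N := by
    have : 0 < C.card := Finset.card_pos.2 hC
    rw [hN]; exact_mod_cast this
  have e1 : ∀ x ∈ C, ∑ y ∈ C, (F x - F y) ^ 2 = N * F x ^ 2 - 2 * F x * S + Q := by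
    intro x _
    have : ∀ y ∈ C, (F x - F y) ^ 2 = F x ^ 2 - 2 * F x * F y + F y ^ 2 := fun y _ => by ring
    rw [Finset.sum_congr rfl this, Finset.sum_add_distrib, Finset.sum_sub_distrib,
      Finset.sum_const, nsmul_eq_mul, ← Finset.mul_sum]
  have e2 : ∑ x ∈ C, ((1 / 4 : ℝ) * ∑ y ∈ C, (F x - F y) ^ 2 - (F x - S / N) ^ 2)
      = (N / 2 - 1) * (Q - S ^ 2 / N) := by
    have : ∀ x ∈ C, (1 / 4 : ℝ) * ∑ y ∈ C, (F x - F y) ^ 2 - (F x - S / N) ^ 2
        = (N / 4 - 1) * F x ^ 2 + (2 * (S / N) - S / 2) * F x + (Q / 4 - (S / N) ^ 2) := by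
      intro x hx
      rw [e1 x hx]; ring
    rw [Finset.sum_congr rfl this, Finset.sum_add_distrib, Finset.sum_add_distrib,
      ← Finset.mul_sum, ← Finset.mul_sum, Finset.sum_const, nsmul_eq_mul]
    rw [← hN, ← hS, ← hQ]
    field_simp
    ring
  rw [e2]
  have hV : 0 ≤ Q - S ^ 2 / N := by
    have hcs : S ^ 2 ≤ N * Q := by
      have := sq_sum_le_card_mul_sum_sq (s := C) (f := F)
      simpa [hN, hS, hQ] using this
    rw [sub_nonneg, div_le_iff₀ hNpos]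
    linarith
  by_cases h1 : C.card = 1
  · obtain ⟨a, ha⟩ := Finset.card_eq_one.1 h1
    have hz : Q - S ^ 2 / N = 0 := by
      simp [hQ, hS, hN, ha]
    rw [hz, mul_zero]
  · have h2 : 2 ≤ C.card := by
      have : 0 < C.card := Finset.card_pos.2 hC
      omega
    have h3 : (2 : ℝ) ≤ N := by rw [hN]; exact_mod_cast h2
    exact mul_nonneg (by linarith) hV

/-- crude variance bound: `‖F - E F‖² ≤ (1/4) ∑_{ω ≠ ω' same class} (F ω - F ω')²` -/
theorem sq_sub_avg_le (κ : Ω → K) (F : Ω → ℝ) :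
    ∑ ω, (F ω - avg κ F ω) ^ 2 ≤
      (1 / 4 : ℝ) * ∑ ω, ∑ ω' ∈ cls κ ω, (F ω - F ω') ^ 2 := by
  rw [← sub_nonneg, Finset.mul_sum, ← Finset.sum_sub_distrib]
  refine sum_nonneg_of_classwise κ _ fun ω₀ => ?_
  have h1 : ∀ ω ∈ cls κ ω₀,
      (1 / 4 : ℝ) * ∑ ω' ∈ cls κ ω, (F ω - F ω') ^ 2 - (F ω - avg κ F ω) ^ 2
        = (1 / 4 : ℝ) * ∑ ω' ∈ cls κ ω₀, (F ω - F ω') ^ 2 - (F ω - avg κ F ω₀) ^ 2 := by
    intro ω hω
    have hk := (mem_cls κ ω₀ ω).1 hω
    rw [cls_eq_of_key_eq κ hk, avg_eq_of_key_eq κ F hk]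
  rw [Finset.sum_congr rfl h1, avg_apply]
  exact var_aux_avgBasic (cls κ ω₀) ⟨ω₀, self_mem_cls κ ω₀⟩ F

end Vale.Agent.P335
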