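import Vale.Agent.P335.TablesDefs
import Vale.Agent.P335.AvgBasic

/-!
# P335: three-row tables, step 1 (exchange of two columns with equal sums)
-/

namespace Vale.Agent.P335

open Finset

variable {ι : Type*} [Fintype ι] [DecidableEq ι]

/-- abstract Lipschitz-contraction principle -/
theorem lipschitz_zero {X : Type*} (S : Finset X) (E : X → X → Prop) (f Tf : X → ℝ) (lam : ℝ)
    (hlam : 2 < lam) (hT : ∀ x ∈ S, Tf x = lam * f x)
    (hcontr : ∀ D : ℝ, 0 ≤ D → (∀ x ∈ S, ∀ y ∈ S, E x y → |f x - f y| ≤ D) →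
      ∀ x ∈ S, ∀ y ∈ S, E x y → |Tf x - Tf y| ≤ 2 * D) :
    ∀ x ∈ S, ∀ y ∈ S, E x y → f x = f y := by
  classical
  intro x hx y hy hxy
  set P : Finset (X × X) := (S ×ˢ S).filter (fun p => E p.1 p.2) with hP
  have hne : P.Nonempty := ⟨(x, y), by
    simp only [hP, Finset.mem_filter, Finset.mem_product]
    exact ⟨⟨hx, hy⟩, hxy⟩⟩
  obtain ⟨p0, hp0, hmax⟩ := Finset.exists_max_image P (fun p => |f p.1 - f p.2|) hne
  simp only [hP, Finset.mem_filter, Finset.mem_product] at hp0
  set D : ℝ := |f p0.1 - f p0.2| with hD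
  have hD0 : 0 ≤ D := abs_nonneg _
  have hlip : ∀ a ∈ S, ∀ b ∈ S, E a b → |f a - f b| ≤ D := by
    intro a ha b hb hab
    exact hmax (a, b) (by
      simp only [hP, Finset.mem_filter, Finset.mem_product]
      exact ⟨⟨ha, hb⟩, hab⟩)
  have h1 := hcontr D hD0 hlip p0.1 hp0.1.1 p0.2 hp0.1.2 hp0.2
  rw [hT _ hp0.1.1, hT _ hp0.1.2, ← mul_sub, abs_mul, abs_of_pos (by linarith : (0 : ℝ) < lam),
    ← hD] at h1
  have hDz : D = 0 := by nlinarith
  have h2 := hlip x hx y hy hxy
  rw [hDz] at h2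
  have h3 : |f x - f y| = 0 := le_antisymm h2 (abs_nonneg _)
  linarith [abs_eq_zero.mp h3]

/-- two columns with the same number of ones agree in some row -/
theorem col_agree_step1 : ∀ a b : Fin 3 → Bool,
    (univ.filter (fun r => a r = true)).card = (univ.filter (fun r => b r = true)).card →
    ∃ r, a r = b r := by
  decide

/-- comparison of two averages through a bijection of the classes -/
theorem avgOn_diff_le_step1 {X K : Type*} (S : Finset X) (κ : X → K) (f : X → ℝ) (x y : X)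
    (φ : X → X) (hφφ : ∀ z, φ (φ z) = z)
    (h1 : ∀ z ∈ clsOn S κ x, φ z ∈ clsOn S κ y) (h2 : ∀ z ∈ clsOn S κ y, φ z ∈ clsOn S κ x)
    (D : ℝ) (hD0 : 0 ≤ D) (hD : ∀ z ∈ clsOn S κ x, |f z - f (φ z)| ≤ D) :
    |avgOn S κ f x - avgOn S κ f y| ≤ D := by
  have hsum : ∑ z ∈ clsOn S κ y, f z = ∑ z ∈ clsOn S κ x, f (φ z) := by
    symm
    apply Finset.sum_nbij' φ φ h1 h2
    · intro z _; exact hφφ z
    · intro z _; exact hφφ z
    · intro z _; rfl
  have hcard : (clsOn S κ y).card = (clsOn S κ x).card := by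
    symm
    apply Finset.card_nbij' φ φ h1 h2
    · intro z _; exact hφφ z
    · intro z _; exact hφφ z
  unfold avgOn
  rw [hsum, hcard, ← sub_div, ← Finset.sum_sub_distrib, abs_div, Nat.abs_cast]
  rcases Nat.eq_zero_or_pos (clsOn S κ x).card with h0 | h0
  · rw [h0]; simpa using hD0
  · have h0' : (0 : ℝ) < ((clsOn S κ x).card : ℝ) := by exact_mod_cast h0
    rw [div_le_iff₀ h0']
    calc |∑ z ∈ clsOn S κ x, (f z - f (φ z))| ≤ ∑ z ∈ clsOn S κ x, |f z - f (φ z)| :=
          Finset.abs_sum_le_sum_abs _ _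
      _ ≤ ∑ _z ∈ clsOn S κ x, D := Finset.sum_le_sum hD
      _ = D * ((clsOn S κ x).card : ℝ) := by rw [Finset.sum_const, nsmul_eq_mul]; ring

/-- exchanging two columns with equal sums keeps the margins -/
theorem swap_mem_tabs_step1 (ρ : Fin 3 → ℕ) (s : ι → ℕ) (i j : ι) (hs : s i = s j)
    (m : ι → Fin 3 → Bool) (hm : m ∈ tabs ρ s) : (fun c => m (Equiv.swap i j c)) ∈ tabs ρ s := by
  simp only [tabs, Finset.mem_filter, Finset.mem_univ, true_and] at hm ⊢
  constructor
  · intro r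
    rw [← hm.1 r]
    apply Finset.card_nbij' (Equiv.swap i j) (Equiv.swap i j)
    · intro c hc
      simpa using hc
    · intro c hc
      simpa using hc
    · intro c _; simp
    · intro c _; simp
  · intro c
    rw [hm.2]
    by_cases h1 : c = i
    · subst h1; simp [hs]
    · by_cases h2 : c = j
      · subst h2; simp [hs]
      · rw [Equiv.swap_apply_of_ne_of_ne h1 h2]

/-- an eigenfunction of `P_0 + P_1 + P_2` with eigenvalue `> 2` is invariant under the exchange
of two columns with equal sums -/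
theorem tables_step1 (ρ : Fin 3 → ℕ) (s : ι → ℕ) (f : (ι → Fin 3 → Bool) → ℝ) (lam : ℝ)
    (hlam : 2 < lam) (heig : ∀ m ∈ tabs ρ s, ∑ r, PT ρ s r f m = lam * f m) :
    ∀ m ∈ tabs ρ s, ∀ i j : ι, s i = s j → f (fun c => m (Equiv.swap i j c)) = f m := by
  intro m hm i j hs
  have key := lipschitz_zero (tabs ρ s)
    (fun x y => ∃ i j : ι, s i = s j ∧ y = fun c => x (Equiv.swap i j c)) f
    (fun m => ∑ r, PT ρ s r f m) lam hlam heig ?_ m hm (fun c => m (Equiv.swap i j c))
    (swap_mem_tabs_step1 ρ s i j hs m hm) ⟨i, j, hs, rfl⟩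
  · exact key.symm
  · intro D hD0 hlip x hx y hy hxy
    obtain ⟨i, j, hs, rfl⟩ := hxy
    set φ : (ι → Fin 3 → Bool) → (ι → Fin 3 → Bool) := fun z => fun c => z (Equiv.swap i j c)
      with hφ
    have hφφ : ∀ z, φ (φ z) = z := by
      intro z
      funext c
      simp [hφ]
    have hcls : ∀ (r : Fin 3) (a : ι → Fin 3 → Bool), ∀ z ∈ clsOn (tabs ρ s) (rowKey r) a,
        φ z ∈ clsOn (tabs ρ s) (rowKey r) (φ a) := by
      intro r a z hz
      rw [mem_clsOn] at hz ⊢
      refine ⟨swap_mem_tabs_step1 ρ s i j hs z hz.1, ?_⟩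
      funext c
      exact congrFun hz.2 (Equiv.swap i j c)
    have hr : ∀ r, |PT ρ s r f x - PT ρ s r f (φ x)| ≤ D := by
      intro r
      unfold PT
      apply avgOn_diff_le_step1 (tabs ρ s) (rowKey r) f x (φ x) φ hφφ (hcls r x) _ D hD0
      · intro z hz
        rw [mem_clsOn] at hz
        exact hlip z hz.1 (φ z) (swap_mem_tabs_step1 ρ s i j hs z hz.1) ⟨i, j, hs, rfl⟩
      · intro z hz
        have := hcls r (φ x) z hz
        rwa [hφφ] at this
    have hx' := hx
    simp only [tabs, Finset.mem_filter, Finset.mem_univ, true_and] at hx'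
    obtain ⟨r0, hr0⟩ := col_agree_step1 (x i) (x j) (by rw [hx'.2 i, hx'.2 j, hs])
    have hrow : rowKey r0 (φ x) = rowKey r0 x := by
      funext c
      simp only [rowKey, hφ]
      by_cases h1 : c = i
      · subst h1; simp [hr0]
      · by_cases h2 : c = j
        · subst h2; simp [hr0]
        · rw [Equiv.swap_apply_of_ne_of_ne h1 h2]
    have hz0 : PT ρ s r0 f x - PT ρ s r0 f (φ x) = 0 := by
      unfold PT avgOn clsOn
      rw [hrow]
      ring
    show |∑ r, PT ρ s r f x - ∑ r, PT ρ s r f (φ x)| ≤ 2 * D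
    rw [← Finset.sum_sub_distrib, Fin.sum_univ_three]
    have a0 := abs_le.mp (hr 0)
    have a1 := abs_le.mp (hr 1)
    have a2 := abs_le.mp (hr 2)
    rw [abs_le]
    fin_cases r0
    · simp only [Fin.zero_eta] at hz0
      constructor <;> linarith [a1.1, a1.2, a2.1, a2.2]
    · simp only [Fin.mk_one] at hz0
      constructor <;> linarith [a0.1, a0.2, a2.1, a2.2]
    · simp only [Fin.reduceFinMk] at hz0
      constructor <;> linarith [a0.1, a0.2, a1.1, a1.2]

end Vale.Agent.P335
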