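import Vale.Agent.P335.AvgBasic

/-!
# P335: transporting averaging operators along a bijection of a class with a model
-/

namespace Vale.Agent.P335

open Finset

variable {Ω : Type*} [Fintype Ω] {K₀ K K' X : Type*}

/-- Let `φ` map the `κ₀`-class of `ω₀` bijectively onto the finset `S` of a model type `X`.
If `κ` refines `κ₀` and corresponds to the model key `κ'` on that class, then `avg κ`
corresponds to `avgOn S κ'`. -/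
theorem avg_transfer (κ₀ : Ω → K₀) (κ : Ω → K) (φ : Ω → X) (S : Finset X) (κ' : X → K') (ω₀ : Ω)
    (href : ∀ ω ω', κ ω = κ ω' → κ₀ ω = κ₀ ω')
    (hmaps : ∀ ω ∈ cls κ₀ ω₀, φ ω ∈ S)
    (hinj : ∀ ω ∈ cls κ₀ ω₀, ∀ ω' ∈ cls κ₀ ω₀, φ ω = φ ω' → ω = ω')
    (hsurj : ∀ x ∈ S, ∃ ω ∈ cls κ₀ ω₀, φ ω = x)
    (hcompat : ∀ ω ∈ cls κ₀ ω₀, ∀ ω' ∈ cls κ₀ ω₀, (κ ω = κ ω' ↔ κ' (φ ω) = κ' (φ ω')))
    (F : Ω → ℝ) (g : X → ℝ) (hg : ∀ ω ∈ cls κ₀ ω₀, g (φ ω) = F ω) :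
    ∀ ω ∈ cls κ₀ ω₀, avg κ F ω = avgOn S κ' g (φ ω) := by
  intro ω hω
  have hsub : ∀ ω' ∈ cls κ ω, ω' ∈ cls κ₀ ω₀ := by
    intro ω' hω'
    rw [mem_cls] at hω' hω ⊢
    rw [href _ _ hω', hω]
  have hi : ∀ ω' (_ : ω' ∈ cls κ ω), φ ω' ∈ clsOn S κ' (φ ω) := by
    intro ω' hω'
    rw [mem_clsOn]
    exact ⟨hmaps _ (hsub _ hω'), (hcompat _ (hsub _ hω') _ hω).1 ((mem_cls κ ω ω').1 hω')⟩
  have hin : ∀ a (ha : a ∈ cls κ ω) b (hb : b ∈ cls κ ω), φ a = φ b → a = b :=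
    fun a ha b hb hab => hinj a (hsub a ha) b (hsub b hb) hab
  have hsu : ∀ y ∈ clsOn S κ' (φ ω), ∃ a, ∃ (_ : a ∈ cls κ ω), φ a = y := by
    intro y hy
    rw [mem_clsOn] at hy
    obtain ⟨a, ha, hay⟩ := hsurj y hy.1
    refine ⟨a, ?_, hay⟩
    rw [mem_cls]
    refine (hcompat a ha ω hω).2 ?_
    rw [hay]; exact hy.2
  have hsum : ∑ ω' ∈ cls κ ω, F ω' = ∑ y ∈ clsOn S κ' (φ ω), g y :=
    Finset.sum_bij (fun a _ => φ a) hi hin hsu (fun a ha => (hg a (hsub a ha)).symm)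
  have hcard : (cls κ ω).card = (clsOn S κ' (φ ω)).card :=
    Finset.card_bij (fun a _ => φ a) hi hin hsu
  rw [avg_apply, avgOn, hsum, hcard]

/-- A function on the class can be pushed to the model. -/
theorem exists_model_fun (κ₀ : Ω → K₀) (φ : Ω → X) (ω₀ : Ω)
    (hinj : ∀ ω ∈ cls κ₀ ω₀, ∀ ω' ∈ cls κ₀ ω₀, φ ω = φ ω' → ω = ω') (F : Ω → ℝ) :
    ∃ g : X → ℝ, ∀ ω ∈ cls κ₀ ω₀, g (φ ω) = F ω := by
  classical
  refine ⟨fun x => if h : ∃ ω ∈ cls κ₀ ω₀, φ ω = x then F (Classical.choose h) else 0, ?_⟩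
  intro ω hω
  have h : ∃ ω' ∈ cls κ₀ ω₀, φ ω' = φ ω := ⟨ω, hω, rfl⟩
  simp only [dif_pos h]
  have hs := Classical.choose_spec h
  rw [hinj _ hs.1 _ hω hs.2]

/-- Sums over the class are sums over the model. -/
theorem sum_cls_transfer (κ₀ : Ω → K₀) (φ : Ω → X) (S : Finset X) (ω₀ : Ω)
    (hmaps : ∀ ω ∈ cls κ₀ ω₀, φ ω ∈ S)
    (hinj : ∀ ω ∈ cls κ₀ ω₀, ∀ ω' ∈ cls κ₀ ω₀, φ ω = φ ω' → ω = ω')
    (hsurj : ∀ x ∈ S, ∃ ω ∈ cls κ₀ ω₀, φ ω = x) (h : X → ℝ) :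
    ∑ ω ∈ cls κ₀ ω₀, h (φ ω) = ∑ x ∈ S, h x := by
  refine Finset.sum_bij (fun a _ => φ a) hmaps hinj ?_ (fun _ _ => rfl)
  intro x hx
  obtain ⟨a, ha, hax⟩ := hsurj x hx
  exact ⟨a, ha, hax⟩

/-- `avgOn S κ` is `avg` on the subtype `S`. -/
theorem avg_subtype_eq_avgOn (S : Finset X) (κ : X → K) (g : X → ℝ) (x : S) :
    avg (fun y : S => κ y.1) (fun y : S => g y.1) x = avgOn S κ g x.1 := by
  have hi : ∀ y (_ : y ∈ cls (fun y : S => κ y.1) x), y.1 ∈ clsOn S κ x.1 := by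
    intro y hy
    rw [mem_clsOn]
    exact ⟨y.2, (mem_cls _ x y).1 hy⟩
  have hin : ∀ a (_ : a ∈ cls (fun y : S => κ y.1) x) b (_ : b ∈ cls (fun y : S => κ y.1) x),
      a.1 = b.1 → a = b := fun a _ b _ hab => Subtype.ext hab
  have hsu : ∀ y ∈ clsOn S κ x.1, ∃ a, ∃ (_ : a ∈ cls (fun y : S => κ y.1) x), a.1 = y := by
    intro y hy
    rw [mem_clsOn] at hy
    exact ⟨⟨y, hy.1⟩, (mem_cls _ x _).2 hy.2, rfl⟩
  have hsum : ∑ y ∈ cls (fun y : S => κ y.1) x, g y.1 = ∑ y ∈ clsOn S κ x.1, g y :=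
    Finset.sum_bij (fun a _ => a.1) hi hin hsu (fun _ _ => rfl)
  have hcard : (cls (fun y : S => κ y.1) x).card = (clsOn S κ x.1).card :=
    Finset.card_bij (fun a _ => a.1) hi hin hsu
  rw [avg_apply, avgOn, hsum, hcard]

end Vale.Agent.P335
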