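import Vale.Agent.P335.AvgBasic

/-!
# P335: commutation of two averaging operators from the rectangle property
-/

namespace Vale.Agent.P335

open Finset

variable {Ω : Type*} [Fintype Ω] {K K' : Type*}

/-- Local commutation.  `S` is a set of states invariant under both keys; on `S` every
`κ₁`-neighbour `y` and `κ₂`-neighbour `z` of `x` are completed by a unique fourth corner `w`. -/
theorem avg_comm_at_of_rect (κ₁ : Ω → K) (κ₂ : Ω → K') (S : Ω → Prop)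
    (hS1 : ∀ ω ω', κ₁ ω = κ₁ ω' → (S ω ↔ S ω'))
    (hS2 : ∀ ω ω', κ₂ ω = κ₂ ω' → (S ω ↔ S ω'))
    (hrect : ∀ x y z, S x → κ₁ y = κ₁ x → κ₂ z = κ₂ x → ∃! w, κ₂ w = κ₂ y ∧ κ₁ w = κ₁ z)
    (F : Ω → ℝ) (x : Ω) (hx : S x) :
    avg κ₁ (avg κ₂ F) x = avg κ₂ (avg κ₁ F) x := by
  classical
  have hex : ∀ y z, ∃ w, κ₁ y = κ₁ x → κ₂ z = κ₂ x →
      ((κ₂ w = κ₂ y ∧ κ₁ w = κ₁ z) ∧ ∀ w', (κ₂ w' = κ₂ y ∧ κ₁ w' = κ₁ z) → w' = w) := by
    intro y z
    by_cases h1 : κ₁ y = κ₁ x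
    · by_cases h2 : κ₂ z = κ₂ x
      · obtain ⟨w, hw, hu⟩ := hrect x y z hx h1 h2
        exact ⟨w, fun _ _ => ⟨hw, hu⟩⟩
      · exact ⟨x, fun _ h => absurd h h2⟩
    · exact ⟨x, fun h => absurd h h1⟩
  choose W hW using hex
  -- first family of bijections
  have key1 : ∀ y ∈ cls κ₁ x, ∀ G : Ω → ℝ,
      ∑ z ∈ cls κ₂ x, G (W y z) = ∑ w ∈ cls κ₂ y, G w := by
    intro y hy G
    rw [mem_cls] at hy
    have hSy : S y := (hS1 y x hy).2 hx
    refine Finset.sum_bij (fun z _ => W y z) ?_ ?_ ?_ ?_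
    · intro z hz
      rw [mem_cls] at hz
      rw [mem_cls]
      exact (hW y z hy hz).1.1
    · intro z hz z' hz' hzz
      rw [mem_cls] at hz hz'
      have a := (hW y z hy hz).1
      have a' := (hW y z' hy hz').1
      obtain ⟨v, _, hu⟩ := hrect y x (W y z) hSy hy.symm a.1
      have e1 : z = v := hu z ⟨hz, a.2.symm⟩
      have e2 : z' = v := hu z' ⟨hz', by
        have hzz' : W y z = W y z' := hzz
        rw [hzz']; exact a'.2.symm⟩
      rw [e1, e2]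
    · intro w hw
      rw [mem_cls] at hw
      obtain ⟨v, hv, _⟩ := hrect y x w hSy hy.symm hw
      refine ⟨v, by rw [mem_cls]; exact hv.1, ?_⟩
      exact ((hW y v hy hv.1).2 w ⟨hw, hv.2.symm⟩).symm
    · intro z _
      rfl
  -- second family of bijections
  have key2 : ∀ z ∈ cls κ₂ x, ∀ G : Ω → ℝ,
      ∑ y ∈ cls κ₁ x, G (W y z) = ∑ w ∈ cls κ₁ z, G w := by
    intro z hz G
    rw [mem_cls] at hz
    have hSz : S z := (hS2 z x hz).2 hx
    refine Finset.sum_bij (fun y _ => W y z) ?_ ?_ ?_ ?_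
    · intro y hy
      rw [mem_cls] at hy
      rw [mem_cls]
      exact (hW y z hy hz).1.2
    · intro y hy y' hy' hyy
      rw [mem_cls] at hy hy'
      have a := (hW y z hy hz).1
      have a' := (hW y' z hy' hz).1
      obtain ⟨v, _, hu⟩ := hrect z (W y z) x hSz a.2 hz.symm
      have e1 : y = v := hu y ⟨a.1.symm, hy⟩
      have e2 : y' = v := hu y' ⟨by
        have hyy' : W y z = W y' z := hyy
        rw [hyy']; exact a'.1.symm, hy'⟩
      rw [e1, e2]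
    · intro w hw
      rw [mem_cls] at hw
      obtain ⟨v, hv, _⟩ := hrect z w x hSz hw hz.symm
      refine ⟨v, by rw [mem_cls]; exact hv.2, ?_⟩
      exact ((hW v z hv.2 hz).2 w ⟨hv.1.symm, hw⟩).symm
    · intro y _
      rfl
  have card1 : ∀ y ∈ cls κ₁ x, ((cls κ₂ y).card : ℝ) = ((cls κ₂ x).card : ℝ) := by
    intro y hy
    have h := key1 y hy (fun _ => 1)
    simp only [Finset.sum_const, nsmul_eq_mul, mul_one] at h
    exact h.symm
  have card2 : ∀ z ∈ cls κ₂ x, ((cls κ₁ z).card : ℝ) = ((cls κ₁ x).card : ℝ) := by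
    intro z hz
    have h := key2 z hz (fun _ => 1)
    simp only [Finset.sum_const, nsmul_eq_mul, mul_one] at h
    exact h.symm
  have L : avg κ₁ (avg κ₂ F) x
      = (∑ y ∈ cls κ₁ x, ∑ z ∈ cls κ₂ x, F (W y z)) / ((cls κ₂ x).card : ℝ)
          / ((cls κ₁ x).card : ℝ) := by
    have h1 : ∑ y ∈ cls κ₁ x, avg κ₂ F y
        = (∑ y ∈ cls κ₁ x, ∑ z ∈ cls κ₂ x, F (W y z)) / ((cls κ₂ x).card : ℝ) := by
      rw [Finset.sum_div]
      refine Finset.sum_congr rfl fun y hy => ?_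
      rw [avg_apply, card1 y hy, key1 y hy F]
    rw [avg_apply, h1]
  have R : avg κ₂ (avg κ₁ F) x
      = (∑ z ∈ cls κ₂ x, ∑ y ∈ cls κ₁ x, F (W y z)) / ((cls κ₁ x).card : ℝ)
          / ((cls κ₂ x).card : ℝ) := by
    have h1 : ∑ z ∈ cls κ₂ x, avg κ₁ F z
        = (∑ z ∈ cls κ₂ x, ∑ y ∈ cls κ₁ x, F (W y z)) / ((cls κ₁ x).card : ℝ) := by
      rw [Finset.sum_div]
      refine Finset.sum_congr rfl fun z hz => ?_
      rw [avg_apply, card2 z hz, key2 z hz F]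
    rw [avg_apply, h1]
  rw [L, R, Finset.sum_comm, div_right_comm]

/-- Global commutation. -/
theorem avg_comm_of_rect (κ₁ : Ω → K) (κ₂ : Ω → K')
    (hrect : ∀ x y z, κ₁ y = κ₁ x → κ₂ z = κ₂ x → ∃! w, κ₂ w = κ₂ y ∧ κ₁ w = κ₁ z)
    (F : Ω → ℝ) : avg κ₁ (avg κ₂ F) = avg κ₂ (avg κ₁ F) := by
  funext x
  exact avg_comm_at_of_rect κ₁ κ₂ (fun _ => True) (fun _ _ _ => Iff.rfl) (fun _ _ _ => Iff.rfl)
    (fun x y z _ h1 h2 => hrect x y z h1 h2) F x trivial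

end Vale.Agent.P335
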