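import Mathlib

/-!
# P335: abstract averaging operators on a finite state space
-/

namespace Vale.Agent.P335

open Finset

/-- Unnormalised inner product on real functions on a finite type. -/
def ip {Ω : Type*} [Fintype Ω] (F G : Ω → ℝ) : ℝ := ∑ ω, F ω * G ω

open Classical in
/-- The elements of `S` having the same key as `x`. -/
noncomputable def clsOn {X K : Type*} (S : Finset X) (κ : X → K) (x : X) : Finset X :=
  S.filter (fun y => κ y = κ x)

/-- Average of `g` over the elements of `S` having the same key as `x`. -/
noncomputable def avgOn {X K : Type*} (S : Finset X) (κ : X → K) (g : X → ℝ) (x : X) : ℝ :=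
  (∑ y ∈ clsOn S κ x, g y) / ((clsOn S κ x).card : ℝ)

/-- The class of `ω` for the key `κ`. -/
noncomputable def cls {Ω K : Type*} [Fintype Ω] (κ : Ω → K) (ω : Ω) : Finset Ω :=
  clsOn univ κ ω

/-- Conditional expectation (uniform measure) given the key `κ`. -/
noncomputable def avg {Ω K : Type*} [Fintype Ω] (κ : Ω → K) (F : Ω → ℝ) : Ω → ℝ :=
  avgOn univ κ F

end Vale.Agent.P335
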