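import Vale.Agent.P335.GraphBasic

/-!
# P335: connectivity of `Om d` under two-row moves
-/

namespace Vale.Agent.P335

open Finset

set_option linter.unusedSectionVars false

variable {V : Type*} [Fintype V] [DecidableEq V] {d : V → ℕ}

/-- agreement on all cells touching `S` -/
def AgreeOn (S : Finset V) (G G' : Om d) : Prop := ∀ s ∈ S, ∀ t, G.1.Adj s t ↔ G'.1.Adj s t

open Classical in
/-- number of cells at `x` where the two graphs differ -/
noncomputable def dif (x : V) (G G' : Om d) : ℕ :=
  (univ.filter (fun t => ¬ (G.1.Adj x t ↔ G'.1.Adj x t))).card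

open Classical in
/-- residual degree -/
noncomputable def res (S : Finset V) (G : Om d) (y : V) : ℕ :=
  ((univ.filter (fun w => G.1.Adj y w)) \ S).card

theorem AgreeOn.symm {S : Finset V} {G G' : Om d} (h : AgreeOn S G G') : AgreeOn S G' G :=
  fun s hs t => (h s hs t).symm

theorem AgreeOn.trans {S : Finset V} {G G' G'' : Om d} (h : AgreeOn S G G')
    (h' : AgreeOn S G' G'') : AgreeOn S G G'' :=
  fun s hs t => (h s hs t).trans (h' s hs t)

theorem dif_comm (x : V) (G G' : Om d) : dif x G G' = dif x G' G := by
  classical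
  unfold dif
  congr 1
  apply Finset.filter_congr
  intro t _
  exact not_congr Iff.comm

theorem res_eq {S : Finset V} {G G' : Om d} (h : AgreeOn S G G') (y : V) :
    res S G y = res S G' y := by
  classical
  unfold res
  have h1 := Finset.card_sdiff_add_card_inter (univ.filter (fun w => G.1.Adj y w)) S
  have h2 := Finset.card_sdiff_add_card_inter (univ.filter (fun w => G'.1.Adj y w)) S
  have h3 : (univ.filter (fun w => G.1.Adj y w)) ∩ S = (univ.filter (fun w => G'.1.Adj y w)) ∩ S := by
    ext w
    simp only [mem_inter, mem_filter, mem_univ, true_and]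
    constructor
    · rintro ⟨a, b⟩
      exact ⟨((h w b y).1 a.symm).symm, b⟩
    · rintro ⟨a, b⟩
      exact ⟨((h w b y).2 a.symm).symm, b⟩
  rw [Om.card_adj] at h1 h2
  rw [h3] at h1
  omega

theorem exists_mem_notMem_aux {A B : Finset V} (hc : A.card ≤ B.card) {x : V} (hxA : x ∈ A)
    (hxB : x ∉ B) : ∃ w ∈ B, w ∉ A := by
  by_contra hcon
  push Not at hcon
  have hsub : B ⊆ A.erase x := by
    intro w hw
    rw [mem_erase]
    exact ⟨fun e => hxB (e ▸ hw), hcon w hw⟩
  have h1 := card_le_card hsub
  rw [card_erase_of_mem hxA] at h1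
  have h2 : 0 < A.card := card_pos.2 ⟨x, hxA⟩
  omega

/-- one switch at `x` inside the rows `y, z` -/
theorem switch_step (f : Om d → ℝ)
    (hf : ∀ b ∈ pairs V, ∀ G G' : Om d, key (blk b univ) G = key (blk b univ) G' → f G = f G')
    (S : Finset V) (G : Om d) (x y z : V) (hx : x ∉ S) (hy : y ∉ S) (hz : z ∉ S)
    (h1 : G.1.Adj x y) (h2 : ¬ G.1.Adj x z) (hxz : x ≠ z)
    (hr : res S G y ≤ res S G z) :
    ∃ G1 : Om d, f G1 = f G ∧ AgreeOn S G1 G ∧
      ∀ t, G1.1.Adj x t ↔ ((G.1.Adj x t ∧ t ≠ y) ∨ t = z) := by
  classical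
  have hxy : x ≠ y := h1.ne
  have hyz : y ≠ z := fun e => h2 (e ▸ h1)
  obtain ⟨w, hwB, hwA⟩ : ∃ w ∈ ((univ.filter (fun w => G.1.Adj z w)) \ S).erase y,
      w ∉ ((univ.filter (fun w => G.1.Adj y w)) \ S).erase z := by
    apply exists_mem_notMem_aux (x := x)
    · unfold res at hr
      by_cases hadj : G.1.Adj y z
      · rw [card_erase_of_mem (by simp [hadj, hz]), card_erase_of_mem (by simp [hadj.symm, hy])]
        omega
      · have hadj' : ¬ G.1.Adj z y := fun h => hadj h.symm
        rw [erase_eq_of_notMem (by simp [hadj]), erase_eq_of_notMem (by simp [hadj'])]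
        exact hr
    · simp [hxz, h1.symm, hx]
    · have h2' : ¬ G.1.Adj z x := fun h => h2 h.symm
      simp [h2']
  simp only [mem_erase, mem_sdiff, mem_filter, mem_univ, true_and] at hwB hwA
  obtain ⟨hwy, hzw, hwS⟩ := hwB
  have hwz : w ≠ z := hzw.ne'
  have hyw : ¬ G.1.Adj y w := fun h => hwA ⟨hwz, h, hwS⟩
  have hwx : w ≠ x := fun e => h2 (e ▸ hzw).symm
  obtain ⟨G1, hG1⟩ := exists_switch G x y z w hxy hxz hwx.symm hyz hwy.symm hwz.symm h1 hzw h2 hyw
  refine ⟨G1, ?_, ?_, ?_⟩
  · apply hf {y, z}
    · unfold pairs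
      rw [mem_powersetCard]
      exact ⟨subset_univ _, card_pair hyz⟩
    · rw [key_eq_iff]
      intro p q hpq
      rw [blk_adj] at hpq
      by_cases hpq' : p = q
      · subst hpq'
        simp
      · have hp : p ≠ y ∧ p ≠ z := by
          constructor
          · intro e; apply hpq; exact ⟨hpq', Or.inl ⟨by simp [e], mem_univ _⟩⟩
          · intro e; apply hpq; exact ⟨hpq', Or.inl ⟨by simp [e], mem_univ _⟩⟩
        have hq : q ≠ y ∧ q ≠ z := by
          constructor
          · intro e; apply hpq; exact ⟨hpq', Or.inr ⟨by simp [e], mem_univ _⟩⟩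
          · intro e; apply hpq; exact ⟨hpq', Or.inr ⟨by simp [e], mem_univ _⟩⟩
        rw [hG1]
        simp [hp.1, hp.2, hq.1, hq.2]
  · intro s hs t
    have e1 : s ≠ x := fun e => hx (e ▸ hs)
    have e2 : s ≠ y := fun e => hy (e ▸ hs)
    have e3 : s ≠ z := fun e => hz (e ▸ hs)
    have e4 : s ≠ w := fun e => hwS (e ▸ hs)
    rw [hG1]
    simp [e1, e2, e3, e4]
  · intro t
    rw [hG1]
    simp [hxy, hxz, hwx.symm]

/-- the switch step, with the bookkeeping relative to a second graph -/
theorem reduce_step (f : Om d → ℝ)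
    (hf : ∀ b ∈ pairs V, ∀ G G' : Om d, key (blk b univ) G = key (blk b univ) G' → f G = f G')
    (S : Finset V) (G G' : Om d) (hag : AgreeOn S G G') (x y z : V) (hx : x ∉ S)
    (h1 : G.1.Adj x y) (h1' : ¬ G'.1.Adj x y) (h2 : ¬ G.1.Adj x z) (h2' : G'.1.Adj x z)
    (hr : res S G y ≤ res S G z) :
    ∃ G1 : Om d, f G1 = f G ∧ AgreeOn S G1 G' ∧ dif x G1 G' < dif x G G' := by
  classical
  have hy : y ∉ S := fun h => h1' ((hag y h x).1 h1.symm).symm
  have hz : z ∉ S := fun h => h2 ((hag z h x).2 h2'.symm).symm
  obtain ⟨G1, hf1, ha1, hrow⟩ := switch_step f hf S G x y z hx hy hz h1 h2 h2'.ne hr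
  refine ⟨G1, hf1, ha1.trans hag, ?_⟩
  unfold dif
  apply card_lt_card
  rw [ssubset_iff_of_subset]
  · refine ⟨y, by simp [h1, h1'], ?_⟩
    have hyz : y ≠ z := fun e => h2 (e ▸ h1)
    simp [hrow, h1', hyz]
  · intro t ht
    simp only [mem_filter, mem_univ, true_and] at ht ⊢
    intro hiff
    apply ht
    rw [hrow]
    by_cases e1 : t = y
    · subst e1
      have hyz : t ≠ z := fun e => h2 (e ▸ h1)
      simp [h1', hyz]
    · by_cases e2 : t = z
      · subst e2
        simp [h2']
      · simp [e1, e2, hiff]

theorem exists_diff_aux (G G' : Om d) (x : V) (h : ¬ ∀ t, G.1.Adj x t ↔ G'.1.Adj x t) :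
    ∃ y, G.1.Adj x y ∧ ¬ G'.1.Adj x y := by
  classical
  by_contra hcon
  push Not at hcon
  apply h
  have hsub : univ.filter (fun w => G.1.Adj x w) ⊆ univ.filter (fun w => G'.1.Adj x w) := by
    intro w hw
    simp only [mem_filter, mem_univ, true_and] at hw ⊢
    exact hcon w hw
  have heq := eq_of_subset_of_card_le hsub (by rw [Om.card_adj, Om.card_adj])
  intro t
  have := congrArg (fun s => t ∈ s) heq
  simpa using this

theorem const_aux (f : Om d → ℝ)
    (hf : ∀ b ∈ pairs V, ∀ G G' : Om d, key (blk b univ) G = key (blk b univ) G' → f G = f G')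
    (n : ℕ) : ∀ S : Finset V, Sᶜ.card = n → ∀ G G' : Om d, AgreeOn S G G' → f G = f G' := by
  classical
  induction n with
  | zero =>
    intro S hS G G' hag
    have hS' : S = univ := by
      rw [card_eq_zero, compl_eq_empty_iff] at hS
      exact hS
    have : G = G' := by
      apply Om.ext'
      ext a b
      exact hag a (by rw [hS']; exact mem_univ _) b
    rw [this]
  | succ n ih =>
    intro S hS
    obtain ⟨x, hx⟩ : Sᶜ.Nonempty := card_pos.1 (by omega)
    rw [mem_compl] at hx
    have hins : (insert x S)ᶜ.card = n := by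
      have h1 := card_compl (insert x S)
      have h2 := card_compl S
      rw [card_insert_of_notMem hx] at h1
      have h3 : S.card < Fintype.card V := by
        have := card_lt_univ_of_notMem hx
        exact this
      omega
    have key : ∀ m : ℕ, ∀ G G' : Om d, AgreeOn S G G' → dif x G G' ≤ m → f G = f G' := by
      intro m
      induction m with
      | zero =>
        intro G G' hag hm
        apply ih (insert x S) hins
        intro s hs t
        rcases mem_insert.1 hs with rfl | hs
        · unfold dif at hm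
          have h0 := card_eq_zero.1 (Nat.le_zero.1 hm)
          by_contra hne
          have : t ∈ univ.filter (fun t => ¬ (G.1.Adj s t ↔ G'.1.Adj s t)) := by
            simp only [mem_filter, mem_univ, true_and]
            exact hne
          rw [h0] at this
          exact absurd this (notMem_empty _)
        · exact hag s hs t
      | succ m ihm =>
        intro G G' hag hm
        by_cases hrow : ∀ t, G.1.Adj x t ↔ G'.1.Adj x t
        · apply ih (insert x S) hins
          intro s hs t
          rcases mem_insert.1 hs with rfl | hs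
          · exact hrow t
          · exact hag s hs t
        · obtain ⟨y, hy1, hy2⟩ := exists_diff_aux G G' x hrow
          obtain ⟨z, hz1, hz2⟩ := exists_diff_aux G' G x (fun h => hrow fun t => (h t).symm)
          by_cases hr : res S G y ≤ res S G z
          · obtain ⟨G1, e1, e2, e3⟩ := reduce_step f hf S G G' hag x y z hx hy1 hy2 hz2 hz1 hr
            rw [← e1]
            exact ihm G1 G' e2 (by omega)
          · have hr' : res S G' z ≤ res S G' y := by
              rw [← res_eq hag, ← res_eq hag]
              omega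
            obtain ⟨G1, e1, e2, e3⟩ :=
              reduce_step f hf S G' G hag.symm x z y hx hz1 hz2 hy2 hy1 hr'
            rw [← e1]
            rw [dif_comm x G' G] at e3
            exact (ihm G1 G e2 (by omega)).symm
    intro G G' hag
    exact key _ G G' hag le_rfl

/-- a function which is invariant under resampling any two rows is constant -/
theorem const_of_pair_inv (f : Om d → ℝ)
    (hf : ∀ b ∈ pairs V, ∀ G G' : Om d, key (blk b univ) G = key (blk b univ) G' → f G = f G') :
    ∀ G G' : Om d, f G = f G' := by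
  intro G G'
  exact const_aux f hf _ ∅ rfl G G' (fun s hs => absurd hs (notMem_empty _))

end Vale.Agent.P335
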