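import Vale.Agent.P335.GraphDefs

/-!
# P335: splitting a double sum over two-element sets
-/

namespace Vale.Agent.P335

open Finset

set_option linter.unusedSectionVars false

variable {V : Type*} [Fintype V] [DecidableEq V] {d : V → ℕ}

theorem pairs_trichotomy {b b' : Finset V} (hb : b.card = 2) (hb' : b'.card = 2) :
    (b' = b ∧ (b ∩ b').card ≠ 1 ∧ ¬ Disjoint b b') ∨
    (b' ≠ b ∧ (b ∩ b').card = 1 ∧ ¬ Disjoint b b') ∨
    (b' ≠ b ∧ (b ∩ b').card ≠ 1 ∧ Disjoint b b') := by
  by_cases h : b' = b
  · left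
    subst h
    refine ⟨rfl, ?_, ?_⟩
    · rw [Finset.inter_self, hb']; norm_num
    · intro hd
      rw [Finset.disjoint_self_iff_empty] at hd
      rw [hd] at hb'
      simp at hb'
  · right
    have hle : (b ∩ b').card ≤ 2 := by
      calc (b ∩ b').card ≤ b.card := Finset.card_le_card Finset.inter_subset_left
        _ = 2 := hb
    have hne2 : (b ∩ b').card ≠ 2 := by
      intro h2
      have h1 : b ∩ b' = b :=
        Finset.eq_of_subset_of_card_le Finset.inter_subset_left (by rw [h2, hb])
      have h3 : b ∩ b' = b' :=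
        Finset.eq_of_subset_of_card_le Finset.inter_subset_right (by rw [h2, hb'])
      exact h (h3.symm.trans h1)
    by_cases h0 : (b ∩ b').card = 0
    · right
      refine ⟨h, by omega, ?_⟩
      rw [Finset.disjoint_iff_inter_eq_empty]
      exact Finset.card_eq_zero.mp h0
    · left
      refine ⟨h, by omega, ?_⟩
      intro hd
      rw [Finset.disjoint_iff_inter_eq_empty] at hd
      rw [hd] at h0
      simp at h0

/-- two two-element sets are equal, meet in one point, or are disjoint -/
theorem sum_pairs_split (h : Finset V → Finset V → ℝ) :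
    ∑ b ∈ pairs V, ∑ b' ∈ pairs V, h b b' =
      ∑ b ∈ pairs V, h b b
        + ∑ b ∈ pairs V, ∑ b' ∈ (pairs V).filter (fun b' => (b ∩ b').card = 1), h b b'
        + ∑ b ∈ pairs V, ∑ b' ∈ (pairs V).filter (fun b' => Disjoint b b'), h b b' := by
  rw [← Finset.sum_add_distrib, ← Finset.sum_add_distrib]
  refine Finset.sum_congr rfl fun b hb => ?_
  have hbc : b.card = 2 := (Finset.mem_powersetCard.mp hb).2
  have h1 : h b b = ∑ b' ∈ pairs V, if b' = b then h b b' else 0 := by
    rw [Finset.sum_ite_eq' (pairs V) b (fun b' => h b b')]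
    simp [hb]
  rw [h1, Finset.sum_filter, Finset.sum_filter, ← Finset.sum_add_distrib,
    ← Finset.sum_add_distrib]
  refine Finset.sum_congr rfl fun b' hb' => ?_
  have hbc' : b'.card = 2 := (Finset.mem_powersetCard.mp hb').2
  rcases pairs_trichotomy hbc hbc' with ⟨a1, a2, a3⟩ | ⟨a1, a2, a3⟩ | ⟨a1, a2, a3⟩
  · rw [if_pos a1, if_neg a2, if_neg a3]; ring
  · rw [if_neg a1, if_pos a2, if_neg a3]; ring
  · rw [if_neg a1, if_neg a2, if_pos a3]; ring

end Vale.Agent.P335
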