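import Vale.Agent.P335.LemmaD

/-!
# P335: the total contribution of disjoint pairs
-/

namespace Vale.Agent.P335

open Finset

set_option linter.unusedSectionVars false

variable {V : Type*} [Fintype V] [DecidableEq V] {d : V → ℕ}

/-- exchanging the two summation variables in a sum over ordered disjoint pairs -/
private theorem sum_disjoint_swap (f : Finset V → Finset V → ℝ) :
    ∑ b ∈ pairs V, ∑ b' ∈ (pairs V).filter (fun b' => Disjoint b b'), f b' b
      = ∑ b ∈ pairs V, ∑ b' ∈ (pairs V).filter (fun b' => Disjoint b b'), f b b' := by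
  simp only [sum_filter]
  rw [sum_comm]
  refine sum_congr rfl (fun b _ => sum_congr rfl (fun b' _ => ?_))
  simp only [disjoint_comm]

/-- the total contribution of disjoint pairs is nonnegative -/
theorem Tdis_nonneg (F : Om d → ℝ) :
    0 ≤ ∑ b ∈ pairs V, ∑ b' ∈ (pairs V).filter (fun b' => Disjoint b b'),
      ip (Qb b F) (Qb b' F) := by
  have h1 : ∑ b ∈ pairs V, ∑ b' ∈ (pairs V).filter (fun b' => Disjoint b b'),
      (ip (qq b b' F) (qq b b' F) - (1 / 2 : ℝ) * ∑ G ∈ swC b b', (Zb b b' F G) ^ 2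
        - (1 / 2 : ℝ) * ∑ G ∈ swC b' b, (Zb b' b F G) ^ 2)
      ≤ ∑ b ∈ pairs V, ∑ b' ∈ (pairs V).filter (fun b' => Disjoint b b'),
        ip (Qb b F) (Qb b' F) := by
    refine sum_le_sum (fun b hb => sum_le_sum (fun b' hb' => ?_))
    rw [mem_filter] at hb'
    exact lemmaD b b' hb hb'.1 hb'.2 F
  have h2 : ∑ b ∈ pairs V, ∑ b' ∈ (pairs V).filter (fun b' => Disjoint b b'),
      ∑ G ∈ swC b b', (Zb b b' F G) ^ 2
      ≤ ∑ b ∈ pairs V, ∑ b' ∈ (pairs V).filter (fun b' => Disjoint b b'),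
        ip (qq b b' F) (qq b b' F) :=
    sum_le_sum (fun b hb => j_graph b hb F)
  have h3 := sum_disjoint_swap (V := V) (fun b b' => ∑ G ∈ swC b b', (Zb b b' F G) ^ 2)
  have h4 : ∑ b ∈ pairs V, ∑ b' ∈ (pairs V).filter (fun b' => Disjoint b b'),
      (ip (qq b b' F) (qq b b' F) - (1 / 2 : ℝ) * ∑ G ∈ swC b b', (Zb b b' F G) ^ 2
        - (1 / 2 : ℝ) * ∑ G ∈ swC b' b, (Zb b' b F G) ^ 2)
      = ∑ b ∈ pairs V, ∑ b' ∈ (pairs V).filter (fun b' => Disjoint b b'),
          ip (qq b b' F) (qq b b' F)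
        - (1 / 2 : ℝ) * ∑ b ∈ pairs V, ∑ b' ∈ (pairs V).filter (fun b' => Disjoint b b'),
          ∑ G ∈ swC b b', (Zb b b' F G) ^ 2
        - (1 / 2 : ℝ) * ∑ b ∈ pairs V, ∑ b' ∈ (pairs V).filter (fun b' => Disjoint b b'),
          ∑ G ∈ swC b' b, (Zb b' b F G) ^ 2 := by
    simp only [sum_sub_distrib, mul_sum]
  rw [h4, h3] at h1
  linarith

end Vale.Agent.P335
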