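import Vale.Agent.P335.Tov
import Vale.Agent.P335.Tdis
import Vale.Agent.P335.PairsSplit
import Vale.Agent.P335.Conn
import Vale.Agent.P335.Spectral

/-!
# P335: the block dynamics on vertex pairs has gap at least one; block Poincare inequality
-/

namespace Vale.Agent.P335

open Finset

set_option linter.unusedSectionVars false

variable {V : Type*} [Fintype V] [DecidableEq V] {d : V → ℕ}

/-- `AA = ∑_b Qb b` -/
noncomputable def AA (F : Om d → ℝ) : Om d → ℝ := ∑ b ∈ pairs V, Qb b F

theorem ip_sum_left {Ω ι : Type*} [Fintype Ω] (s : Finset ι) (f : ι → Ω → ℝ) (g : Ω → ℝ) :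
    ip (∑ i ∈ s, f i) g = ∑ i ∈ s, ip (f i) g := by
  unfold ip
  rw [Finset.sum_comm]
  refine Finset.sum_congr rfl (fun ω _ => ?_)
  rw [Finset.sum_apply, Finset.sum_mul]

theorem ip_sum_right {Ω ι : Type*} [Fintype Ω] (s : Finset ι) (f : ι → Ω → ℝ) (g : Ω → ℝ) :
    ip g (∑ i ∈ s, f i) = ∑ i ∈ s, ip g (f i) := by
  unfold ip
  rw [Finset.sum_comm]
  refine Finset.sum_congr rfl (fun ω _ => ?_)
  rw [Finset.sum_apply, Finset.mul_sum]

theorem ip_self_nonneg {Ω : Type*} [Fintype Ω] (f : Ω → ℝ) : 0 ≤ ip f f :=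
  Finset.sum_nonneg (fun ω _ => mul_self_nonneg (f ω))

theorem eq_zero_of_ip_self {Ω : Type*} [Fintype Ω] (f : Ω → ℝ) (h : ip f f = 0) : f = 0 := by
  funext ω
  have h0 := (Finset.sum_eq_zero_iff_of_nonneg (fun ω _ => mul_self_nonneg (f ω))).1 h ω
    (Finset.mem_univ ω)
  simpa using h0

theorem ip_self_AA (F : Om d → ℝ) : ip F (AA F) = ∑ b ∈ pairs V, ip (Qb b F) (Qb b F) := by
  unfold AA
  rw [ip_sum_right]
  exact Finset.sum_congr rfl (fun b _ => ip_self_Qb b F)

theorem AA_sq_ge (F : Om d → ℝ) : ip F (AA F) ≤ ip (AA F) (AA F) := by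
  have h1 : ip (AA F) (AA F) = ∑ b ∈ pairs V, ∑ b' ∈ pairs V, ip (Qb b F) (Qb b' F) := by
    unfold AA
    rw [ip_sum_left]
    exact Finset.sum_congr rfl (fun b _ => ip_sum_right _ _ _)
  rw [h1, sum_pairs_split, ip_self_AA]
  have h2 := Tov_nonneg F
  have h3 := Tdis_nonneg F
  linarith

/-- `AA` as a linear map -/
noncomputable def AAL : (Om d → ℝ) →ₗ[ℝ] (Om d → ℝ) :=
  ∑ b ∈ pairs V, (LinearMap.id - avgL (key (blk b univ)))

theorem AAL_apply (F : Om d → ℝ) : AAL F = AA F := by
  unfold AAL AA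
  rw [LinearMap.sum_apply]
  rfl

theorem Qb_symm (b : Finset V) (F G : Om d → ℝ) : ip (Qb b F) G = ip F (Qb b G) := by
  have h := avg_symm (key (blk b univ)) F G
  unfold Qb Eb EB
  unfold ip at h ⊢
  simp only [Pi.sub_apply, sub_mul, mul_sub, Finset.sum_sub_distrib]
  rw [h]

theorem AA_symm (F G : Om d → ℝ) : ip (AA F) G = ip F (AA G) := by
  unfold AA
  rw [ip_sum_left, ip_sum_right]
  exact Finset.sum_congr rfl (fun b _ => Qb_symm b F G)

/-- the kernel of `AA` consists of the constants -/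
theorem const_of_AA_eq_zero (f : Om d → ℝ) (h : AA f = 0) : ∀ G G' : Om d, f G = f G' := by
  have h0 : ∑ b ∈ pairs V, ip (Qb b f) (Qb b f) = 0 := by
    rw [← ip_self_AA, h]
    simp [ip]
  have h1 := (Finset.sum_eq_zero_iff_of_nonneg (fun b _ => ip_self_nonneg (Qb b f))).1 h0
  apply const_of_pair_inv f
  intro b hb G G' hk
  have h2 : Qb b f = 0 := eq_zero_of_ip_self _ (h1 b hb)
  have h3 : avg (key (blk b univ)) f = f := by
    have : f - avg (key (blk b univ)) f = 0 := h2
    exact (sub_eq_zero.1 this).symm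
  exact const_on_cls_of_avg_eq (key (blk b univ)) f h3 hk

/-- gap of the pair-block dynamics -/
theorem AA_gap (F : Om d → ℝ) (hF : ∑ G, F G = 0) : ip F F ≤ ip F (AA F) := by
  have h := gap_of_sq_ge (AAL (d := d))
    (fun F G => by rw [AAL_apply, AAL_apply]; exact AA_symm F G)
    (fun F => by
      rw [AAL_apply, ip_self_AA]
      exact Finset.sum_nonneg (fun b _ => ip_self_nonneg _))
    (fun F => by rw [AAL_apply]; exact AA_sq_ge F)
    F
    (fun f hf => by
      rw [AAL_apply] at hf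
      have hc := const_of_AA_eq_zero f hf
      by_cases hne : Nonempty (Om d)
      · obtain ⟨G₀⟩ := hne
        have : ip F f = (∑ G, F G) * f G₀ := by
          unfold ip
          rw [Finset.sum_mul]
          exact Finset.sum_congr rfl (fun G _ => by rw [hc G G₀])
        rw [this, hF, zero_mul]
      · unfold ip
        have : IsEmpty (Om d) := not_nonempty_iff.1 hne
        simp)
  rwa [AAL_apply] at h

/-- block Poincare inequality -/
theorem block_poincare (F : Om d → ℝ) (hF : ∑ G, F G = 0) :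
    ip F F ≤ 2 * ∑ b ∈ pairs V, ∑ b' ∈ (pairs V).filter (fun b' => Disjoint b b'),
      ip (qq b b' F) (qq b b' F) := by
  refine (AA_gap F hF).trans ?_
  rw [ip_self_AA, Finset.mul_sum]
  exact Finset.sum_le_sum (fun b hb => jp_graph b hb F)

end Vale.Agent.P335
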