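import Vale.Agent.P335.GraphBasic

/-!
# P335: a single switch step
-/

namespace Vale.Agent.P335

open Finset

set_option linter.unusedSectionVars false

variable {V : Type*} [Fintype V] [DecidableEq V] {d : V → ℕ}

open Classical in
/-- every vertex of `S` lies on exactly one edge of a perfect matching of `S`, the other vertices
on none -/
theorem pms_sum_ind (S : Finset V) (F : Finset (Sym2 V)) (hF : F ∈ pms S) (v : V) :
    ∑ w, (if s(v, w) ∈ F then (1 : ℤ) else 0) = if v ∈ S then 1 else 0 := by
  unfold pms at hF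
  rw [mem_filter, mem_powerset] at hF
  obtain ⟨hsub, -, huniq⟩ := hF
  by_cases hv : v ∈ S
  · obtain ⟨e, ⟨heF, hve⟩, hu⟩ := huniq v hv
    obtain ⟨w0, rfl⟩ := Sym2.mem_iff_exists.mp hve
    have key : ∀ w, s(v, w) ∈ F ↔ w = w0 := by
      intro w
      constructor
      · intro h
        have := hu (s(v, w)) ⟨h, Sym2.mem_mk_left v w⟩
        exact Sym2.congr_right.mp this
      · rintro rfl
        exact heF
    simp only [key, Finset.sum_ite_eq', Finset.mem_univ, if_true, hv]
  · have key : ∀ w, ¬ s(v, w) ∈ F := by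
      intro w h
      have := hsub h
      rw [Finset.mk_mem_sym2_iff] at this
      exact hv this.1
    simp [key, hv]

theorem pms_not_isDiag (S : Finset V) (F : Finset (Sym2 V)) (hF : F ∈ pms S) :
    ∀ e ∈ F, ¬ e.IsDiag := by
  classical
  unfold pms at hF
  rw [mem_filter] at hF
  exact hF.2.1

/-- a switch step preserves the degrees -/
theorem switchStep_mem (G : Om d) (S : Finset V) (hS : S.card = 4) (F F' : Finset (Sym2 V))
    (hF : F ∈ pms S) (hF' : F' ∈ pms S) : ∃ G' : Om d, G'.1 = switchStep G.1 F F' := by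
  classical
  unfold switchStep
  split_ifs with hc
  · obtain ⟨h1, h2⟩ := hc
    apply Om.exists_of_sum_ind
    intro v
    have hA : ∀ w, (SimpleGraph.fromEdgeSet
        ((G.1.edgeSet \ (F : Set (Sym2 V))) ∪ (F' : Set (Sym2 V)))).Adj v w
        ↔ ((G.1.Adj v w ∧ ¬ s(v, w) ∈ F) ∨ s(v, w) ∈ F') := by
      intro w
      rw [SimpleGraph.fromEdgeSet_adj]
      simp only [Set.mem_union, Set.mem_sdiff, SimpleGraph.mem_edgeSet, Finset.mem_coe]
      constructor
      · rintro ⟨h, -⟩
        exact h
      · intro h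
        refine ⟨h, ?_⟩
        rcases h with ⟨h, -⟩ | h
        · exact h.ne
        · intro hvw
          exact pms_not_isDiag S F' hF' _ h (by rw [hvw]; exact Sym2.mk_isDiag_iff.mpr rfl)
    refine Eq.trans (Finset.sum_congr rfl (g := fun w => (if G.1.Adj v w then (1 : ℤ) else 0)
      - (if s(v, w) ∈ F then 1 else 0) + (if s(v, w) ∈ F' then 1 else 0)) (fun w _ => ?_)) ?_
    · have hFG : s(v, w) ∈ F → G.1.Adj v w := fun h => h1 _ h
      have hFG' : s(v, w) ∈ F' → ¬ G.1.Adj v w := fun h => h2 _ h
      have hAw := hA w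
      by_cases a1 : G.1.Adj v w <;> by_cases a2 : s(v, w) ∈ F <;> by_cases a3 : s(v, w) ∈ F' <;>
        simp_all
    simp only [Finset.sum_add_distrib, Finset.sum_sub_distrib]
    rw [pms_sum_ind S F hF v, pms_sum_ind S F' hF' v, Om.sum_ind G v]
    ring
  · exact ⟨G, rfl⟩

/-- reversibility of a single step -/
theorem switchStep_rev (G G' : SimpleGraph V) (F F' : Finset (Sym2 V))
    (hF' : ∀ e ∈ F', ¬ e.IsDiag) (hne : G ≠ G') (h : switchStep G F F' = G') :
    switchStep G' F' F = G := by
  classical
  unfold switchStep at h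
  split_ifs at h with hc
  · obtain ⟨h1, h2⟩ := hc
    have hE : G'.edgeSet = (G.edgeSet \ (F : Set (Sym2 V))) ∪ (F' : Set (Sym2 V)) := by
      rw [← h, SimpleGraph.edgeSet_fromEdgeSet]
      ext e
      simp only [Set.mem_sdiff, Set.mem_union, Finset.mem_coe]
      constructor
      · rintro ⟨h3, -⟩
        exact h3
      · intro h3
        refine ⟨h3, ?_⟩
        rcases h3 with ⟨h3, -⟩ | h3
        · exact G.not_isDiag_of_mem_edgeSet h3
        · exact hF' e h3
    unfold switchStep
    have hc' : (∀ e ∈ F', e ∈ G'.edgeSet) ∧ (∀ e ∈ F, e ∉ G'.edgeSet) := by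
      constructor
      · intro e he
        rw [hE]
        exact Or.inr he
      · intro e he
        rw [hE]
        rintro (⟨-, h3⟩ | h3)
        · exact h3 he
        · exact h2 e h3 (h1 e he)
    rw [if_pos hc']
    have hE2 : (G'.edgeSet \ (F' : Set (Sym2 V))) ∪ (F : Set (Sym2 V)) = G.edgeSet := by
      rw [hE]
      ext e
      simp only [Set.mem_sdiff, Set.mem_union, Finset.mem_coe]
      constructor
      · rintro (⟨(⟨h3, -⟩ | h3), h4⟩ | h3)
        · exact h3
        · exact absurd h3 h4
        · exact h1 e h3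
      · intro h3
        by_cases h4 : e ∈ F
        · exact Or.inr h4
        · exact Or.inl ⟨Or.inl ⟨h3, h4⟩, fun h5 => h2 e h5 h3⟩
    rw [hE2, SimpleGraph.fromEdgeSet_edgeSet]
  · exact absurd h hne

end Vale.Agent.P335
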