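import Vale.Agent.P335.ChainPms
import Vale.Agent.P335.ChainStep

/-!
# P335: elementary properties of the switch kernel
-/

namespace Vale.Agent.P335

open Finset

set_option linter.unusedSectionVars false

variable {V : Type*} [Fintype V] [DecidableEq V] {d : V → ℕ}

theorem switchKernel_nonneg (G G' : Om d) : 0 ≤ switchKernel d G G' := by
  unfold switchKernel
  refine Finset.sum_nonneg fun S _ => mul_nonneg (by positivity) ?_
  refine Finset.sum_nonneg fun p _ => mul_nonneg (by norm_num) ?_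
  split_ifs <;> norm_num

private theorem not_diag_of_mem_pms {S : Finset V} {F : Finset (Sym2 V)} (hF : F ∈ pms S) :
    ∀ e ∈ F, ¬ e.IsDiag := by
  classical
  unfold pms at hF
  exact (Finset.mem_filter.mp hF).2.1

theorem switchKernel_symm (G G' : Om d) : switchKernel d G G' = switchKernel d G' G := by
  classical
  by_cases hGG : G = G'
  · rw [hGG]
  have hne : G.1 ≠ G'.1 := fun h => hGG (Subtype.ext h)
  unfold switchKernel
  refine Finset.sum_congr rfl fun S _ => ?_
  congr 1
  refine Finset.sum_equiv (Equiv.prodComm _ _) ?_ ?_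
  · intro p
    simp only [Finset.mem_offDiag, Equiv.prodComm_apply, Prod.fst_swap, Prod.snd_swap]
    constructor
    · rintro ⟨h1, h2, h3⟩
      exact ⟨h2, h1, h3.symm⟩
    · rintro ⟨h1, h2, h3⟩
      exact ⟨h2, h1, h3.symm⟩
  · intro p hp
    obtain ⟨h1, h2, -⟩ := Finset.mem_offDiag.mp hp
    simp only [Equiv.prodComm_apply, Prod.fst_swap, Prod.snd_swap]
    have hiff : switchStep G.1 p.1 p.2 = G'.1 ↔ switchStep G'.1 p.2 p.1 = G.1 :=
      ⟨fun h => switchStep_rev G.1 G'.1 p.1 p.2 (not_diag_of_mem_pms h2) hne h,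
        fun h => switchStep_rev G'.1 G.1 p.2 p.1 (not_diag_of_mem_pms h1) hne.symm h⟩
    by_cases h : switchStep G.1 p.1 p.2 = G'.1
    · have h' := hiff.1 h
      simp [h, h']
    · have h' : ¬ switchStep G'.1 p.2 p.1 = G.1 := fun h' => h (hiff.2 h')
      simp [h, h']

theorem switchKernel_row_sum (hV : 4 ≤ Fintype.card V) (G : Om d) :
    ∑ G', switchKernel d G G' = 1 := by
  classical
  unfold switchKernel
  rw [Finset.sum_comm]
  have hC : ((Fintype.card V).choose 4 : ℝ) ≠ 0 := by
    have : 0 < (Fintype.card V).choose 4 := Nat.choose_pos hV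
    exact_mod_cast this.ne'
  have hS : ∀ S ∈ (univ : Finset V).powersetCard 4,
      ∑ G' : Om d, (1 / ((Fintype.card V).choose 4 : ℝ)) *
        ∑ p ∈ (pms S).offDiag, (1 / 6 : ℝ) * (if switchStep G.1 p.1 p.2 = G'.1 then 1 else 0)
      = 1 / ((Fintype.card V).choose 4 : ℝ) := by
    intro S hS
    have hcard : S.card = 4 := (Finset.mem_powersetCard.mp hS).2
    rw [← Finset.mul_sum, Finset.sum_comm]
    have hp : ∀ p ∈ (pms S).offDiag,
        ∑ G' : Om d, (1 / 6 : ℝ) * (if switchStep G.1 p.1 p.2 = G'.1 then 1 else 0) = 1 / 6 := by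
      intro p hp
      obtain ⟨h1, h2, -⟩ := Finset.mem_offDiag.mp hp
      obtain ⟨G0, hG0⟩ := switchStep_mem G S hcard p.1 p.2 h1 h2
      rw [Finset.sum_eq_single G0]
      · rw [if_pos hG0.symm, mul_one]
      · intro G' _ hne
        rw [if_neg, mul_zero]
        intro h
        exact hne (Subtype.ext (h.symm.trans hG0.symm))
      · intro h
        exact absurd (Finset.mem_univ _) h
    rw [Finset.sum_congr rfl hp, Finset.sum_const, Finset.offDiag_card, card_pms S hcard]
    norm_num
  rw [Finset.sum_congr rfl hS, Finset.sum_const, Finset.card_powersetCard, Finset.card_univ,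
    nsmul_eq_mul]
  field_simp

private theorem adj_congr (H : SimpleGraph V) {x y p q : V} (h : s(x, y) = s(p, q)) :
    H.Adj x y ↔ H.Adj p q := by
  rw [← SimpleGraph.mem_edgeSet, ← SimpleGraph.mem_edgeSet, h]

/-- a single favourable choice gives the lower bound -/
private theorem switchKernel_ge_of_step (G G' : Om d) (S : Finset V)
    (hS : S ∈ (univ : Finset V).powersetCard 4) (F F' : Finset (Sym2 V))
    (hp : (F, F') ∈ (pms S).offDiag) (hstep : switchStep G.1 F F' = G'.1) :
    1 / (6 * ((Fintype.card V).choose 4 : ℝ)) ≤ switchKernel d G G' := by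
  classical
  have hinner : (1 / 6 : ℝ) ≤ ∑ p ∈ (pms S).offDiag,
      (1 / 6 : ℝ) * (if switchStep G.1 p.1 p.2 = G'.1 then 1 else 0) := by
    rw [← Finset.add_sum_erase _ _ hp]
    have h0 : 0 ≤ ∑ p ∈ ((pms S).offDiag).erase (F, F'),
        (1 / 6 : ℝ) * (if switchStep G.1 p.1 p.2 = G'.1 then 1 else 0) :=
      Finset.sum_nonneg fun p _ => mul_nonneg (by norm_num) (by split_ifs <;> norm_num)
    rw [if_pos hstep]
    linarith
  have hC : (0 : ℝ) ≤ 1 / ((Fintype.card V).choose 4 : ℝ) := by positivity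
  unfold switchKernel
  rw [← Finset.add_sum_erase _ _ hS]
  have h0 : 0 ≤ ∑ T ∈ ((univ : Finset V).powersetCard 4).erase S,
      (1 / ((Fintype.card V).choose 4 : ℝ)) *
        ∑ p ∈ (pms T).offDiag, (1 / 6 : ℝ) * (if switchStep G.1 p.1 p.2 = G'.1 then 1 else 0) :=
    Finset.sum_nonneg fun T _ => mul_nonneg hC
      (Finset.sum_nonneg fun p _ => mul_nonneg (by norm_num) (by split_ifs <;> norm_num))
  have h1 : 1 / (6 * ((Fintype.card V).choose 4 : ℝ))
      = (1 / ((Fintype.card V).choose 4 : ℝ)) * (1 / 6) := by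
    rw [one_div_mul_one_div, mul_comm]
  have h2 := mul_le_mul_of_nonneg_left hinner hC
  rw [h1]
  linarith

private theorem sym2_ne_left {a c p q : V} (h1 : a ≠ p) (h2 : a ≠ q) : s(a, c) ≠ s(p, q) := by
  intro h
  rw [Sym2.eq_iff] at h
  rcases h with ⟨h, -⟩ | ⟨h, -⟩
  · exact h1 h
  · exact h2 h

private theorem sym2_ne_right {a c p q : V} (h1 : c ≠ p) (h2 : c ≠ q) : s(a, c) ≠ s(p, q) := by
  intro h
  rw [Sym2.eq_iff] at h
  rcases h with ⟨-, h⟩ | ⟨-, h⟩
  · exact h2 h
  · exact h1 h

/-- the graph produced by the explicit switch -/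
private theorem switchStep_explicit (H H' : SimpleGraph V) (u v w z : V) (huv : u ≠ v)
    (huw : u ≠ w) (huz : u ≠ z) (hvw : v ≠ w) (hvz : v ≠ z) (hwz : w ≠ z)
    (g1 : H.Adj u w) (g2 : H.Adj v z) (g3 : ¬ H.Adj u z) (g4 : ¬ H.Adj v w)
    (g1' : ¬ H'.Adj u w) (g2' : ¬ H'.Adj v z) (g3' : H'.Adj u z) (g4' : H'.Adj v w)
    (hagree : ∀ x y, s(x, y) ≠ s(u, w) → s(x, y) ≠ s(v, z) → s(x, y) ≠ s(u, z) →
      s(x, y) ≠ s(v, w) → (H.Adj x y ↔ H'.Adj x y)) :
    switchStep H {s(u, w), s(v, z)} {s(u, z), s(v, w)} = H' := by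
  classical
  unfold switchStep
  rw [if_pos]
  · ext x y
    rw [SimpleGraph.fromEdgeSet_adj]
    simp only [Set.mem_union, Set.mem_sdiff, SimpleGraph.mem_edgeSet, Finset.mem_coe,
      Finset.mem_insert, Finset.mem_singleton]
    by_cases e1 : s(x, y) = s(u, w)
    · have hn3 : s(x, y) ≠ s(u, z) := by
        rw [e1]; exact sym2_ne_right huw.symm hwz
      have hn4 : s(x, y) ≠ s(v, w) := by
        rw [e1]; exact sym2_ne_left huv huw
      have h' : ¬ H'.Adj x y := fun h => g1' ((adj_congr H' e1).1 h)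
      constructor
      · rintro ⟨(⟨-, h⟩ | h), -⟩
        · exact absurd (Or.inl e1) h
        · rcases h with h | h
          · exact absurd h hn3
          · exact absurd h hn4
      · intro h
        exact absurd h h'
    by_cases e2 : s(x, y) = s(v, z)
    · have hn3 : s(x, y) ≠ s(u, z) := by
        rw [e2]; exact sym2_ne_left huv.symm hvz
      have hn4 : s(x, y) ≠ s(v, w) := by
        rw [e2]; exact sym2_ne_right hvz.symm hwz.symm
      have h' : ¬ H'.Adj x y := fun h => g2' ((adj_congr H' e2).1 h)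
      constructor
      · rintro ⟨(⟨-, h⟩ | h), -⟩
        · exact absurd (Or.inr e2) h
        · rcases h with h | h
          · exact absurd h hn3
          · exact absurd h hn4
      · intro h
        exact absurd h h'
    by_cases e3 : s(x, y) = s(u, z)
    · have h' : H'.Adj x y := (adj_congr H' e3).2 g3'
      exact ⟨fun _ => h', fun _ => ⟨Or.inr (Or.inl e3), h'.ne⟩⟩
    by_cases e4 : s(x, y) = s(v, w)
    · have h' : H'.Adj x y := (adj_congr H' e4).2 g4'
      exact ⟨fun _ => h', fun _ => ⟨Or.inr (Or.inr e4), h'.ne⟩⟩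
    have hag := hagree x y e1 e2 e3 e4
    constructor
    · rintro ⟨(⟨h, -⟩ | h), -⟩
      · exact hag.1 h
      · rcases h with h | h
        · exact absurd h e3
        · exact absurd h e4
    · intro h
      refine ⟨Or.inl ⟨hag.2 h, ?_⟩, h.ne⟩
      rintro (h | h)
      · exact e1 h
      · exact e2 h
  · constructor
    · intro e he
      rw [Finset.mem_insert, Finset.mem_singleton] at he
      rcases he with rfl | rfl
      · exact g1
      · exact g2
    · intro e he
      rw [Finset.mem_insert, Finset.mem_singleton] at he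
      rcases he with rfl | rfl
      · exact g3
      · exact g4

/-- the explicit switch -/
private theorem switchKernel_ge_core (G G' : Om d) (u v w z : V) (huv : u ≠ v) (huw : u ≠ w)
    (huz : u ≠ z) (hvw : v ≠ w) (hvz : v ≠ z) (hwz : w ≠ z)
    (g1 : G.1.Adj u w) (g2 : G.1.Adj v z) (g3 : ¬ G.1.Adj u z) (g4 : ¬ G.1.Adj v w)
    (g1' : ¬ G'.1.Adj u w) (g2' : ¬ G'.1.Adj v z) (g3' : G'.1.Adj u z) (g4' : G'.1.Adj v w)
    (hagree : ∀ x y, s(x, y) ≠ s(u, w) → s(x, y) ≠ s(v, z) → s(x, y) ≠ s(u, z) →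
      s(x, y) ≠ s(v, w) → (G.1.Adj x y ↔ G'.1.Adj x y)) :
    1 / (6 * ((Fintype.card V).choose 4 : ℝ)) ≤ switchKernel d G G' := by
  classical
  have hFS : ({s(u, w), s(v, z)} : Finset (Sym2 V)) ∈ pms ({u, w, v, z} : Finset V) :=
    mem_pms_of_distinct u w v z huw huv huz hvw.symm hwz hvz
  have hS' : ({u, w, v, z} : Finset V) = {u, z, v, w} := by
    ext x
    simp only [Finset.mem_insert, Finset.mem_singleton]
    tauto
  have hF'S : ({s(u, z), s(v, w)} : Finset (Sym2 V)) ∈ pms ({u, w, v, z} : Finset V) := by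
    rw [hS']
    exact mem_pms_of_distinct u z v w huz huv huw hvz.symm hwz.symm hvw
  have hFF' : ({s(u, w), s(v, z)} : Finset (Sym2 V)) ≠ {s(u, z), s(v, w)} := by
    intro h
    have h1 : s(u, w) ∈ ({s(u, z), s(v, w)} : Finset (Sym2 V)) := by
      rw [← h]
      exact Finset.mem_insert_self _ _
    rw [Finset.mem_insert, Finset.mem_singleton] at h1
    rcases h1 with h1 | h1
    · exact sym2_ne_right huw.symm hwz h1
    · exact sym2_ne_left huv huw h1
  have hScard : ({u, w, v, z} : Finset V).card = 4 := by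
    rw [Finset.card_insert_of_notMem, Finset.card_insert_of_notMem,
      Finset.card_insert_of_notMem, Finset.card_singleton]
    · simpa using hvz
    · simp only [Finset.mem_insert, Finset.mem_singleton, not_or]
      exact ⟨hvw.symm, hwz⟩
    · simp only [Finset.mem_insert, Finset.mem_singleton, not_or]
      exact ⟨huw, huv, huz⟩
  exact switchKernel_ge_of_step G G' _
    (Finset.mem_powersetCard.mpr ⟨Finset.subset_univ _, hScard⟩) _ _
    (Finset.mem_offDiag.mpr ⟨hFS, hF'S, hFF'⟩)
    (switchStep_explicit G.1 G'.1 u v w z huv huw huz hvw hvz hwz g1 g2 g3 g4 g1' g2' g3' g4'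
      hagree)

open Classical in
/-- comparison of the degree sums when only two cells of the row can differ -/
private theorem row_balance (G G' : Om d) (x w z : V) (hwz : w ≠ z)
    (h : ∀ y, y ≠ w → y ≠ z → (G.1.Adj x y ↔ G'.1.Adj x y)) :
    (if G.1.Adj x w then (1 : ℤ) else 0) + (if G.1.Adj x z then 1 else 0)
      = (if G'.1.Adj x w then 1 else 0) + (if G'.1.Adj x z then 1 else 0) := by
  have h1 := Om.sum_ind G x
  have h2 := Om.sum_ind G' x
  have h3 : ∑ y, ((if G.1.Adj x y then (1 : ℤ) else 0) - (if G'.1.Adj x y then 1 else 0)) = 0 := by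
    rw [Finset.sum_sub_distrib, h1, h2, sub_self]
  have h4 : ∑ y ∈ ({w, z} : Finset V),
      ((if G.1.Adj x y then (1 : ℤ) else 0) - (if G'.1.Adj x y then 1 else 0))
      = ∑ y, ((if G.1.Adj x y then (1 : ℤ) else 0) - (if G'.1.Adj x y then 1 else 0)) := by
    refine Finset.sum_subset (Finset.subset_univ _) fun y _ hy => ?_
    simp only [Finset.mem_insert, Finset.mem_singleton, not_or] at hy
    have := h y hy.1 hy.2
    simp only [this, sub_self]
  rw [h3, Finset.sum_pair hwz] at h4
  linarith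

/-- two distinct states differing only inside a block `b × b'` are joined by a switch -/
theorem switchKernel_ge (b b' : Finset V) (hb : b ∈ pairs V) (hb' : b' ∈ pairs V)
    (hd : Disjoint b b') (G G' : Om d) (hne : G ≠ G')
    (hk : key (blk b b') G = key (blk b b') G') :
    1 / (6 * ((Fintype.card V).choose 4 : ℝ)) ≤ switchKernel d G G' := by
  classical
  obtain ⟨u, v, huv, rfl⟩ := Finset.card_eq_two.mp (Finset.mem_powersetCard.mp hb).2
  obtain ⟨w, z, hwz, rfl⟩ := Finset.card_eq_two.mp (Finset.mem_powersetCard.mp hb').2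
  have huw : u ≠ w := fun h =>
    Finset.disjoint_left.mp hd (show u ∈ ({u, v} : Finset V) by simp) (by simp [h])
  have huz : u ≠ z := fun h =>
    Finset.disjoint_left.mp hd (show u ∈ ({u, v} : Finset V) by simp) (by simp [h])
  have hvw : v ≠ w := fun h =>
    Finset.disjoint_left.mp hd (show v ∈ ({u, v} : Finset V) by simp) (by simp [h])
  have hvz : v ≠ z := fun h =>
    Finset.disjoint_left.mp hd (show v ∈ ({u, v} : Finset V) by simp) (by simp [h])
  rw [key_eq_iff] at hk
  have hagree : ∀ x y, s(x, y) ≠ s(u, w) → s(x, y) ≠ s(v, z) → s(x, y) ≠ s(u, z) →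
      s(x, y) ≠ s(v, w) → (G.1.Adj x y ↔ G'.1.Adj x y) := by
    intro x y e1 e2 e3 e4
    apply hk
    rw [blk_adj]
    rintro ⟨-, h⟩
    simp only [Finset.mem_insert, Finset.mem_singleton] at h
    rcases h with ⟨rfl | rfl, rfl | rfl⟩ | ⟨rfl | rfl, rfl | rfl⟩
    · exact e1 rfl
    · exact e3 rfl
    · exact e4 rfl
    · exact e2 rfl
    · exact e1 Sym2.eq_swap
    · exact e3 Sym2.eq_swap
    · exact e4 Sym2.eq_swap
    · exact e2 Sym2.eq_swap
  -- the four balance equations
  have bu := row_balance G G' u w z hwz (fun y h1 h2 => hk u y (by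
    rw [blk_adj]
    simp only [Finset.mem_insert, Finset.mem_singleton]
    tauto))
  have bv := row_balance G G' v w z hwz (fun y h1 h2 => hk v y (by
    rw [blk_adj]
    simp only [Finset.mem_insert, Finset.mem_singleton]
    tauto))
  have bw := row_balance G G' w u v huv (fun y h1 h2 => hk w y (by
    rw [blk_adj]
    simp only [Finset.mem_insert, Finset.mem_singleton]
    tauto))
  have bz := row_balance G G' z u v huv (fun y h1 h2 => hk z y (by
    rw [blk_adj]
    simp only [Finset.mem_insert, Finset.mem_singleton]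
    tauto))
  rw [G.1.adj_comm w u, G.1.adj_comm w v, G'.1.adj_comm w u, G'.1.adj_comm w v] at bw
  rw [G.1.adj_comm z u, G.1.adj_comm z v, G'.1.adj_comm z u, G'.1.adj_comm z v] at bz
  -- some cell differs
  have hdiff : ¬ ((G.1.Adj u w ↔ G'.1.Adj u w) ∧ (G.1.Adj u z ↔ G'.1.Adj u z) ∧
      (G.1.Adj v w ↔ G'.1.Adj v w) ∧ (G.1.Adj v z ↔ G'.1.Adj v z)) := by
    rintro ⟨c1, c2, c3, c4⟩
    apply hne
    apply Subtype.ext
    ext x y
    by_cases e1 : s(x, y) = s(u, w)
    · rw [adj_congr G.1 e1, adj_congr G'.1 e1]; exact c1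
    by_cases e2 : s(x, y) = s(v, z)
    · rw [adj_congr G.1 e2, adj_congr G'.1 e2]; exact c4
    by_cases e3 : s(x, y) = s(u, z)
    · rw [adj_congr G.1 e3, adj_congr G'.1 e3]; exact c2
    by_cases e4 : s(x, y) = s(v, w)
    · rw [adj_congr G.1 e4, adj_congr G'.1 e4]; exact c3
    exact hagree x y e1 e2 e3 e4
  by_cases a1 : G.1.Adj u w <;> by_cases a2 : G.1.Adj u z <;> by_cases a3 : G.1.Adj v w <;>
    by_cases a4 : G.1.Adj v z <;> by_cases a1' : G'.1.Adj u w <;> by_cases a2' : G'.1.Adj u z <;>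
    by_cases a3' : G'.1.Adj v w <;> by_cases a4' : G'.1.Adj v z <;>
    simp only [a1, a2, a3, a4, a1', a2', a3', a4', if_true, if_false] at bu bv bw bz hdiff <;>
    first
    | omega
    | exact absurd trivial (by simpa using hdiff)
    | exact switchKernel_ge_core G G' u v w z huv huw huz hvw hvz hwz a1 a4 a2 a3 a1' a4' a2' a3'
        hagree
    | exact switchKernel_ge_core G G' u v z w huv huz huw hvz hvw hwz.symm a2 a3 a1 a4 a2' a3'
        a1' a4' (fun x y e1 e2 e3 e4 => hagree x y e3 e4 e1 e2)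

end Vale.Agent.P335
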