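import Vale.Agent.P335.Defs

/-!
# P335: perfect matchings of a four-element set
-/

namespace Vale.Agent.P335

open Finset

set_option linter.unusedSectionVars false

variable {V : Type*} [Fintype V] [DecidableEq V] {d : V → ℕ}

theorem mem_pms_iff (S : Finset V) (F : Finset (Sym2 V)) :
    F ∈ pms S ↔ F ⊆ S.sym2 ∧ (∀ e ∈ F, ¬ e.IsDiag) ∧ ∀ v ∈ S, ∃! e, e ∈ F ∧ v ∈ e := by
  classical
  unfold pms
  rw [mem_filter, mem_powerset]

theorem mem_pms_aux (S : Finset V) (a b c e : V)
    (hS : ∀ v, v ∈ S ↔ v = a ∨ v = b ∨ v = c ∨ v = e)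
    (hab : a ≠ b) (hac : a ≠ c) (hae : a ≠ e)
    (hbc : b ≠ c) (hbe : b ≠ e) (hce : c ≠ e) :
    ({s(a, b), s(c, e)} : Finset (Sym2 V)) ∈ pms S := by
  rw [mem_pms_iff]
  have ha : a ∈ S := (hS a).2 (Or.inl rfl)
  have hb : b ∈ S := (hS b).2 (Or.inr (Or.inl rfl))
  have hc : c ∈ S := (hS c).2 (Or.inr (Or.inr (Or.inl rfl)))
  have he : e ∈ S := (hS e).2 (Or.inr (Or.inr (Or.inr rfl)))
  refine ⟨?_, ?_, ?_⟩
  · intro f hf
    rw [mem_insert, mem_singleton] at hf
    rcases hf with rfl | rfl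
    · exact Finset.mk_mem_sym2_iff.2 ⟨ha, hb⟩
    · exact Finset.mk_mem_sym2_iff.2 ⟨hc, he⟩
  · intro f hf
    rw [mem_insert, mem_singleton] at hf
    rcases hf with rfl | rfl
    · rw [Sym2.mk_isDiag_iff]; exact hab
    · rw [Sym2.mk_isDiag_iff]; exact hce
  · intro v hv
    rcases (hS v).1 hv with rfl | rfl | rfl | rfl
    · refine ⟨s(v, b), ⟨by simp, by simp⟩, ?_⟩
      rintro f ⟨hf, hvf⟩
      rw [mem_insert, mem_singleton] at hf
      rcases hf with rfl | rfl
      · rfl
      · rw [Sym2.mem_iff] at hvf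
        rcases hvf with h | h
        · exact absurd h hac
        · exact absurd h hae
    · refine ⟨s(a, v), ⟨by simp, by simp⟩, ?_⟩
      rintro f ⟨hf, hvf⟩
      rw [mem_insert, mem_singleton] at hf
      rcases hf with rfl | rfl
      · rfl
      · rw [Sym2.mem_iff] at hvf
        rcases hvf with h | h
        · exact absurd h hbc
        · exact absurd h hbe
    · refine ⟨s(v, e), ⟨by simp, by simp⟩, ?_⟩
      rintro f ⟨hf, hvf⟩
      rw [mem_insert, mem_singleton] at hf
      rcases hf with rfl | rfl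
      · rw [Sym2.mem_iff] at hvf
        rcases hvf with h | h
        · exact absurd h.symm hac
        · exact absurd h.symm hbc
      · rfl
    · refine ⟨s(c, v), ⟨by simp, by simp⟩, ?_⟩
      rintro f ⟨hf, hvf⟩
      rw [mem_insert, mem_singleton] at hf
      rcases hf with rfl | rfl
      · rw [Sym2.mem_iff] at hvf
        rcases hvf with h | h
        · exact absurd h.symm hae
        · exact absurd h.symm hbe
      · rfl

/-- a perfect matching containing the edge `ax` is `{ax, yz}` -/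
theorem pms_eq_aux (S : Finset V) (a x y z : V)
    (hS : ∀ v, v ∈ S ↔ v = a ∨ v = x ∨ v = y ∨ v = z)
    (hax : a ≠ x) (hay : a ≠ y) (haz : a ≠ z)
    (hxy : x ≠ y) (hxz : x ≠ z) (hyz : y ≠ z)
    (F : Finset (Sym2 V)) (hF : F ∈ pms S) (hmem : s(a, x) ∈ F) :
    F = {s(a, x), s(y, z)} := by
  rw [mem_pms_iff] at hF
  obtain ⟨hsub, hdiag, huniq⟩ := hF
  have ha : a ∈ S := (hS a).2 (Or.inl rfl)
  have hx : x ∈ S := (hS x).2 (Or.inr (Or.inl rfl))
  have hy : y ∈ S := (hS y).2 (Or.inr (Or.inr (Or.inl rfl)))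
  have hz : z ∈ S := (hS z).2 (Or.inr (Or.inr (Or.inr rfl)))
  -- two edges of F sharing a vertex of S are equal
  have hshare : ∀ v ∈ S, ∀ f g : Sym2 V, f ∈ F → g ∈ F → v ∈ f → v ∈ g → f = g := by
    intro v hv f g hf hg hvf hvg
    exact (huniq v hv).unique ⟨hf, hvf⟩ ⟨hg, hvg⟩
  -- the edge at y
  have hyzF : s(y, z) ∈ F := by
    obtain ⟨f, ⟨hf, hyf⟩, -⟩ := huniq y hy
    obtain ⟨w, rfl⟩ := Sym2.mem_iff_exists.1 hyf
    have hw : w ∈ S := (Finset.mk_mem_sym2_iff.1 (hsub hf)).2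
    have hwy : y ≠ w := by
      have := hdiag _ hf
      rwa [Sym2.mk_isDiag_iff] at this
    rcases (hS w).1 hw with rfl | rfl | rfl | rfl
    · exfalso
      have h := hshare w ha _ _ hf hmem (by simp) (by simp)
      rw [Sym2.eq_iff] at h
      rcases h with ⟨h1, _⟩ | ⟨h1, _⟩
      · exact hay h1.symm
      · exact hxy h1.symm
    · exfalso
      have h := hshare w hx _ _ hf hmem (by simp) (by simp)
      rw [Sym2.eq_iff] at h
      rcases h with ⟨h1, _⟩ | ⟨h1, _⟩
      · exact hay h1.symm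
      · exact hxy h1.symm
    · exact absurd rfl hwy
    · exact hf
  apply Finset.Subset.antisymm
  · intro f hf
    rw [mem_insert, mem_singleton]
    induction f using Sym2.ind with
    | _ p q =>
      have hp : p ∈ S := (Finset.mk_mem_sym2_iff.1 (hsub hf)).1
      rcases (hS p).1 hp with rfl | rfl | rfl | rfl
      · exact Or.inl (hshare p ha _ _ hf hmem (by simp) (by simp))
      · exact Or.inl (hshare p hx _ _ hf hmem (by simp) (by simp))
      · exact Or.inr (hshare p hy _ _ hf hyzF (by simp) (by simp))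
      · exact Or.inr (hshare p hz _ _ hf hyzF (by simp) (by simp))
  · intro f hf
    rw [mem_insert, mem_singleton] at hf
    rcases hf with rfl | rfl
    · exact hmem
    · exact hyzF

/-- a four-element set has exactly three perfect matchings -/
theorem card_pms (S : Finset V) (hS : S.card = 4) : (pms S).card = 3 := by
  obtain ⟨a, t, hat, rfl, ht⟩ := Finset.card_eq_succ.1 hS
  obtain ⟨b, c, e, hbc, hbe, hce, rfl⟩ := Finset.card_eq_three.1 ht
  have hab : a ≠ b := by intro h; apply hat; simp [h]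
  have hac : a ≠ c := by intro h; apply hat; simp [h]
  have hae : a ≠ e := by intro h; apply hat; simp [h]
  have hS1 : ∀ v, v ∈ insert a ({b, c, e} : Finset V) ↔ v = a ∨ v = b ∨ v = c ∨ v = e := by
    intro v; simp
  have hS2 : ∀ v, v ∈ insert a ({b, c, e} : Finset V) ↔ v = a ∨ v = c ∨ v = b ∨ v = e := by
    intro v; simp; tauto
  have hS3 : ∀ v, v ∈ insert a ({b, c, e} : Finset V) ↔ v = a ∨ v = e ∨ v = b ∨ v = c := by
    intro v; simp; tauto
  have key : pms (insert a ({b, c, e} : Finset V)) =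
      {({s(a, b), s(c, e)} : Finset (Sym2 V)), {s(a, c), s(b, e)}, {s(a, e), s(b, c)}} := by
    apply Finset.Subset.antisymm
    · intro F hF
      have hF' := (mem_pms_iff _ _).1 hF
      obtain ⟨f, ⟨hf, haf⟩, -⟩ := hF'.2.2 a (by simp)
      obtain ⟨w, rfl⟩ := Sym2.mem_iff_exists.1 haf
      have hw : w ∈ insert a ({b, c, e} : Finset V) := (Finset.mk_mem_sym2_iff.1 (hF'.1 hf)).2
      have hwa : a ≠ w := by
        have := hF'.2.1 _ hf
        rwa [Sym2.mk_isDiag_iff] at this
      rw [mem_insert, mem_insert, mem_singleton]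
      rcases (hS1 w).1 hw with rfl | rfl | rfl | rfl
      · exact absurd rfl hwa
      · exact Or.inl (pms_eq_aux _ a w c e hS1 hab hac hae hbc hbe hce F hF hf)
      · exact Or.inr (Or.inl (pms_eq_aux _ a w b e hS2 hac hab hae hbc.symm hce hbe F hF hf))
      · exact Or.inr (Or.inr (pms_eq_aux _ a w b c hS3 hae hab hac hbe.symm hce.symm hbc F hF hf))
    · intro F hF
      rw [mem_insert, mem_insert, mem_singleton] at hF
      rcases hF with rfl | rfl | rfl
      · exact mem_pms_aux _ a b c e hS1 hab hac hae hbc hbe hce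
      · exact mem_pms_aux _ a c b e hS2 hac hab hae hbc.symm hce hbe
      · exact mem_pms_aux _ a e b c hS3 hae hab hac hbe.symm hce.symm hbc
  rw [key]
  apply Finset.card_eq_three.2
  refine ⟨_, _, _, ?_, ?_, ?_, rfl⟩
  · intro h
    have h1 : s(a, b) ∈ ({s(a, c), s(b, e)} : Finset (Sym2 V)) := by rw [← h]; simp
    rw [mem_insert, mem_singleton, Sym2.eq_iff, Sym2.eq_iff] at h1
    rcases h1 with (⟨_, h2⟩ | ⟨h2, _⟩) | (⟨h2, _⟩ | ⟨h2, _⟩)
    · exact hbc h2
    · exact hac h2
    · exact hab h2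
    · exact hae h2
  · intro h
    have h1 : s(a, b) ∈ ({s(a, e), s(b, c)} : Finset (Sym2 V)) := by rw [← h]; simp
    rw [mem_insert, mem_singleton, Sym2.eq_iff, Sym2.eq_iff] at h1
    rcases h1 with (⟨_, h2⟩ | ⟨h2, _⟩) | (⟨h2, _⟩ | ⟨h2, _⟩)
    · exact hbe h2
    · exact hae h2
    · exact hab h2
    · exact hac h2
  · intro h
    have h1 : s(a, c) ∈ ({s(a, e), s(b, c)} : Finset (Sym2 V)) := by rw [← h]; simp
    rw [mem_insert, mem_singleton, Sym2.eq_iff, Sym2.eq_iff] at h1
    rcases h1 with (⟨_, h2⟩ | ⟨h2, _⟩) | (⟨h2, _⟩ | ⟨h2, _⟩)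
    · exact hce h2
    · exact hae h2
    · exact hab h2
    · exact hac h2

/-- explicit perfect matchings -/
theorem mem_pms_of_distinct (a b c e : V) (hab : a ≠ b) (hac : a ≠ c) (hae : a ≠ e)
    (hbc : b ≠ c) (hbe : b ≠ e) (hce : c ≠ e) :
    ({s(a, b), s(c, e)} : Finset (Sym2 V)) ∈ pms ({a, b, c, e} : Finset V) :=
  mem_pms_aux _ a b c e (by intro v; simp) hab hac hae hbc hbe hce

end Vale.Agent.P335
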