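import Mathlib

/-!
# P335: the switch chain on the realisations of a degree sequence (definitions)
-/

namespace Vale.Agent.P335

open Finset

variable {V : Type*} [Fintype V] [DecidableEq V]

open Classical in
/-- `Om d`: the labelled simple graphs on `V` in which every vertex `v` has degree `d v`. -/
def Om (d : V → ℕ) : Type _ := {G : SimpleGraph V // ∀ v, G.degree v = d v}

noncomputable instance (d : V → ℕ) : Fintype (Om d) := by
  unfold Om; exact Fintype.ofFinite _

noncomputable instance (d : V → ℕ) : DecidableEq (Om d) := Classical.decEq _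

open Classical in
/-- The perfect matchings of the complete graph on the vertex set `S`: sets of non-loop
edges inside `S` covering every vertex of `S` exactly once. -/
noncomputable def pms (S : Finset V) : Finset (Finset (Sym2 V)) :=
  (S.sym2.powerset).filter
    (fun F => (∀ e ∈ F, ¬ e.IsDiag) ∧ ∀ v ∈ S, ∃! e, e ∈ F ∧ v ∈ e)

open Classical in
/-- One attempted switch: if all edges of `F` are present and all edges of `F'` are absent,
replace `F` by `F'`; otherwise do nothing. -/
noncomputable def switchStep (G : SimpleGraph V) (F F' : Finset (Sym2 V)) : SimpleGraph V :=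
  if (∀ e ∈ F, e ∈ G.edgeSet) ∧ (∀ e ∈ F', e ∉ G.edgeSet) then
    SimpleGraph.fromEdgeSet ((G.edgeSet \ (F : Set (Sym2 V))) ∪ (F' : Set (Sym2 V)))
  else G

open Classical in
/-- The non-lazy part of the switch chain: a uniform 4-set `S`, then a uniform ordered pair
`(F, F')` of distinct perfect matchings of the complete graph on `S` (there are six). -/
noncomputable def switchKernel (d : V → ℕ) : Matrix (Om d) (Om d) ℝ := fun G G' =>
  ∑ S ∈ (univ : Finset V).powersetCard 4, (1 / ((Fintype.card V).choose 4 : ℝ)) *
    ∑ p ∈ (pms S).offDiag, (1 / 6 : ℝ) * (if switchStep G.1 p.1 p.2 = G'.1 then 1 else 0)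

/-- The switch chain: stay put with probability `1/2`, otherwise attempt a switch. -/
noncomputable def switchChain (d : V → ℕ) : Matrix (Om d) (Om d) ℝ :=
  (1 / 2 : ℝ) • (1 : Matrix (Om d) (Om d) ℝ) + (1 / 2 : ℝ) • switchKernel d

/-- Total variation distance. -/
noncomputable def tv {Ω : Type*} [Fintype Ω] (μ ν : Ω → ℝ) : ℝ := (1 / 2 : ℝ) * ∑ x, |μ x - ν x|

/-- The uniform distribution on `Om d`. -/
noncomputable def unif (d : V → ℕ) : Om d → ℝ := fun _ => 1 / (Fintype.card (Om d) : ℝ)

/-- The mixing time: least `t` with worst-case total variation distance at most `1/4`. -/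
noncomputable def tmix (d : V → ℕ) : ℕ :=
  sInf {t : ℕ | ∀ G : Om d, tv ((switchChain d ^ t) G) (unif d) ≤ 1 / 4}

end Vale.Agent.P335
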