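import Vale.Agent.P335.FinalPoincare
import Vale.Agent.P335.FinalNumeric
import Vale.Agent.P335.Mixing

/-!
# P335: Poincare inequality for the switch chain and the mixing time bound
-/

namespace Vale.Agent.P335

open Finset

set_option linter.unusedSectionVars false

variable {V : Type*} [Fintype V] [DecidableEq V] {d : V → ℕ}

theorem tv_switchChain_le (hV : 4 ≤ Fintype.card V) (G : Om d) :
    tv ((switchChain d ^ ((Fintype.card V) ^ 10)) G) (unif d) ≤ 1 / 4 := by
  have h2 : (1 : ℝ) ≤ ((Fintype.card V).choose 2 : ℝ) := by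
    have : 0 < (Fintype.card V).choose 2 := Nat.choose_pos (by omega)
    exact_mod_cast this
  have h4 : (1 : ℝ) ≤ ((Fintype.card V).choose 4 : ℝ) := by
    have : 0 < (Fintype.card V).choose 4 := Nat.choose_pos hV
    exact_mod_cast this
  have hden : (1 : ℝ) ≤ 12 * ((Fintype.card V).choose 2 : ℝ) ^ 2 *
      ((Fintype.card V).choose 4 : ℝ) := by
    have h22 : (1 : ℝ) ≤ ((Fintype.card V).choose 2 : ℝ) ^ 2 := one_le_pow₀ h2
    nlinarith
  have hγ0 : (0 : ℝ) < 1 / (12 * ((Fintype.card V).choose 2 : ℝ) ^ 2 *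
      ((Fintype.card V).choose 4 : ℝ)) := by positivity
  have hγ1 : 1 / (12 * ((Fintype.card V).choose 2 : ℝ) ^ 2 *
      ((Fintype.card V).choose 4 : ℝ)) ≤ 1 := by
    rw [div_le_one (by linarith)]
    exact hden
  have key := tv_le_of_poincare (switchKernel d) switchKernel_nonneg switchKernel_symm
    (switchKernel_row_sum hV) _ hγ0 hγ1 (fun F hF => chain_poincare hV F hF)
    ((Fintype.card V) ^ 10) G
  have hnum := numeric_bound (Fintype.card V) hV (Fintype.card (Om d) : ℝ) (Nat.cast_nonneg _)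
    (card_Om_le d)
  exact key.trans hnum

theorem tmix_le (hV : 4 ≤ Fintype.card V) (d : V → ℕ) : tmix d ≤ (Fintype.card V) ^ 10 :=
  Nat.sInf_le fun G => tv_switchChain_le hV G

end Vale.Agent.P335
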