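import Vale.Agent.P335.Caputo
import Vale.Agent.P335.Chain

/-!
# P335: Poincare inequality for the switch chain
-/

namespace Vale.Agent.P335

open Finset

set_option linter.unusedSectionVars false

variable {V : Type*} [Fintype V] [DecidableEq V] {d : V → ℕ}

/-- two disjoint pairs need four vertices -/
theorem four_le_card_of_pairs (b b' : Finset V) (hb : b ∈ pairs V) (hb' : b' ∈ pairs V)
    (hd : Disjoint b b') : 4 ≤ Fintype.card V := by
  unfold pairs at hb hb'
  rw [mem_powersetCard] at hb hb'
  have h1 : (b ∪ b').card = 4 := by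
    rw [card_union_of_disjoint hd, hb.2, hb'.2]
  calc 4 = (b ∪ b').card := h1.symm
    _ ≤ Fintype.card V := card_le_univ _

theorem kernel_form_nonneg (F : Om d → ℝ) :
    0 ≤ ∑ G, ∑ G', switchKernel d G G' * (F G - F G') ^ 2 :=
  Finset.sum_nonneg (fun G _ => Finset.sum_nonneg (fun G' _ =>
    mul_nonneg (switchKernel_nonneg G G') (sq_nonneg _)))

/-- one block term is controlled by the Dirichlet form of the switch kernel -/
theorem qq_le_kernel (b b' : Finset V) (hb : b ∈ pairs V) (hb' : b' ∈ pairs V)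
    (hd : Disjoint b b') (F : Om d → ℝ) :
    ip (qq b b' F) (qq b b' F) ≤
      (1 / 4 : ℝ) * (6 * ((Fintype.card V).choose 4 : ℝ)) *
        ∑ G, ∑ G', switchKernel d G G' * (F G - F G') ^ 2 := by
  have hV : 4 ≤ Fintype.card V := four_le_card_of_pairs b b' hb hb' hd
  have hC : (0 : ℝ) < 6 * ((Fintype.card V).choose 4 : ℝ) := by
    have : 0 < (Fintype.card V).choose 4 := Nat.choose_pos hV
    positivity
  have h1 : ip (qq b b' F) (qq b b' F) = ∑ G, (F G - avg (key (blk b b')) F G) ^ 2 := by
    unfold ip qq EB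
    refine Finset.sum_congr rfl (fun G _ => ?_)
    simp only [Pi.sub_apply]
    ring
  rw [h1]
  refine (sq_sub_avg_le (key (blk b b')) F).trans ?_
  rw [mul_assoc]
  refine mul_le_mul_of_nonneg_left ?_ (by norm_num)
  rw [Finset.mul_sum]
  refine Finset.sum_le_sum (fun G _ => ?_)
  rw [Finset.mul_sum]
  have h2 : ∀ G' ∈ cls (key (blk b b')) G, (F G - F G') ^ 2 ≤
      6 * ((Fintype.card V).choose 4 : ℝ) * (switchKernel d G G' * (F G - F G') ^ 2) := by
    intro G' hG'
    by_cases hne : G = G'
    · subst hne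
      simp
    · have hk : key (blk b b') G = key (blk b b') G' := ((mem_cls _ _ _).1 hG').symm
      have h3 := switchKernel_ge b b' hb hb' hd G G' hne hk
      have h4 : 1 ≤ 6 * ((Fintype.card V).choose 4 : ℝ) * switchKernel d G G' := by
        rw [div_le_iff₀ hC] at h3
        linarith
      have h5 : 0 ≤ (F G - F G') ^ 2 := sq_nonneg _
      nlinarith
  refine (Finset.sum_le_sum h2).trans ?_
  refine Finset.sum_le_sum_of_subset_of_nonneg (Finset.subset_univ _) (fun G' _ _ => ?_)
  exact mul_nonneg hC.le (mul_nonneg (switchKernel_nonneg G G') (sq_nonneg _))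

theorem card_pairs : (pairs V).card = (Fintype.card V).choose 2 := by
  unfold pairs
  rw [card_powersetCard, card_univ]

/-- Poincare inequality for the switch chain (crude polynomial constant) -/
theorem chain_poincare (hV : 4 ≤ Fintype.card V) (F : Om d → ℝ) (hF : ∑ G, F G = 0) :
    (1 / (12 * ((Fintype.card V).choose 2 : ℝ) ^ 2 * ((Fintype.card V).choose 4 : ℝ))) *
        ∑ G, F G ^ 2 ≤
      (1 / 2 : ℝ) * ∑ G, ∑ G', switchChain d G G' * (F G - F G') ^ 2 := by
  set N : ℝ := ((Fintype.card V).choose 2 : ℝ) with hN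
  set C : ℝ := ((Fintype.card V).choose 4 : ℝ) with hCdef
  set D : ℝ := ∑ G, ∑ G', switchKernel d G G' * (F G - F G') ^ 2 with hD
  have hNpos : 0 < N := by
    have : 0 < (Fintype.card V).choose 2 := Nat.choose_pos (by omega)
    rw [hN]
    exact_mod_cast this
  have hCpos : 0 < C := by
    have : 0 < (Fintype.card V).choose 4 := Nat.choose_pos hV
    rw [hCdef]
    exact_mod_cast this
  have hD0 : 0 ≤ D := kernel_form_nonneg F
  -- the right side
  have hR : ∑ G, ∑ G', switchChain d G G' * (F G - F G') ^ 2 = (1 / 2 : ℝ) * D := by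
    rw [hD, Finset.mul_sum]
    refine Finset.sum_congr rfl (fun G _ => ?_)
    rw [Finset.mul_sum]
    refine Finset.sum_congr rfl (fun G' _ => ?_)
    unfold switchChain
    simp only [Matrix.add_apply, Matrix.smul_apply, smul_eq_mul]
    by_cases hne : G = G'
    · subst hne
      simp
    · rw [Matrix.one_apply_ne hne]
      ring
  -- the left side
  have hL : ∑ G, F G ^ 2 ≤ 3 * N ^ 2 * C * D := by
    have h0 : ∑ G, F G ^ 2 = ip F F := by
      unfold ip
      exact Finset.sum_congr rfl (fun G _ => by ring)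
    rw [h0]
    refine (block_poincare F hF).trans ?_
    have h1 : ∀ b ∈ pairs V, ∑ b' ∈ (pairs V).filter (fun b' => Disjoint b b'),
        ip (qq b b' F) (qq b b' F) ≤ N * ((1 / 4 : ℝ) * (6 * C) * D) := by
      intro b hb
      have h2 : ∀ b' ∈ (pairs V).filter (fun b' => Disjoint b b'),
          ip (qq b b' F) (qq b b' F) ≤ (1 / 4 : ℝ) * (6 * C) * D := by
        intro b' hb'
        rw [mem_filter] at hb'
        exact qq_le_kernel b b' hb hb'.1 hb'.2 F
      refine (Finset.sum_le_card_nsmul _ _ _ h2).trans ?_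
      rw [nsmul_eq_mul]
      refine mul_le_mul_of_nonneg_right ?_ (by positivity)
      rw [hN, ← card_pairs]
      exact_mod_cast Finset.card_filter_le _ _
    have h3 := Finset.sum_le_card_nsmul _ _ _ h1
    rw [nsmul_eq_mul, card_pairs] at h3
    calc 2 * ∑ b ∈ pairs V, ∑ b' ∈ (pairs V).filter (fun b' => Disjoint b b'),
          ip (qq b b' F) (qq b b' F) ≤ 2 * (N * (N * ((1 / 4 : ℝ) * (6 * C) * D))) := by
            linarith
      _ = 3 * N ^ 2 * C * D := by ring
  rw [hR]
  have hpos : 0 < 12 * N ^ 2 * C := by positivity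
  rw [div_mul_eq_mul_div, one_mul, div_le_iff₀ hpos]
  nlinarith

end Vale.Agent.P335
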