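import Vale.Agent.P335.GraphBasic
import Vale.Agent.P335.AvgRect

/-!
# P335: block averaging operators of cell-disjoint blocks commute
-/

namespace Vale.Agent.P335

open Finset

set_option linter.unusedSectionVars false

variable {V : Type*} [Fintype V] [DecidableEq V] {d : V → ℕ}

/-- The glued graph: `G₂` on the cells of `H`, `G₃` elsewhere. -/
private def glueGraph (H A B : SimpleGraph V) : SimpleGraph V where
  Adj x y := (H.Adj x y ∧ A.Adj x y) ∨ (¬ H.Adj x y ∧ B.Adj x y)
  symm := ⟨fun x y h => by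
    rcases h with h | h
    · exact Or.inl ⟨h.1.symm, h.2.symm⟩
    · exact Or.inr ⟨fun hh => h.1 hh.symm, h.2.symm⟩⟩
  loopless := ⟨fun x h => by
    rcases h with h | h
    · exact H.loopless.irrefl x h.1
    · exact B.loopless.irrefl x h.2⟩

/-- Rectangle (glue) property for disjoint blocks: if `G₂ = G` off `H` and `G₃ = G` off `H'`
then `G₂ + G₃ - G` is the unique state equal to `G₂` off `H'` and to `G₃` off `H`. -/
theorem glue_rect {H H' : SimpleGraph V} (h : Disjoint H H') (G G₂ G₃ : Om d)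
    (h2 : key H G₂ = key H G) (h3 : key H' G₃ = key H' G) :
    ∃! G₄ : Om d, key H' G₄ = key H' G₂ ∧ key H G₄ = key H G₃ := by
  classical
  rw [key_eq_iff] at h2 h3
  have hdis : ∀ x y, H.Adj x y → ¬ H'.Adj x y := by
    intro x y hxy hxy'
    have hle : H ⊓ H' ≤ ⊥ := disjoint_iff_inf_le.mp h
    exact hle (show (H ⊓ H').Adj x y from ⟨hxy, hxy'⟩)
  have hind : ∀ x y, (if (glueGraph H G₂.1 G₃.1).Adj x y then (1 : ℤ) else 0)
      = (if G₂.1.Adj x y then (1 : ℤ) else 0) + (if G₃.1.Adj x y then (1 : ℤ) else 0)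
        - (if G.1.Adj x y then (1 : ℤ) else 0) := by
    intro x y
    by_cases hH : H.Adj x y
    · have e3 := h3 x y (hdis x y hH)
      have e4 : (glueGraph H G₂.1 G₃.1).Adj x y ↔ G₂.1.Adj x y := by
        simp [glueGraph, hH]
      simp only [e4, e3]
      ring
    · have e2 := h2 x y hH
      have e4 : (glueGraph H G₂.1 G₃.1).Adj x y ↔ G₃.1.Adj x y := by
        simp [glueGraph, hH]
      simp only [e4, e2]
      ring
  have hsum : ∀ v, ∑ w, (if (glueGraph H G₂.1 G₃.1).Adj v w then (1 : ℤ) else 0) = d v := by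
    intro v
    simp only [hind, Finset.sum_sub_distrib, Finset.sum_add_distrib, Om.sum_ind]
    ring
  obtain ⟨G₄, hG₄⟩ := Om.exists_of_sum_ind (d := d) (glueGraph H G₂.1 G₃.1) hsum
  have hadj : ∀ x y, G₄.1.Adj x y ↔
      ((H.Adj x y ∧ G₂.1.Adj x y) ∨ (¬ H.Adj x y ∧ G₃.1.Adj x y)) := by
    intro x y
    rw [hG₄]
    rfl
  refine ⟨G₄, ⟨?_, ?_⟩, ?_⟩
  · rw [key_eq_iff]
    intro x y hH'
    rw [hadj]
    by_cases hH : H.Adj x y
    · simp [hH]
    · have e2 := h2 x y hH
      have e3 := h3 x y hH'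
      simp [hH, e2, e3]
  · rw [key_eq_iff]
    intro x y hH
    rw [hadj]
    simp [hH]
  · rintro G' ⟨k1, k2⟩
    rw [key_eq_iff] at k1 k2
    apply Om.ext'
    ext x y
    rw [hadj]
    by_cases hH : H.Adj x y
    · have := k1 x y (hdis x y hH)
      simp [hH, this]
    · have := k2 x y hH
      simp [hH, this]

theorem EB_comm {H H' : SimpleGraph V} (h : Disjoint H H') (F : Om d → ℝ) :
    EB H (EB H' F) = EB H' (EB H F) :=
  avg_comm_of_rect (key H) (key H') (fun G G₂ G₃ h2 h3 => glue_rect h G G₂ G₃ h2 h3) F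

end Vale.Agent.P335
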