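import Vale.Agent.P335.GraphDefs

/-!
# P335: basic facts on `Om d`, keys and blocks
-/

namespace Vale.Agent.P335

open Finset

set_option linter.unusedSectionVars false

variable {V : Type*} [Fintype V] [DecidableEq V] {d : V → ℕ}

theorem Om.ext' {G G' : Om d} (h : G.1 = G'.1) : G = G' := Subtype.ext h

open Classical in
theorem degree_eq_card_filter (H : SimpleGraph V) (v : V) :
    H.degree v = (univ.filter (fun w => H.Adj v w)).card := by
  rw [← SimpleGraph.card_neighborFinset_eq_degree]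
  congr 1
  ext w
  simp

open Classical in
/-- the degree condition as a count -/
theorem Om.card_adj (G : Om d) (v : V) : (univ.filter (fun w => G.1.Adj v w)).card = d v := by
  rw [← degree_eq_card_filter]
  exact G.2 v

open Classical in
/-- the degree condition as an integer sum of indicators -/
theorem Om.sum_ind (G : Om d) (v : V) : ∑ w, (if G.1.Adj v w then (1 : ℤ) else 0) = d v := by
  rw [Finset.sum_boole]
  exact_mod_cast Om.card_adj G v

open Classical in
/-- build an element of `Om d` from a graph with the right indicator sums -/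
theorem Om.exists_of_sum_ind (H : SimpleGraph V)
    (h : ∀ v, ∑ w, (if H.Adj v w then (1 : ℤ) else 0) = d v) : ∃ G : Om d, G.1 = H := by
  refine ⟨⟨H, fun v => ?_⟩, rfl⟩
  have h1 := h v
  rw [Finset.sum_boole] at h1
  rw [degree_eq_card_filter]
  exact_mod_cast h1

theorem key_eq_iff (H : SimpleGraph V) (G G' : Om d) :
    key H G = key H G' ↔ ∀ x y, ¬ H.Adj x y → (G.1.Adj x y ↔ G'.1.Adj x y) := by
  constructor
  · intro h x y hxy
    have h1 : (key H G).Adj x y ↔ (key H G').Adj x y := by rw [h]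
    simp only [key, SimpleGraph.sdiff_adj] at h1
    tauto
  · intro h
    ext x y
    simp only [key, SimpleGraph.sdiff_adj]
    by_cases hxy : H.Adj x y
    · simp [hxy]
    · simp [hxy, h x y hxy]

theorem key_mono {H H' : SimpleGraph V} (h : H ≤ H') {G G' : Om d} (hk : key H G = key H G') :
    key H' G = key H' G' := by
  rw [key_eq_iff] at hk ⊢
  intro x y hxy
  exact hk x y (fun h2 => hxy (h h2))

theorem blk_comm (X Y : Finset V) : blk X Y = blk Y X := by
  ext x y
  simp only [blk_adj]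
  tauto

theorem blk_mono {X X' Y Y' : Finset V} (hX : X ⊆ X') (hY : Y ⊆ Y') : blk X Y ≤ blk X' Y' := by
  intro x y h
  rw [blk_adj] at h ⊢
  refine ⟨h.1, ?_⟩
  rcases h.2 with ⟨h1, h2⟩ | ⟨h1, h2⟩
  · exact Or.inl ⟨hX h1, hY h2⟩
  · exact Or.inr ⟨hX h1, hY h2⟩

theorem EB_absorb_left {H H' : SimpleGraph V} (h : H ≤ H') (F : Om d → ℝ) :
    EB H' (EB H F) = EB H' F :=
  avg_absorb_left (key H) (key H') (fun _ _ hk => key_mono h hk) F

theorem EB_absorb_right {H H' : SimpleGraph V} (h : H ≤ H') (F : Om d → ℝ) :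
    EB H (EB H' F) = EB H' F :=
  avg_absorb_right (key H) (key H') (fun _ _ hk => key_mono h hk) F

theorem ind_identity_aux (B A E1 E2 E3 E4 : Prop) [Decidable B] [Decidable A] [Decidable E1]
    [Decidable E2] [Decidable E3] [Decidable E4]
    (hB : B ↔ ((A ∧ ¬ E1 ∧ ¬ E2) ∨ E3 ∨ E4)) (h1 : E1 → A) (h2 : E2 → A) (h3 : E3 → ¬ A)
    (h4 : E4 → ¬ A) (h12 : E1 → ¬ E2) (h34 : E3 → ¬ E4) :
    (if B then (1 : ℤ) else 0) =
      (if A then 1 else 0) - (if E1 then 1 else 0) - (if E2 then 1 else 0)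
        + (if E3 then 1 else 0) + (if E4 then 1 else 0) := by
  by_cases hA : A <;> by_cases hE1 : E1 <;> by_cases hE2 : E2 <;> by_cases hE3 : E3 <;>
    by_cases hE4 : E4 <;> simp_all

theorem sum_ind_sym2_aux (x p q : V) (hpq : p ≠ q) :
    ∑ y, (if s(x, y) = s(p, q) then (1 : ℤ) else 0) =
      (if x = p then 1 else 0) + (if x = q then 1 else 0) := by
  by_cases hxp : x = p
  · subst hxp
    have : ∀ y, (s(x, y) = s(x, q)) ↔ y = q := by
      intro y
      rw [Sym2.eq_iff]
      constructor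
      · rintro (⟨-, h⟩ | ⟨h, -⟩)
        · exact h
        · exact absurd h hpq
      · intro h
        exact Or.inl ⟨rfl, h⟩
    simp only [this, Finset.sum_ite_eq', Finset.mem_univ, if_true, hpq, if_false]
    norm_num
  · by_cases hxq : x = q
    · subst hxq
      have : ∀ y, (s(x, y) = s(p, x)) ↔ y = p := by
        intro y
        rw [Sym2.eq_iff]
        constructor
        · rintro (⟨h, -⟩ | ⟨-, h⟩)
          · exact absurd h hxp
          · exact h
        · intro h
          exact Or.inr ⟨rfl, h⟩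
      simp only [this, Finset.sum_ite_eq', Finset.mem_univ, if_true, hxp, if_false]
      norm_num
    · have : ∀ y, ¬ (s(x, y) = s(p, q)) := by
        intro y
        rw [Sym2.eq_iff]
        rintro (⟨h, -⟩ | ⟨h, -⟩)
        · exact hxp h
        · exact hxq h
      simp [this, hxp, hxq]

/-- a switch: for distinct `a b c e` with `ab, ce` edges and `ac, be` non-edges there is a
state obtained by replacing `ab, ce` by `ac, be` -/
theorem exists_switch (G : Om d) (a b c e : V) (hab : a ≠ b) (hac : a ≠ c) (hae : a ≠ e)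
    (hbc : b ≠ c) (hbe : b ≠ e) (hce : c ≠ e)
    (h1 : G.1.Adj a b) (h2 : G.1.Adj c e) (h3 : ¬ G.1.Adj a c) (h4 : ¬ G.1.Adj b e) :
    ∃ G' : Om d, ∀ x y, G'.1.Adj x y ↔
      ((G.1.Adj x y ∧ s(x, y) ≠ s(a, b) ∧ s(x, y) ≠ s(c, e)) ∨ s(x, y) = s(a, c) ∨ s(x, y) = s(b, e)) := by
  classical
  obtain ⟨H, hH⟩ : ∃ H : SimpleGraph V, ∀ x y, H.Adj x y ↔
      ((G.1.Adj x y ∧ s(x, y) ≠ s(a, b) ∧ s(x, y) ≠ s(c, e)) ∨ s(x, y) = s(a, c) ∨
        s(x, y) = s(b, e)) := ⟨
    { Adj := fun x y => (G.1.Adj x y ∧ s(x, y) ≠ s(a, b) ∧ s(x, y) ≠ s(c, e)) ∨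
        s(x, y) = s(a, c) ∨ s(x, y) = s(b, e)
      symm := ⟨fun x y h => by
        rw [Sym2.eq_swap (a := y) (b := x)]
        rcases h with ⟨h, h'⟩ | h
        · exact Or.inl ⟨h.symm, h'⟩
        · exact Or.inr h⟩
      loopless := ⟨fun x h => by
        rcases h with ⟨h, -⟩ | h | h
        · exact G.1.loopless.irrefl x h
        · rw [Sym2.eq_iff] at h
          rcases h with ⟨h5, h6⟩ | ⟨h5, h6⟩
          · exact hac (h5.symm.trans h6)
          · exact hac (h6.symm.trans h5)
        · rw [Sym2.eq_iff] at h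
          rcases h with ⟨h5, h6⟩ | ⟨h5, h6⟩
          · exact hbe (h5.symm.trans h6)
          · exact hbe (h6.symm.trans h5)⟩ }, fun _ _ => Iff.rfl⟩
  have hadj : ∀ x y p q, s(x, y) = s(p, q) → (G.1.Adj x y ↔ G.1.Adj p q) := by
    intro x y p q h
    rw [← SimpleGraph.mem_edgeSet, ← SimpleGraph.mem_edgeSet, h]
  have hsum : ∀ x, ∑ y, (if H.Adj x y then (1 : ℤ) else 0) = d x := by
    intro x
    have hpt : ∀ y, (if H.Adj x y then (1 : ℤ) else 0) =
        (if G.1.Adj x y then 1 else 0) - (if s(x, y) = s(a, b) then 1 else 0)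
          - (if s(x, y) = s(c, e) then 1 else 0) + (if s(x, y) = s(a, c) then 1 else 0)
          + (if s(x, y) = s(b, e) then 1 else 0) := by
      intro y
      refine ind_identity_aux _ (G.1.Adj x y) _ _ _ _ (hH x y) ?_ ?_ ?_ ?_ ?_ ?_
      · intro h; exact (hadj x y a b h).2 h1
      · intro h; exact (hadj x y c e h).2 h2
      · intro h h'; exact h3 ((hadj x y a c h).1 h')
      · intro h h'; exact h4 ((hadj x y b e h).1 h')
      · intro h h'
        rw [h, Sym2.eq_iff] at h'
        rcases h' with ⟨h5, -⟩ | ⟨h5, -⟩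
        · exact hac h5
        · exact hae h5
      · intro h h'
        rw [h, Sym2.eq_iff] at h'
        rcases h' with ⟨h5, -⟩ | ⟨h5, -⟩
        · exact hab h5
        · exact hae h5
    rw [Finset.sum_congr rfl (fun y _ => hpt y)]
    simp only [Finset.sum_add_distrib, Finset.sum_sub_distrib]
    rw [sum_ind_sym2_aux x a b hab, sum_ind_sym2_aux x c e hce, sum_ind_sym2_aux x a c hac,
      sum_ind_sym2_aux x b e hbe, Om.sum_ind G x]
    ring
  obtain ⟨G', hG'⟩ := Om.exists_of_sum_ind (d := d) H hsum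
  refine ⟨G', fun x y => ?_⟩
  rw [hG']
  exact hH x y

end Vale.Agent.P335
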