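import Vale.Agent.P335.Defs
import Vale.Agent.P335.AvgBasic

/-!
# P335: blocks of cells, keys and block averaging operators on `Om d`
-/

namespace Vale.Agent.P335

open Finset

set_option linter.unusedSectionVars false

variable {V : Type*} [Fintype V] [DecidableEq V]

/-- The block of all cells (potential edges) joining `X` to `Y`. -/
def blk (X Y : Finset V) : SimpleGraph V where
  Adj x y := x ≠ y ∧ ((x ∈ X ∧ y ∈ Y) ∨ (y ∈ X ∧ x ∈ Y))
  symm := ⟨fun _ _ h => ⟨h.1.symm, h.2.symm⟩⟩
  loopless := ⟨fun _ h => h.1 rfl⟩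

theorem blk_adj (X Y : Finset V) (x y : V) :
    (blk X Y).Adj x y ↔ x ≠ y ∧ ((x ∈ X ∧ y ∈ Y) ∨ (y ∈ X ∧ x ∈ Y)) := Iff.rfl

/-- The part of the graph outside the block `H`. -/
def key {d : V → ℕ} (H : SimpleGraph V) (G : Om d) : SimpleGraph V := G.1 \ H

/-- Block averaging: resample the cells of `H` given all other cells. -/
noncomputable def EB {d : V → ℕ} (H : SimpleGraph V) (F : Om d → ℝ) : Om d → ℝ := avg (key H) F

/-- All two-element vertex sets. -/
def pairs (V : Type*) [Fintype V] [DecidableEq V] : Finset (Finset V) :=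
  (univ : Finset V).powersetCard 2

/-- `Eb b`: conditional expectation given the graph induced on the complement of `b`. -/
noncomputable def Eb {d : V → ℕ} (b : Finset V) (F : Om d → ℝ) : Om d → ℝ := EB (blk b univ) F

/-- `Qb b = 1 - Eb b`. -/
noncomputable def Qb {d : V → ℕ} (b : Finset V) (F : Om d → ℝ) : Om d → ℝ := F - Eb b F

/-- `qq b b' = 1 - E_{b × b'}`. -/
noncomputable def qq {d : V → ℕ} (b b' : Finset V) (F : Om d → ℝ) : Om d → ℝ :=
  F - EB (blk b b') F

/-- `Zb b b' = E_{b × (b ∪ b')ᶜ} E_{b × b'} - E_b`. -/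
noncomputable def Zb {d : V → ℕ} (b b' : Finset V) (F : Om d → ℝ) : Om d → ℝ :=
  EB (blk b (b ∪ b')ᶜ) (EB (blk b b') F) - Eb b F

open Classical in
/-- States whose `b × b'` block can be changed (the block is switchable). -/
noncomputable def swC {d : V → ℕ} (b b' : Finset V) : Finset (Om d) :=
  univ.filter (fun G => ∃ G' : Om d, G' ≠ G ∧ key (blk b b') G' = key (blk b b') G)

open Classical in
/-- Number of edges of `G` between `b` and `b'` (for disjoint `b`, `b'`). -/
noncomputable def cnt {d : V → ℕ} (b b' : Finset V) (G : Om d) : ℕ :=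
  ∑ x ∈ b, (b'.filter (fun y => G.1.Adj x y)).card

open Classical in
/-- States whose `b × b'` block does not contain exactly two edges. -/
noncomputable def swO {d : V → ℕ} (b b' : Finset V) : Finset (Om d) :=
  univ.filter (fun G => cnt b b' G ≠ 2)

end Vale.Agent.P335
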