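import Mathlib

/-!
# P335: Poincare inequality on the two-element subsets of a finite set (Johnson graph J(t,2))
-/

namespace Vale.Agent.P335

open Finset

variable {α : Type*} [DecidableEq α]

theorem sj_filter_mem (D : Finset α) (w : α) (hw : w ∈ D) :
    (powersetCard 2 D).filter (fun e => w ∈ e) = (D.erase w).image (fun z => ({w, z} : Finset α)) := by
  ext e
  simp only [mem_filter, mem_powersetCard, mem_image, mem_erase]
  constructor
  · rintro ⟨⟨hsub, hcard⟩, hwe⟩
    obtain ⟨x, y, hxy, rfl⟩ := Finset.card_eq_two.1 hcard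
    simp only [mem_insert, mem_singleton] at hwe
    rcases hwe with rfl | rfl
    · exact ⟨y, ⟨hxy.symm, hsub (by simp)⟩, rfl⟩
    · exact ⟨x, ⟨hxy, hsub (by simp)⟩, Finset.pair_comm _ _⟩
  · rintro ⟨z, ⟨hzw, hzD⟩, rfl⟩
    refine ⟨⟨?_, Finset.card_pair (Ne.symm hzw)⟩, by simp⟩
    intro x hx
    simp only [mem_insert, mem_singleton] at hx
    rcases hx with rfl | rfl <;> assumption

theorem sj_pair_inj (w : α) {z z' : α} (hz : z ≠ w) (h : ({w, z} : Finset α) = {w, z'}) :
    z = z' := by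
  have : z ∈ ({w, z'} : Finset α) := by rw [← h]; simp
  simp only [mem_insert, mem_singleton] at this
  rcases this with h1 | h1
  · exact absurd h1 hz
  · exact h1

/-- sums over (pair, element of the pair) -/
theorem sj_sum_flag (D : Finset α) (K : Finset α → α → ℝ) :
    ∑ e ∈ powersetCard 2 D, ∑ w ∈ e, K e w = ∑ w ∈ D, ∑ z ∈ D.erase w, K {w, z} w := by
  rw [Finset.sum_comm' (s' := fun w => (powersetCard 2 D).filter (fun e => w ∈ e)) (t' := D)]
  · refine Finset.sum_congr rfl fun w hw => ?_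
    rw [sj_filter_mem D w hw, Finset.sum_image]
    intro z hz z' _ h
    exact sj_pair_inj w (Finset.ne_of_mem_erase hz) h
  · intro e w
    simp only [mem_filter, mem_powersetCard]
    constructor
    · rintro ⟨⟨h1, h2⟩, h3⟩
      exact ⟨⟨⟨h1, h2⟩, h3⟩, h1 h3⟩
    · rintro ⟨⟨⟨h1, h2⟩, h3⟩, _⟩
      exact ⟨⟨h1, h2⟩, h3⟩

theorem sj_sum_pairs (D : Finset α) (H : Finset α → ℝ) :
    ∑ w ∈ D, ∑ z ∈ D.erase w, H {w, z} = 2 * ∑ e ∈ powersetCard 2 D, H e := by
  rw [← sj_sum_flag D (fun e _ => H e), Finset.mul_sum]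
  refine Finset.sum_congr rfl fun e he => ?_
  rw [Finset.sum_const, (mem_powersetCard.1 he).2]
  simp

theorem sj_adj (D e : Finset α) (he : e ∈ powersetCard 2 D) :
    (powersetCard 2 D).filter (fun e' => (e ∩ e').card = 1)
      = (e ×ˢ (D \ e)).image (fun p => ({p.1, p.2} : Finset α)) := by
  obtain ⟨heD, hecard⟩ := mem_powersetCard.1 he
  ext e'
  simp only [mem_filter, mem_powersetCard, mem_image, mem_product, mem_sdiff, Prod.exists]
  constructor
  · rintro ⟨⟨hsub, hcard⟩, hint⟩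
    obtain ⟨w, hw⟩ := Finset.card_eq_one.1 hint
    have hwmem : w ∈ e ∩ e' := by rw [hw]; simp
    obtain ⟨hwe, hwe'⟩ := mem_inter.1 hwmem
    obtain ⟨x, y, hxy, rfl⟩ := Finset.card_eq_two.1 hcard
    simp only [mem_insert, mem_singleton] at hwe'
    rcases hwe' with rfl | rfl
    · refine ⟨w, y, ⟨hwe, hsub (by simp), ?_⟩, rfl⟩
      intro hye
      have : y ∈ e ∩ {w, y} := mem_inter.2 ⟨hye, by simp⟩
      rw [hw] at this
      exact hxy (mem_singleton.1 this).symm
    · refine ⟨w, x, ⟨hwe, hsub (by simp), ?_⟩, Finset.pair_comm _ _⟩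
      intro hxe
      have : x ∈ e ∩ {x, w} := mem_inter.2 ⟨hxe, by simp⟩
      rw [hw] at this
      exact hxy (mem_singleton.1 this)
  · rintro ⟨w, z, ⟨hwe, hzD, hze⟩, rfl⟩
    have hwz : w ≠ z := fun h => hze (h ▸ hwe)
    refine ⟨⟨?_, Finset.card_pair hwz⟩, ?_⟩
    · intro x hx
      simp only [mem_insert, mem_singleton] at hx
      rcases hx with rfl | rfl
      · exact heD hwe
      · exact hzD
    · rw [Finset.card_eq_one]
      refine ⟨w, ?_⟩
      ext x
      simp only [mem_inter, mem_insert, mem_singleton]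
      constructor
      · rintro ⟨hxe, rfl | rfl⟩
        · rfl
        · exact absurd hxe hze
      · rintro rfl
        exact ⟨hwe, Or.inl rfl⟩

theorem sj_sum_adj (D e : Finset α) (he : e ∈ powersetCard 2 D) (G : Finset α → ℝ) :
    ∑ e' ∈ (powersetCard 2 D).filter (fun e' => (e ∩ e').card = 1), G e'
      = ∑ w ∈ e, ∑ z' ∈ D \ e, G {w, z'} := by
  rw [sj_adj D e he, Finset.sum_image, Finset.sum_product]
  rintro ⟨w, z⟩ h1 ⟨w', z'⟩ h2 h
  simp only [coe_product, Set.mem_prod, mem_coe, mem_sdiff] at h1 h2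
  simp only at h
  have a1 : w ∈ ({w', z'} : Finset α) := by rw [← h]; simp
  have a2 : z ∈ ({w', z'} : Finset α) := by rw [← h]; simp
  simp only [mem_insert, mem_singleton] at a1 a2
  have b1 : w = w' := by
    rcases a1 with h3 | h3
    · exact h3
    · exact absurd (h3 ▸ h1.1) h2.2.2
  have b2 : z = z' := by
    rcases a2 with h3 | h3
    · exact absurd (h3 ▸ h2.1) h1.2.2
    · exact h3
  rw [b1, b2]

/-- sums over ordered adjacent pairs as sums over ordered triples -/
theorem sj_sum_triples (D : Finset α) (G : Finset α → Finset α → ℝ) :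
    ∑ e ∈ powersetCard 2 D, ∑ e' ∈ (powersetCard 2 D).filter (fun e' => (e ∩ e').card = 1), G e e'
      = ∑ w ∈ D, ∑ z ∈ D.erase w, ∑ z' ∈ D \ {w, z}, G {w, z} {w, z'} := by
  rw [← sj_sum_flag D (fun e w => ∑ z' ∈ D \ e, G e {w, z'})]
  exact Finset.sum_congr rfl fun e he => sj_sum_adj D e he (G e)
theorem sj_symmDiff {w z z' : α} (h1 : z ≠ w) (h2 : z' ≠ w) (h3 : z' ≠ z) :
    symmDiff ({w, z} : Finset α) {w, z'} = {z, z'} := by
  ext x
  simp only [mem_symmDiff, mem_insert, mem_singleton]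
  constructor
  · rintro (⟨h | h, h'⟩ | ⟨h | h, h'⟩)
    · exact absurd (Or.inl h) h'
    · exact Or.inl h
    · exact absurd (Or.inl h) h'
    · exact Or.inr h
  · rintro (rfl | rfl)
    · left
      refine ⟨Or.inr rfl, ?_⟩
      rintro (h | h)
      · exact h1 h
      · exact h3 h.symm
    · right
      refine ⟨Or.inr rfl, ?_⟩
      rintro (h | h)
      · exact h2 h
      · exact h3 h

theorem sj_swap (D : Finset α) (f : α → α → ℝ) :
    ∑ w ∈ D, ∑ z ∈ D.erase w, f w z = ∑ z ∈ D, ∑ w ∈ D.erase z, f w z := by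
  refine Finset.sum_comm' ?_
  intro w z
  simp only [mem_erase]
  constructor
  · rintro ⟨h1, h2, h3⟩
    exact ⟨⟨h2.symm, h1⟩, h3⟩
  · rintro ⟨⟨h1, h2⟩, h3⟩
    exact ⟨h2, h1.symm, h3⟩

theorem sj_card_sdiff_pair (D : Finset α) {a b : α} (ha : a ∈ D) (hb : b ∈ D) (hab : a ≠ b) :
    ((D \ {a, b}).card : ℝ) = (D.card : ℝ) - 2 := by
  have hsub : ({a, b} : Finset α) ⊆ D := by
    intro x hx
    simp only [mem_insert, mem_singleton] at hx
    rcases hx with rfl | rfl <;> assumption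
  have h1 := Finset.card_sdiff_add_card_eq_card hsub
  rw [Finset.card_pair hab] at h1
  have : ((D \ {a, b}).card : ℝ) + 2 = (D.card : ℝ) := by exact_mod_cast h1
  linarith

/-- every two-element subset `e''` of `D` is the symmetric difference of exactly `2 (t - 2)` ordered
adjacent pairs -/
theorem sum_adjacent_symmDiff (D : Finset α) (h : Finset α → ℝ) :
    ∑ e ∈ powersetCard 2 D, ∑ e' ∈ (powersetCard 2 D).filter (fun e' => (e ∩ e').card = 1),
        h (symmDiff e e') =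
      2 * ((D.card : ℝ) - 2) * ∑ e ∈ powersetCard 2 D, h e := by
  rw [sj_sum_triples D (fun e e' => h (symmDiff e e')), sj_swap]
  have key : ∀ z ∈ D, ∑ w ∈ D.erase z, ∑ z' ∈ D \ {w, z}, h (symmDiff {w, z} {w, z'})
      = ∑ z' ∈ D.erase z, ((D.card : ℝ) - 2) * h {z, z'} := by
    intro z hz
    have h1 : ∑ w ∈ D.erase z, ∑ z' ∈ D \ {w, z}, h (symmDiff {w, z} {w, z'})
        = ∑ w ∈ D.erase z, ∑ z' ∈ D \ {w, z}, h {z, z'} := by
      refine Finset.sum_congr rfl fun w hw => Finset.sum_congr rfl fun z' hz' => ?_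
      simp only [mem_sdiff, mem_insert, mem_singleton, not_or] at hz'
      rw [sj_symmDiff (Finset.ne_of_mem_erase hw).symm hz'.2.1 hz'.2.2]
    rw [h1, Finset.sum_comm' (s' := fun z' => D \ {z', z}) (t' := D.erase z)]
    · refine Finset.sum_congr rfl fun z' hz' => ?_
      rw [Finset.sum_const, nsmul_eq_mul,
        sj_card_sdiff_pair D (Finset.mem_of_mem_erase hz') hz (Finset.ne_of_mem_erase hz')]
    · intro w z'
      simp only [mem_erase, mem_sdiff, mem_insert, mem_singleton, not_or]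
      constructor
      · rintro ⟨⟨a1, a2⟩, a3, a4, a5⟩
        exact ⟨⟨a2, fun hh => a4 hh.symm, a1⟩, a5, a3⟩
      · rintro ⟨⟨a1, a2, a3⟩, a4, a5⟩
        exact ⟨⟨a3, a1⟩, a5, fun hh => a2 hh.symm, a4⟩
  rw [Finset.sum_congr rfl key]
  simp only [← Finset.mul_sum]
  rw [sj_sum_pairs D h]
  ring
theorem sj_sdiff_pair (D : Finset α) (w z : α) : D \ {w, z} = (D.erase w).erase z := by
  ext x
  simp only [mem_sdiff, mem_insert, mem_singleton, not_or, mem_erase]
  tauto

theorem sj_double_sq {β : Type*} (E : Finset β) (a : β → ℝ) :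
    ∑ z ∈ E, ∑ z' ∈ E, (a z - a z') ^ 2
      = 2 * (E.card : ℝ) * ∑ z ∈ E, a z ^ 2 - 2 * (∑ z ∈ E, a z) ^ 2 := by
  have h1 : ∀ z ∈ E, ∑ z' ∈ E, (a z - a z') ^ 2
      = (E.card : ℝ) * a z ^ 2 - 2 * a z * (∑ z' ∈ E, a z') + ∑ z' ∈ E, a z' ^ 2 := by
    intro z _
    have : ∀ z' ∈ E, (a z - a z') ^ 2 = a z ^ 2 - 2 * a z * a z' + a z' ^ 2 := fun z' _ => by ring
    rw [Finset.sum_congr rfl this, Finset.sum_add_distrib, Finset.sum_sub_distrib,
      Finset.sum_const, nsmul_eq_mul, ← Finset.mul_sum]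
  rw [Finset.sum_congr rfl h1, Finset.sum_add_distrib, Finset.sum_sub_distrib, ← Finset.mul_sum,
    Finset.sum_const, nsmul_eq_mul, ← Finset.sum_mul, ← Finset.mul_sum]
  ring

/-- the ordered form of the inequality -/
theorem sj_ordered (D : Finset α) (C : α → α → ℝ) (hsymm : ∀ w z, C w z = C z w)
    (h0 : ∑ w ∈ D, ∑ z ∈ D.erase w, C w z = 0) (ht : 3 ≤ D.card) :
    (D.card : ℝ) * ∑ w ∈ D, ∑ z ∈ D.erase w, C w z ^ 2 ≤
      ∑ w ∈ D, ∑ z ∈ D.erase w, ∑ z' ∈ D \ {w, z}, (C w z - C w z') ^ 2 := by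
  set t : ℝ := (D.card : ℝ) with htdef
  have ht3 : (3 : ℝ) ≤ t := by rw [htdef]; exact_mod_cast ht
  set s : α → ℝ := fun w => ∑ z ∈ D.erase w, C w z with hs
  set q : α → ℝ := fun w => ∑ z ∈ D.erase w, C w z ^ 2 with hq
  set S2 : ℝ := ∑ w ∈ D, s w ^ 2 with hS2
  set QQ : ℝ := ∑ w ∈ D, q w with hQQ
  have hs0 : ∑ w ∈ D, s w = 0 := h0
  -- the right side
  have hR : ∑ w ∈ D, ∑ z ∈ D.erase w, ∑ z' ∈ D \ {w, z}, (C w z - C w z') ^ 2
      = 2 * (t - 1) * QQ - 2 * S2 := by
    have h1 : ∀ w ∈ D, ∑ z ∈ D.erase w, ∑ z' ∈ D \ {w, z}, (C w z - C w z') ^ 2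
        = 2 * (t - 1) * q w - 2 * s w ^ 2 := by
      intro w hw
      have h2 : ∀ z ∈ D.erase w, ∑ z' ∈ D \ {w, z}, (C w z - C w z') ^ 2
          = ∑ z' ∈ D.erase w, (C w z - C w z') ^ 2 := by
        intro z _
        rw [sj_sdiff_pair, Finset.sum_erase]
        simp
      rw [Finset.sum_congr rfl h2, sj_double_sq (D.erase w) (fun z => C w z)]
      have hc : ((D.erase w).card : ℝ) = t - 1 := by
        rw [Finset.card_erase_of_mem hw, Nat.cast_sub (by omega)]
        simp [htdef]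
      rw [hc]
    rw [Finset.sum_congr rfl h1, Finset.sum_sub_distrib, ← Finset.mul_sum, ← Finset.mul_sum]
  -- the square
  have hsq : 0 ≤ ∑ w ∈ D, ∑ z ∈ D.erase w, ((t - 2) * C w z - (s w + s z)) ^ 2 :=
    Finset.sum_nonneg fun w _ => Finset.sum_nonneg fun z _ => sq_nonneg _
  have e1 : ∑ w ∈ D, ∑ z ∈ D.erase w, C w z * s w = S2 := by
    refine Finset.sum_congr rfl fun w _ => ?_
    rw [← Finset.sum_mul]
    ring
  have e2 : ∑ w ∈ D, ∑ z ∈ D.erase w, C w z * s z = S2 := by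
    rw [sj_swap]
    refine Finset.sum_congr rfl fun z _ => ?_
    rw [← Finset.sum_mul]
    have : ∑ w ∈ D.erase z, C w z = s z :=
      Finset.sum_congr rfl fun w _ => hsymm w z
    rw [this]
    ring
  have e3 : ∑ w ∈ D, ∑ z ∈ D.erase w, (s w + s z) ^ 2 = (2 * t - 4) * S2 := by
    have h1 : ∀ w ∈ D, ∑ z ∈ D.erase w, (s w + s z) ^ 2
        = (t - 4) * s w ^ 2 + S2 := by
      intro w hw
      rw [Finset.sum_erase_eq_sub hw]
      have : ∀ z ∈ D, (s w + s z) ^ 2 = s w ^ 2 + 2 * s w * s z + s z ^ 2 := fun z _ => by ring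
      rw [Finset.sum_congr rfl this, Finset.sum_add_distrib, Finset.sum_add_distrib,
        Finset.sum_const, nsmul_eq_mul, ← Finset.mul_sum, hs0]
      ring
    rw [Finset.sum_congr rfl h1, Finset.sum_add_distrib, ← Finset.mul_sum, Finset.sum_const,
      nsmul_eq_mul]
    ring
  have hexp : ∑ w ∈ D, ∑ z ∈ D.erase w, ((t - 2) * C w z - (s w + s z)) ^ 2
      = (t - 2) * ((t - 2) * QQ - 2 * S2) := by
    have h1 : ∀ w ∈ D, ∀ z ∈ D.erase w, ((t - 2) * C w z - (s w + s z)) ^ 2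
        = (t - 2) ^ 2 * C w z ^ 2 - 2 * (t - 2) * (C w z * s w) - 2 * (t - 2) * (C w z * s z)
          + (s w + s z) ^ 2 := fun w _ z _ => by ring
    rw [Finset.sum_congr rfl fun w hw => Finset.sum_congr rfl (h1 w hw)]
    simp only [Finset.sum_add_distrib, Finset.sum_sub_distrib, ← Finset.mul_sum]
    rw [e1, e2, e3]
    ring
  rw [hexp] at hsq
  have hpos : 0 < t - 2 := by linarith
  have hfin : 0 ≤ (t - 2) * QQ - 2 * S2 := by
    by_contra hneg
    push Not at hneg
    have := mul_neg_of_pos_of_neg hpos hneg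
    linarith
  rw [hR]
  linarith

/-- For `c` with zero sum, `t ∑_e c_e² ≤ ∑_{unordered adjacent pairs} (c_e - c_e')²`;
here the right side is written with ordered pairs `(e, e')`, `|e ∩ e'| = 1`, hence the factor 2. -/
theorem johnson2_poincare (D : Finset α) (c : Finset α → ℝ)
    (hc : ∑ e ∈ powersetCard 2 D, c e = 0) :
    2 * (D.card : ℝ) * ∑ e ∈ powersetCard 2 D, c e ^ 2 ≤
      ∑ e ∈ powersetCard 2 D, ∑ e' ∈ (powersetCard 2 D).filter (fun e' => (e ∩ e').card = 1),
        (c e - c e') ^ 2 := by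
  by_cases ht : 3 ≤ D.card
  · rw [sj_sum_triples D (fun e e' => (c e - c e') ^ 2)]
    have h := sj_ordered D (fun w z => c {w, z}) (fun w z => by rw [Finset.pair_comm])
      (by rw [sj_sum_pairs D c, hc, mul_zero]) ht
    rw [sj_sum_pairs D (fun e => c e ^ 2)] at h
    linarith
  · have hcard : (powersetCard 2 D).card ≤ 1 := by
      rw [Finset.card_powersetCard]
      have : D.card ≤ 2 := by omega
      interval_cases D.card <;> simp
    have hz : ∀ e ∈ powersetCard 2 D, c e = 0 := by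
      intro e he
      have h1 := Finset.card_le_one.1 hcard
      rw [Finset.sum_eq_single_of_mem e he (fun b hb hne => absurd (h1 b hb e he) hne)] at hc
      exact hc
    have hl : ∑ e ∈ powersetCard 2 D, c e ^ 2 = 0 :=
      Finset.sum_eq_zero fun e he => by rw [hz e he]; ring
    rw [hl, mul_zero]
    exact Finset.sum_nonneg fun e _ => Finset.sum_nonneg fun e' _ => sq_nonneg _

end Vale.Agent.P335
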