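import Vale.Agent.P335.SubsetJAux
import Vale.Agent.P335.SubsetJohnson

/-!
# P335: the inequality (J) on the k-subsets of D
-/

namespace Vale.Agent.P335

open Finset

variable {α : Type*} [DecidableEq α]

/-- explicit form of (J) -/
theorem j_explicit (D : Finset α) (k : ℕ) (g : Finset α → ℝ) :
    ∑ e ∈ powersetCard 2 D, ((CS (powersetCard k D) e).card : ℝ) *
        ((∑ W' ∈ CS (powersetCard k D) e, g W') / ((CS (powersetCard k D) e).card : ℝ)
          - (∑ W' ∈ powersetCard k D, g W') / ((powersetCard k D).card : ℝ)) ^ 2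
      ≤ (1 / 4 : ℝ) * ∑ e ∈ powersetCard 2 D, ∑ W ∈ powersetCard k D, (g W - g (tog e W)) ^ 2 := by
  obtain ⟨m, hm⟩ : ∃ m : ℝ, m = (∑ W' ∈ powersetCard k D, g W') / ((powersetCard k D).card : ℝ) :=
    ⟨_, rfl⟩
  rw [← hm]
  obtain ⟨R, hR⟩ : ∃ R : ℝ,
      R = ∑ e ∈ powersetCard 2 D, ∑ W ∈ powersetCard k D, (g W - g (tog e W)) ^ 2 := ⟨_, rfl⟩
  rw [← hR]
  have hR0 : 0 ≤ R := by
    rw [hR]
    exact Finset.sum_nonneg fun e _ => Finset.sum_nonneg fun W _ => sq_nonneg _
  rcases (powersetCard 2 D).eq_empty_or_nonempty with hP | ⟨e0, he0⟩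
  · rw [hP, Finset.sum_empty]
    positivity
  obtain ⟨x, hx⟩ : ∃ x : ℕ, x = (CS (powersetCard k D) e0).card := ⟨_, rfl⟩
  have hxe : ∀ e ∈ powersetCard 2 D, (CS (powersetCard k D) e).card = x := by
    intro e he
    rw [hx]
    exact CS_card_eq D k e e0 he he0
  have ht2 : 2 ≤ D.card := by
    have h1 := Finset.mem_powersetCard.1 he0
    rw [← h1.2]
    exact Finset.card_le_card h1.1
  have ht2' : (2 : ℝ) ≤ (D.card : ℝ) := by exact_mod_cast ht2
  rcases Nat.eq_zero_or_pos x with hx0 | hxpos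
  · have hz : ∑ e ∈ powersetCard 2 D, ((CS (powersetCard k D) e).card : ℝ) *
        ((∑ W' ∈ CS (powersetCard k D) e, g W') / ((CS (powersetCard k D) e).card : ℝ) - m) ^ 2
        = 0 := by
      refine Finset.sum_eq_zero fun e he => ?_
      rw [hxe e he, hx0]
      simp
    rw [hz]
    positivity
  have hxpos' : (0 : ℝ) < (x : ℝ) := by exact_mod_cast hxpos
  -- the centred function
  obtain ⟨h, hh⟩ : ∃ h : Finset α → ℝ, h = fun W => g W - m := ⟨_, rfl⟩
  have hcentred : ∑ W ∈ powersetCard k D, h W = 0 := by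
    rw [hh, Finset.sum_sub_distrib, Finset.sum_const, nsmul_eq_mul, hm]
    by_cases hU : ((powersetCard k D).card : ℝ) = 0
    · have hU' : (powersetCard k D).card = 0 := by exact_mod_cast hU
      rw [Finset.card_eq_zero] at hU'
      rw [hU']
      simp
    · field_simp
      ring
  obtain ⟨C, hC⟩ : ∃ C : Finset α → ℝ, C = fun e => ∑ W ∈ CS (powersetCard k D) e, h W :=
    ⟨_, rfl⟩
  have hCsum : ∑ e ∈ powersetCard 2 D, C e = 0 := by
    rw [hC]
    exact sum_CS_centred D k h hcentred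
  have hterm : ∀ e ∈ powersetCard 2 D, ((CS (powersetCard k D) e).card : ℝ) *
        ((∑ W' ∈ CS (powersetCard k D) e, g W') / ((CS (powersetCard k D) e).card : ℝ) - m) ^ 2
        = C e ^ 2 / x := by
    intro e he
    have hCe : C e = ∑ W' ∈ CS (powersetCard k D) e, g W' - x * m := by
      rw [hC, hh]
      simp only
      rw [Finset.sum_sub_distrib, Finset.sum_const, nsmul_eq_mul, hxe e he]
    rw [hCe, hxe e he]
    field_simp
  rw [Finset.sum_congr rfl hterm, ← Finset.sum_div]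
  have hJ := johnson2_poincare D C hCsum
  have hdiff : ∀ e W, h W - h (tog e W) = g W - g (tog e W) := by
    intro e W
    rw [hh]
    ring
  obtain ⟨H, hH⟩ : ∃ H : Finset α → ℝ, H = fun e'' =>
      (1 / 4 : ℝ) * ((CS (powersetCard k D) e'').card : ℝ) *
            ∑ W ∈ powersetCard k D, (g W - g (tog e'' W)) ^ 2 := ⟨_, rfl⟩
  have hbound : ∑ e ∈ powersetCard 2 D,
      ∑ e' ∈ (powersetCard 2 D).filter (fun e' => (e ∩ e').card = 1), (C e - C e') ^ 2
      ≤ ∑ e ∈ powersetCard 2 D,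
        ∑ e' ∈ (powersetCard 2 D).filter (fun e' => (e ∩ e').card = 1), H (symmDiff e e') := by
    refine Finset.sum_le_sum fun e he => Finset.sum_le_sum fun e' he' => ?_
    rw [Finset.mem_filter] at he'
    have h1 := CS_diff_sq_le D k e e' he he'.1 he'.2 h
    simp only [hdiff] at h1
    rw [hC, hH]
    exact h1
  rw [sum_adjacent_symmDiff D H] at hbound
  have hsumx : ∑ e ∈ powersetCard 2 D, H e = (1 / 4 : ℝ) * x * R := by
    rw [hR, Finset.mul_sum, hH]
    refine Finset.sum_congr rfl fun e he => ?_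
    simp only
    rw [hxe e he]
  rw [hsumx] at hbound
  have hfin := hJ.trans hbound
  obtain ⟨S, hS⟩ : ∃ S : ℝ, S = ∑ e ∈ powersetCard 2 D, C e ^ 2 := ⟨_, rfl⟩
  rw [← hS] at hfin ⊢
  rw [div_le_iff₀ hxpos']
  have hxR : 0 ≤ (x : ℝ) * R := mul_nonneg hxpos'.le hR0
  have htpos : (0 : ℝ) < (D.card : ℝ) := by linarith
  have h3 : (D.card : ℝ) * S ≤ (D.card : ℝ) * (1 / 4 * R * x) := by nlinarith
  exact le_of_mul_le_mul_left h3 htpos

theorem j_sub (D : Finset α) (k : ℕ) (g : Finset α → ℝ) :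
    ∑ e ∈ powersetCard 2 D, ∑ W ∈ CS (powersetCard k D) e, (ZS (powersetCard k D) e g W) ^ 2
      ≤ ∑ e ∈ powersetCard 2 D, ∑ W ∈ powersetCard k D, (qS (powersetCard k D) e g W) ^ 2 := by
  have hL : ∑ e ∈ powersetCard 2 D, ∑ W ∈ CS (powersetCard k D) e,
      (ZS (powersetCard k D) e g W) ^ 2
      = ∑ e ∈ powersetCard 2 D, ((CS (powersetCard k D) e).card : ℝ) *
        ((∑ W' ∈ CS (powersetCard k D) e, g W') / ((CS (powersetCard k D) e).card : ℝ)
          - (∑ W' ∈ powersetCard k D, g W') / ((powersetCard k D).card : ℝ)) ^ 2 := by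
    refine Finset.sum_congr rfl fun e he => ?_
    rw [Finset.sum_congr rfl fun W hW => by rw [ZS_eq D k e he g W hW]]
    rw [Finset.sum_const, nsmul_eq_mul]
  have hRr : ∑ e ∈ powersetCard 2 D, ∑ W ∈ powersetCard k D, (qS (powersetCard k D) e g W) ^ 2
      = (1 / 4 : ℝ) * ∑ e ∈ powersetCard 2 D, ∑ W ∈ powersetCard k D,
          (g W - g (tog e W)) ^ 2 := by
    rw [Finset.mul_sum]
    refine Finset.sum_congr rfl fun e he => ?_
    rw [Finset.mul_sum]
    refine Finset.sum_congr rfl fun W hW => ?_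
    rw [qS_eq D k e he g W hW]
    ring
  rw [hL, hRr]
  exact j_explicit D k g

end Vale.Agent.P335
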