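import Vale.Agent.P335.TwoRowTransfer
import Vale.Agent.P335.SubsetJ

/-!
# P335: inequality (J) for the graph operators
-/

namespace Vale.Agent.P335

open Finset

set_option linter.unusedSectionVars false

variable {V : Type*} [Fintype V] [DecidableEq V] {d : V → ℕ}

/-- the model inequality, summed over a family `B` of two-element sets containing all the
two-element subsets of `D` -/
theorem j_model_jg (D : Finset V) (k : ℕ) (g : Finset V → ℝ) (B : Finset (Finset V))
    (hB2 : ∀ e ∈ B, e.card = 2) (hsub : powersetCard 2 D ⊆ B) :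
    ∑ e ∈ B, ∑ W ∈ CS (powersetCard k D) e, (ZS (powersetCard k D) e g W) ^ 2
      ≤ ∑ e ∈ B, ∑ W ∈ powersetCard k D, (qS (powersetCard k D) e g W) ^ 2 := by
  have h1 : ∑ e ∈ B, ∑ W ∈ CS (powersetCard k D) e, (ZS (powersetCard k D) e g W) ^ 2
      = ∑ e ∈ powersetCard 2 D, ∑ W ∈ CS (powersetCard k D) e,
          (ZS (powersetCard k D) e g W) ^ 2 := by
    symm
    refine Finset.sum_subset hsub ?_
    intro e he hne
    have hnsub : ¬ e ⊆ D := by
      intro hs
      exact hne (Finset.mem_powersetCard.2 ⟨hs, hB2 e he⟩)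
    rw [CS_eq_empty D k e (hB2 e he) hnsub, Finset.sum_empty]
  rw [h1]
  refine (j_sub D k g).trans ?_
  exact Finset.sum_le_sum_of_subset_of_nonneg hsub
    (fun e _ _ => Finset.sum_nonneg fun W _ => sq_nonneg _)

/-- inequality (J) for the graph operators -/
theorem j_graph (b : Finset V) (hb : b ∈ pairs V) (F : Om d → ℝ) :
    ∑ b' ∈ (pairs V).filter (fun b' => Disjoint b b'), ∑ G ∈ swC b b', (Zb b b' F G) ^ 2 ≤
      ∑ b' ∈ (pairs V).filter (fun b' => Disjoint b b'), ip (qq b b' F) (qq b b' F) := by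
  obtain ⟨u, v, huv, rfl⟩ := Finset.card_eq_two.1 (Finset.mem_powersetCard.1 hb).2
  obtain ⟨B, hB⟩ : ∃ B, B = (pairs V).filter (fun b' => Disjoint {u, v} b') := ⟨_, rfl⟩
  rw [← hB]
  have hBmem : ∀ e, e ∈ B ↔ e.card = 2 ∧ Disjoint {u, v} e := by
    intro e
    rw [hB, Finset.mem_filter, pairs, Finset.mem_powersetCard]
    constructor
    · rintro ⟨⟨_, h1⟩, h2⟩; exact ⟨h1, h2⟩
    · rintro ⟨h1, h2⟩; exact ⟨⟨Finset.subset_univ _, h1⟩, h2⟩
  classical
  have hL : ∑ b' ∈ B, ∑ G ∈ swC {u, v} b', (Zb {u, v} b' F G) ^ 2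
      = ∑ G : Om d, ∑ b' ∈ B,
          (if G ∈ (swC {u, v} b' : Finset (Om d)) then (Zb {u, v} b' F G) ^ 2 else 0) := by
    rw [Finset.sum_comm]
    refine Finset.sum_congr rfl fun b' _ => ?_
    rw [Finset.sum_ite_mem, Finset.univ_inter]
  have hR : ∑ b' ∈ B, ip (qq {u, v} b' F) (qq {u, v} b' F)
      = ∑ G : Om d, ∑ b' ∈ B, (qq {u, v} b' F G) ^ 2 := by
    rw [Finset.sum_comm]
    refine Finset.sum_congr rfl fun b' _ => ?_
    unfold ip
    refine Finset.sum_congr rfl fun G _ => ?_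
    ring
  rw [hL, hR, ← sub_nonneg, ← Finset.sum_sub_distrib]
  apply sum_nonneg_of_classwise (key (blk {u, v} univ))
  intro G₀
  obtain ⟨g, hg⟩ := exists_model_fun (key (blk {u, v} univ)) (upSet u v) G₀
    (two_row_inj u v huv G₀) F
  obtain ⟨U, hU⟩ : ∃ U, U = powersetCard (upSet u v G₀).card (freeCols u v G₀) := ⟨_, rfl⟩
  obtain ⟨Hf, hHf⟩ : ∃ Hf : Finset V → ℝ, Hf = fun W =>
      ∑ b' ∈ B, (qS U b' g W) ^ 2
        - ∑ b' ∈ B, (if W ∈ CS U b' then (ZS U b' g W) ^ 2 else 0) := ⟨_, rfl⟩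
  have hstep : ∀ G ∈ cls (key (blk {u, v} univ)) G₀,
      (∑ b' ∈ B, (qq {u, v} b' F G) ^ 2 - ∑ b' ∈ B,
          (if G ∈ (swC {u, v} b' : Finset (Om d)) then (Zb {u, v} b' F G) ^ 2 else 0))
        = Hf (upSet u v G) := by
    intro G hG
    rw [hHf]
    simp only
    congr 1
    · refine Finset.sum_congr rfl fun b' hb' => ?_
      rw [qq_transfer u v huv b' ((hBmem b').1 hb').2 G₀ F g hg G hG, hU]
    · refine Finset.sum_congr rfl fun b' hb' => ?_
      rw [Zb_transfer u v huv b' ((hBmem b').1 hb').2 G₀ F g hg G hG, hU]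
      exact if_congr (swC_transfer u v huv b' ((hBmem b').1 hb').2 G₀ G hG) rfl rfl
  rw [Finset.sum_congr rfl hstep]
  rw [sum_cls_transfer (key (blk {u, v} univ)) (upSet u v) U G₀
    (by rw [hU]; exact two_row_maps u v huv G₀) (two_row_inj u v huv G₀)
    (by rw [hU]; exact two_row_surj u v huv G₀) Hf]
  rw [hHf]
  simp only
  rw [Finset.sum_sub_distrib, sub_nonneg, Finset.sum_comm, Finset.sum_comm (s := U)]
  have hCSsub : ∀ e, U ∩ CS U e = CS U e := by
    intro e
    apply Finset.inter_eq_right.2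
    unfold CS
    exact Finset.filter_subset _ _
  have hZ : ∑ b' ∈ B, ∑ W ∈ U, (if W ∈ CS U b' then (ZS U b' g W) ^ 2 else 0)
      = ∑ b' ∈ B, ∑ W ∈ CS U b', (ZS U b' g W) ^ 2 := by
    refine Finset.sum_congr rfl fun b' _ => ?_
    rw [Finset.sum_ite_mem, hCSsub]
  rw [hZ, hU]
  refine j_model_jg _ _ g B (fun e he => ((hBmem e).1 he).1) ?_
  intro e he
  rw [Finset.mem_powersetCard] at he
  rw [hBmem]
  refine ⟨he.2, ?_⟩
  rw [Finset.disjoint_left]
  intro x hx hxe
  have hxD := he.1 hxe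
  unfold freeCols at hxD
  rw [Finset.mem_filter] at hxD
  rw [Finset.mem_insert, Finset.mem_singleton] at hx
  rcases hx with h | h
  · exact hxD.2.1 h
  · exact hxD.2.2.1 h

end Vale.Agent.P335
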