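import Vale.Agent.P335.SubsetBridge

/-!
# P335: Poincare inequality on the k-subsets of D (Johnson graph), crude constant
-/

namespace Vale.Agent.P335

open Finset

variable {α : Type*} [DecidableEq α]

/-- double counting of the pairs A, y with A a k-subset of D and y in D but not in A -/
theorem sum_insert_double (D : Finset α) (k : ℕ) (f : Finset α → ℝ) :
    ∑ A ∈ powersetCard k D, ∑ y ∈ D \ A, f (insert y A)
      = ((k : ℝ) + 1) * ∑ B ∈ powersetCard (k + 1) D, f B := by
  have h1 : ∑ A ∈ powersetCard k D, ∑ y ∈ D \ A, f (insert y A)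
      = ∑ B ∈ powersetCard (k + 1) D, ∑ _y ∈ B, f B := by
    rw [Finset.sum_sigma', Finset.sum_sigma']
    refine Finset.sum_bij' (fun p _ => ⟨insert p.2 p.1, p.2⟩)
      (fun p _ => ⟨p.1.erase p.2, p.2⟩) ?_ ?_ ?_ ?_ ?_
    · rintro ⟨A, y⟩ h
      simp only [mem_sigma, mem_powersetCard, mem_sdiff] at h ⊢
      obtain ⟨⟨hA, hc⟩, hy, hyA⟩ := h
      refine ⟨⟨insert_subset hy hA, ?_⟩, mem_insert_self _ _⟩
      rw [card_insert_of_notMem hyA, hc]
    · rintro ⟨B, y⟩ h
      simp only [mem_sigma, mem_powersetCard, mem_sdiff] at h ⊢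
      obtain ⟨⟨hB, hc⟩, hy⟩ := h
      refine ⟨⟨(erase_subset _ _).trans hB, ?_⟩, hB hy, notMem_erase _ _⟩
      rw [card_erase_of_mem hy, hc]
      rfl
    · rintro ⟨A, y⟩ h
      simp only [mem_sigma, mem_powersetCard, mem_sdiff] at h
      obtain ⟨⟨hA, hc⟩, hy, hyA⟩ := h
      simp [erase_insert hyA]
    · rintro ⟨B, y⟩ h
      simp only [mem_sigma, mem_powersetCard] at h
      obtain ⟨⟨hB, hc⟩, hy⟩ := h
      simp [insert_erase hy]
    · rintro ⟨A, y⟩ _
      rfl
  rw [h1, Finset.mul_sum]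
  refine Finset.sum_congr rfl (fun B hB => ?_)
  rw [Finset.sum_const, (mem_powersetCard.1 hB).2, nsmul_eq_mul]
  push_cast
  ring

/-- splitting a sum over the subsets of size k + 1 of insert x D -/
theorem sum_powersetCard_insert (D : Finset α) (x : α) (hx : x ∉ D) (k : ℕ)
    (φ : Finset α → ℝ) :
    ∑ W ∈ powersetCard (k + 1) (insert x D), φ W
      = ∑ B ∈ powersetCard (k + 1) D, φ B + ∑ A ∈ powersetCard k D, φ (insert x A) := by
  rw [powersetCard_succ_insert hx, Finset.sum_union, Finset.sum_image]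
  · intro A hA B hB hAB
    have hA' : x ∉ A := fun h => hx ((mem_powersetCard.1 hA).1 h)
    have hB' : x ∉ B := fun h => hx ((mem_powersetCard.1 hB).1 h)
    rw [← erase_insert hA', ← erase_insert hB', hAB]
  · rw [Finset.disjoint_left]
    intro W hW hW'
    obtain ⟨A, _, rfl⟩ := mem_image.1 hW'
    exact hx ((mem_powersetCard.1 hW).1 (mem_insert_self _ _))

theorem tog_insert_of_notMem (e A : Finset α) (x : α) (hxe : x ∉ e) (hxA : x ∉ A) :
    tog e (insert x A) = insert x (tog e A) := by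
  unfold tog
  rw [insert_inter_of_notMem hxe]
  split_ifs with h
  · ext z
    simp only [mem_symmDiff, mem_insert]
    by_cases hz : z = x
    · subst hz
      simp [hxe]
    · simp [hz]
  · rfl

theorem tog_pair_insert (A : Finset α) (x y : α) (hxy : y ≠ x) (hxA : x ∉ A) (hyA : y ∉ A) :
    tog (insert x {y}) (insert x A) = insert y A := by
  unfold tog
  have h1 : insert x A ∩ insert x {y} = {x} := by
    ext z
    simp only [mem_inter, mem_insert, mem_singleton]
    constructor
    · rintro ⟨h1, h2⟩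
      rcases h2 with h2 | h2
      · exact h2
      · subst h2
        rcases h1 with h1 | h1
        · exact h1
        · exact absurd h1 hyA
    · intro h
      exact ⟨Or.inl h, Or.inl h⟩
  rw [h1, card_singleton, if_pos rfl]
  ext z
  simp only [mem_symmDiff, mem_insert, mem_singleton]
  by_cases hzx : z = x
  · subst hzx
    simp [hxA, Ne.symm hxy]
  · by_cases hzy : z = y
    · subst hzy
      simp [hyA, hxy]
    · simp [hzx, hzy]

/-- the arithmetic core of the induction step -/
theorem jp_core (n0 n1 p q a0 a1 b0 b1 R0 R1 Rx : ℝ) (hn0 : 0 ≤ n0) (hn1 : 0 ≤ n1)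
    (hp : p = 0 ∨ 1 ≤ p) (hq : 1 ≤ q) (hM : n1 * p = n0 * q)
    (e0 : n0 = 0 → a0 = 0 ∧ b0 = 0) (e1 : n1 = 0 → a1 = 0 ∧ b1 = 0)
    (hR0 : 0 ≤ R0) (hR1 : 0 ≤ R1) (hRx : 0 ≤ Rx)
    (H0 : n0 * b0 - a0 ^ 2 ≤ n0 / 2 * R0) (H1 : n1 * b1 - a1 ^ 2 ≤ n1 / 2 * R1)
    (HX : (p * a1 - q * a0) ^ 2 ≤ n1 * p * Rx) :
    (n0 + n1) * (b0 + b1) - (a0 + a1) ^ 2 ≤ (n0 + n1) / 2 * (R0 + R1 + Rx) := by
  rcases eq_or_lt_of_le hn0 with h0 | h0
  · obtain ⟨ha, hb⟩ := e0 h0.symm
    rw [← h0, ha, hb]
    have : n1 / 2 * R1 ≤ (0 + n1) / 2 * (R0 + R1 + Rx) := by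
      rw [zero_add]
      exact mul_le_mul_of_nonneg_left (by linarith) (by linarith)
    simp only [zero_add]
    simp only [zero_add] at this
    linarith
  rcases eq_or_lt_of_le hn1 with h1 | h1
  · obtain ⟨ha, hb⟩ := e1 h1.symm
    rw [← h1, ha, hb]
    have : n0 / 2 * R0 ≤ (n0 + 0) / 2 * (R0 + R1 + Rx) := by
      rw [add_zero]
      exact mul_le_mul_of_nonneg_left (by linarith) (by linarith)
    simp only [add_zero]
    simp only [add_zero] at this
    linarith
  -- main case
  have hMpos : 0 < n1 * p := by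
    rw [hM]
    exact mul_pos h0 (by linarith)
  have hp1 : 1 ≤ p := by
    rcases hp with hp | hp
    · rw [hp, mul_zero] at hMpos
      exact absurd hMpos (lt_irrefl _)
    · exact hp
  set M := n1 * p with hMdef
  set u := n1 * a0 - n0 * a1 with hu
  have hMu : M * u = -(n0 * n1 * (p * a1 - q * a0)) := by
    have e1' : n0 * n1 * (p * a1 - q * a0) = n0 * (n1 * p) * a1 - n1 * (n0 * q) * a0 := by ring
    rw [e1', ← hM, ← hMdef, hu]
    ring
  have hMu2 : M * u ^ 2 ≤ (n0 * n1) ^ 2 * Rx := by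
    have h2 : (M * u) ^ 2 ≤ (n0 * n1) ^ 2 * (M * Rx) := by
      rw [hMu, neg_sq, mul_pow]
      exact mul_le_mul_of_nonneg_left HX (by positivity)
    have h3 : M * (M * u ^ 2) ≤ M * ((n0 * n1) ^ 2 * Rx) := by
      calc M * (M * u ^ 2) = (M * u) ^ 2 := by ring
        _ ≤ (n0 * n1) ^ 2 * (M * Rx) := h2
        _ = M * ((n0 * n1) ^ 2 * Rx) := by ring
    exact le_of_mul_le_mul_left h3 hMpos
  have hNM : 2 * (n0 * n1) ≤ (n0 + n1) * M := by
    have hMa : n1 ≤ M := by
      rw [hMdef]
      nlinarith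
    have hMb : n0 ≤ M := by
      rw [hM]
      nlinarith
    nlinarith
  have hu2 : u ^ 2 ≤ (n0 + n1) * (n0 * n1) * Rx / 2 := by
    have h4 : M * u ^ 2 ≤ M * ((n0 + n1) * (n0 * n1) * Rx / 2) := by
      refine hMu2.trans ?_
      have h5 : (n0 * n1) * Rx * (2 * (n0 * n1)) ≤ (n0 * n1) * Rx * ((n0 + n1) * M) :=
        mul_le_mul_of_nonneg_left hNM (by positivity)
      nlinarith
    exact le_of_mul_le_mul_left h4 hMpos
  have hpos : 0 < n0 * n1 := mul_pos h0 h1
  have hid : n0 * n1 * ((n0 + n1) * (b0 + b1) - (a0 + a1) ^ 2)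
      = (n0 + n1) * n1 * (n0 * b0 - a0 ^ 2) + (n0 + n1) * n0 * (n1 * b1 - a1 ^ 2) + u ^ 2 := by
    rw [hu]
    ring
  have hA : (n0 + n1) * n1 * (n0 * b0 - a0 ^ 2) ≤ (n0 + n1) * n1 * (n0 / 2 * R0) :=
    mul_le_mul_of_nonneg_left H0 (by positivity)
  have hB : (n0 + n1) * n0 * (n1 * b1 - a1 ^ 2) ≤ (n0 + n1) * n0 * (n1 / 2 * R1) :=
    mul_le_mul_of_nonneg_left H1 (by positivity)
  have hfin : n0 * n1 * ((n0 + n1) * (b0 + b1) - (a0 + a1) ^ 2)
      ≤ n0 * n1 * ((n0 + n1) / 2 * (R0 + R1 + Rx)) := by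
    rw [hid]
    have : n0 * n1 * ((n0 + n1) / 2 * (R0 + R1 + Rx))
        = (n0 + n1) * n1 * (n0 / 2 * R0) + (n0 + n1) * n0 * (n1 / 2 * R1)
          + (n0 + n1) * (n0 * n1) * Rx / 2 := by ring
    rw [this]
    linarith
  exact le_of_mul_le_mul_left hfin hpos

/-- the polynomial form of the Poincare inequality -/
theorem jp_poly (D : Finset α) : ∀ (k : ℕ) (g : Finset α → ℝ),
    ((powersetCard k D).card : ℝ) * ∑ W ∈ powersetCard k D, g W ^ 2
        - (∑ W ∈ powersetCard k D, g W) ^ 2
      ≤ ((powersetCard k D).card : ℝ) / 2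
        * ∑ e ∈ powersetCard 2 D, ∑ W ∈ powersetCard k D, (g W - g (tog e W)) ^ 2 := by
  induction D using Finset.induction_on with
  | empty =>
    intro k g
    rcases Nat.eq_zero_or_pos k with hk | hk
    · subst hk
      simp only [powersetCard_zero, card_singleton, Nat.cast_one, sum_singleton, one_mul,
        sub_self]
      positivity
    · rw [powersetCard_eq_empty.2 (by simpa using hk)]
      simp
  | insert x D hx ih =>
    intro k g
    rcases Nat.eq_zero_or_pos k with hk | hk
    · subst hk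
      simp only [powersetCard_zero, card_singleton, Nat.cast_one, sum_singleton, one_mul,
        sub_self]
      positivity
    obtain ⟨k, rfl⟩ : ∃ j, k = j + 1 := ⟨k - 1, by omega⟩
    -- abbreviations
    have hcard : ((powersetCard (k + 1) (insert x D)).card : ℝ)
        = ((powersetCard (k + 1) D).card : ℝ) + ((powersetCard k D).card : ℝ) := by
      have := sum_powersetCard_insert D x hx k (fun _ => (1 : ℝ))
      simpa using this
    have hS1 := sum_powersetCard_insert D x hx k g
    have hS2 := sum_powersetCard_insert D x hx k (fun W => g W ^ 2)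
    have H0 := ih (k + 1) g
    have H1 := ih k (fun A => g (insert x A))
    -- the pairs
    have hdouble := sum_insert_double D k g
    have hdouble1 := sum_insert_double D k (fun _ => (1 : ℝ))
    have hcardsd : ∀ A ∈ powersetCard k D, (D \ A).card = D.card - k := by
      intro A hA
      rw [card_sdiff_of_subset (mem_powersetCard.1 hA).1, (mem_powersetCard.1 hA).2]
    have hM : ((powersetCard k D).card : ℝ) * ((D.card - k : ℕ) : ℝ)
        = ((powersetCard (k + 1) D).card : ℝ) * ((k : ℝ) + 1) := by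
      have h1 : ∑ A ∈ powersetCard k D, ∑ _y ∈ D \ A, (1 : ℝ)
          = ((powersetCard k D).card : ℝ) * ((D.card - k : ℕ) : ℝ) := by
        rw [Finset.sum_congr rfl (fun A hA => by
          rw [Finset.sum_const, hcardsd A hA, nsmul_eq_mul, mul_one])]
        rw [Finset.sum_const, nsmul_eq_mul]
      rw [← h1, hdouble1]
      simp [mul_comm]
    have hsumdiff : ∑ A ∈ powersetCard k D, ∑ y ∈ D \ A, (g (insert x A) - g (insert y A))
        = ((D.card - k : ℕ) : ℝ) * ∑ A ∈ powersetCard k D, g (insert x A)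
          - ((k : ℝ) + 1) * ∑ B ∈ powersetCard (k + 1) D, g B := by
      rw [← hdouble, Finset.mul_sum, ← Finset.sum_sub_distrib]
      refine Finset.sum_congr rfl (fun A hA => ?_)
      rw [Finset.sum_sub_distrib, Finset.sum_const, hcardsd A hA, nsmul_eq_mul]
    have HX : (((D.card - k : ℕ) : ℝ) * ∑ A ∈ powersetCard k D, g (insert x A)
          - ((k : ℝ) + 1) * ∑ B ∈ powersetCard (k + 1) D, g B) ^ 2
        ≤ ((powersetCard k D).card : ℝ) * ((D.card - k : ℕ) : ℝ)
          * ∑ A ∈ powersetCard k D, ∑ y ∈ D \ A, (g (insert x A) - g (insert y A)) ^ 2 := by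
      rw [← hsumdiff, Finset.sum_sigma', Finset.sum_sigma']
      have hc : (((powersetCard k D).sigma fun A => D \ A).card : ℝ)
          = ((powersetCard k D).card : ℝ) * ((D.card - k : ℕ) : ℝ) := by
        rw [Finset.card_sigma, Finset.sum_congr rfl hcardsd, Finset.sum_const, smul_eq_mul]
        push_cast
        ring
      rw [← hc]
      exact sq_sum_le_card_mul_sum_sq
    -- the right hand side
    have hR : (∑ e ∈ powersetCard 2 D, ∑ W ∈ powersetCard (k + 1) D, (g W - g (tog e W)) ^ 2)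
        + (∑ e ∈ powersetCard 2 D, ∑ A ∈ powersetCard k D,
            (g (insert x A) - g (insert x (tog e A))) ^ 2)
        + ∑ A ∈ powersetCard k D, ∑ y ∈ D \ A, (g (insert x A) - g (insert y A)) ^ 2
        ≤ ∑ e ∈ powersetCard 2 (insert x D), ∑ W ∈ powersetCard (k + 1) (insert x D),
            (g W - g (tog e W)) ^ 2 := by
      rw [sum_powersetCard_insert D x hx 1]
      have hfirst : ∑ e ∈ powersetCard 2 D, ∑ W ∈ powersetCard (k + 1) (insert x D),
            (g W - g (tog e W)) ^ 2
          = (∑ e ∈ powersetCard 2 D, ∑ W ∈ powersetCard (k + 1) D, (g W - g (tog e W)) ^ 2)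
            + ∑ e ∈ powersetCard 2 D, ∑ A ∈ powersetCard k D,
              (g (insert x A) - g (insert x (tog e A))) ^ 2 := by
        rw [← Finset.sum_add_distrib]
        refine Finset.sum_congr rfl (fun e he => ?_)
        rw [sum_powersetCard_insert D x hx k]
        congr 1
        refine Finset.sum_congr rfl (fun A hA => ?_)
        rw [tog_insert_of_notMem e A x (fun h => hx ((mem_powersetCard.1 he).1 h))
          (fun h => hx ((mem_powersetCard.1 hA).1 h))]
      have hsecond : ∑ A ∈ powersetCard k D, ∑ y ∈ D \ A, (g (insert x A) - g (insert y A)) ^ 2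
          ≤ ∑ e ∈ powersetCard 1 D, ∑ W ∈ powersetCard (k + 1) (insert x D),
            (g W - g (tog (insert x e) W)) ^ 2 := by
        rw [powersetCard_one, Finset.sum_map]
        simp only [Function.Embedding.coeFn_mk]
        calc ∑ A ∈ powersetCard k D, ∑ y ∈ D \ A, (g (insert x A) - g (insert y A)) ^ 2
            = ∑ A ∈ powersetCard k D, ∑ y ∈ D \ A,
                (g (insert x A) - g (tog (insert x {y}) (insert x A))) ^ 2 := by
              refine Finset.sum_congr rfl (fun A hA => ?_)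
              refine Finset.sum_congr rfl (fun y hy => ?_)
              rw [tog_pair_insert A x y (fun h => hx (h ▸ (mem_sdiff.1 hy).1))
                (fun h => hx ((mem_powersetCard.1 hA).1 h)) (mem_sdiff.1 hy).2]
          _ ≤ ∑ A ∈ powersetCard k D, ∑ y ∈ D,
                (g (insert x A) - g (tog (insert x {y}) (insert x A))) ^ 2 := by
              refine Finset.sum_le_sum (fun A _ => ?_)
              exact Finset.sum_le_sum_of_subset_of_nonneg sdiff_subset
                (fun _ _ _ => sq_nonneg _)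
          _ = ∑ y ∈ D, ∑ A ∈ powersetCard k D,
                (g (insert x A) - g (tog (insert x {y}) (insert x A))) ^ 2 := Finset.sum_comm
          _ ≤ ∑ y ∈ D, ∑ W ∈ powersetCard (k + 1) (insert x D),
                (g W - g (tog (insert x {y}) W)) ^ 2 := by
              refine Finset.sum_le_sum (fun y _ => ?_)
              rw [sum_powersetCard_insert D x hx k]
              have : 0 ≤ ∑ B ∈ powersetCard (k + 1) D, (g B - g (tog (insert x {y}) B)) ^ 2 :=
                Finset.sum_nonneg (fun _ _ => sq_nonneg _)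
              linarith
      rw [hfirst]
      linarith
    have hcore := jp_core ((powersetCard (k + 1) D).card : ℝ) ((powersetCard k D).card : ℝ)
      ((D.card - k : ℕ) : ℝ) ((k : ℝ) + 1)
      (∑ B ∈ powersetCard (k + 1) D, g B) (∑ A ∈ powersetCard k D, g (insert x A))
      (∑ B ∈ powersetCard (k + 1) D, g B ^ 2) (∑ A ∈ powersetCard k D, g (insert x A) ^ 2)
      (∑ e ∈ powersetCard 2 D, ∑ W ∈ powersetCard (k + 1) D, (g W - g (tog e W)) ^ 2)
      (∑ e ∈ powersetCard 2 D, ∑ A ∈ powersetCard k D,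
            (g (insert x A) - g (insert x (tog e A))) ^ 2)
      (∑ A ∈ powersetCard k D, ∑ y ∈ D \ A, (g (insert x A) - g (insert y A)) ^ 2)
      (Nat.cast_nonneg _) (Nat.cast_nonneg _)
      (by
        rcases Nat.eq_zero_or_pos (D.card - k) with h | h
        · left
          rw [h]
          simp
        · right
          exact_mod_cast h)
      (by
        have : (0 : ℝ) ≤ k := Nat.cast_nonneg _
        linarith)
      hM
      (by
        intro h
        have : powersetCard (k + 1) D = ∅ := by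
          rw [← Finset.card_eq_zero]
          exact_mod_cast h
        rw [this]
        simp)
      (by
        intro h
        have : powersetCard k D = ∅ := by
          rw [← Finset.card_eq_zero]
          exact_mod_cast h
        rw [this]
        simp)
      (Finset.sum_nonneg (fun _ _ => Finset.sum_nonneg (fun _ _ => sq_nonneg _)))
      (Finset.sum_nonneg (fun _ _ => Finset.sum_nonneg (fun _ _ => sq_nonneg _)))
      (Finset.sum_nonneg (fun _ _ => Finset.sum_nonneg (fun _ _ => sq_nonneg _)))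
      H0 H1 HX
    rw [hcard, hS1, hS2]
    refine hcore.trans ?_
    exact mul_le_mul_of_nonneg_left hR (by positivity)

/-- explicit form:  `N Var g ≤ (1/2) ∑_e ∑_W (g W - g (tog e W))²` -/
theorem jp_explicit (D : Finset α) (k : ℕ) (g : Finset α → ℝ) :
    ∑ W ∈ powersetCard k D,
        (g W - (∑ W' ∈ powersetCard k D, g W') / ((powersetCard k D).card : ℝ)) ^ 2
      ≤ (1 / 2 : ℝ) * ∑ e ∈ powersetCard 2 D, ∑ W ∈ powersetCard k D, (g W - g (tog e W)) ^ 2 := by
  have hR : 0 ≤ ∑ e ∈ powersetCard 2 D, ∑ W ∈ powersetCard k D, (g W - g (tog e W)) ^ 2 :=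
    Finset.sum_nonneg (fun _ _ => Finset.sum_nonneg (fun _ _ => sq_nonneg _))
  rcases Nat.eq_zero_or_pos (powersetCard k D).card with h | h
  · rw [Finset.card_eq_zero.1 h]
    simp only [sum_empty]
    simp
  have hn : (0 : ℝ) < ((powersetCard k D).card : ℝ) := by exact_mod_cast h
  have hpoly := jp_poly D k g
  set n : ℝ := ((powersetCard k D).card : ℝ) with hndef
  set S1 : ℝ := ∑ W' ∈ powersetCard k D, g W' with hS1
  have hexp : ∑ W ∈ powersetCard k D, (g W - S1 / n) ^ 2
      = (∑ W ∈ powersetCard k D, g W ^ 2) - 2 * (S1 / n) * S1 + n * (S1 / n) ^ 2 := by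
    have : ∀ W ∈ powersetCard k D, (g W - S1 / n) ^ 2
        = g W ^ 2 - 2 * (S1 / n) * g W + (S1 / n) ^ 2 := fun W _ => by ring
    rw [Finset.sum_congr rfl this, Finset.sum_add_distrib, Finset.sum_sub_distrib,
      ← Finset.mul_sum, Finset.sum_const, nsmul_eq_mul]
  rw [hexp]
  have hmul : n * ((∑ W ∈ powersetCard k D, g W ^ 2) - 2 * (S1 / n) * S1 + n * (S1 / n) ^ 2)
      = n * (∑ W ∈ powersetCard k D, g W ^ 2) - S1 ^ 2 := by
    field_simp
    ring
  have hfin : n * ((∑ W ∈ powersetCard k D, g W ^ 2) - 2 * (S1 / n) * S1 + n * (S1 / n) ^ 2)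
      ≤ n * ((1 / 2 : ℝ) * ∑ e ∈ powersetCard 2 D, ∑ W ∈ powersetCard k D,
          (g W - g (tog e W)) ^ 2) := by
    rw [hmul]
    refine hpoly.trans (le_of_eq ?_)
    ring
  exact le_of_mul_le_mul_left hfin hn

theorem jp_sub (D : Finset α) (k : ℕ) (g : Finset α → ℝ) :
    ∑ W ∈ powersetCard k D, (QS (powersetCard k D) g W) ^ 2
      ≤ 2 * ∑ e ∈ powersetCard 2 D, ∑ W ∈ powersetCard k D, (qS (powersetCard k D) e g W) ^ 2 := by
  have h := jp_explicit D k g
  have hL : ∑ W ∈ powersetCard k D, (QS (powersetCard k D) g W) ^ 2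
      = ∑ W ∈ powersetCard k D,
        (g W - (∑ W' ∈ powersetCard k D, g W') / ((powersetCard k D).card : ℝ)) ^ 2 :=
    Finset.sum_congr rfl (fun W hW => by rw [QS_eq _ g W hW])
  have hRr : 2 * ∑ e ∈ powersetCard 2 D, ∑ W ∈ powersetCard k D,
        (qS (powersetCard k D) e g W) ^ 2
      = (1 / 2 : ℝ) * ∑ e ∈ powersetCard 2 D, ∑ W ∈ powersetCard k D,
        (g W - g (tog e W)) ^ 2 := by
    rw [Finset.mul_sum, Finset.mul_sum]
    refine Finset.sum_congr rfl (fun e he => ?_)
    rw [Finset.mul_sum, Finset.mul_sum]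
    refine Finset.sum_congr rfl (fun W hW => ?_)
    rw [qS_eq D k e he g W hW]
    ring
  rw [hL, hRr]
  exact h

end Vale.Agent.P335
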