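import Vale.Agent.P335.TwoRowTransfer
import Vale.Agent.P335.SubsetJP

/-!
# P335: two-row Poincare inequality for the graph operators
-/

namespace Vale.Agent.P335

open Finset

set_option linter.unusedSectionVars false

variable {V : Type*} [Fintype V] [DecidableEq V] {d : V → ℕ}

/-- two-row Poincare inequality -/
theorem jp_graph (b : Finset V) (hb : b ∈ pairs V) (F : Om d → ℝ) :
    ip (Qb b F) (Qb b F) ≤
      2 * ∑ b' ∈ (pairs V).filter (fun b' => Disjoint b b'), ip (qq b b' F) (qq b b' F) := by
  classical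
  have hb2 : b.card = 2 := (mem_powersetCard.1 hb).2
  obtain ⟨u, v, huv, rfl⟩ := Finset.card_eq_two.1 hb2
  set P : Finset (Finset V) := (pairs V).filter (fun b' => Disjoint {u, v} b') with hP
  set h : Om d → ℝ := fun G => 2 * ∑ b' ∈ P, (qq {u, v} b' F G) ^ 2 - (Qb {u, v} F G) ^ 2 with hh
  have hsum : 2 * ∑ b' ∈ P, ip (qq {u, v} b' F) (qq {u, v} b' F) - ip (Qb {u, v} F) (Qb {u, v} F)
      = ∑ G, h G := by
    simp only [hh, ip]
    rw [Finset.sum_sub_distrib, ← Finset.mul_sum, Finset.sum_comm]
    simp only [sq]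
  have hnn : 0 ≤ ∑ G, h G := by
    refine sum_nonneg_of_classwise (key (blk {u, v} univ)) h (fun G₀ => ?_)
    obtain ⟨g, hg⟩ := exists_model_fun (key (blk {u, v} univ)) (upSet u v) G₀
      (two_row_inj u v huv G₀) F
    set U : Finset (Finset V) := powersetCard (upSet u v G₀).card (freeCols u v G₀) with hU
    set H : Finset V → ℝ := fun W => 2 * ∑ b' ∈ P, (qS U b' g W) ^ 2 - (QS U g W) ^ 2 with hH
    have h1 : ∀ G ∈ cls (key (blk {u, v} univ)) G₀, h G = H (upSet u v G) := by
      intro G hG
      simp only [hh, hH]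
      rw [Qb_transfer u v huv G₀ F g hg G hG]
      congr 2
      refine Finset.sum_congr rfl (fun b' hb' => ?_)
      rw [qq_transfer u v huv b' (Finset.mem_filter.1 hb').2 G₀ F g hg G hG]
    rw [Finset.sum_congr rfl h1,
      sum_cls_transfer (key (blk {u, v} univ)) (upSet u v) U G₀ (two_row_maps u v huv G₀)
        (two_row_inj u v huv G₀) (two_row_surj u v huv G₀) H]
    simp only [hH]
    rw [Finset.sum_sub_distrib, ← Finset.mul_sum, Finset.sum_comm]
    have hjp := jp_sub (freeCols u v G₀) (upSet u v G₀).card g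
    rw [← hU] at hjp
    have hsub : powersetCard 2 (freeCols u v G₀) ⊆ P := by
      intro e he
      rw [mem_powersetCard] at he
      rw [hP, Finset.mem_filter]
      refine ⟨mem_powersetCard.2 ⟨Finset.subset_univ _, he.2⟩, ?_⟩
      rw [Finset.disjoint_left]
      intro x hx hxe
      have hxD := he.1 hxe
      simp only [freeCols, Finset.mem_filter, Finset.mem_univ, true_and] at hxD
      simp only [Finset.mem_insert, Finset.mem_singleton] at hx
      rcases hx with rfl | rfl
      · exact hxD.1 rfl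
      · exact hxD.2.1 rfl
    have hmono : ∑ e ∈ powersetCard 2 (freeCols u v G₀), ∑ W ∈ U, (qS U e g W) ^ 2
        ≤ ∑ e ∈ P, ∑ W ∈ U, (qS U e g W) ^ 2 :=
      Finset.sum_le_sum_of_subset_of_nonneg hsub
        (fun e _ _ => Finset.sum_nonneg (fun W _ => sq_nonneg _))
    linarith
  linarith

end Vale.Agent.P335
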