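import Vale.Agent.P335.AvgBasic

/-!
# P335: the operator inequality behind the estimate for two disjoint vertex pairs
-/

namespace Vale.Agent.P335

open Finset

section ringfacts

variable {R : Type*} [Ring R]

theorem ring_I1 (a b q : R) (haq : a * q = q * a) (hbq : b * q = q * b) (hqq : q * q = q) :
    (1 - a * q) * (1 - b * q) = (1 - q) + q * (1 - a) * (1 - b) := by
  have h1 : a * q * (b * q) = a * b * q := by
    calc a * q * (b * q) = a * (q * b) * q := by noncomm_ring
      _ = a * (b * q) * q := by rw [hbq]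
      _ = a * b * (q * q) := by noncomm_ring
      _ = a * b * q := by rw [hqq]
  have h2 : q * a * b = a * b * q := by
    calc q * a * b = a * q * b := by rw [haq]
      _ = a * (q * b) := by noncomm_ring
      _ = a * (b * q) := by rw [hbq]
      _ = a * b * q := by noncomm_ring
  calc (1 - a * q) * (1 - b * q) = 1 - b * q - a * q + a * q * (b * q) := by noncomm_ring
    _ = 1 - q * b - q * a + q * a * b := by rw [h1, h2, hbq, haq]
    _ = (1 - q) + q * (1 - a) * (1 - b) := by noncomm_ring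

theorem ring_I2 (a b q B' : R) (hbq : b * q = q * b) (hqq : q * q = q) (hqB' : q * B' = B') :
    (1 - a * q) * (b * q - B') = (1 - a) * (b * q - B') := by
  have h1 : a * q * (b * q) = a * (b * q) := by
    calc a * q * (b * q) = a * (q * b) * q := by noncomm_ring
      _ = a * (b * q) * q := by rw [hbq]
      _ = a * b * (q * q) := by noncomm_ring
      _ = a * (b * q) := by rw [hqq]; noncomm_ring
  have h2 : a * q * B' = a * B' := by rw [mul_assoc, hqB']
  calc (1 - a * q) * (b * q - B') = b * q - B' - a * q * (b * q) + a * q * B' := by noncomm_ring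
    _ = b * q - B' - a * (b * q) + a * B' := by rw [h1, h2]
    _ = (1 - a) * (b * q - B') := by noncomm_ring

/-- `a` commutes with `b q - B'`. -/
theorem ring_comm (a b q B' : R) (hab : a * b = b * a) (haq : a * q = q * a)
    (haB' : a * B' = B' * a) : (1 - a) * (b * q - B') = (b * q - B') * (1 - a) := by
  have h1 : a * (b * q) = b * q * a := by
    calc a * (b * q) = a * b * q := by noncomm_ring
      _ = b * a * q := by rw [hab]
      _ = b * (a * q) := by noncomm_ring
      _ = b * (q * a) := by rw [haq]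
      _ = b * q * a := by noncomm_ring
  calc (1 - a) * (b * q - B') = b * q - B' - a * (b * q) + a * B' := by noncomm_ring
    _ = b * q - B' - b * q * a + B' * a := by rw [h1, haB']
    _ = (b * q - B') * (1 - a) := by noncomm_ring

theorem ring_ZZ (a b q B B' : R) (hab : a * b = b * a) (haq : a * q = q * a) (hbq : b * q = q * b)
    (hqq : q * q = q) (haB' : a * B' = B' * a) (hbB : b * B = B * b)
    (hBq : B * q = B) (hqB : q * B = B) (hB'q : B' * q = B') (hqB' : q * B' = B') :
    (a * q - B) * (b * q - B') - (b * q - B') * (a * q - B) = B * B' - B' * B := by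
  have h1 : a * q * (b * q) = a * b * q := by
    calc a * q * (b * q) = a * (q * b) * q := by noncomm_ring
      _ = a * (b * q) * q := by rw [hbq]
      _ = a * b * (q * q) := by noncomm_ring
      _ = a * b * q := by rw [hqq]
  have h2 : b * q * (a * q) = a * b * q := by
    calc b * q * (a * q) = b * (q * a) * q := by noncomm_ring
      _ = b * (a * q) * q := by rw [haq]
      _ = b * a * (q * q) := by noncomm_ring
      _ = a * b * q := by rw [hqq, hab]
  have h3 : a * q * B' = a * B' := by rw [mul_assoc, hqB']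
  have h4 : b * q * B = b * B := by rw [mul_assoc, hqB]
  have h5 : B * (b * q) = b * B := by
    calc B * (b * q) = B * b * q := by noncomm_ring
      _ = b * B * q := by rw [hbB]
      _ = b * (B * q) := by noncomm_ring
      _ = b * B := by rw [hBq]
  have h6 : B' * (a * q) = a * B' := by
    calc B' * (a * q) = B' * a * q := by noncomm_ring
      _ = a * B' * q := by rw [haB']
      _ = a * (B' * q) := by noncomm_ring
      _ = a * B' := by rw [hB'q]
  calc (a * q - B) * (b * q - B') - (b * q - B') * (a * q - B)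
      = (a * q * (b * q) - a * q * B' - B * (b * q) + B * B')
        - (b * q * (a * q) - b * q * B - B' * (a * q) + B' * B) := by noncomm_ring
    _ = (a * b * q - a * B' - b * B + B * B') - (a * b * q - b * B - a * B' + B' * B) := by
        rw [h1, h2, h3, h4, h5, h6]
    _ = B * B' - B' * B := by abel

theorem ring_mul_idem (P Q : R) (hc : P * Q = Q * P) (hP : P * P = P) (hQ : Q * Q = Q) :
    P * Q * (P * Q) = P * Q := by
  calc P * Q * (P * Q) = P * (Q * P) * Q := by noncomm_ring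
    _ = P * (P * Q) * Q := by rw [hc]
    _ = (P * P) * (Q * Q) := by noncomm_ring
    _ = P * Q := by rw [hP, hQ]

theorem ring_one_sub_idem (P : R) (hP : P * P = P) : (1 - P) * (1 - P) = 1 - P := by
  calc (1 - P) * (1 - P) = 1 - P - P + P * P := by noncomm_ring
    _ = 1 - P := by rw [hP]; abel

theorem ring_sub_idem (P Q : R) (hP : P * P = P) (hQ : Q * Q = Q) (h1 : P * Q = Q)
    (h2 : Q * P = Q) : (P - Q) * (P - Q) = P - Q := by
  calc (P - Q) * (P - Q) = P * P - P * Q - Q * P + Q * Q := by noncomm_ring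
    _ = P - Q := by rw [hP, hQ, h1, h2]; abel

theorem ring_c1 (a q : R) (haq : a * q = q * a) : q * (1 - a) = (1 - a) * q := by
  calc q * (1 - a) = q - q * a := by noncomm_ring
    _ = q - a * q := by rw [haq]
    _ = (1 - a) * q := by noncomm_ring

theorem ring_c2 (a b q : R) (hab : a * b = b * a) (hbq : b * q = q * b) :
    q * (1 - a) * (1 - b) = (1 - b) * (q * (1 - a)) := by
  have h1 : q * (a * b) = b * q * a := by rw [hab, ← mul_assoc, ← hbq]
  calc q * (1 - a) * (1 - b) = q - q * a - q * b + q * (a * b) := by noncomm_ring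
    _ = q - q * a - b * q + (b * q) * a := by rw [h1, ← hbq]
    _ = (1 - b) * (q * (1 - a)) := by noncomm_ring

theorem ring_mZ (m a q B : R) (ma : a * m = m * a) (mq : q * m = m * q) (mB : B * m = m * B) :
    m * (a * q - B) = (a * q - B) * m := by
  calc m * (a * q - B) = m * a * q - m * B := by noncomm_ring
    _ = a * (m * q) - B * m := by rw [← ma, ← mB]; noncomm_ring
    _ = (a * q - B) * m := by rw [← mq]; noncomm_ring

theorem ring_e1 (m Z Z' : R) (mZ : m * Z = Z * m) (mm : m * m = m) :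
    m * Z * (m * Z') = m * (Z * Z') := by
  calc m * Z * (m * Z') = m * (Z * m) * Z' := by noncomm_ring
    _ = m * (m * Z) * Z' := by rw [mZ]
    _ = (m * m) * (Z * Z') := by noncomm_ring
    _ = m * (Z * Z') := by rw [mm]

end ringfacts

section aux

variable {Ω : Type*} [Fintype Ω]

theorem ip_add_left' (F G H : Ω → ℝ) : ip (F + G) H = ip F H + ip G H := by
  simp [ip, add_mul, Finset.sum_add_distrib]

theorem ip_add_right' (F G H : Ω → ℝ) : ip F (G + H) = ip F G + ip F H := by
  simp [ip, mul_add, Finset.sum_add_distrib]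

theorem ip_sub_left' (F G H : Ω → ℝ) : ip (F - G) H = ip F H - ip G H := by
  simp [ip, sub_mul, Finset.sum_sub_distrib]

theorem ip_sub_right' (F G H : Ω → ℝ) : ip F (G - H) = ip F G - ip F H := by
  simp [ip, mul_sub, Finset.sum_sub_distrib]

theorem ip_comm' (F G : Ω → ℝ) : ip F G = ip G F := by
  simp [ip, mul_comm]

/-- Self-adjoint idempotent operators. -/
def IsPr (P : Module.End ℝ (Ω → ℝ)) : Prop :=
  (∀ F G, ip (P F) G = ip F (P G)) ∧ P * P = P

theorem IsPr.nonneg {P : Module.End ℝ (Ω → ℝ)} (h : IsPr P) (F : Ω → ℝ) : 0 ≤ ip F (P F) := by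
  have h1 : P (P F) = P F := by rw [← Module.End.mul_apply, h.2]
  have h2 : ip F (P F) = ip (P F) (P F) := by rw [h.1 F (P F), h1]
  rw [h2]
  exact Finset.sum_nonneg (fun ω _ => mul_self_nonneg _)

theorem IsPr.mul {P R : Module.End ℝ (Ω → ℝ)} (hP : IsPr P) (hR : IsPr R) (hc : P * R = R * P) :
    IsPr (P * R) := by
  constructor
  · intro F G
    rw [Module.End.mul_apply, hP.1, hR.1, ← Module.End.mul_apply, ← hc]
  · exact ring_mul_idem P R hc hP.2 hR.2

theorem IsPr.one_sub {P : Module.End ℝ (Ω → ℝ)} (hP : IsPr P) : IsPr (1 - P) := by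
  constructor
  · intro F G
    simp only [LinearMap.sub_apply, Module.End.one_apply, ip_sub_left', ip_sub_right', hP.1]
  · exact ring_one_sub_idem P hP.2

theorem IsPr.sub {P R : Module.End ℝ (Ω → ℝ)} (hP : IsPr P) (hR : IsPr R) (h1 : P * R = R)
    (h2 : R * P = R) : IsPr (P - R) := by
  constructor
  · intro F G
    simp only [LinearMap.sub_apply, ip_sub_left', ip_sub_right', hP.1, hR.1]
  · exact ring_sub_idem P R hP.2 hR.2 h1 h2

theorem isPr_avgL {K : Type*} (κ : Ω → K) : IsPr (avgL κ) :=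
  ⟨fun F G => avg_symm κ F G, LinearMap.ext fun F => avg_idem κ F⟩

/-- Multiplication by a fixed function. -/
def mulOp (h : Ω → ℝ) : Module.End ℝ (Ω → ℝ) where
  toFun F := fun ω => h ω * F ω
  map_add' F G := by
    funext ω
    simp [mul_add]
  map_smul' c F := by
    funext ω
    simp
    ring

omit [Fintype Ω] in
theorem mulOp_apply (h F : Ω → ℝ) (ω : Ω) : mulOp h F ω = h ω * F ω := rfl

theorem isPr_mulOp (h : Ω → ℝ) (hh : ∀ ω, h ω * h ω = h ω) : IsPr (mulOp h) := by
  constructor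
  · intro F G
    simp only [ip, mulOp_apply]
    exact Finset.sum_congr rfl (fun ω _ => by ring)
  · refine LinearMap.ext fun F => ?_
    funext ω
    rw [Module.End.mul_apply, mulOp_apply, mulOp_apply, ← mul_assoc, hh]

theorem avgL_mulOp_comm {K : Type*} (κ : Ω → K) (h : Ω → ℝ)
    (hh : ∀ ω ω', κ ω = κ ω' → h ω = h ω') : avgL κ * mulOp h = mulOp h * avgL κ :=
  LinearMap.ext fun F => avg_mul_inv κ h F hh

end aux


variable {Ω : Type*} [Fintype Ω] {K1 K2 Kq Kb Kb' : Type*}

/-- Abstract form of the estimate for disjoint pairs.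
`Eb = avg κb`, `Eb' = avg κb'`, `E1 = avg κ1`, `E2 = avg κ2`, `Eq = avg κq`;
`Zb = E1 Eq - Eb`, `Zb' = E2 Eq - Eb'`. -/
theorem opalg_disjoint (κ1 : Ω → K1) (κ2 : Ω → K2) (κq : Ω → Kq) (κb : Ω → Kb) (κb' : Ω → Kb')
    (hb1 : ∀ ω ω', κ1 ω = κ1 ω' → κb ω = κb ω')
    (hbq : ∀ ω ω', κq ω = κq ω' → κb ω = κb ω')
    (hb'2 : ∀ ω ω', κ2 ω = κ2 ω' → κb' ω = κb' ω')
    (hb'q : ∀ ω ω', κq ω = κq ω' → κb' ω = κb' ω')
    (c12 : ∀ F, avg κ1 (avg κ2 F) = avg κ2 (avg κ1 F))
    (c1q : ∀ F, avg κ1 (avg κq F) = avg κq (avg κ1 F))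
    (c2q : ∀ F, avg κ2 (avg κq F) = avg κq (avg κ2 F))
    (c1b' : ∀ F, avg κ1 (avg κb' F) = avg κb' (avg κ1 F))
    (c2b : ∀ F, avg κ2 (avg κb F) = avg κb (avg κ2 F))
    (O C : Finset Ω) (hOC : Disjoint O C)
    (hOb : ∀ ω ω', κb ω = κb ω' → (ω ∈ O ↔ ω' ∈ O))
    (hOb' : ∀ ω ω', κb' ω = κb' ω' → (ω ∈ O ↔ ω' ∈ O))
    (hOcomm : ∀ F, ∀ ω ∈ O, avg κb (avg κb' F) ω = avg κb' (avg κb F) ω)
    (hz : ∀ F ω, ω ∉ O → ω ∉ C →
      avg κ1 (avg κq F) ω = avg κb F ω ∨ avg κ2 (avg κq F) ω = avg κb' F ω)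
    (F : Ω → ℝ) :
    ip (F - avg κq F) (F - avg κq F)
        - (1 / 2 : ℝ) * ∑ ω ∈ C, (avg κ1 (avg κq F) ω - avg κb F ω) ^ 2
        - (1 / 2 : ℝ) * ∑ ω ∈ C, (avg κ2 (avg κq F) ω - avg κb' F ω) ^ 2
      ≤ ip (F - avg κb F) (F - avg κb' F) := by
  classical
  -- the operators
  obtain ⟨a, ha⟩ : ∃ a, a = avgL κ1 := ⟨_, rfl⟩
  obtain ⟨b, hb⟩ : ∃ b, b = avgL κ2 := ⟨_, rfl⟩
  obtain ⟨q, hq⟩ : ∃ q, q = avgL κq := ⟨_, rfl⟩
  obtain ⟨B, hB⟩ : ∃ B, B = avgL κb := ⟨_, rfl⟩
  obtain ⟨B', hB'⟩ : ∃ B', B' = avgL κb' := ⟨_, rfl⟩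
  have pa : IsPr a := ha ▸ isPr_avgL κ1
  have pb : IsPr b := hb ▸ isPr_avgL κ2
  have pq : IsPr q := hq ▸ isPr_avgL κq
  have pB : IsPr B := hB ▸ isPr_avgL κb
  have pB' : IsPr B' := hB' ▸ isPr_avgL κb'
  have hab : a * b = b * a := by rw [ha, hb]; exact LinearMap.ext fun G => c12 G
  have haq : a * q = q * a := by rw [ha, hq]; exact LinearMap.ext fun G => c1q G
  have hbq' : b * q = q * b := by rw [hb, hq]; exact LinearMap.ext fun G => c2q G
  have haB' : a * B' = B' * a := by rw [ha, hB']; exact LinearMap.ext fun G => c1b' G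
  have hbB : b * B = B * b := by rw [hb, hB]; exact LinearMap.ext fun G => c2b G
  have hBa : B * a = B := by
    rw [ha, hB]; exact LinearMap.ext fun G => avg_absorb_left κ1 κb hb1 G
  have haB : a * B = B := by
    rw [ha, hB]; exact LinearMap.ext fun G => avg_absorb_right κ1 κb hb1 G
  have hBq : B * q = B := by
    rw [hq, hB]; exact LinearMap.ext fun G => avg_absorb_left κq κb hbq G
  have hqB : q * B = B := by
    rw [hq, hB]; exact LinearMap.ext fun G => avg_absorb_right κq κb hbq G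
  have hB'b : B' * b = B' := by
    rw [hb, hB']; exact LinearMap.ext fun G => avg_absorb_left κ2 κb' hb'2 G
  have hbB' : b * B' = B' := by
    rw [hb, hB']; exact LinearMap.ext fun G => avg_absorb_right κ2 κb' hb'2 G
  have hB'q : B' * q = B' := by
    rw [hq, hB']; exact LinearMap.ext fun G => avg_absorb_left κq κb' hb'q G
  have hqB' : q * B' = B' := by
    rw [hq, hB']; exact LinearMap.ext fun G => avg_absorb_right κq κb' hb'q G
  -- projections
  have paq : IsPr (a * q) := pa.mul pq haq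
  have pbq : IsPr (b * q) := pb.mul pq hbq'
  have pZ : IsPr (a * q - B) := paq.sub pB (by rw [mul_assoc, hqB, haB])
    (by rw [← mul_assoc, hBa, hBq])
  have pZ' : IsPr (b * q - B') := pbq.sub pB' (by rw [mul_assoc, hqB', hbB'])
    (by rw [← mul_assoc, hB'b, hB'q])
  -- first term
  have T1 : ip (F - avg κq F) (F - avg κq F) ≤ ip ((1 - a * q) F) ((1 - b * q) F) := by
    rw [paq.one_sub.1, ← Module.End.mul_apply, ring_I1 a b q haq hbq' pq.2, LinearMap.add_apply,
      ip_add_right']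
    have h1 : ip F ((1 - q) F) = ip (F - avg κq F) (F - avg κq F) := by
      rw [← ip_self_sub_avg κq F, hq]
      rfl
    have h2 : IsPr (q * (1 - a) * (1 - b)) :=
      (pq.mul pa.one_sub (ring_c1 a q haq)).mul pb.one_sub (ring_c2 a b q hab hbq')
    have h3 := h2.nonneg F
    linarith
  -- cross terms
  have T2 : 0 ≤ ip ((1 - a * q) F) ((b * q - B') F) := by
    rw [paq.one_sub.1, ← Module.End.mul_apply, ring_I2 a b q B' hbq' pq.2 hqB']
    exact (pa.one_sub.mul pZ' (ring_comm a b q B' hab haq haB')).nonneg F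
  have T3 : 0 ≤ ip ((a * q - B) F) ((1 - b * q) F) := by
    rw [ip_comm', pbq.one_sub.1, ← Module.End.mul_apply, ring_I2 b a q B haq pq.2 hqB]
    exact (pb.one_sub.mul pZ (ring_comm b a q B hab.symm hbq' hbB)).nonneg F
  -- the last term
  obtain ⟨h, hh⟩ : ∃ h : Ω → ℝ, h = fun ω => if ω ∈ O then (1 : ℝ) else 0 := ⟨_, rfl⟩
  have hinvb : ∀ ω ω', κb ω = κb ω' → h ω = h ω' := by
    intro ω ω' hk
    rw [hh]
    simp only [hOb ω ω' hk]
  have hinvb' : ∀ ω ω', κb' ω = κb' ω' → h ω = h ω' := by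
    intro ω ω' hk
    rw [hh]
    simp only [hOb' ω ω' hk]
  have pm : IsPr (mulOp h) := isPr_mulOp h (by
    intro ω
    rw [hh]
    by_cases hω : ω ∈ O <;> simp [hω])
  have ma : a * mulOp h = mulOp h * a := by
    rw [ha]; exact avgL_mulOp_comm κ1 h (fun ω ω' hk => hinvb ω ω' (hb1 ω ω' hk))
  have mb : b * mulOp h = mulOp h * b := by
    rw [hb]; exact avgL_mulOp_comm κ2 h (fun ω ω' hk => hinvb' ω ω' (hb'2 ω ω' hk))
  have mq : q * mulOp h = mulOp h * q := by
    rw [hq]; exact avgL_mulOp_comm κq h (fun ω ω' hk => hinvb ω ω' (hbq ω ω' hk))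
  have mB : B * mulOp h = mulOp h * B := by
    rw [hB]; exact avgL_mulOp_comm κb h hinvb
  have mB' : B' * mulOp h = mulOp h * B' := by
    rw [hB']; exact avgL_mulOp_comm κb' h hinvb'
  have mZ : mulOp h * (a * q - B) = (a * q - B) * mulOp h := ring_mZ _ a q B ma mq mB
  have mZ' : mulOp h * (b * q - B') = (b * q - B') * mulOp h := ring_mZ _ b q B' mb mq mB'
  have hBBm : mulOp h * (B * B' - B' * B) = 0 := by
    refine LinearMap.ext fun G => ?_
    funext ω
    rw [Module.End.mul_apply, mulOp_apply, LinearMap.sub_apply, Module.End.mul_apply,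
      Module.End.mul_apply, hB, hB']
    by_cases hω : ω ∈ O
    · have := hOcomm G ω hω
      simp only [avgL_apply, Pi.sub_apply, this, sub_self, mul_zero, LinearMap.zero_apply,
        Pi.zero_apply]
    · rw [hh]
      simp [hω]
  have pP : IsPr (mulOp h * (a * q - B)) := pm.mul pZ mZ
  have pR : IsPr (mulOp h * (b * q - B')) := pm.mul pZ' mZ'
  have hPR : mulOp h * (a * q - B) * (mulOp h * (b * q - B'))
      = mulOp h * (b * q - B') * (mulOp h * (a * q - B)) := by
    have e1 := ring_e1 (mulOp h) (a * q - B) (b * q - B') mZ pm.2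
    have e2 := ring_e1 (mulOp h) (b * q - B') (a * q - B) mZ' pm.2
    rw [e1, e2, ← sub_eq_zero, ← mul_sub,
      ring_ZZ a b q B B' hab haq hbq' pq.2 haB' hbB hBq hqB hB'q hqB', hBBm]
  have TO : 0 ≤ ip ((mulOp h * (a * q - B)) F) ((mulOp h * (b * q - B')) F) := by
    rw [pP.1, ← Module.End.mul_apply]
    exact (pP.mul pR hPR).nonneg F
  -- names for the two functions
  obtain ⟨z, hzdef⟩ : ∃ z : Ω → ℝ, z = (a * q - B) F := ⟨_, rfl⟩
  obtain ⟨z', hz'def⟩ : ∃ z' : Ω → ℝ, z' = (b * q - B') F := ⟨_, rfl⟩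
  have hzv : ∀ ω, z ω = avg κ1 (avg κq F) ω - avg κb F ω := by
    intro ω; rw [hzdef, ha, hq, hB]; rfl
  have hz'v : ∀ ω, z' ω = avg κ2 (avg κq F) ω - avg κb' F ω := by
    intro ω; rw [hz'def, hb, hq, hB']; rfl
  have T4 : - (1 / 2 : ℝ) * ∑ ω ∈ C, z ω ^ 2 - (1 / 2 : ℝ) * ∑ ω ∈ C, z' ω ^ 2 ≤ ip z z' := by
    have hO : 0 ≤ ∑ ω, (h ω * z ω) * (h ω * z' ω) := by
      rw [hzdef, hz'def]; exact TO
    have hC1 : ∑ ω ∈ C, z ω ^ 2 = ∑ ω, if ω ∈ C then z ω ^ 2 else 0 := by
      rw [Finset.sum_ite_mem, Finset.univ_inter]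
    have hC2 : ∑ ω ∈ C, z' ω ^ 2 = ∑ ω, if ω ∈ C then z' ω ^ 2 else 0 := by
      rw [Finset.sum_ite_mem, Finset.univ_inter]
    have hpt : ∀ ω, (h ω * z ω) * (h ω * z' ω) - (1 / 2 : ℝ) * (if ω ∈ C then z ω ^ 2 else 0)
        - (1 / 2 : ℝ) * (if ω ∈ C then z' ω ^ 2 else 0) ≤ z ω * z' ω := by
      intro ω
      by_cases hωO : ω ∈ O
      · have hωC : ω ∉ C := Finset.disjoint_left.mp hOC hωO
        rw [hh]
        simp [hωO, hωC]
      · by_cases hωC : ω ∈ C
        · rw [hh]
          simp only [hωO, hωC, if_true, if_false]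
          nlinarith [sq_nonneg (z ω + z' ω)]
        · have h0 : z ω * z' ω = 0 := by
            rcases hz F ω hωO hωC with h1 | h1
            · rw [hzv, h1, sub_self, zero_mul]
            · rw [hz'v, h1, sub_self, mul_zero]
          rw [hh, h0]
          simp [hωO, hωC]
    have hsum := Finset.sum_le_sum (fun ω (_ : ω ∈ (Finset.univ : Finset Ω)) => hpt ω)
    rw [Finset.sum_sub_distrib, Finset.sum_sub_distrib, ← Finset.mul_sum, ← Finset.mul_sum,
      ← hC1, ← hC2] at hsum
    have : ip z z' = ∑ ω, z ω * z' ω := rfl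
    rw [this]
    linarith
  -- assembly
  have e1 : F - avg κb F = (1 - a * q) F + z := by
    rw [hzdef, hB]
    funext ω
    simp only [LinearMap.sub_apply, Module.End.one_apply, Pi.sub_apply, Pi.add_apply, avgL_apply]
    ring
  have e2 : F - avg κb' F = (1 - b * q) F + z' := by
    rw [hz'def, hB']
    funext ω
    simp only [LinearMap.sub_apply, Module.End.one_apply, Pi.sub_apply, Pi.add_apply, avgL_apply]
    ring
  rw [e1, e2, ip_add_left', ip_add_right', ip_add_right']
  rw [← hz'def] at T2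
  rw [← hzdef] at T3
  have s1 : ∑ ω ∈ C, (avg κ1 (avg κq F) ω - avg κb F ω) ^ 2 = ∑ ω ∈ C, z ω ^ 2 :=
    Finset.sum_congr rfl (fun ω _ => by rw [hzv])
  have s2 : ∑ ω ∈ C, (avg κ2 (avg κq F) ω - avg κb' F ω) ^ 2 = ∑ ω ∈ C, z' ω ^ 2 :=
    Finset.sum_congr rfl (fun ω _ => by rw [hz'v])
  rw [s1, s2]
  linarith

end Vale.Agent.P335
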