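import Vale.Agent.P335.GraphBasic

/-!
# P335: rectangle property of `Eb b`, `Eb b'` on the states whose block `b × b'`
does not contain exactly two edges
-/

namespace Vale.Agent.P335

open Finset

set_option linter.unusedSectionVars false

variable {V : Type*} [Fintype V] [DecidableEq V] {d : V → ℕ}

open Classical in
/-- integer indicator of adjacency -/
noncomputable def indA (H : SimpleGraph V) (x y : V) : ℤ := if H.Adj x y then 1 else 0

theorem indA_comm (H : SimpleGraph V) (x y : V) : indA H x y = indA H y x := by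
  unfold indA
  by_cases h : H.Adj x y
  · simp [h, h.symm]
  · have h' : ¬ H.Adj y x := fun h' => h h'.symm
    simp [h, h']

theorem indA_bounds (H : SimpleGraph V) (x y : V) : 0 ≤ indA H x y ∧ indA H x y ≤ 1 := by
  unfold indA
  split_ifs <;> simp

theorem indA_eq_iff (H H' : SimpleGraph V) (x y : V) :
    indA H x y = indA H' x y ↔ (H.Adj x y ↔ H'.Adj x y) := by
  unfold indA
  by_cases h : H.Adj x y <;> by_cases h' : H'.Adj x y <;> simp [h, h']

theorem sum_indA (G : Om d) (v : V) : ∑ w, indA G.1 v w = d v := Om.sum_ind G v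

/-- integer value of a truth value -/
def bi (c : Bool) : ℤ := if c then 1 else 0

theorem indA_eq_bi (H : SimpleGraph V) (x y : V) (c : Bool) (h : H.Adj x y ↔ c = true) :
    indA H x y = bi c := by
  unfold indA bi
  by_cases hc : c = true
  · simp [hc, h.2 hc]
  · have : ¬ H.Adj x y := fun h' => hc (h.1 h')
    simp [hc, this]

/-- the sums over `c` of the indicators at a vertex outside `c` only depend on the key -/
theorem sum_block_eq (c : Finset V) (G G' : Om d)
    (h : key (blk c univ) G' = key (blk c univ) G) (y : V) (hy : y ∉ c) :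
    ∑ x ∈ c, indA G'.1 y x = ∑ x ∈ c, indA G.1 y x := by
  have h1 := sum_indA G' y
  have h2 := sum_indA G y
  rw [← Finset.sum_add_sum_compl c] at h1 h2
  have h3 : ∑ x ∈ cᶜ, indA G'.1 y x = ∑ x ∈ cᶜ, indA G.1 y x := by
    apply Finset.sum_congr rfl
    intro x hx
    rw [indA_eq_iff]
    apply (key_eq_iff _ _ _).1 h
    rw [blk_adj]
    rintro ⟨-, (⟨h5, -⟩ | ⟨h5, -⟩)⟩
    · exact hy h5
    · exact (Finset.mem_compl.1 hx) h5
  omega

/-- existence of a 2 x 2 zero-one matrix with given margins, total not 2 -/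
theorem exists_two_by_two (r1 r2 s1 s2 : ℤ) (h1 : 0 ≤ r1 ∧ r1 ≤ 2) (h2 : 0 ≤ r2 ∧ r2 ≤ 2)
    (h3 : 0 ≤ s1 ∧ s1 ≤ 2) (h4 : 0 ≤ s2 ∧ s2 ≤ 2) (h : r1 + r2 = s1 + s2) (hne : r1 + r2 ≠ 2) :
    ∃ y11 y12 y21 y22 : Bool, bi y11 + bi y12 = r1 ∧ bi y21 + bi y22 = r2 ∧
      bi y11 + bi y21 = s1 ∧ bi y12 + bi y22 = s2 := by
  obtain rfl : s2 = r1 + r2 - s1 := by omega
  obtain rfl | rfl | rfl : r1 = 0 ∨ r1 = 1 ∨ r1 = 2 := by omega
  all_goals obtain rfl | rfl | rfl : r2 = 0 ∨ r2 = 1 ∨ r2 = 2 := by omega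
  all_goals obtain rfl | rfl | rfl : s1 = 0 ∨ s1 = 1 ∨ s1 = 2 := by omega
  all_goals first
    | (exfalso; omega)
    | exact ⟨false, false, false, false, by decide⟩
    | exact ⟨true, false, false, false, by decide⟩
    | exact ⟨false, true, false, false, by decide⟩
    | exact ⟨false, false, true, false, by decide⟩
    | exact ⟨false, false, false, true, by decide⟩
    | exact ⟨false, true, true, true, by decide⟩
    | exact ⟨true, false, true, true, by decide⟩
    | exact ⟨true, true, false, true, by decide⟩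
    | exact ⟨true, true, true, false, by decide⟩
    | exact ⟨true, true, true, true, by decide⟩

/-- a cell touching both `b` and `b'` lies in the block -/
theorem blk_of_both (b b' : Finset V) (hd : Disjoint b b') (x y : V)
    (h1 : (blk b univ).Adj x y) (h2 : (blk b' univ).Adj x y) : (blk b b').Adj x y := by
  rw [blk_adj] at h1 h2 ⊢
  refine ⟨h1.1, ?_⟩
  rcases h1.2 with ⟨h3, -⟩ | ⟨h3, -⟩ <;> rcases h2.2 with ⟨h4, -⟩ | ⟨h4, -⟩
  · exact absurd h4 (Finset.disjoint_left.1 hd h3)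
  · exact Or.inl ⟨h3, h4⟩
  · exact Or.inr ⟨h3, h4⟩
  · exact absurd h4 (Finset.disjoint_left.1 hd h3)

theorem blk_le_left (b b' : Finset V) : blk b b' ≤ blk b univ :=
  blk_mono (Finset.Subset.refl b) (Finset.subset_univ b')

theorem blk_le_right (b b' : Finset V) : blk b b' ≤ blk b' univ := by
  rw [blk_comm b b']
  exact blk_le_left b' b

/-- summing a function supported on the block at a vertex of `b` -/
theorem sum_blk_left (b b' : Finset V) (hd : Disjoint b b') (t : V) (ht : t ∈ b) (f : V → ℤ)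
    [DecidablePred (fun s => (blk b b').Adj t s)] :
    ∑ s, (if (blk b b').Adj t s then f s else 0) = ∑ s ∈ b', f s := by
  have h : ∀ s, (blk b b').Adj t s ↔ s ∈ b' := by
    intro s
    rw [blk_adj]
    constructor
    · rintro ⟨-, (⟨-, h⟩ | ⟨-, h⟩)⟩
      · exact h
      · exact absurd h (Finset.disjoint_left.1 hd ht)
    · intro h
      refine ⟨?_, Or.inl ⟨ht, h⟩⟩
      rintro rfl
      exact Finset.disjoint_left.1 hd ht h
  simp only [h]
  rw [Finset.sum_ite_mem, Finset.univ_inter]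

/-- uniqueness on the block -/
theorem block_unique (p11 p12 p21 p22 q11 q12 q21 q22 : ℤ)
    (hp11 : 0 ≤ p11 ∧ p11 ≤ 1) (hp12 : 0 ≤ p12 ∧ p12 ≤ 1) (hp21 : 0 ≤ p21 ∧ p21 ≤ 1)
    (hp22 : 0 ≤ p22 ∧ p22 ≤ 1) (hq11 : 0 ≤ q11 ∧ q11 ≤ 1) (hq12 : 0 ≤ q12 ∧ q12 ≤ 1)
    (hq21 : 0 ≤ q21 ∧ q21 ≤ 1) (hq22 : 0 ≤ q22 ∧ q22 ≤ 1)
    (r1 : p11 + p12 = q11 + q12) (r2 : p21 + p22 = q21 + q22)
    (c1 : p11 + p21 = q11 + q21) (c2 : p12 + p22 = q12 + q22)
    (hne : q11 + q12 + q21 + q22 ≠ 2) :
    p11 = q11 ∧ p12 = q12 ∧ p21 = q21 ∧ p22 = q22 := by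
  omega

theorem rect_O (b b' : Finset V) (hb : b ∈ pairs V) (hb' : b' ∈ pairs V) (hd : Disjoint b b')
    (G G₂ G₃ : Om d) (hG : G ∈ swO b b')
    (h2 : key (blk b univ) G₂ = key (blk b univ) G)
    (h3 : key (blk b' univ) G₃ = key (blk b' univ) G) :
    ∃! G₄ : Om d, key (blk b' univ) G₄ = key (blk b' univ) G₂ ∧
      key (blk b univ) G₄ = key (blk b univ) G₃ := by
  classical
  obtain ⟨u, v, huv, hbe⟩ := Finset.card_eq_two.1 ((Finset.mem_powersetCard.1 hb).2)
  obtain ⟨w, z, hwz, hbe'⟩ := Finset.card_eq_two.1 ((Finset.mem_powersetCard.1 hb').2)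
  have hub : u ∈ b := by rw [hbe]; simp
  have hvb : v ∈ b := by rw [hbe]; simp
  have hwb : w ∈ b' := by rw [hbe']; simp
  have hzb : z ∈ b' := by rw [hbe']; simp
  have hub' : u ∉ b' := Finset.disjoint_left.1 hd hub
  have hvb' : v ∉ b' := Finset.disjoint_left.1 hd hvb
  have hwb' : w ∉ b := Finset.disjoint_right.1 hd hwb
  have hzb' : z ∉ b := Finset.disjoint_right.1 hd hzb
  -- margins
  have colw := sum_block_eq b G G₂ h2 w hwb'
  have colz := sum_block_eq b G G₂ h2 z hzb'
  have rowu := sum_block_eq b' G G₃ h3 u hub'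
  have rowv := sum_block_eq b' G G₃ h3 v hvb'
  rw [hbe, Finset.sum_pair huv, Finset.sum_pair huv] at colw colz
  rw [hbe', Finset.sum_pair hwz, Finset.sum_pair hwz] at rowu rowv
  rw [indA_comm _ w u, indA_comm _ w v, indA_comm _ w u, indA_comm _ w v] at colw
  rw [indA_comm _ z u, indA_comm _ z v, indA_comm _ z u, indA_comm _ z v] at colz
  have hcnt : (cnt b b' G : ℤ) =
      indA G.1 u w + indA G.1 u z + indA G.1 v w + indA G.1 v z := by
    unfold cnt
    rw [hbe, hbe', Finset.sum_pair huv]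
    simp only [Finset.card_filter, Finset.sum_pair hwz]
    push_cast
    simp only [indA]
    ring
  have hne : indA G.1 u w + indA G.1 u z + indA G.1 v w + indA G.1 v z ≠ 2 := by
    have h5 : cnt b b' G ≠ 2 := (Finset.mem_filter.1 hG).2
    rw [← hcnt]
    exact_mod_cast h5
  obtain ⟨y11, y12, y21, y22, e1, e2, e3, e4⟩ := exists_two_by_two
    (indA G₂.1 u w + indA G₂.1 u z) (indA G₂.1 v w + indA G₂.1 v z)
    (indA G₃.1 u w + indA G₃.1 v w) (indA G₃.1 u z + indA G₃.1 v z)
    (by have := indA_bounds G₂.1 u w; have := indA_bounds G₂.1 u z; omega)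
    (by have := indA_bounds G₂.1 v w; have := indA_bounds G₂.1 v z; omega)
    (by have := indA_bounds G₃.1 u w; have := indA_bounds G₃.1 v w; omega)
    (by have := indA_bounds G₃.1 u z; have := indA_bounds G₃.1 v z; omega)
    (by omega) (by omega)
  set Yf : V → V → Bool := fun x y =>
    if x = u then (if y = w then y11 else y12) else (if y = w then y21 else y22) with hYf
  -- the graph
  obtain ⟨H, hH⟩ : ∃ H : SimpleGraph V, ∀ x y, H.Adj x y ↔
      (((x ∈ b ∧ y ∈ b') ∧ Yf x y = true) ∨ ((y ∈ b ∧ x ∈ b') ∧ Yf y x = true) ∨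
        (¬ (blk b b').Adj x y ∧ (blk b univ).Adj x y ∧ G₂.1.Adj x y) ∨
        (¬ (blk b univ).Adj x y ∧ G₃.1.Adj x y)) := ⟨
    { Adj := fun x y => (((x ∈ b ∧ y ∈ b') ∧ Yf x y = true) ∨ ((y ∈ b ∧ x ∈ b') ∧ Yf y x = true) ∨
        (¬ (blk b b').Adj x y ∧ (blk b univ).Adj x y ∧ G₂.1.Adj x y) ∨
        (¬ (blk b univ).Adj x y ∧ G₃.1.Adj x y))
      symm := ⟨fun x y h => by
        rcases h with h | h | ⟨h5, h6, h7⟩ | ⟨h5, h6⟩
        · exact Or.inr (Or.inl h)
        · exact Or.inl h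
        · exact Or.inr (Or.inr (Or.inl ⟨fun h8 => h5 h8.symm, h6.symm, h7.symm⟩))
        · exact Or.inr (Or.inr (Or.inr ⟨fun h8 => h5 h8.symm, h6.symm⟩))⟩
      loopless := ⟨fun x h => by
        rcases h with ⟨⟨h5, h6⟩, -⟩ | ⟨⟨h5, h6⟩, -⟩ | ⟨-, -, h7⟩ | ⟨-, h6⟩
        · exact Finset.disjoint_left.1 hd h5 h6
        · exact Finset.disjoint_left.1 hd h5 h6
        · exact G₂.1.loopless.irrefl x h7
        · exact G₃.1.loopless.irrefl x h6⟩ }, fun _ _ => Iff.rfl⟩
  have hblk_of : ∀ x y, x ∈ b → y ∈ b' → (blk b b').Adj x y := by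
    intro x y hx hy
    rw [blk_adj]
    refine ⟨?_, Or.inl ⟨hx, hy⟩⟩
    rintro rfl
    exact Finset.disjoint_left.1 hd hx hy
  have hon : ∀ x y, x ∈ b → y ∈ b' → (H.Adj x y ↔ Yf x y = true) := by
    intro x y hx hy
    rw [hH]
    constructor
    · rintro (h | ⟨⟨h5, -⟩, -⟩ | ⟨h5, -, -⟩ | ⟨h5, -⟩)
      · exact h.2
      · exact absurd hy (Finset.disjoint_left.1 hd h5)
      · exact absurd (hblk_of x y hx hy) h5
      · exact absurd (blk_le_left b b' (hblk_of x y hx hy)) h5
    · intro h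
      exact Or.inl ⟨⟨hx, hy⟩, h⟩
  have hoff1 : ∀ x y, ¬ (blk b b').Adj x y → (blk b univ).Adj x y →
      (H.Adj x y ↔ G₂.1.Adj x y) := by
    intro x y h5 h6
    rw [hH]
    constructor
    · rintro (⟨⟨h7, h8⟩, -⟩ | ⟨⟨h7, h8⟩, -⟩ | ⟨-, -, h7⟩ | ⟨h7, -⟩)
      · exact absurd (hblk_of x y h7 h8) h5
      · exact absurd (hblk_of y x h7 h8).symm h5
      · exact h7
      · exact absurd h6 h7
    · intro h
      exact Or.inr (Or.inr (Or.inl ⟨h5, h6, h⟩))
  have hoff2 : ∀ x y, ¬ (blk b univ).Adj x y → (H.Adj x y ↔ G₃.1.Adj x y) := by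
    intro x y h5
    rw [hH]
    constructor
    · rintro (⟨⟨h7, h8⟩, -⟩ | ⟨⟨h7, h8⟩, -⟩ | ⟨-, h7, -⟩ | ⟨-, h7⟩)
      · exact absurd (blk_le_left b b' (hblk_of x y h7 h8)) h5
      · exact absurd (blk_le_left b b' (hblk_of y x h7 h8)).symm h5
      · exact absurd h7 h5
      · exact h7
    · intro h
      exact Or.inr (Or.inr (Or.inr ⟨h5, h⟩))
  have huw : indA H u w = bi y11 := indA_eq_bi H u w y11 (by rw [hon u w hub hwb]; simp [hYf])
  have huz : indA H u z = bi y12 :=
    indA_eq_bi H u z y12 (by rw [hon u z hub hzb]; simp [hYf, hwz.symm])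
  have hvw : indA H v w = bi y21 :=
    indA_eq_bi H v w y21 (by rw [hon v w hvb hwb]; simp [hYf, huv.symm])
  have hvz : indA H v z = bi y22 :=
    indA_eq_bi H v z y22 (by rw [hon v z hvb hzb]; simp [hYf, huv.symm, hwz.symm])
  -- pointwise decomposition
  set κ : V → V → ℤ := fun t s => if (blk b b').Adj t s then
    indA H t s - indA G₂.1 t s - indA G₃.1 t s + indA G.1 t s else 0 with hκ
  have hpt : ∀ t s, indA H t s = indA G₂.1 t s + indA G₃.1 t s - indA G.1 t s + κ t s := by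
    intro t s
    by_cases h5 : (blk b b').Adj t s
    · simp only [hκ, h5, if_true]
      ring
    · simp only [hκ, h5, if_false]
      by_cases h6 : (blk b univ).Adj t s
      · have h7 : indA H t s = indA G₂.1 t s := (indA_eq_iff _ _ _ _).2 (hoff1 t s h5 h6)
        have h8 : indA G₃.1 t s = indA G.1 t s := (indA_eq_iff _ _ _ _).2
          ((key_eq_iff _ _ _).1 h3 t s (fun h9 => h5 (blk_of_both b b' hd t s h6 h9)))
        rw [h7, h8]
        ring
      · have h7 : indA H t s = indA G₃.1 t s := (indA_eq_iff _ _ _ _).2 (hoff2 t s h6)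
        have h8 : indA G₂.1 t s = indA G.1 t s := (indA_eq_iff _ _ _ _).2
          ((key_eq_iff _ _ _).1 h2 t s h6)
        rw [h7, h8]
        ring
  have hκsum : ∀ t, ∑ s, κ t s = 0 := by
    intro t
    by_cases ht : t ∈ b
    · simp only [hκ]
      rw [sum_blk_left b b' hd t ht, hbe', Finset.sum_pair hwz]
      rw [hbe] at ht
      rcases Finset.mem_insert.1 ht with rfl | ht
      · omega
      · rw [Finset.mem_singleton] at ht
        subst ht
        omega
    · by_cases ht' : t ∈ b'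
      · have hswap : ∀ s, κ t s = if (blk b' b).Adj t s then
            indA H s t - indA G₂.1 s t - indA G₃.1 s t + indA G.1 s t else 0 := by
          intro s
          simp only [hκ]
          rw [blk_comm b b', indA_comm H t s, indA_comm G₂.1 t s, indA_comm G₃.1 t s,
            indA_comm G.1 t s]
        simp only [hswap]
        rw [sum_blk_left b' b hd.symm t ht', hbe, Finset.sum_pair huv]
        rw [hbe'] at ht'
        rcases Finset.mem_insert.1 ht' with rfl | ht'
        · omega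
        · rw [Finset.mem_singleton] at ht'
          subst ht'
          omega
      · apply Finset.sum_eq_zero
        intro s _
        simp only [hκ]
        rw [if_neg]
        rw [blk_adj]
        rintro ⟨-, (⟨h5, -⟩ | ⟨-, h5⟩)⟩
        · exact ht h5
        · exact ht' h5
  have hdeg : ∀ t, ∑ s, (if H.Adj t s then (1 : ℤ) else 0) = d t := by
    intro t
    have h5 : ∑ s, indA H t s = d t := by
      rw [Finset.sum_congr rfl (fun s _ => hpt t s)]
      simp only [Finset.sum_add_distrib, Finset.sum_sub_distrib]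
      rw [sum_indA, sum_indA, sum_indA, hκsum]
      ring
    exact h5
  obtain ⟨G₄, hG₄⟩ := Om.exists_of_sum_ind (d := d) H hdeg
  have k1 : key (blk b' univ) G₄ = key (blk b' univ) G₂ := by
    rw [key_eq_iff]
    intro x y hxy
    rw [hG₄]
    by_cases h6 : (blk b univ).Adj x y
    · exact hoff1 x y (fun h7 => hxy (blk_le_right b b' h7)) h6
    · rw [hoff2 x y h6, (key_eq_iff _ _ _).1 h3 x y hxy, (key_eq_iff _ _ _).1 h2 x y h6]
  have k2 : key (blk b univ) G₄ = key (blk b univ) G₃ := by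
    rw [key_eq_iff]
    intro x y hxy
    rw [hG₄]
    exact hoff2 x y hxy
  refine ⟨G₄, ⟨k1, k2⟩, ?_⟩
  rintro G' ⟨k1', k2'⟩
  have m1 : key (blk b' univ) G' = key (blk b' univ) G₄ := k1'.trans k1.symm
  have m2 : key (blk b univ) G' = key (blk b univ) G₄ := k2'.trans k2.symm
  have ru := sum_block_eq b' G₄ G' m1 u hub'
  have rv := sum_block_eq b' G₄ G' m1 v hvb'
  have cw := sum_block_eq b G₄ G' m2 w hwb'
  have cz := sum_block_eq b G₄ G' m2 z hzb'
  rw [hbe', Finset.sum_pair hwz, Finset.sum_pair hwz] at ru rv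
  rw [hbe, Finset.sum_pair huv, Finset.sum_pair huv] at cw cz
  rw [indA_comm _ w u, indA_comm _ w v, indA_comm _ w u, indA_comm _ w v] at cw
  rw [indA_comm _ z u, indA_comm _ z v, indA_comm _ z u, indA_comm _ z v] at cz
  rw [hG₄] at ru rv cw cz
  obtain ⟨f1, f2, f3, f4⟩ := block_unique _ _ _ _ _ _ _ _
    (indA_bounds G'.1 u w) (indA_bounds G'.1 u z) (indA_bounds G'.1 v w) (indA_bounds G'.1 v z)
    (indA_bounds H u w) (indA_bounds H u z) (indA_bounds H v w) (indA_bounds H v z)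
    ru rv cw cz (by omega)
  have hblock : ∀ x y, x ∈ b → y ∈ b' → (G'.1.Adj x y ↔ H.Adj x y) := by
    intro x y hx hy
    rw [← indA_eq_iff]
    rw [hbe] at hx
    rw [hbe'] at hy
    rcases Finset.mem_insert.1 hx with rfl | hx <;> rcases Finset.mem_insert.1 hy with rfl | hy
    · exact f1
    · rw [Finset.mem_singleton] at hy; subst hy; exact f2
    · rw [Finset.mem_singleton] at hx; subst hx; exact f3
    · rw [Finset.mem_singleton] at hx hy; subst hx; subst hy; exact f4
  apply Om.ext'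
  ext x y
  rw [hG₄]
  by_cases h5 : (blk b' univ).Adj x y
  · by_cases h6 : (blk b univ).Adj x y
    · have h7 := blk_of_both b b' hd x y h6 h5
      rw [blk_adj] at h7
      rcases h7.2 with ⟨h8, h9⟩ | ⟨h8, h9⟩
      · exact hblock x y h8 h9
      · rw [G'.1.adj_comm, H.adj_comm]
        exact hblock y x h8 h9
    · have := (key_eq_iff _ _ _).1 m2 x y h6
      rw [hG₄] at this
      exact this
  · have := (key_eq_iff _ _ _).1 m1 x y h5
    rw [hG₄] at this
    exact this

end Vale.Agent.P335
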