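import Vale.Agent.P335.Rect
import Vale.Agent.P335.RectO
import Vale.Agent.P335.Glue
import Vale.Agent.P335.OpAlg
import Vale.Agent.P335.TwoRowGraph

/-!
# P335: the estimate for two disjoint vertex pairs, and the sum over all disjoint pairs
-/

namespace Vale.Agent.P335

open Finset

set_option linter.unusedSectionVars false

variable {V : Type*} [Fintype V] [DecidableEq V] {d : V → ℕ}

/-- criterion for two blocks to be cell-disjoint -/
private theorem blk_disj {X Y X' Y' : Finset V}
    (h : ∀ x y, x ∈ X → y ∈ Y → ¬ ((x ∈ X' ∧ y ∈ Y') ∨ (y ∈ X' ∧ x ∈ Y'))) :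
    Disjoint (blk X Y) (blk X' Y') := by
  rw [disjoint_iff_inf_le]
  intro x y hxy
  obtain ⟨h1, h2⟩ : (blk X Y).Adj x y ∧ (blk X' Y').Adj x y := hxy
  rw [blk_adj] at h1 h2
  rcases h1.2 with ⟨hx, hy⟩ | ⟨hy, hx⟩
  · exact (h x y hx hy h2.2).elim
  · exact (h y x hy hx h2.2.symm).elim

theorem lemmaD (b b' : Finset V) (hb : b ∈ pairs V) (hb' : b' ∈ pairs V) (hd : Disjoint b b')
    (F : Om d → ℝ) :
    ip (qq b b' F) (qq b b' F) - (1 / 2 : ℝ) * ∑ G ∈ swC b b', (Zb b b' F G) ^ 2
        - (1 / 2 : ℝ) * ∑ G ∈ swC b' b, (Zb b' b F G) ^ 2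
      ≤ ip (Qb b F) (Qb b' F) := by
  classical
  have hdis : ∀ z, z ∈ b → z ∉ b' := fun z hz => Finset.disjoint_left.mp hd hz
  have d12 : Disjoint (blk b (b ∪ b')ᶜ) (blk b' (b ∪ b')ᶜ) := by
    apply blk_disj
    intro x y hx hy
    simp only [mem_compl, mem_union, not_or] at hy ⊢
    have := hdis x hx
    tauto
  have d1q : Disjoint (blk b (b ∪ b')ᶜ) (blk b b') := by
    apply blk_disj
    intro x y hx hy
    simp only [mem_compl, mem_union, not_or] at hy ⊢
    tauto
  have d2q : Disjoint (blk b' (b ∪ b')ᶜ) (blk b b') := by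
    apply blk_disj
    intro x y hx hy
    simp only [mem_compl, mem_union, not_or] at hy ⊢
    tauto
  have d1b' : Disjoint (blk b (b ∪ b')ᶜ) (blk b' univ) := by
    apply blk_disj
    intro x y hx hy
    simp only [mem_compl, mem_union, not_or] at hy ⊢
    have := hdis x hx
    tauto
  have d2b : Disjoint (blk b' (b ∪ b')ᶜ) (blk b univ) := by
    apply blk_disj
    intro x y hx hy
    simp only [mem_compl, mem_union, not_or] at hy ⊢
    have := fun h => hdis x h hx
    tauto
  have hqb' : blk b b' ≤ blk b' univ := by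
    rw [blk_comm b b']
    exact blk_mono (Finset.Subset.refl _) (Finset.subset_univ _)
  have hZ' : ∀ G : Om d, Zb b' b F G =
      avg (key (blk b' (b ∪ b')ᶜ)) (avg (key (blk b b')) F) G - avg (key (blk b' univ)) F G := by
    intro G
    unfold Zb Eb EB
    rw [Finset.union_comm b' b, blk_comm b' b]
    rfl
  have hOb' : ∀ ω ω' : Om d, key (blk b' univ) ω = key (blk b' univ) ω' →
      (ω ∈ swO b b' ↔ ω' ∈ swO b b') := by
    intro ω ω' hk
    rw [swO_comm b b']
    exact swO_inv b' b hd.symm ω ω' hk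
  have main := opalg_disjoint (key (d := d) (blk b (b ∪ b')ᶜ)) (key (blk b' (b ∪ b')ᶜ))
    (key (blk b b')) (key (blk b univ)) (key (blk b' univ))
    (fun ω ω' hk => key_mono (blk_mono (Finset.Subset.refl _) (Finset.subset_univ _)) hk)
    (fun ω ω' hk => key_mono (blk_mono (Finset.Subset.refl _) (Finset.subset_univ _)) hk)
    (fun ω ω' hk => key_mono (blk_mono (Finset.Subset.refl _) (Finset.subset_univ _)) hk)
    (fun ω ω' hk => key_mono hqb' hk)
    (fun F => EB_comm d12 F) (fun F => EB_comm d1q F) (fun F => EB_comm d2q F)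
    (fun F => EB_comm d1b' F) (fun F => EB_comm d2b F)
    (swO b b') (swC b b') (swO_swC_disjoint b b' hb hb' hd)
    (fun ω ω' hk => swO_inv b b' hd ω ω' hk) hOb'
    (fun F ω hω => avg_comm_at_of_rect (key (blk b univ)) (key (blk b' univ))
      (fun G => G ∈ swO b b') (fun ω ω' hk => swO_inv b b' hd ω ω' hk) hOb'
      (fun x y z hx h1 h2 => rect_O b b' hb hb' hd x y z hx h1 h2) F ω hω)
    (by
      intro F ω hO hC
      rcases classify_block b b' hb hb' hd ω hO hC with h | h
      · left
        have hz := Zb_eq_zero b b' hb hb' hd ω h F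
        exact sub_eq_zero.mp hz
      · right
        have hz := Zb_eq_zero b' b hb' hb hd.symm ω h F
        have hZ'' : Zb b' b F ω =
            avg (key (blk b' (b ∪ b')ᶜ)) (avg (key (blk b b')) F) ω
              - avg (key (blk b' univ)) F ω := by
          unfold Zb Eb EB
          rw [Finset.union_comm b' b, blk_comm b' b]
          rfl
        rw [hZ''] at hz
        exact sub_eq_zero.mp hz)
    F
  rw [swC_comm b' b]
  simp only [hZ']
  exact main

end Vale.Agent.P335
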