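import Vale.Agent.P335.GraphBasic

/-!
# P335: two disjoint vertex pairs: the 2 x 2 block `b × b'`
-/

namespace Vale.Agent.P335

open Finset

set_option linter.unusedSectionVars false

variable {V : Type*} [Fintype V] [DecidableEq V] {d : V → ℕ}

open Classical in
/-- `cnt` as an integer double sum of indicators -/
private theorem cnt_eq_sum (b b' : Finset V) (G : Om d) :
    (cnt b b' G : ℤ) = ∑ x ∈ b, ∑ y ∈ b', (if G.1.Adj x y then (1 : ℤ) else 0) := by
  unfold cnt
  push_cast
  refine Finset.sum_congr rfl fun x _ => ?_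
  rw [Finset.card_filter]
  push_cast
  rfl

theorem cnt_comm (b b' : Finset V) (G : Om d) : cnt b b' G = cnt b' b G := by
  classical
  have h1 := cnt_eq_sum b b' G
  have h2 := cnt_eq_sum b' b G
  rw [Finset.sum_comm] at h2
  have : (cnt b b' G : ℤ) = cnt b' b G := by
    rw [h1, h2]
    refine Finset.sum_congr rfl fun x _ => Finset.sum_congr rfl fun y _ => ?_
    simp only [G.1.adj_comm x y]
  exact_mod_cast this

open Classical in
/-- row sums over `s` are determined by the key of a block all of whose cells at `x` end in `s` -/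
private theorem row_sum_eq (H : SimpleGraph V) (s : Finset V) (x : V) (G G' : Om d)
    (h : key H G = key H G') (hs : ∀ y, y ∉ s → ¬ H.Adj x y) :
    ∑ y ∈ s, (if G.1.Adj x y then (1 : ℤ) else 0) = ∑ y ∈ s, (if G'.1.Adj x y then (1 : ℤ) else 0) := by
  have e1 := Om.sum_ind G x
  have e2 := Om.sum_ind G' x
  rw [← Finset.sum_add_sum_compl s] at e1 e2
  have e3 : ∑ y ∈ sᶜ, (if G.1.Adj x y then (1 : ℤ) else 0)
      = ∑ y ∈ sᶜ, (if G'.1.Adj x y then (1 : ℤ) else 0) := by
    refine Finset.sum_congr rfl fun y hy => ?_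
    have hy' : y ∉ s := by simpa using hy
    have := (key_eq_iff H G G').1 h x y (hs y hy')
    simp only [this]
  linarith

/-- the number of edges in the block `b × b'` is determined by the graph off the cells touching `b` -/
theorem cnt_inv (b b' : Finset V) (hd : Disjoint b b') (G G' : Om d)
    (h : key (blk b univ) G = key (blk b univ) G') : cnt b b' G = cnt b b' G' := by
  classical
  rw [cnt_comm b b' G, cnt_comm b b' G']
  have : (cnt b' b G : ℤ) = cnt b' b G' := by
    rw [cnt_eq_sum, cnt_eq_sum]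
    refine Finset.sum_congr rfl fun y hy => ?_
    refine row_sum_eq (blk b univ) b y G G' h fun x hx => ?_
    have hyb : y ∉ b := fun hyb => (Finset.disjoint_left.1 hd hyb hy)
    rw [blk_adj]
    tauto
  exact_mod_cast this

theorem swO_inv (b b' : Finset V) (hd : Disjoint b b') (G G' : Om d)
    (h : key (blk b univ) G = key (blk b univ) G') : (G ∈ swO b b' ↔ G' ∈ swO b b') := by
  classical
  simp only [swO, Finset.mem_filter, Finset.mem_univ, true_and, cnt_inv b b' hd G G' h]

theorem swO_comm (b b' : Finset V) : (swO b b' : Finset (Om d)) = swO b' b := by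
  classical
  ext G
  simp only [swO, Finset.mem_filter, Finset.mem_univ, true_and, cnt_comm b b' G]

theorem swC_comm (b b' : Finset V) : (swC b b' : Finset (Om d)) = swC b' b := by
  classical
  ext G
  simp only [swC, Finset.mem_filter, Finset.mem_univ, true_and, blk_comm b b']

private theorem exists_pair {b : Finset V} (hb : b ∈ pairs V) : ∃ u v, u ≠ v ∧ b = {u, v} := by
  have : b.card = 2 := (Finset.mem_powersetCard.1 hb).2
  exact Finset.card_eq_two.1 this

open Classical in
private theorem cnt_pair (u v w z : V) (huv : u ≠ v) (hwz : w ≠ z) (G : Om d) :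
    (cnt {u, v} {w, z} G : ℤ) = (if G.1.Adj u w then (1 : ℤ) else 0) + (if G.1.Adj u z then 1 else 0)
      + ((if G.1.Adj v w then 1 else 0) + (if G.1.Adj v z then 1 else 0)) := by
  rw [cnt_eq_sum, Finset.sum_pair huv, Finset.sum_pair hwz, Finset.sum_pair hwz]

/-- a switchable block contains exactly two edges -/
theorem swO_swC_disjoint (b b' : Finset V) (hb : b ∈ pairs V) (hb' : b' ∈ pairs V)
    (hd : Disjoint b b') : Disjoint (swO b b' : Finset (Om d)) (swC b b') := by
  classical
  obtain ⟨u, v, huv, rfl⟩ := exists_pair hb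
  obtain ⟨w, z, hwz, rfl⟩ := exists_pair hb'
  rw [Finset.disjoint_left]
  intro G hO hC
  simp only [swO, Finset.mem_filter, Finset.mem_univ, true_and] at hO
  simp only [swC, Finset.mem_filter, Finset.mem_univ, true_and] at hC
  obtain ⟨G', hne, hk⟩ := hC
  apply hO
  have huw : u ≠ w := by rintro rfl; simp at hd
  have huz : u ≠ z := by rintro rfl; simp at hd
  have hvw : v ≠ w := by rintro rfl; simp at hd
  have hvz : v ≠ z := by rintro rfl; simp at hd
  have ru := row_sum_eq (blk {u, v} {w, z}) {w, z} u G' G hk (by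
    intro y hy; rw [blk_adj]; simp only [Finset.mem_insert, Finset.mem_singleton] at hy ⊢; tauto)
  have rv := row_sum_eq (blk {u, v} {w, z}) {w, z} v G' G hk (by
    intro y hy; rw [blk_adj]; simp only [Finset.mem_insert, Finset.mem_singleton] at hy ⊢; tauto)
  have rw' := row_sum_eq (blk {u, v} {w, z}) {u, v} w G' G hk (by
    intro y hy; rw [blk_adj]; simp only [Finset.mem_insert, Finset.mem_singleton] at hy ⊢; tauto)
  have rz := row_sum_eq (blk {u, v} {w, z}) {u, v} z G' G hk (by
    intro y hy; rw [blk_adj]; simp only [Finset.mem_insert, Finset.mem_singleton] at hy ⊢; tauto)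
  rw [Finset.sum_pair hwz, Finset.sum_pair hwz] at ru rv
  rw [Finset.sum_pair huv, Finset.sum_pair huv] at rw' rz
  simp only [G.1.adj_comm w, G.1.adj_comm z, G'.1.adj_comm w, G'.1.adj_comm z] at rw' rz
  have hc := cnt_pair u v w z huv hwz G
  -- some cell of the block differs
  have hdiff : ¬ ((G'.1.Adj u w ↔ G.1.Adj u w) ∧ (G'.1.Adj u z ↔ G.1.Adj u z) ∧
      (G'.1.Adj v w ↔ G.1.Adj v w) ∧ (G'.1.Adj v z ↔ G.1.Adj v z)) := by
    rintro ⟨a1, a2, a3, a4⟩
    apply hne
    apply Om.ext'
    ext x y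
    by_cases hxy : (blk {u, v} {w, z}).Adj x y
    · rw [blk_adj] at hxy
      simp only [Finset.mem_insert, Finset.mem_singleton] at hxy
      rcases hxy with ⟨_, ⟨rfl | rfl, rfl | rfl⟩ | ⟨rfl | rfl, rfl | rfl⟩⟩
      · exact a1
      · exact a2
      · exact a3
      · exact a4
      · rw [G'.1.adj_comm, G.1.adj_comm]; exact a1
      · rw [G'.1.adj_comm, G.1.adj_comm]; exact a2
      · rw [G'.1.adj_comm, G.1.adj_comm]; exact a3
      · rw [G'.1.adj_comm, G.1.adj_comm]; exact a4
    · exact (key_eq_iff _ G' G).1 hk x y hxy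
  have : (cnt {u, v} {w, z} G : ℤ) = 2 := by
    rw [hc]
    by_cases p1 : G.1.Adj u w <;> by_cases p2 : G.1.Adj u z <;> by_cases p3 : G.1.Adj v w <;>
    by_cases p4 : G.1.Adj v z <;> by_cases q1 : G'.1.Adj u w <;> by_cases q2 : G'.1.Adj u z <;>
    by_cases q3 : G'.1.Adj v w <;> by_cases q4 : G'.1.Adj v z <;>
    simp only [p1, p2, p3, p4, q1, q2, q3, q4, if_true, if_false] at ru rv rw' rz hdiff ⊢ <;>
    first | omega | (exfalso; exact hdiff (by simp))
  exact_mod_cast this

/-- a diagonal block is switchable -/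
private theorem mem_swC_of_diag (u v w z : V) (huv : u ≠ v) (hwz : w ≠ z) (huw : u ≠ w)
    (huz : u ≠ z) (hvw : v ≠ w) (hvz : v ≠ z) (G : Om d)
    (p1 : G.1.Adj u w) (p4 : G.1.Adj v z) (p2 : ¬ G.1.Adj u z) (p3 : ¬ G.1.Adj v w) :
    ∃ G' : Om d, G' ≠ G ∧ key (blk {u, v} {w, z}) G' = key (blk {u, v} {w, z}) G := by
  obtain ⟨G', hG'⟩ := exists_switch G u w z v huw huz huv hwz hvw.symm hvz.symm p1
    ((G.1.adj_comm _ _).1 p4) p2 (fun h => p3 ((G.1.adj_comm _ _).1 h))
  refine ⟨G', ?_, ?_⟩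
  · intro h
    apply p2
    rw [← h, hG']
    simp
  · rw [key_eq_iff]
    intro x y hxy
    rw [hG']
    rw [blk_adj] at hxy
    simp only [Finset.mem_insert, Finset.mem_singleton] at hxy
    have n1 : s(x, y) ≠ s(u, w) := by
      intro h
      rcases Sym2.eq_iff.1 h with ⟨rfl, rfl⟩ | ⟨rfl, rfl⟩
      · exact hxy ⟨huw, by simp⟩
      · exact hxy ⟨huw.symm, by simp⟩
    have n2 : s(x, y) ≠ s(z, v) := by
      intro h
      rcases Sym2.eq_iff.1 h with ⟨rfl, rfl⟩ | ⟨rfl, rfl⟩
      · exact hxy ⟨hvz.symm, by simp⟩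
      · exact hxy ⟨hvz, by simp⟩
    have n3 : s(x, y) ≠ s(u, z) := by
      intro h
      rcases Sym2.eq_iff.1 h with ⟨rfl, rfl⟩ | ⟨rfl, rfl⟩
      · exact hxy ⟨huz, by simp⟩
      · exact hxy ⟨huz.symm, by simp⟩
    have n4 : s(x, y) ≠ s(w, v) := by
      intro h
      rcases Sym2.eq_iff.1 h with ⟨rfl, rfl⟩ | ⟨rfl, rfl⟩
      · exact hxy ⟨hvw.symm, by simp⟩
      · exact hxy ⟨hvw, by simp⟩
    simp only [n1, n2, n3, n4, ne_eq, not_false_eq_true, and_true, or_false]

/-- a block with exactly two edges which is not switchable is a row pattern or a column pattern -/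
theorem classify_block (b b' : Finset V) (hb : b ∈ pairs V) (hb' : b' ∈ pairs V)
    (hd : Disjoint b b') (G : Om d) (hO : G ∉ swO b b') (hC : G ∉ swC b b') :
    (∀ y ∈ b', ∀ x ∈ b, ∀ x' ∈ b, (G.1.Adj x y ↔ G.1.Adj x' y)) ∨
      (∀ x ∈ b, ∀ y ∈ b', ∀ y' ∈ b', (G.1.Adj y x ↔ G.1.Adj y' x)) := by
  classical
  obtain ⟨u, v, huv, rfl⟩ := exists_pair hb
  obtain ⟨w, z, hwz, rfl⟩ := exists_pair hb'
  simp only [swO, Finset.mem_filter, Finset.mem_univ, true_and, not_not] at hO
  simp only [swC, Finset.mem_filter, Finset.mem_univ, true_and] at hC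
  have huw : u ≠ w := by rintro rfl; simp at hd
  have huz : u ≠ z := by rintro rfl; simp at hd
  have hvw : v ≠ w := by rintro rfl; simp at hd
  have hvz : v ≠ z := by rintro rfl; simp at hd
  have hc := cnt_pair u v w z huv hwz G
  rw [hO] at hc
  have d1 : ¬ (G.1.Adj u w ∧ G.1.Adj v z ∧ ¬ G.1.Adj u z ∧ ¬ G.1.Adj v w) := by
    rintro ⟨p1, p4, p2, p3⟩
    exact hC (mem_swC_of_diag u v w z huv hwz huw huz hvw hvz G p1 p4 p2 p3)
  have d2 : ¬ (G.1.Adj u z ∧ G.1.Adj v w ∧ ¬ G.1.Adj u w ∧ ¬ G.1.Adj v z) := by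
    rintro ⟨p2, p3, p1, p4⟩
    apply hC
    have := mem_swC_of_diag u v z w huv hwz.symm huz huw hvz hvw G p2 p3 p1 p4
    rwa [Finset.pair_comm z w] at this
  simp only [Finset.mem_insert, Finset.mem_singleton, forall_eq_or_imp, forall_eq,
    G.1.adj_comm w, G.1.adj_comm z]
  by_cases p1 : G.1.Adj u w <;> by_cases p2 : G.1.Adj u z <;> by_cases p3 : G.1.Adj v w <;>
    by_cases p4 : G.1.Adj v z <;>
    simp only [p1, p2, p3, p4, if_true, if_false] at hc d1 d2 ⊢ <;>
    first | (exfalso; omega) | (simp; done) | (exfalso; simp at d1; done) | (exfalso; simp at d2; done)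

end Vale.Agent.P335
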