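import Vale.Agent.P335.Defs

/-!
# P335: sharper cardinality bound and numerical step
-/

namespace Vale.Agent.P335

open Finset

set_option linter.unusedSectionVars false

variable {V : Type*} [Fintype V] [DecidableEq V] {d : V → ℕ}

theorem card_Om_le_sharp (d : V → ℕ) :
    (Fintype.card (Om d) : ℝ) ≤ 2 ^ ((Fintype.card V).choose 2) := by
  classical
  have hinj : Function.Injective
      (fun G : Om d => (univ : Finset {e : Sym2 V // ¬ e.IsDiag}).filter
        (fun e => e.1 ∈ G.1.edgeSet)) := by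
    intro G G' h
    apply Subtype.ext
    apply SimpleGraph.edgeSet_inj.mp
    ext e
    by_cases he : e.IsDiag
    · constructor
      · intro h1; exact absurd he (SimpleGraph.not_isDiag_of_mem_edgeSet _ h1)
      · intro h1; exact absurd he (SimpleGraph.not_isDiag_of_mem_edgeSet _ h1)
    · have h1 := Finset.ext_iff.mp h ⟨e, he⟩
      simpa using h1
  have h := Fintype.card_le_of_injective _ hinj
  rw [Fintype.card_finset, Sym2.card_subtype_not_diag] at h
  exact_mod_cast h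

private theorem choose_two_le' (n : ℕ) : ((n.choose 2 : ℕ) : ℝ) ≤ (n : ℝ) ^ 2 / 2 := by
  have h := Nat.choose_le_pow_div (α := ℝ) 2 n
  simpa using h

private theorem choose_four_le' (n : ℕ) : ((n.choose 4 : ℕ) : ℝ) ≤ (n : ℝ) ^ 4 / 24 := by
  have h := Nat.choose_le_pow_div (α := ℝ) 4 n
  have h4 : ((Nat.factorial 4 : ℕ) : ℝ) = 24 := by norm_num [Nat.factorial]
  rw [h4] at h
  exact h

theorem numeric_bound_sharp (n : ℕ) (hn : 4 ≤ n) (N : ℝ) (hN0 : 0 ≤ N) (hN : N ≤ 2 ^ (n.choose 2)) :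
    (1 / 2 : ℝ) * Real.sqrt (N * (1 - 1 / (24 * ((n.choose 4 : ℕ) : ℝ))) ^ (n ^ 6)) ≤ 1 / 4 := by
  set A : ℝ := 24 * ((n.choose 4 : ℕ) : ℝ) with hA
  have hnR : (4 : ℝ) ≤ (n : ℝ) := by exact_mod_cast hn
  have hnpos : (0 : ℝ) < (n : ℝ) := by linarith
  have hc4 : (1 : ℝ) ≤ ((n.choose 4 : ℕ) : ℝ) := by
    have : 1 ≤ n.choose 4 := Nat.choose_pos (by omega)
    exact_mod_cast this
  have hA1 : (1 : ℝ) ≤ A := by rw [hA]; linarith
  have hApos : 0 < A := by linarith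
  have hAle : A ≤ (n : ℝ) ^ 4 := by
    have h4 := choose_four_le' n
    rw [hA]; linarith
  have hg0 : 0 ≤ 1 - 1 / A := by
    have : 1 / A ≤ 1 := by rw [div_le_one hApos]; exact hA1
    linarith
  have hgexp : 1 - 1 / A ≤ Real.exp (-(1 / A)) := Real.one_sub_le_exp_neg _
  have hpow : (1 - 1 / A) ^ (n ^ 6) ≤ Real.exp (-(1 / A)) ^ (n ^ 6) :=
    pow_le_pow_left₀ hg0 hgexp _
  have hpow2 : Real.exp (-(1 / A)) ^ (n ^ 6) = Real.exp (((n ^ 6 : ℕ) : ℝ) * (-(1 / A))) := by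
    rw [← Real.exp_nat_mul]
  have hgam : (n : ℝ) ^ 2 ≤ ((n ^ 6 : ℕ) : ℝ) * (1 / A) := by
    have h8 : 1 / (n : ℝ) ^ 4 ≤ 1 / A := one_div_le_one_div_of_le hApos hAle
    have h10 : ((n ^ 6 : ℕ) : ℝ) = (n : ℝ) ^ 6 := by push_cast; ring
    rw [h10]
    calc (n : ℝ) ^ 2 = (n : ℝ) ^ 6 * (1 / (n : ℝ) ^ 4) := by
          field_simp
      _ ≤ (n : ℝ) ^ 6 * (1 / A) := by
          apply mul_le_mul_of_nonneg_left h8 (by positivity)
  have hN2 : N ≤ Real.exp ((n : ℝ) ^ 2 / 2) := by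
    have h2e : (2 : ℝ) ≤ Real.exp 1 := by
      have := Real.add_one_le_exp (1 : ℝ)
      linarith
    calc N ≤ 2 ^ (n.choose 2) := hN
      _ ≤ Real.exp 1 ^ (n.choose 2) := pow_le_pow_left₀ (by norm_num) h2e _
      _ = Real.exp (((n.choose 2 : ℕ) : ℝ) * 1) := by rw [← Real.exp_nat_mul]
      _ ≤ Real.exp ((n : ℝ) ^ 2 / 2) := by
          apply Real.exp_le_exp.mpr
          have := choose_two_le' n
          linarith
  have hmain : N * (1 - 1 / A) ^ (n ^ 6) ≤ 1 / 4 := by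
    have hq0 : 0 ≤ (1 - 1 / A) ^ (n ^ 6) := pow_nonneg hg0 _
    calc N * (1 - 1 / A) ^ (n ^ 6)
        ≤ Real.exp ((n : ℝ) ^ 2 / 2) * Real.exp (((n ^ 6 : ℕ) : ℝ) * (-(1 / A))) := by
          apply mul_le_mul hN2 (by rw [← hpow2]; exact hpow) hq0 (Real.exp_pos _).le
      _ = Real.exp ((n : ℝ) ^ 2 / 2 + ((n ^ 6 : ℕ) : ℝ) * (-(1 / A))) := by rw [Real.exp_add]
      _ ≤ Real.exp (-2) := by
          apply Real.exp_le_exp.mpr
          nlinarith
      _ ≤ 1 / 4 := by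
          have h2e : (2 : ℝ) ≤ Real.exp 1 := by
            have := Real.add_one_le_exp (1 : ℝ)
            linarith
          have h4 : (4 : ℝ) ≤ Real.exp 2 := by
            have : Real.exp 2 = Real.exp 1 * Real.exp 1 := by rw [← Real.exp_add]; norm_num
            rw [this]; nlinarith
          rw [Real.exp_neg]
          rw [inv_eq_one_div]
          apply one_div_le_one_div_of_le (by norm_num) h4
  have hs : Real.sqrt (N * (1 - 1 / A) ^ (n ^ 6)) ≤ 1 / 2 := by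
    calc Real.sqrt (N * (1 - 1 / A) ^ (n ^ 6)) ≤ Real.sqrt (1 / 4) := Real.sqrt_le_sqrt hmain
      _ = 1 / 2 := by
          rw [show (1 / 4 : ℝ) = (1 / 2) ^ 2 by norm_num]
          exact Real.sqrt_sq (by norm_num)
  linarith

end Vale.Agent.P335
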