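import Vale.Agent.P335.SharpPoincare
import Vale.Agent.P335.SharpNumeric
import Vale.Agent.P335.Mixing

/-!
# P335: mixing time at most `n ^ 6`
-/

namespace Vale.Agent.P335

open Finset

set_option linter.unusedSectionVars false

variable {V : Type*} [Fintype V] [DecidableEq V] {d : V → ℕ}

theorem tv_switchChain_le_sharp (hV : 4 ≤ Fintype.card V) (G : Om d) :
    tv ((switchChain d ^ ((Fintype.card V) ^ 6)) G) (unif d) ≤ 1 / 4 := by
  have h4 : (1 : ℝ) ≤ ((Fintype.card V).choose 4 : ℝ) := by
    have : 0 < (Fintype.card V).choose 4 := Nat.choose_pos hV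
    exact_mod_cast this
  have hden : (1 : ℝ) ≤ 24 * ((Fintype.card V).choose 4 : ℝ) := by
    linarith
  have hγ0 : (0 : ℝ) < 1 / (24 * ((Fintype.card V).choose 4 : ℝ)) := by positivity
  have hγ1 : 1 / (24 * ((Fintype.card V).choose 4 : ℝ)) ≤ 1 := by
    rw [div_le_one (by linarith)]
    exact hden
  have key := tv_le_of_poincare (switchKernel d) switchKernel_nonneg switchKernel_symm
    (switchKernel_row_sum hV) _ hγ0 hγ1 (fun F hF => chain_poincare_sharp hV F hF)
    ((Fintype.card V) ^ 6) G
  have hnum := numeric_bound_sharp (Fintype.card V) hV (Fintype.card (Om d) : ℝ)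
    (Nat.cast_nonneg _) (card_Om_le_sharp d)
  exact key.trans hnum

theorem tmix_le_sharp (hV : 4 ≤ Fintype.card V) (d : V → ℕ) : tmix d ≤ (Fintype.card V) ^ 6 :=
  Nat.sInf_le fun G => tv_switchChain_le_sharp hV G

end Vale.Agent.P335
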