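import Vale.Agent.P335.GraphBasic

/-!
# P335: two distinct states differ inside the block `b × b'` for at most two ordered pairs `(b, b')`
-/

namespace Vale.Agent.P335

open Finset

set_option linter.unusedSectionVars false

variable {V : Type*} [Fintype V] [DecidableEq V] {d : V → ℕ}

theorem blk_adj_left_sm {X Y : Finset V} (h : Disjoint X Y) {x : V} (hx : x ∈ X) (y : V) :
    (blk X Y).Adj x y ↔ y ∈ Y := by
  rw [blk_adj]
  have hxY : x ∉ Y := Finset.disjoint_left.1 h hx
  constructor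
  · rintro ⟨_, ⟨_, h2⟩ | ⟨_, h2⟩⟩
    · exact h2
    · exact absurd h2 hxY
  · intro hy
    exact ⟨fun e => hxY (e ▸ hy), Or.inl ⟨hx, hy⟩⟩

theorem blk_adj_right_sm {X Y : Finset V} (h : Disjoint X Y) {x : V} (hx : x ∈ Y) (y : V) :
    (blk X Y).Adj x y ↔ y ∈ X := by
  rw [blk_comm]
  exact blk_adj_left_sm h.symm hx y

theorem blk_eq_cases_sm {b b' c c' : Finset V} (hbb : Disjoint b b') (hcc : Disjoint c c')
    (hb : b.Nonempty) (hb' : b'.Nonempty)
    (h : ∀ x y, (blk b b').Adj x y ↔ (blk c c').Adj x y) :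
    (c = b ∧ c' = b') ∨ (c = b' ∧ c' = b) := by
  obtain ⟨u, hu⟩ := hb
  obtain ⟨w, hw⟩ := hb'
  have huw : (blk b b').Adj u w := (blk_adj_left_sm hbb hu w).2 hw
  have huw' := (h u w).1 huw
  rw [blk_adj] at huw'
  rcases huw'.2 with ⟨h1, h2⟩ | ⟨h1, h2⟩
  · left
    constructor
    · ext x
      rw [← blk_adj_right_sm hcc h2 x, ← h, blk_adj_right_sm hbb hw x]
    · ext x
      rw [← blk_adj_left_sm hcc h1 x, ← h, blk_adj_left_sm hbb hu x]
  · right
    constructor
    · ext x
      rw [← blk_adj_right_sm hcc h2 x, ← h, blk_adj_left_sm hbb hu x]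
    · ext x
      rw [← blk_adj_left_sm hcc h1 x, ← h, blk_adj_right_sm hbb hw x]

open Classical in
/-- difference of the indicators of a cell -/
noncomputable def dl (G G' : Om d) (x y : V) : ℤ :=
  (if G.1.Adj x y then 1 else 0) - (if G'.1.Adj x y then 1 else 0)

theorem dl_eq_zero_iff (G G' : Om d) (x y : V) :
    dl G G' x y = 0 ↔ (G.1.Adj x y ↔ G'.1.Adj x y) := by
  classical
  unfold dl
  by_cases h1 : G.1.Adj x y <;> by_cases h2 : G'.1.Adj x y <;> simp [h1, h2]

theorem dl_symm (G G' : Om d) (x y : V) : dl G G' x y = dl G G' y x := by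
  classical
  unfold dl
  have h1 : G.1.Adj x y ↔ G.1.Adj y x := SimpleGraph.adj_comm _ _ _
  have h2 : G'.1.Adj x y ↔ G'.1.Adj y x := SimpleGraph.adj_comm _ _ _
  by_cases a1 : G.1.Adj x y <;> by_cases a2 : G'.1.Adj x y <;>
    simp [a1, a2, h1.mp, h2.mp, ← h1, ← h2]

theorem sum_dl (G G' : Om d) (x : V) : ∑ y, dl G G' x y = 0 := by
  classical
  unfold dl
  rw [Finset.sum_sub_distrib, Om.sum_ind G x, Om.sum_ind G' x, sub_self]

theorem dl_pair (G G' : Om d) (x p q : V) (hpq : p ≠ q)
    (h : ∀ y, y ≠ p → y ≠ q → dl G G' x y = 0) : dl G G' x p + dl G G' x q = 0 := by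
  rw [← sum_dl G G' x]
  symm
  apply Finset.sum_eq_add p q hpq
  · intro y _ hy
    exact h y hy.1 hy.2
  · intro hp; exact absurd (Finset.mem_univ _) hp
  · intro hq; exact absurd (Finset.mem_univ _) hq

theorem diff_eq_blk_sm (G G' : Om d) (hne : G ≠ G') (b b' : Finset V) (hb : b ∈ pairs V)
    (hb' : b' ∈ pairs V) (hd : Disjoint b b') (hk : key (blk b b') G = key (blk b b') G') :
    ∀ x y, (blk b b').Adj x y ↔ dl G G' x y ≠ 0 := by
  rw [key_eq_iff] at hk
  have hoff : ∀ x y, ¬ (blk b b').Adj x y → dl G G' x y = 0 := fun x y hxy =>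
    (dl_eq_zero_iff G G' x y).2 (hk x y hxy)
  obtain ⟨u, v, huv, hbe⟩ := Finset.card_eq_two.1 (mem_powersetCard.1 hb).2
  obtain ⟨w, z, hwz, hbe'⟩ := Finset.card_eq_two.1 (mem_powersetCard.1 hb').2
  have hu : u ∈ b := by rw [hbe]; simp
  have hv : v ∈ b := by rw [hbe]; simp
  have hw : w ∈ b' := by rw [hbe']; simp
  have hz : z ∈ b' := by rw [hbe']; simp
  have row : ∀ x ∈ b, dl G G' x w + dl G G' x z = 0 := by
    intro x hx
    apply dl_pair G G' x w z hwz
    intro y h1 h2
    apply hoff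
    rw [blk_adj_left_sm hd hx, hbe']
    simp [h1, h2]
  have col : ∀ y ∈ b', dl G G' u y + dl G G' v y = 0 := by
    intro y hy
    rw [dl_symm G G' u y, dl_symm G G' v y]
    apply dl_pair G G' y u v huv
    intro x h1 h2
    apply hoff
    rw [blk_adj_right_sm hd hy, hbe]
    simp [h1, h2]
  have r1 := row u hu
  have r2 := row v hv
  have c1 := col w hw
  have c2 := col z hz
  -- some cell differs
  have hex : ∃ x y, dl G G' x y ≠ 0 := by
    by_contra hcon
    push Not at hcon
    apply hne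
    apply Om.ext'
    ext x y
    exact (dl_eq_zero_iff G G' x y).1 (hcon x y)
  obtain ⟨x0, y0, h0⟩ := hex
  have hadj0 : (blk b b').Adj x0 y0 := by
    by_contra hcon
    exact h0 (hoff x0 y0 hcon)
  have hcell : dl G G' u w ≠ 0 := by
    rw [blk_adj] at hadj0
    rcases hadj0.2 with ⟨h1, h2⟩ | ⟨h1, h2⟩
    · rw [hbe] at h1
      rw [hbe'] at h2
      simp only [Finset.mem_insert, Finset.mem_singleton] at h1 h2
      rcases h1 with rfl | rfl <;> rcases h2 with rfl | rfl <;> omega
    · rw [dl_symm] at h0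
      rw [hbe] at h1
      rw [hbe'] at h2
      simp only [Finset.mem_insert, Finset.mem_singleton] at h1 h2
      rcases h1 with rfl | rfl <;> rcases h2 with rfl | rfl <;> omega
  intro x y
  constructor
  · intro hxy
    rw [blk_adj] at hxy
    rcases hxy.2 with ⟨h1, h2⟩ | ⟨h1, h2⟩
    · rw [hbe] at h1
      rw [hbe'] at h2
      simp only [Finset.mem_insert, Finset.mem_singleton] at h1 h2
      rcases h1 with rfl | rfl <;> rcases h2 with rfl | rfl <;> omega
    · rw [dl_symm]
      rw [hbe] at h1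
      rw [hbe'] at h2
      simp only [Finset.mem_insert, Finset.mem_singleton] at h1 h2
      rcases h1 with rfl | rfl <;> rcases h2 with rfl | rfl <;> omega
  · intro hxy
    by_contra hcon
    exact hxy (hoff x y hcon)

open Classical in
theorem mult_le_two (G G' : Om d) (hne : G ≠ G') :
    (((pairs V) ×ˢ (pairs V)).filter
      (fun p => Disjoint p.1 p.2 ∧ key (blk p.1 p.2) G = key (blk p.1 p.2) G')).card ≤ 2 := by
  set S := ((pairs V) ×ˢ (pairs V)).filter
      (fun p => Disjoint p.1 p.2 ∧ key (blk p.1 p.2) G = key (blk p.1 p.2) G') with hS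
  rcases S.eq_empty_or_nonempty with h | ⟨p, hp⟩
  · rw [h]; simp
  · have hsub : S ⊆ {p, (p.2, p.1)} := by
      intro p' hp'
      rw [hS, Finset.mem_filter, Finset.mem_product] at hp hp'
      have e1 := diff_eq_blk_sm G G' hne p.1 p.2 hp.1.1 hp.1.2 hp.2.1 hp.2.2
      have e2 := diff_eq_blk_sm G G' hne p'.1 p'.2 hp'.1.1 hp'.1.2 hp'.2.1 hp'.2.2
      have hn1 : p.1.Nonempty := by
        rw [← Finset.card_pos, (mem_powersetCard.1 hp.1.1).2]; norm_num
      have hn2 : p.2.Nonempty := by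
        rw [← Finset.card_pos, (mem_powersetCard.1 hp.1.2).2]; norm_num
      rcases blk_eq_cases_sm hp.2.1 hp'.2.1 hn1 hn2 (fun x y => (e1 x y).trans (e2 x y).symm)
        with ⟨h1, h2⟩ | ⟨h1, h2⟩
      · rw [Finset.mem_insert]
        left
        exact Prod.ext h1 h2
      · rw [Finset.mem_insert, Finset.mem_singleton]
        right
        exact Prod.ext h1 h2
    exact le_trans (Finset.card_le_card hsub) Finset.card_le_two

end Vale.Agent.P335
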