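import Vale.Agent.P335.SharpMult
import Vale.Agent.P335.Caputo
import Vale.Agent.P335.Chain

/-!
# P335: Poincare inequality for the switch chain with the constant `24 * choose n 4`
-/

namespace Vale.Agent.P335

open Finset

set_option linter.unusedSectionVars false

variable {V : Type*} [Fintype V] [DecidableEq V] {d : V → ℕ}

/-- two disjoint pairs need four vertices -/
theorem sharp_four_le_card (b b' : Finset V) (hb : b ∈ pairs V) (hb' : b' ∈ pairs V)
    (hd : Disjoint b b') : 4 ≤ Fintype.card V := by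
  unfold pairs at hb hb'
  rw [mem_powersetCard] at hb hb'
  have h1 : (b ∪ b').card = 4 := by
    rw [card_union_of_disjoint hd, hb.2, hb'.2]
  calc 4 = (b ∪ b').card := h1.symm
    _ ≤ Fintype.card V := card_le_univ _

open Classical in
/-- one block term, written with indicators -/
theorem sharp_qq_le (b b' : Finset V) (F : Om d → ℝ) :
    ip (qq b b' F) (qq b b' F) ≤ (1 / 4 : ℝ) * ∑ G, ∑ G',
      (if key (blk b b') G = key (blk b b') G' then (F G - F G') ^ 2 else 0) := by
  have h1 : ip (qq b b' F) (qq b b' F) = ∑ G, (F G - avg (key (blk b b')) F G) ^ 2 := by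
    unfold ip qq EB
    refine Finset.sum_congr rfl (fun G _ => ?_)
    simp only [Pi.sub_apply]
    ring
  rw [h1]
  refine (sq_sub_avg_le (key (blk b b')) F).trans (le_of_eq ?_)
  congr 1
  refine Finset.sum_congr rfl (fun G _ => ?_)
  unfold cls clsOn
  rw [Finset.sum_filter]
  refine Finset.sum_congr rfl (fun G' _ => ?_)
  by_cases h : key (blk b b') G = key (blk b b') G'
  · rw [if_pos h, if_pos h.symm]
  · rw [if_neg h, if_neg (fun h' => h h'.symm)]

open Classical in
/-- for fixed `G, G'` the sum over all blocks -/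
theorem sharp_pair_le (F : Om d → ℝ) (G G' : Om d) :
    ∑ p ∈ ((pairs V) ×ˢ (pairs V)).filter (fun p => Disjoint p.1 p.2),
      (if key (blk p.1 p.2) G = key (blk p.1 p.2) G' then (F G - F G') ^ 2 else 0) ≤
      2 * ((6 * ((Fintype.card V).choose 4 : ℝ)) * (switchKernel d G G' * (F G - F G') ^ 2)) := by
  have hx : 0 ≤ (F G - F G') ^ 2 := sq_nonneg _
  have hK : 0 ≤ switchKernel d G G' := switchKernel_nonneg G G'
  by_cases hne : G = G'
  · subst hne
    simp
  · rw [← Finset.sum_filter, Finset.filter_filter, Finset.sum_const, nsmul_eq_mul]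
    have hm := mult_le_two G G' hne
    set S := ((pairs V) ×ˢ (pairs V)).filter
      (fun p => Disjoint p.1 p.2 ∧ key (blk p.1 p.2) G = key (blk p.1 p.2) G') with hS
    rcases S.eq_empty_or_nonempty with h0 | ⟨p, hp⟩
    · rw [h0]
      simp only [card_empty, Nat.cast_zero, zero_mul]
      positivity
    · rw [hS, mem_filter, mem_product] at hp
      obtain ⟨⟨hb, hb'⟩, hd, hk⟩ := hp
      have hV : 4 ≤ Fintype.card V := sharp_four_le_card p.1 p.2 hb hb' hd
      have hC : (0 : ℝ) < 6 * ((Fintype.card V).choose 4 : ℝ) := by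
        have : 0 < (Fintype.card V).choose 4 := Nat.choose_pos hV
        positivity
      have h3 := switchKernel_ge p.1 p.2 hb hb' hd G G' hne hk
      have h4 : 1 ≤ 6 * ((Fintype.card V).choose 4 : ℝ) * switchKernel d G G' := by
        rw [div_le_iff₀ hC] at h3
        linarith
      have h5 : (S.card : ℝ) ≤ 2 := by exact_mod_cast hm
      calc (S.card : ℝ) * (F G - F G') ^ 2 ≤ 2 * (F G - F G') ^ 2 :=
            mul_le_mul_of_nonneg_right h5 hx
        _ ≤ 2 * ((6 * ((Fintype.card V).choose 4 : ℝ) * switchKernel d G G')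
              * (F G - F G') ^ 2) := by nlinarith
        _ = _ := by ring

/-- all block terms together are controlled by the Dirichlet form of the switch kernel -/
theorem sum_qq_le_kernel (F : Om d → ℝ) :
    ∑ b ∈ pairs V, ∑ b' ∈ (pairs V).filter (fun b' => Disjoint b b'), ip (qq b b' F) (qq b b' F) ≤
      (1 / 2 : ℝ) * (6 * ((Fintype.card V).choose 4 : ℝ)) *
        ∑ G, ∑ G', switchKernel d G G' * (F G - F G') ^ 2 := by
  classical
  have hL : ∑ b ∈ pairs V, ∑ b' ∈ (pairs V).filter (fun b' => Disjoint b b'),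
      ip (qq b b' F) (qq b b' F)
      = ∑ p ∈ ((pairs V) ×ˢ (pairs V)).filter (fun p => Disjoint p.1 p.2),
        ip (qq p.1 p.2 F) (qq p.1 p.2 F) := by
    rw [Finset.sum_filter, Finset.sum_product]
    refine Finset.sum_congr rfl (fun b _ => ?_)
    rw [Finset.sum_filter]
  rw [hL]
  refine (Finset.sum_le_sum (fun p _ => sharp_qq_le p.1 p.2 F)).trans ?_
  rw [← Finset.mul_sum, Finset.sum_comm]
  have h1 : ∀ G : Om d, ∑ p ∈ ((pairs V) ×ˢ (pairs V)).filter (fun p => Disjoint p.1 p.2),
      ∑ G' : Om d, (if key (blk p.1 p.2) G = key (blk p.1 p.2) G' then (F G - F G') ^ 2 else 0)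
      ≤ ∑ G' : Om d, 2 * ((6 * ((Fintype.card V).choose 4 : ℝ))
          * (switchKernel d G G' * (F G - F G') ^ 2)) := by
    intro G
    rw [Finset.sum_comm]
    exact Finset.sum_le_sum (fun G' _ => sharp_pair_le F G G')
  have h2 := Finset.sum_le_sum (fun G (_ : G ∈ (univ : Finset (Om d))) => h1 G)
  have h3 : ∑ G : Om d, ∑ G' : Om d, 2 * ((6 * ((Fintype.card V).choose 4 : ℝ))
          * (switchKernel d G G' * (F G - F G') ^ 2))
      = 2 * ((6 * ((Fintype.card V).choose 4 : ℝ))
          * ∑ G, ∑ G', switchKernel d G G' * (F G - F G') ^ 2) := by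
    simp only [Finset.mul_sum]
  rw [h3] at h2
  linarith

theorem chain_poincare_sharp (hV : 4 ≤ Fintype.card V) (F : Om d → ℝ) (hF : ∑ G, F G = 0) :
    (1 / (24 * ((Fintype.card V).choose 4 : ℝ))) * ∑ G, F G ^ 2 ≤
      (1 / 2 : ℝ) * ∑ G, ∑ G', switchChain d G G' * (F G - F G') ^ 2 := by
  set C : ℝ := ((Fintype.card V).choose 4 : ℝ) with hCdef
  set D : ℝ := ∑ G, ∑ G', switchKernel d G G' * (F G - F G') ^ 2 with hD
  have hCpos : 0 < C := by
    have : 0 < (Fintype.card V).choose 4 := Nat.choose_pos hV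
    rw [hCdef]
    exact_mod_cast this
  have hR : ∑ G, ∑ G', switchChain d G G' * (F G - F G') ^ 2 = (1 / 2 : ℝ) * D := by
    rw [hD, Finset.mul_sum]
    refine Finset.sum_congr rfl (fun G _ => ?_)
    rw [Finset.mul_sum]
    refine Finset.sum_congr rfl (fun G' _ => ?_)
    unfold switchChain
    simp only [Matrix.add_apply, Matrix.smul_apply, smul_eq_mul]
    by_cases hne : G = G'
    · subst hne
      simp
    · rw [Matrix.one_apply_ne hne]
      ring
  have hL : ∑ G, F G ^ 2 ≤ 6 * C * D := by
    have h0 : ∑ G, F G ^ 2 = ip F F := by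
      unfold ip
      exact Finset.sum_congr rfl (fun G _ => by ring)
    rw [h0]
    refine (block_poincare F hF).trans ?_
    have := sum_qq_le_kernel F
    linarith
  rw [hR]
  have hpos : 0 < 24 * C := by positivity
  rw [div_mul_eq_mul_div, one_mul, div_le_iff₀ hpos]
  nlinarith

end Vale.Agent.P335
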