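import Vale.Agent.P335.Final

/-!
# P335: the final statement (to be copied to Results/P335 once all stubs are filled)
-/

namespace Vale.Agent.P335

/-- The switch chain mixes in time at most `n ^ 10` for every graphical degree sequence. -/
theorem final_statement : ∀ n : ℕ, 4 ≤ n → ∀ d : Fin n → ℕ, Nonempty (Om d) →
    (∀ G : Om d, tv ((switchChain d ^ (n ^ 10)) G) (unif d) ≤ 1 / 4) ∧ tmix d ≤ n ^ 10 := by
  intro n hn d _
  have hV : 4 ≤ Fintype.card (Fin n) := by simpa using hn
  refine ⟨fun G => ?_, ?_⟩
  · have := tv_switchChain_le (d := d) hV G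
    simpa using this
  · have := tmix_le hV d
    simpa using this

end Vale.Agent.P335
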