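import Vale.Agent.P335.SubsetDefs
import Vale.Agent.P335.AvgBasic

/-!
# P335: the subset model, explicit form of the operators
-/

namespace Vale.Agent.P335

open Finset

variable {α : Type*} [DecidableEq α]

theorem card_inter_pair_sb (W : Finset α) (w z : α) (hwz : w ≠ z) :
    (W ∩ {w, z}).card = (if w ∈ W then 1 else 0) + (if z ∈ W then 1 else 0) := by
  by_cases h1 : w ∈ W <;> by_cases h2 : z ∈ W <;>
    simp [Finset.inter_insert_of_mem, Finset.inter_insert_of_notMem,
      Finset.inter_singleton_of_mem, Finset.inter_singleton_of_notMem, h1, h2, hwz]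

theorem card_inter_eq_sb (e W W' : Finset α) (hsd : W' \ e = W \ e) (hc : W'.card = W.card) :
    (W' ∩ e).card = (W ∩ e).card := by
  have h1 := Finset.card_inter_add_card_sdiff W e
  have h2 := Finset.card_inter_add_card_sdiff W' e
  rw [hsd] at h2
  omega

theorem eq_or_eq_symmDiff_sb (w z : α) (hwz : w ≠ z) (W W' : Finset α)
    (hsd : W' \ {w, z} = W \ {w, z}) (hc : W'.card = W.card) :
    W' = W ∨ ((W ∩ {w, z}).card = 1 ∧ W' = symmDiff W {w, z}) := by
  have hcount := card_inter_eq_sb _ _ _ hsd hc
  have hx : ∀ x, x ≠ w → x ≠ z → (x ∈ W' ↔ x ∈ W) := by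
    intro x h1 h2
    have h3 : (x ∈ W' \ {w, z}) ↔ (x ∈ W \ {w, z}) := by rw [hsd]
    simpa [h1, h2] using h3
  have hcard := card_inter_pair_sb W w z hwz
  rw [card_inter_pair_sb W' w z hwz, hcard] at hcount
  by_cases a : w ∈ W <;> by_cases b : z ∈ W <;> by_cases c : w ∈ W' <;> by_cases d : z ∈ W' <;>
    simp only [a, b, c, d, if_true, if_false] at hcount hcard <;>
    first
    | omega
    | (left
       ext x
       by_cases h1 : x = w
       · subst h1; simp [a, c]
       · by_cases h2 : x = z
         · subst h2; simp [b, d]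
         · exact hx x h1 h2)
    | (right
       refine ⟨hcard, ?_⟩
       ext x
       by_cases h1 : x = w
       · subst h1; simp [Finset.mem_symmDiff, a, c]
       · by_cases h2 : x = z
         · subst h2; simp [Finset.mem_symmDiff, b, d]
         · simp [Finset.mem_symmDiff, h1, h2, hx x h1 h2])


theorem symmDiff_card_sb (e W : Finset α) (he : e.card = 2) (h1 : (W ∩ e).card = 1) :
    (symmDiff W e).card = W.card := by
  have h2 := Finset.card_inter_add_card_sdiff W e
  have h3 := Finset.card_inter_add_card_sdiff e W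
  rw [Finset.inter_comm] at h3
  have h4 : symmDiff W e = (W \ e) ∪ (e \ W) := rfl
  have h5 : Disjoint (W \ e) (e \ W) := by
    rw [Finset.disjoint_left]
    intro x hx hx'
    exact (Finset.mem_sdiff.1 hx).2 (Finset.mem_sdiff.1 hx').1
  rw [h4, Finset.card_union_of_disjoint h5]
  omega

theorem symmDiff_inter_sb (e W : Finset α) : symmDiff W e ∩ e = e \ W := by
  ext x
  simp only [Finset.mem_inter, Finset.mem_symmDiff, Finset.mem_sdiff]
  tauto

theorem symmDiff_sdiff_sb (e W : Finset α) : symmDiff W e \ e = W \ e := by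
  ext x
  simp only [Finset.mem_symmDiff, Finset.mem_sdiff]
  tauto

theorem tog_inter_card_sb (e : Finset α) (he : e.card = 2) (W : Finset α)
    (h1 : (W ∩ e).card = 1) : (tog e W ∩ e).card = 1 := by
  unfold tog
  rw [if_pos h1, symmDiff_inter_sb]
  have h3 := Finset.card_inter_add_card_sdiff e W
  rw [Finset.inter_comm] at h3
  omega

theorem tog_sdiff_sb (e W : Finset α) : tog e W \ e = W \ e := by
  unfold tog
  split_ifs
  · exact symmDiff_sdiff_sb e W
  · rfl

theorem tog_ne_sb (e W : Finset α) (h1 : (W ∩ e).card = 1) : tog e W ≠ W := by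
  unfold tog
  rw [if_pos h1]
  intro h
  have h2 : symmDiff W e ∩ e = W ∩ e := by rw [h]
  rw [symmDiff_inter_sb] at h2
  obtain ⟨x, hx⟩ := Finset.card_eq_one.1 h1
  have hx1 : x ∈ W ∩ e := by rw [hx]; exact Finset.mem_singleton_self x
  have hx2 : x ∈ e \ W := by rw [h2]; exact hx1
  exact (Finset.mem_sdiff.1 hx2).2 (Finset.mem_inter.1 hx1).1

/-- `tog e` preserves the family of `k`-subsets of `D` when `e ⊆ D` has two elements -/
theorem tog_mem (D : Finset α) (k : ℕ) (e : Finset α) (he : e ∈ powersetCard 2 D)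
    (W : Finset α) (hW : W ∈ powersetCard k D) : tog e W ∈ powersetCard k D := by
  rw [Finset.mem_powersetCard] at he hW ⊢
  unfold tog
  split_ifs with h1
  · refine ⟨?_, ?_⟩
    · intro x hx
      rcases Finset.mem_symmDiff.1 hx with h | h
      · exact hW.1 h.1
      · exact he.1 h.1
    · rw [symmDiff_card_sb e W he.2 h1]; exact hW.2
  · exact hW

theorem tog_tog (e : Finset α) (he : e.card = 2) (W : Finset α) : tog e (tog e W) = W := by
  by_cases h1 : (W ∩ e).card = 1
  · have h2 := tog_inter_card_sb e he W h1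
    have h3 : tog e W = symmDiff W e := by unfold tog; rw [if_pos h1]
    have h4 : tog e (tog e W) = symmDiff (tog e W) e := if_pos h2
    rw [h4, h3, symmDiff_symmDiff_cancel_right]
  · have h3 : tog e W = W := by unfold tog; rw [if_neg h1]
    rw [h3, h3]

/-- the class of `W` for the key `W \ e` is `{W, tog e W}` -/
theorem clsOn_sdiff (D : Finset α) (k : ℕ) (e : Finset α) (he : e ∈ powersetCard 2 D)
    (W : Finset α) (hW : W ∈ powersetCard k D) :
    clsOn (powersetCard k D) (fun W' => W' \ e) W = {W, tog e W} := by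
  have he' := Finset.mem_powersetCard.1 he
  obtain ⟨w, z, hwz, rfl⟩ := Finset.card_eq_two.1 he'.2
  ext W'
  rw [mem_clsOn, Finset.mem_insert, Finset.mem_singleton]
  constructor
  · rintro ⟨hW', hsd⟩
    have hc : W'.card = W.card := by
      rw [(Finset.mem_powersetCard.1 hW').2, (Finset.mem_powersetCard.1 hW).2]
    rcases eq_or_eq_symmDiff_sb w z hwz W W' hsd hc with h | ⟨h1, h2⟩
    · exact Or.inl h
    · right
      unfold tog
      rw [if_pos h1]; exact h2
  · rintro (h | h)
    · subst h; exact ⟨hW, rfl⟩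
    · subst h
      exact ⟨tog_mem D k _ he W hW, tog_sdiff_sb _ W⟩

theorem avgOn_sdiff_sb (D : Finset α) (k : ℕ) (e : Finset α) (he : e ∈ powersetCard 2 D)
    (g : Finset α → ℝ) (W : Finset α) (hW : W ∈ powersetCard k D) :
    avgOn (powersetCard k D) (fun W' => W' \ e) g W = (g W + g (tog e W)) / 2 := by
  unfold avgOn
  rw [clsOn_sdiff D k e he W hW]
  by_cases h : tog e W = W
  · rw [h]
    simp
  · rw [Finset.sum_pair (Ne.symm h), Finset.card_pair (Ne.symm h)]
    norm_num

theorem qS_eq (D : Finset α) (k : ℕ) (e : Finset α) (he : e ∈ powersetCard 2 D)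
    (g : Finset α → ℝ) (W : Finset α) (hW : W ∈ powersetCard k D) :
    qS (powersetCard k D) e g W = (g W - g (tog e W)) / 2 := by
  unfold qS
  rw [avgOn_sdiff_sb D k e he g W hW]
  ring

theorem mem_CS_iff (D : Finset α) (k : ℕ) (e : Finset α) (he : e ∈ powersetCard 2 D)
    (W : Finset α) :
    W ∈ CS (powersetCard k D) e ↔ W ∈ powersetCard k D ∧ (W ∩ e).card = 1 := by
  classical
  unfold CS
  rw [Finset.mem_filter]
  constructor
  · rintro ⟨hW, W', hW', hne, hsd⟩
    refine ⟨hW, ?_⟩
    have hmem : W' ∈ clsOn (powersetCard k D) (fun W' => W' \ e) W := by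
      rw [mem_clsOn]; exact ⟨hW', hsd⟩
    rw [clsOn_sdiff D k e he W hW, Finset.mem_insert, Finset.mem_singleton] at hmem
    rcases hmem with h | h
    · exact absurd h hne
    · by_contra h1
      apply hne
      rw [h]
      unfold tog
      rw [if_neg h1]
  · rintro ⟨hW, h1⟩
    exact ⟨hW, tog e W, tog_mem D k e he W hW, tog_ne_sb e W h1, tog_sdiff_sb e W⟩

/-- if the two-element set `e` is not inside `D`, nothing can be changed inside `e` -/
theorem CS_eq_empty (D : Finset α) (k : ℕ) (e : Finset α) (he : e.card = 2) (heD : ¬ e ⊆ D) :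
    CS (powersetCard k D) e = ∅ := by
  classical
  obtain ⟨w, z, hwz, rfl⟩ := Finset.card_eq_two.1 he
  unfold CS
  rw [Finset.filter_eq_empty_iff]
  rintro W hW ⟨W', hW', hne, hsd⟩
  have hWD := (Finset.mem_powersetCard.1 hW).1
  have hWD' := (Finset.mem_powersetCard.1 hW').1
  have hc : W'.card = W.card := by
    rw [(Finset.mem_powersetCard.1 hW').2, (Finset.mem_powersetCard.1 hW).2]
  rcases eq_or_eq_symmDiff_sb w z hwz W W' hsd hc with h | ⟨h1, h2⟩
  · exact hne h
  · apply heD
    intro x hx
    by_cases hxW : x ∈ W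
    · exact hWD hxW
    · apply hWD'
      rw [h2, Finset.mem_symmDiff]
      exact Or.inr ⟨hx, hxW⟩

omit [DecidableEq α] in
theorem clsOn_unit_sb (U : Finset (Finset α)) (W : Finset α) :
    clsOn U (fun _ => ()) W = U := by
  ext W'
  rw [mem_clsOn]
  simp

omit [DecidableEq α] in
theorem avgOn_unit_sb (U : Finset (Finset α)) (g : Finset α → ℝ) (W : Finset α) :
    avgOn U (fun _ => ()) g W = (∑ W' ∈ U, g W') / (U.card : ℝ) := by
  unfold avgOn
  rw [clsOn_unit_sb]

/-- on `CS`, the operator `E[E[. | W \ e] | W ∩ e]` is the average over `CS` -/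
theorem ZS_eq (D : Finset α) (k : ℕ) (e : Finset α) (he : e ∈ powersetCard 2 D)
    (g : Finset α → ℝ) (W : Finset α) (hW : W ∈ CS (powersetCard k D) e) :
    ZS (powersetCard k D) e g W =
      (∑ W' ∈ CS (powersetCard k D) e, g W') / ((CS (powersetCard k D) e).card : ℝ)
        - (∑ W' ∈ powersetCard k D, g W') / ((powersetCard k D).card : ℝ) := by
  classical
  have he2 : e.card = 2 := (Finset.mem_powersetCard.1 he).2
  obtain ⟨hWU, hW1⟩ := (mem_CS_iff D k e he W).1 hW
  unfold ZS
  rw [avgOn_unit_sb]
  congr 1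
  obtain ⟨X, hX⟩ : ∃ X, X = clsOn (powersetCard k D) (fun W' => W' ∩ e) W := ⟨_, rfl⟩
  have hXmem : ∀ W', W' ∈ X ↔ W' ∈ powersetCard k D ∧ W' ∩ e = W ∩ e := by
    intro W'; rw [hX, mem_clsOn]
  have hinj : Set.InjOn (tog e) (X : Set (Finset α)) := by
    intro a _ b _ hab
    have := congrArg (tog e) hab
    rwa [tog_tog e he2, tog_tog e he2] at this
  have hdisj : Disjoint X (X.image (tog e)) := by
    rw [Finset.disjoint_left]
    intro a ha ha'
    obtain ⟨b, hb, hba⟩ := Finset.mem_image.1 ha'
    have ha1 := ((hXmem a).1 ha).2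
    have hb1 := ((hXmem b).1 hb).2
    have hbc : (b ∩ e).card = 1 := by rw [hb1]; exact hW1
    have h3 : tog e b = symmDiff b e := by unfold tog; rw [if_pos hbc]
    rw [h3] at hba
    have h4 : a ∩ e = e \ b := by rw [← hba, symmDiff_inter_sb]
    rw [ha1, ← hb1] at h4
    obtain ⟨x, hx⟩ := Finset.card_eq_one.1 hbc
    have hx1 : x ∈ b ∩ e := by rw [hx]; exact Finset.mem_singleton_self x
    have hx2 : x ∈ e \ b := by rw [← h4]; exact hx1
    exact (Finset.mem_sdiff.1 hx2).2 (Finset.mem_inter.1 hx1).1
  have hCS : CS (powersetCard k D) e = X ∪ X.image (tog e) := by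
    ext a
    rw [mem_CS_iff D k e he, Finset.mem_union, Finset.mem_image]
    constructor
    · rintro ⟨haU, ha1⟩
      by_cases h : a ∩ e = W ∩ e
      · exact Or.inl ((hXmem a).2 ⟨haU, h⟩)
      · right
        refine ⟨tog e a, (hXmem _).2 ⟨tog_mem D k e he a haU, ?_⟩, tog_tog e he2 a⟩
        have h3 : tog e a = symmDiff a e := by unfold tog; rw [if_pos ha1]
        rw [h3, symmDiff_inter_sb]
        -- two distinct singletons inside a two-element set are complementary
        obtain ⟨x, hx⟩ := Finset.card_eq_one.1 ha1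
        obtain ⟨y, hy⟩ := Finset.card_eq_one.1 hW1
        have hxy : x ≠ y := by
          intro hxy; apply h; rw [hx, hy, hxy]
        have hxe : x ∈ e := (Finset.mem_inter.1 (by rw [hx]; exact Finset.mem_singleton_self x :
          x ∈ a ∩ e)).2
        have hye : y ∈ e := (Finset.mem_inter.1 (by rw [hy]; exact Finset.mem_singleton_self y :
          y ∈ W ∩ e)).2
        have hexy : e = {x, y} := by
          symm
          apply Finset.eq_of_subset_of_card_le
          · intro t ht
            rcases Finset.mem_insert.1 ht with h | h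
            · rw [h]; exact hxe
            · rw [Finset.mem_singleton.1 h]; exact hye
          · rw [he2, Finset.card_pair hxy]
        rw [hy]
        ext t
        rw [Finset.mem_sdiff, Finset.mem_singleton]
        constructor
        · rintro ⟨hte, hta⟩
          rw [hexy, Finset.mem_insert, Finset.mem_singleton] at hte
          rcases hte with h | h
          · exfalso
            apply hta
            rw [h]
            exact (Finset.mem_inter.1 (by rw [hx]; exact Finset.mem_singleton_self x :
              x ∈ a ∩ e)).1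
          · exact h
        · intro hty
          rw [hty]
          refine ⟨hye, ?_⟩
          intro hya
          have : y ∈ a ∩ e := Finset.mem_inter.2 ⟨hya, hye⟩
          rw [hx, Finset.mem_singleton] at this
          exact hxy this.symm
    · rintro (h | ⟨b, hb, hba⟩)
      · obtain ⟨h1, h2⟩ := (hXmem a).1 h
        exact ⟨h1, by rw [h2]; exact hW1⟩
      · obtain ⟨h1, h2⟩ := (hXmem b).1 hb
        rw [← hba]
        exact ⟨tog_mem D k e he b h1, tog_inter_card_sb e he2 b (by rw [h2]; exact hW1)⟩
  have hsum : ∑ W' ∈ CS (powersetCard k D) e, g W' = ∑ W' ∈ X, (g W' + g (tog e W')) := by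
    rw [hCS, Finset.sum_union hdisj, Finset.sum_image hinj, Finset.sum_add_distrib]
  have hcard : ((CS (powersetCard k D) e).card : ℝ) = 2 * (X.card : ℝ) := by
    rw [hCS, Finset.card_union_of_disjoint hdisj, Finset.card_image_of_injOn hinj]
    push_cast; ring
  have hL : avgOn (powersetCard k D) (fun W' => W' ∩ e)
      (avgOn (powersetCard k D) (fun W' => W' \ e) g) W
      = (∑ W' ∈ X, (g W' + g (tog e W')) / 2) / (X.card : ℝ) := by
    have hdef : avgOn (powersetCard k D) (fun W' => W' ∩ e)
        (avgOn (powersetCard k D) (fun W' => W' \ e) g) W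
        = (∑ y ∈ clsOn (powersetCard k D) (fun W' => W' ∩ e) W,
            avgOn (powersetCard k D) (fun W' => W' \ e) g y)
          / ((clsOn (powersetCard k D) (fun W' => W' ∩ e) W).card : ℝ) := rfl
    rw [hdef, ← hX]
    congr 1
    refine Finset.sum_congr rfl fun W' hW' => ?_
    exact avgOn_sdiff_sb D k e he g W' ((hXmem W').1 hW').1
  rw [hL, hsum, hcard, ← Finset.sum_div, div_div]

/-- if `e` is disjoint from `D`, then `ZS` vanishes -/
theorem ZS_eq_zero (D : Finset α) (k : ℕ) (e : Finset α) (heD : Disjoint e D)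
    (g : Finset α → ℝ) (W : Finset α) (hW : W ∈ powersetCard k D) :
    ZS (powersetCard k D) e g W = 0 := by
  classical
  have hdis : ∀ W' ∈ powersetCard k D, Disjoint W' e := by
    intro W' hW'
    exact (heD.mono_right (Finset.mem_powersetCard.1 hW').1).symm
  have h1 : ∀ W' ∈ powersetCard k D, W' ∩ e = ∅ := by
    intro W' hW'
    exact Finset.disjoint_iff_inter_eq_empty.1 (hdis W' hW')
  have h2 : ∀ W' ∈ powersetCard k D, W' \ e = W' := by
    intro W' hW'
    exact Finset.sdiff_eq_self_of_disjoint (hdis W' hW')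
  have hc1 : clsOn (powersetCard k D) (fun W' => W' ∩ e) W = powersetCard k D := by
    ext W'
    rw [mem_clsOn]
    constructor
    · exact fun h => h.1
    · intro h
      refine ⟨h, ?_⟩
      change W' ∩ e = W ∩ e
      rw [h1 W' h, h1 W hW]
  have hc2 : ∀ W' ∈ powersetCard k D,
      avgOn (powersetCard k D) (fun W' => W' \ e) g W' = g W' := by
    intro W' hW'
    have hc : clsOn (powersetCard k D) (fun W' => W' \ e) W' = {W'} := by
      ext W''
      rw [mem_clsOn, Finset.mem_singleton]
      constructor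
      · rintro ⟨h, h'⟩
        change W'' \ e = W' \ e at h'
        rwa [h2 W'' h, h2 W' hW'] at h'
      · intro h
        rw [h]
        exact ⟨hW', rfl⟩
    unfold avgOn
    rw [hc]
    simp
  have hdef : avgOn (powersetCard k D) (fun W' => W' ∩ e)
      (avgOn (powersetCard k D) (fun W' => W' \ e) g) W
      = (∑ y ∈ clsOn (powersetCard k D) (fun W' => W' ∩ e) W,
          avgOn (powersetCard k D) (fun W' => W' \ e) g y)
        / ((clsOn (powersetCard k D) (fun W' => W' ∩ e) W).card : ℝ) := rfl
  unfold ZS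
  rw [avgOn_unit_sb, hdef, hc1, Finset.sum_congr rfl hc2, sub_self]

theorem QS_eq (U : Finset (Finset α)) (g : Finset α → ℝ) (W : Finset α) (hW : W ∈ U) :
    QS U g W = g W - (∑ W' ∈ U, g W') / (U.card : ℝ) := by
  unfold QS
  rw [avgOn_unit_sb]

end Vale.Agent.P335
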