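import Vale.Agent.P335.Avg

/-!
# P335: the subset model (k-subsets of a finite set D), definitions
-/

namespace Vale.Agent.P335

open Finset

variable {α : Type*} [DecidableEq α]

/-- `g - E[g | W \ e]` on the family `U` -/
noncomputable def qS (U : Finset (Finset α)) (e : Finset α) (g : Finset α → ℝ) (W : Finset α) : ℝ :=
  g W - avgOn U (fun W' => W' \ e) g W

/-- `g - E[g]` on the family `U` -/
noncomputable def QS (U : Finset (Finset α)) (g : Finset α → ℝ) (W : Finset α) : ℝ :=
  g W - avgOn U (fun _ => ()) g W

/-- `E[ E[g | W \ e] | W ∩ e ] - E[g]` on the family `U` -/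
noncomputable def ZS (U : Finset (Finset α)) (e : Finset α) (g : Finset α → ℝ) (W : Finset α) : ℝ :=
  avgOn U (fun W' => W' ∩ e) (avgOn U (fun W' => W' \ e) g) W - avgOn U (fun _ => ()) g W

open Classical in
/-- members of `U` that can be changed inside `e` only -/
noncomputable def CS (U : Finset (Finset α)) (e : Finset α) : Finset (Finset α) :=
  U.filter (fun W => ∃ W' ∈ U, W' ≠ W ∧ W' \ e = W \ e)

/-- exchange the two elements of `e` when exactly one of them is in `W` -/
def tog (e W : Finset α) : Finset α := if (W ∩ e).card = 1 then symmDiff W e else W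

end Vale.Agent.P335
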