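import Vale.Agent.P335.SubsetBridge

/-!
# P335: auxiliary facts for the inequality (J)
-/

namespace Vale.Agent.P335

open Finset

variable {α : Type*} [DecidableEq α]

/-- a set meets a pair in exactly one point iff exactly one of the two points is in it -/
theorem card_inter_pair_eq_one (W : Finset α) {a b : α} (hab : a ≠ b) :
    (W ∩ {a, b}).card = 1 ↔ (a ∈ W ↔ b ∉ W) := by
  by_cases ha : a ∈ W <;> by_cases hb : b ∈ W
  · have : W ∩ {a, b} = {a, b} := by
      ext x
      simp only [mem_inter, mem_insert, mem_singleton]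
      constructor
      · exact fun h => h.2
      · rintro (rfl | rfl)
        · exact ⟨ha, Or.inl rfl⟩
        · exact ⟨hb, Or.inr rfl⟩
    rw [this, card_pair hab]
    simp [ha, hb]
  · have : W ∩ {a, b} = {a} := by
      ext x
      simp only [mem_inter, mem_insert, mem_singleton]
      constructor
      · rintro ⟨h1, rfl | rfl⟩
        · rfl
        · exact absurd h1 hb
      · rintro rfl
        exact ⟨ha, Or.inl rfl⟩
    rw [this]
    simp [ha, hb]
  · have : W ∩ {a, b} = {b} := by
      ext x
      simp only [mem_inter, mem_insert, mem_singleton]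
      constructor
      · rintro ⟨h1, rfl | rfl⟩
        · exact absurd h1 ha
        · rfl
      · rintro rfl
        exact ⟨hb, Or.inr rfl⟩
    rw [this]
    simp [ha, hb]
  · have : W ∩ {a, b} = ∅ := by
      ext x
      simp only [mem_inter, mem_insert, mem_singleton, notMem_empty, iff_false, not_and]
      rintro h1 (rfl | rfl)
      · exact ha h1
      · exact hb h1
    rw [this]
    simp [ha, hb]

/-- membership in `tog {z, z'} W` -/
theorem mem_tog_pair (W : Finset α) {z z' : α} (hzz : z ≠ z') (x : α) :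
    x ∈ tog {z, z'} W ↔ (if x = z then z' ∈ W else if x = z' then z ∈ W else x ∈ W) := by
  unfold tog
  by_cases h1 : (W ∩ {z, z'}).card = 1
  · rw [if_pos h1]
    rw [card_inter_pair_eq_one W hzz] at h1
    simp only [mem_symmDiff, mem_insert, mem_singleton]
    by_cases hx : x = z
    · subst hx
      simp only [if_true, true_or, not_true_eq_false, and_false, true_and, false_or]
      tauto
    · by_cases hx' : x = z'
      · subst hx'
        simp only [hx, if_false, if_true, or_true, not_true_eq_false, and_false, true_and, false_or]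
        tauto
      · simp [hx, hx']
  · rw [if_neg h1]
    rw [card_inter_pair_eq_one W hzz] at h1
    by_cases hx : x = z
    · subst hx
      simp only [if_true]
      tauto
    · by_cases hx' : x = z'
      · subst hx'
        simp only [hx, if_false, if_true]
        tauto
      · simp [hx, hx']

/-- explicit form of two adjacent pairs -/
theorem exists_adjacent_form (D : Finset α) (e e' : Finset α) (he : e ∈ powersetCard 2 D)
    (he' : e' ∈ powersetCard 2 D) (hee' : (e ∩ e').card = 1) :
    ∃ w z z' : α, w ≠ z ∧ w ≠ z' ∧ z ≠ z' ∧ e = {w, z} ∧ e' = {w, z'} ∧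
      symmDiff e e' = {z, z'} ∧ ({z, z'} : Finset α) ∈ powersetCard 2 D := by
  rw [mem_powersetCard] at he he'
  obtain ⟨w, hw⟩ := card_eq_one.mp hee'
  have hwe : w ∈ e ∩ e' := by rw [hw]; exact mem_singleton_self w
  rw [mem_inter] at hwe
  have h1 : (e.erase w).card = 1 := by rw [card_erase_of_mem hwe.1, he.2]
  have h2 : (e'.erase w).card = 1 := by rw [card_erase_of_mem hwe.2, he'.2]
  obtain ⟨z, hz⟩ := card_eq_one.mp h1
  obtain ⟨z', hz'⟩ := card_eq_one.mp h2
  have hze : z ∈ e.erase w := by rw [hz]; exact mem_singleton_self z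
  have hze' : z' ∈ e'.erase w := by rw [hz']; exact mem_singleton_self z'
  rw [mem_erase] at hze hze'
  have e1 : e = {w, z} := by rw [← insert_erase hwe.1, hz]
  have e2 : e' = {w, z'} := by rw [← insert_erase hwe.2, hz']
  have hzz : z ≠ z' := by
    intro h
    have : z ∈ e ∩ e' := mem_inter.mpr ⟨hze.2, h ▸ hze'.2⟩
    rw [hw, mem_singleton] at this
    exact hze.1 this
  refine ⟨w, z, z', hze.1.symm, hze'.1.symm, hzz, e1, e2, ?_, ?_⟩
  · rw [e1, e2]
    ext x
    simp only [mem_symmDiff, mem_insert, mem_singleton]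
    constructor
    · rintro (⟨h | h, h'⟩ | ⟨h | h, h'⟩)
      · exact absurd (Or.inl h) h'
      · exact Or.inl h
      · exact absurd (Or.inl h) h'
      · exact Or.inr h
    · rintro (rfl | rfl)
      · left
        refine ⟨Or.inr rfl, ?_⟩
        rintro (h | h)
        · exact hze.1 h
        · exact hzz h
      · right
        refine ⟨Or.inr rfl, ?_⟩
        rintro (h | h)
        · exact hze'.1 h
        · exact hzz h.symm
  · rw [mem_powersetCard]
    refine ⟨?_, card_pair hzz⟩
    intro x hx
    rw [mem_insert, mem_singleton] at hx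
    rcases hx with rfl | rfl
    · exact he.1 hze.2
    · exact he'.1 hze'.2

/-- the exchange of `z` and `z'` maps `CS {w, z}` to `CS {w, z'}` -/
theorem tog_mem_CS_iff (D : Finset α) (k : ℕ) {w z z' : α} (hwz : w ≠ z) (hwz' : w ≠ z')
    (hzz : z ≠ z') (he : ({w, z} : Finset α) ∈ powersetCard 2 D)
    (he' : ({w, z'} : Finset α) ∈ powersetCard 2 D)
    (he'' : ({z, z'} : Finset α) ∈ powersetCard 2 D) (W : Finset α)
    (hW : W ∈ powersetCard k D) :
    tog {z, z'} W ∈ CS (powersetCard k D) {w, z'} ↔ W ∈ CS (powersetCard k D) {w, z} := by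
  rw [mem_CS_iff D k _ he', mem_CS_iff D k _ he, card_inter_pair_eq_one _ hwz',
    card_inter_pair_eq_one _ hwz, mem_tog_pair W hzz, mem_tog_pair W hzz]
  simp only [hwz, hwz', hzz.symm, if_false, if_true]
  constructor
  · exact fun h => ⟨hW, h.2⟩
  · exact fun h => ⟨tog_mem D k _ he'' W hW, h.2⟩

theorem CS_card_eq_adjacent (D : Finset α) (k : ℕ) (e e' : Finset α) (he : e ∈ powersetCard 2 D)
    (he' : e' ∈ powersetCard 2 D) (hee' : (e ∩ e').card = 1) :
    (CS (powersetCard k D) e).card = (CS (powersetCard k D) e').card := by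
  obtain ⟨w, z, z', hwz, hwz', hzz, rfl, rfl, -, he''⟩ := exists_adjacent_form D e e' he he' hee'
  have hc : ({z, z'} : Finset α).card = 2 := card_pair hzz
  have hsub : ∀ e₀ : Finset α, e₀ ∈ powersetCard 2 D → ∀ W ∈ CS (powersetCard k D) e₀,
      W ∈ powersetCard k D := fun e₀ h₀ W hW => ((mem_CS_iff D k e₀ h₀ W).mp hW).1
  refine card_bij (fun W _ => tog {z, z'} W) ?_ ?_ ?_
  · intro W hW
    exact (tog_mem_CS_iff D k hwz hwz' hzz he he' he'' W (hsub _ he W hW)).mpr hW
  · intro W₁ _ W₂ _ h
    have := congrArg (tog {z, z'}) h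
    rwa [tog_tog _ hc, tog_tog _ hc] at this
  · intro W hW
    refine ⟨tog {z, z'} W, ?_, tog_tog _ hc W⟩
    have hW' := tog_mem D k _ he'' W (hsub _ he' W hW)
    rw [← tog_mem_CS_iff D k hwz hwz' hzz he he' he'' _ hW', tog_tog _ hc]
    exact hW

/-- all the sets `CS e` have the same cardinality -/
theorem CS_card_eq (D : Finset α) (k : ℕ) (e e' : Finset α) (he : e ∈ powersetCard 2 D)
    (he' : e' ∈ powersetCard 2 D) :
    (CS (powersetCard k D) e).card = (CS (powersetCard k D) e').card := by
  have he0 := mem_powersetCard.mp he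
  have he0' := mem_powersetCard.mp he'
  obtain ⟨a, b, hab, rfl⟩ := card_eq_two.mp he0.2
  obtain ⟨c, d, hcd, rfl⟩ := card_eq_two.mp he0'.2
  have haD : a ∈ D := he0.1 (by simp)
  have hbD : b ∈ D := he0.1 (by simp)
  have hcD : c ∈ D := he0'.1 (by simp)
  have hdD : d ∈ D := he0'.1 (by simp)
  -- pairs sharing their first element
  have key : ∀ x y y' : α, x ∈ D → y ∈ D → y' ∈ D → x ≠ y → x ≠ y' →
      (CS (powersetCard k D) {x, y}).card = (CS (powersetCard k D) {x, y'}).card := by
    intro x y y' hx hy hy' hxy hxy'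
    by_cases hyy : y = y'
    · rw [hyy]
    · refine CS_card_eq_adjacent D k _ _ ?_ ?_ ?_
      · rw [mem_powersetCard]
        refine ⟨?_, card_pair hxy⟩
        intro t ht
        rw [mem_insert, mem_singleton] at ht
        rcases ht with rfl | rfl <;> assumption
      · rw [mem_powersetCard]
        refine ⟨?_, card_pair hxy'⟩
        intro t ht
        rw [mem_insert, mem_singleton] at ht
        rcases ht with rfl | rfl <;> assumption
      · have : ({x, y} : Finset α) ∩ {x, y'} = {x} := by
          ext t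
          simp only [mem_inter, mem_insert, mem_singleton]
          constructor
          · rintro ⟨h1 | h1, h2 | h2⟩
            · exact h1
            · exact h1
            · exact h2
            · exact absurd (h1.symm.trans h2) hyy
          · rintro rfl
            exact ⟨Or.inl rfl, Or.inl rfl⟩
        rw [this, card_singleton]
  by_cases hac : a = c
  · subst hac
    exact key a b d haD hbD hdD hab hcd
  · calc (CS (powersetCard k D) {a, b}).card = (CS (powersetCard k D) {a, c}).card :=
          key a b c haD hbD hcD hab hac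
      _ = (CS (powersetCard k D) {c, a}).card := by rw [pair_comm]
      _ = (CS (powersetCard k D) {c, d}).card := key c a d hcD haD hdD (Ne.symm hac) hcd

/-- the number of pairs meeting a `k`-subset in exactly one point -/
theorem card_filter_inter_eq_one (D W : Finset α) (hW : W ⊆ D) :
    ((powersetCard 2 D).filter fun e => (W ∩ e).card = 1).card = W.card * (D \ W).card := by
  rw [← card_product]
  symm
  refine card_bij (fun p _ => {p.1, p.2}) ?_ ?_ ?_
  · rintro ⟨a, b⟩ hp
    rw [mem_product, mem_sdiff] at hp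
    have hab : a ≠ b := fun h => hp.2.2 (h ▸ hp.1)
    rw [mem_filter, mem_powersetCard, card_inter_pair_eq_one W hab]
    refine ⟨⟨?_, card_pair hab⟩, ?_⟩
    · intro t ht
      rw [mem_insert, mem_singleton] at ht
      rcases ht with rfl | rfl
      · exact hW hp.1
      · exact hp.2.1
    · exact ⟨fun _ => hp.2.2, fun _ => hp.1⟩
  · rintro ⟨a, b⟩ hp ⟨a', b'⟩ hp' h
    rw [mem_product, mem_sdiff] at hp hp'
    simp only at h hp hp'
    have h1 : a ∈ ({a', b'} : Finset α) := h ▸ (mem_insert_self a {b})
    have h2 : b ∈ ({a', b'} : Finset α) := h ▸ (mem_insert_of_mem (mem_singleton_self b))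
    rw [mem_insert, mem_singleton] at h1 h2
    have ha : a = a' := by
      rcases h1 with h1 | h1
      · exact h1
      · exact absurd (h1 ▸ hp.1) hp'.2.2
    have hb : b = b' := by
      rcases h2 with h2 | h2
      · exact absurd hp'.1 (h2 ▸ hp.2.2)
      · exact h2
    rw [ha, hb]
  · intro e he
    rw [mem_filter, mem_powersetCard] at he
    obtain ⟨a, b, hab, rfl⟩ := card_eq_two.mp he.1.2
    have haD : a ∈ D := he.1.1 (by simp)
    have hbD : b ∈ D := he.1.1 (by simp)
    have h1 := (card_inter_pair_eq_one W hab).mp he.2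
    by_cases ha : a ∈ W
    · exact ⟨(a, b), mem_product.mpr ⟨ha, mem_sdiff.mpr ⟨hbD, h1.mp ha⟩⟩, rfl⟩
    · have hb : b ∈ W := by
        by_contra hb
        exact ha (h1.mpr hb)
      exact ⟨(b, a), mem_product.mpr ⟨hb, mem_sdiff.mpr ⟨haD, ha⟩⟩, pair_comm b a⟩

/-- every `k`-subset `W` of `D` lies in `CS e` for exactly `k (t - k)` pairs `e`; hence the sums of a
centred function over the sets `CS e` add up to zero -/
theorem sum_CS_centred (D : Finset α) (k : ℕ) (h : Finset α → ℝ)
    (hh : ∑ W ∈ powersetCard k D, h W = 0) :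
    ∑ e ∈ powersetCard 2 D, ∑ W ∈ CS (powersetCard k D) e, h W = 0 := by
  have h1 : ∀ e ∈ powersetCard 2 D, ∑ W ∈ CS (powersetCard k D) e, h W =
      ∑ W ∈ powersetCard k D, if (W ∩ e).card = 1 then h W else 0 := by
    intro e he
    rw [← sum_filter]
    refine sum_congr ?_ fun _ _ => rfl
    ext W
    rw [mem_CS_iff D k e he, mem_filter]
  rw [sum_congr rfl h1, sum_comm]
  have h2 : ∀ W ∈ powersetCard k D,
      (∑ e ∈ powersetCard 2 D, if (W ∩ e).card = 1 then h W else 0) =
        ((k * (D.card - k) : ℕ) : ℝ) * h W := by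
    intro W hW
    rw [mem_powersetCard] at hW
    rw [← sum_filter, sum_const, card_filter_inter_eq_one D W hW.1, card_sdiff_of_subset hW.1, hW.2,
      nsmul_eq_mul]
  rw [sum_congr rfl h2, ← mul_sum, hh, mul_zero]

/-- comparison of the sums over `CS e` and `CS e'` for adjacent pairs -/
theorem CS_diff_sq_le (D : Finset α) (k : ℕ) (e e' : Finset α) (he : e ∈ powersetCard 2 D)
    (he' : e' ∈ powersetCard 2 D) (hee' : (e ∩ e').card = 1) (h : Finset α → ℝ) :
    (∑ W ∈ CS (powersetCard k D) e, h W - ∑ W ∈ CS (powersetCard k D) e', h W) ^ 2 ≤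
      (1 / 4 : ℝ) * ((CS (powersetCard k D) (symmDiff e e')).card : ℝ) *
        ∑ W ∈ powersetCard k D, (h W - h (tog (symmDiff e e') W)) ^ 2 := by
  obtain ⟨w, z, z', hwz, hwz', hzz, rfl, rfl, hs, he''⟩ := exists_adjacent_form D e e' he he' hee'
  rw [hs]
  have hc : ({z, z'} : Finset α).card = 2 := card_pair hzz
  set U := powersetCard k D with hU
  set τ : Finset α → Finset α := tog {z, z'} with hτ
  -- indicator functions
  let a : Finset α → ℝ := fun W => if (W ∩ {w, z}).card = 1 then 1 else 0
  let b : Finset α → ℝ := fun W => if (W ∩ {w, z'}).card = 1 then 1 else 0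
  have hsumA : ∑ W ∈ CS U {w, z}, h W = ∑ W ∈ U, h W * a W := by
    have : CS U {w, z} = U.filter fun W => (W ∩ {w, z}).card = 1 := by
      ext W
      rw [mem_CS_iff D k _ he, mem_filter]
    rw [this, sum_filter]
    refine sum_congr rfl fun W _ => ?_
    simp only [a]
    split_ifs <;> simp
  have hsumB : ∑ W ∈ CS U {w, z'}, h W = ∑ W ∈ U, h W * b W := by
    have : CS U {w, z'} = U.filter fun W => (W ∩ {w, z'}).card = 1 := by
      ext W
      rw [mem_CS_iff D k _ he', mem_filter]
    rw [this, sum_filter]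
    refine sum_congr rfl fun W _ => ?_
    simp only [b]
    split_ifs <;> simp
  -- behaviour under the exchange
  have hbτ : ∀ W, b (τ W) = a W := by
    intro W
    simp only [a, b, hτ]
    have : ((tog {z, z'} W ∩ {w, z'}).card = 1) ↔ ((W ∩ {w, z}).card = 1) := by
      rw [card_inter_pair_eq_one _ hwz', card_inter_pair_eq_one _ hwz, mem_tog_pair W hzz,
        mem_tog_pair W hzz]
      simp only [hwz, hwz', hzz.symm, if_false, if_true]
    simp only [this]
  have hττ : ∀ W, τ (τ W) = W := fun W => tog_tog _ hc W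
  have haτ : ∀ W, a (τ W) = b W := by
    intro W
    rw [← hbτ (τ W), hττ]
  -- reindexing by the involution
  have hre : ∀ F : Finset α → ℝ, ∑ W ∈ U, F (τ W) = ∑ W ∈ U, F W := by
    intro F
    refine sum_bij (fun W _ => τ W) ?_ ?_ ?_ ?_
    · intro W hW
      exact tog_mem D k _ he'' W hW
    · intro W₁ _ W₂ _ h12
      have := congrArg τ h12
      rwa [hττ, hττ] at this
    · intro W hW
      exact ⟨τ W, tog_mem D k _ he'' W hW, hττ W⟩
    · intro W _
      rfl
  have hhalf : ∑ W ∈ U, h W * (a W - b W) =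
      (1 / 2 : ℝ) * ∑ W ∈ U, (h W - h (τ W)) * (a W - b W) := by
    have h1 : ∑ W ∈ U, h (τ W) * (a W - b W) = - ∑ W ∈ U, h W * (a W - b W) := by
      rw [← hre fun W => h W * (a W - b W), ← sum_neg_distrib]
      refine sum_congr rfl fun W _ => ?_
      rw [haτ, hbτ]
      ring
    have h2 : ∑ W ∈ U, (h W - h (τ W)) * (a W - b W) =
        ∑ W ∈ U, h W * (a W - b W) - ∑ W ∈ U, h (τ W) * (a W - b W) := by
      rw [← sum_sub_distrib]
      refine sum_congr rfl fun W _ => ?_
      ring
    rw [h2, h1]
    ring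
  have hsq : ∑ W ∈ U, (a W - b W) ^ 2 = ((CS U {z, z'}).card : ℝ) := by
    have : CS U {z, z'} = U.filter fun W => (W ∩ {z, z'}).card = 1 := by
      ext W
      rw [mem_CS_iff D k _ he'', mem_filter]
    rw [this, card_filter]
    push_cast
    refine sum_congr rfl fun W _ => ?_
    simp only [a, b, card_inter_pair_eq_one _ hwz, card_inter_pair_eq_one _ hwz',
      card_inter_pair_eq_one _ hzz]
    by_cases h1 : w ∈ W <;> by_cases h2 : z ∈ W <;> by_cases h3 : z' ∈ W <;> simp [h1, h2, h3]
  have hCS := sum_mul_sq_le_sq_mul_sq U (fun W => h W - h (τ W)) (fun W => a W - b W)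
  calc (∑ W ∈ CS U {w, z}, h W - ∑ W ∈ CS U {w, z'}, h W) ^ 2
      = (∑ W ∈ U, h W * (a W - b W)) ^ 2 := by
        rw [hsumA, hsumB, ← sum_sub_distrib]
        congr 1
        refine sum_congr rfl fun W _ => ?_
        ring
    _ = (1 / 4 : ℝ) * (∑ W ∈ U, (h W - h (τ W)) * (a W - b W)) ^ 2 := by
        rw [hhalf]
        ring
    _ ≤ (1 / 4 : ℝ) * ((∑ W ∈ U, (h W - h (τ W)) ^ 2) * ∑ W ∈ U, (a W - b W) ^ 2) := by
        gcongr
    _ = (1 / 4 : ℝ) * ((CS U {z, z'}).card : ℝ) * ∑ W ∈ U, (h W - h (τ W)) ^ 2 := by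
        rw [hsq]
        ring

end Vale.Agent.P335
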