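import Vale.Agent.P335.TablesDefs
import Vale.Agent.P335.AvgBasic

/-!
# P335: three-row tables, switches and connectivity of the row classes
-/

namespace Vale.Agent.P335

open Finset

theorem fin3_third : ∀ p q : Fin 3, p ≠ q → ∃ t, t ≠ p ∧ t ≠ q ∧ ∀ r, r = p ∨ r = q ∨ r = t := by
  decide

theorem card_col (x : Fin 3 → Bool) (p q t : Fin 3) (hpq : p ≠ q) (htp : t ≠ p) (htq : t ≠ q)
    (hall : ∀ r, r = p ∨ r = q ∨ r = t) :
    (univ.filter (fun i => x i = true)).card
      = (if x p = true then 1 else 0) + (if x q = true then 1 else 0)
        + (if x t = true then 1 else 0) := by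
  have hu : (univ : Finset (Fin 3)) = {p, q, t} := by
    ext r
    simp only [mem_univ, mem_insert, mem_singleton, true_iff]
    exact hall r
  rw [card_filter, hu, sum_insert (by simp [hpq, htp.symm]), sum_insert (by simp [htq.symm]),
    sum_singleton]
  ring

theorem col_lemma (x y : Fin 3 → Bool) (r a : Fin 3) (har : a ≠ r) (hr : x r = y r)
    (hc : (univ.filter (fun i => x i = true)).card = (univ.filter (fun i => y i = true)).card)
    (hx : x a = true) (hy : y a = false) :
    ∃ b, b ≠ a ∧ b ≠ r ∧ x b = false ∧ y b = true ∧ (∀ i, i = r ∨ i = a ∨ i = b) := by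
  obtain ⟨b, hbr, hba, hall⟩ := fin3_third r a har.symm
  refine ⟨b, hba, hbr, ?_, ?_, hall⟩
  all_goals
    rw [card_col x r a b har.symm hbr hba hall, card_col y r a b har.symm hbr hba hall, hr, hx,
      hy] at hc
    cases hxb : x b <;> cases hyb : y b <;> cases hyr : y r <;> simp [hxb, hyb, hyr] at hc ⊢

variable {ι : Type*} [Fintype ι] [DecidableEq ι]

omit [Fintype ι] in
/-- the table after a switch, entry by entry -/
theorem sw_apply (m : ι → Fin 3 → Bool) (p q : Fin 3) (u v : ι) (huv : u ≠ v) (c : ι)
    (r : Fin 3) :
    Function.update (Function.update m u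
      (Function.update (Function.update (m u) p false) q true))
      v (Function.update (Function.update (m v) p true) q false) c r
    = if c = v then (if r = q then false else if r = p then true else m v r)
      else if c = u then (if r = q then true else if r = p then false else m u r)
      else m c r := by
  by_cases hcv : c = v
  · subst hcv
    simp only [Function.update_self, if_true]
    by_cases hrq : r = q
    · subst hrq; simp
    · by_cases hrp : r = p
      · subst hrp; simp [hrq]
      · simp [hrq, hrp]
  · rw [Function.update_of_ne hcv]
    simp only [hcv, if_false]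
    by_cases hcu : c = u
    · subst hcu
      simp only [Function.update_self, if_true]
      by_cases hrq : r = q
      · subst hrq; simp
      · by_cases hrp : r = p
        · subst hrp; simp [hrq]
        · simp [hrq, hrp]
    · rw [Function.update_of_ne hcu]
      simp [hcu]

/-- every 2 x 2 switch is an exchange of two columns with equal sums or a canonical unequal move
(in one of the two directions) -/
theorem isSw_cases (ρ : Fin 3 → ℕ) (s : ι → ℕ) (m m' : ι → Fin 3 → Bool) (hm : m ∈ tabs ρ s)
    (h : IsSw m m') :
    (∃ i j : ι, s i = s j ∧ m' = fun c => m (Equiv.swap i j c)) ∨ IsUneq m m' ∨ IsUneq m' m := by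
  obtain ⟨p, q, u, v, hpq, huv, h1, h2, h3, h4, rfl⟩ := h
  obtain ⟨t, htp, htq, hall⟩ := fin3_third p q hpq
  have hcol : ∀ c, (univ.filter (fun r => m c r = true)).card = s c := by
    have := (mem_filter.1 hm).2.2
    exact this
  by_cases hut : m u t = m v t
  · left
    refine ⟨u, v, ?_, ?_⟩
    · rw [← hcol u, ← hcol v, card_col (m u) p q t hpq htp htq hall,
        card_col (m v) p q t hpq htp htq hall, h1, h2, h3, h4, hut]
      simp
    · funext c r
      rw [sw_apply m p q u v huv]
      by_cases hcv : c = v
      · subst hcv
        rw [Equiv.swap_apply_right]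
        rcases hall r with rfl | rfl | rfl
        · simp [hpq, h1]
        · simp [h2]
        · simp [htp, htq, hut]
      · by_cases hcu : c = u
        · subst hcu
          rw [Equiv.swap_apply_left]
          rcases hall r with rfl | rfl | rfl
          · simp [hpq, h3, huv]
          · simp [h4, huv]
          · simp [htp, htq, hut, huv]
        · rw [Equiv.swap_apply_of_ne_of_ne hcu hcv]
          simp [hcu, hcv]
  · right
    cases hu : m u t
    · have hv : m v t = true := by
        cases hv : m v t
        · exact absurd (hu.trans hv.symm) hut
        · rfl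
      left
      refine ⟨p, q, u, v, hpq, huv, ?_, ?_, ?_⟩
      · funext r
        rcases hall r with rfl | rfl | rfl
        · simp [colE, h1]
        · simp [colE, h2, hpq.symm]
        · simp [colE, hu, htp]
      · funext r
        rcases hall r with rfl | rfl | rfl
        · simp [colN, h3]
        · simp [colN, h4, hpq.symm]
        · simp [colN, hv, htp]
      · funext c r
        rw [sw_apply m p q u v huv]
        by_cases hcv : c = v
        · subst hcv
          simp only [Function.update_self, if_true]
          rcases hall r with rfl | rfl | rfl
          · simp [colN, hpq]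
          · simp [colN]
          · simp [colN, htp, htq, hv]
        · rw [Function.update_of_ne hcv]
          by_cases hcu : c = u
          · subst hcu
            simp only [Function.update_self, if_true, hcv, if_false]
            rcases hall r with rfl | rfl | rfl
            · simp [colE, hpq]
            · simp [colE]
            · simp [colE, htp, htq, hu]
          · rw [Function.update_of_ne hcu]
            simp [hcu, hcv]
    · have hv : m v t = false := by
        cases hv : m v t
        · rfl
        · exact absurd (hu.trans hv.symm) hut
      right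
      refine ⟨p, q, v, u, hpq, huv.symm, ?_, ?_, ?_⟩
      · funext r
        rw [sw_apply m p q u v huv]
        rcases hall r with rfl | rfl | rfl
        · simp [colE, hpq]
        · simp [colE, hpq.symm]
        · simp [colE, htp, htq, hv]
      · funext r
        rw [sw_apply m p q u v huv]
        rcases hall r with rfl | rfl | rfl
        · simp [colN, hpq, huv]
        · simp [colN, hpq.symm, huv]
        · simp [colN, htp, htq, hu, huv]
      · funext c r
        by_cases hcu : c = u
        · subst hcu
          simp only [Function.update_self]
          rcases hall r with rfl | rfl | rfl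
          · simp [colN, hpq, h1]
          · simp [colN, h2]
          · simp [colN, htq, hu]
        · rw [Function.update_of_ne hcu]
          by_cases hcv : c = v
          · subst hcv
            simp only [Function.update_self]
            rcases hall r with rfl | rfl | rfl
            · simp [colE, hpq, h3]
            · simp [colE, h4]
            · simp [colE, htq, hv]
          · rw [Function.update_of_ne hcv, sw_apply m p q u v huv]
            simp [hcu, hcv]

theorem isSw_mem (ρ : Fin 3 → ℕ) (s : ι → ℕ) (m m' : ι → Fin 3 → Bool) (hm : m ∈ tabs ρ s)
    (h : IsSw m m') : m' ∈ tabs ρ s := by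
  obtain ⟨p, q, u, v, hpq, huv, h1, h2, h3, h4, rfl⟩ := h
  obtain ⟨t, htp, htq, hall⟩ := fin3_third p q hpq
  have hrow : ∀ r, (univ.filter (fun c => m c r = true)).card = ρ r := (mem_filter.1 hm).2.1
  have hcol : ∀ c, (univ.filter (fun r => m c r = true)).card = s c := (mem_filter.1 hm).2.2
  refine mem_filter.2 ⟨mem_univ _, ?_, ?_⟩
  · intro r
    rw [← hrow r]
    by_cases hrt : r = t
    · subst hrt
      refine congrArg Finset.card (filter_congr fun c _ => ?_)
      rw [sw_apply m p q u v huv]
      by_cases hcv : c = v
      · subst hcv; simp [htp, htq]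
      · by_cases hcu : c = u
        · subst hcu; simp [htp, htq, hcv]
        · simp [hcu, hcv]
    · refine Finset.card_equiv (Equiv.swap u v) fun c => ?_
      simp only [mem_filter, mem_univ, true_and]
      rw [sw_apply m p q u v huv]
      by_cases hcv : c = v
      · subst hcv
        rw [Equiv.swap_apply_right]
        rcases hall r with rfl | rfl | rfl
        · simp [hpq, h1]
        · simp [h2]
        · exact absurd rfl hrt
      · by_cases hcu : c = u
        · subst hcu
          rw [Equiv.swap_apply_left]
          rcases hall r with rfl | rfl | rfl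
          · simp [hpq, h3, huv]
          · simp [h4, huv]
          · exact absurd rfl hrt
        · rw [Equiv.swap_apply_of_ne_of_ne hcu hcv]
          simp [hcu, hcv]
  · intro c
    rw [← hcol c]
    by_cases hcv : c = v
    · subst hcv
      refine Finset.card_equiv (Equiv.swap p q) fun r => ?_
      simp only [mem_filter, mem_univ, true_and]
      rw [sw_apply m p q u c huv]
      rcases hall r with rfl | rfl | rfl
      · rw [Equiv.swap_apply_left]; simp [hpq, h4]
      · rw [Equiv.swap_apply_right]; simp [h3]
      · rw [Equiv.swap_apply_of_ne_of_ne htp htq]; simp [htp, htq]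
    · by_cases hcu : c = u
      · subst hcu
        refine Finset.card_equiv (Equiv.swap p q) fun r => ?_
        simp only [mem_filter, mem_univ, true_and]
        rw [sw_apply m p q c v huv]
        rcases hall r with rfl | rfl | rfl
        · rw [Equiv.swap_apply_left]; simp [hpq, h2, huv]
        · rw [Equiv.swap_apply_right]; simp [h1, huv]
        · rw [Equiv.swap_apply_of_ne_of_ne htp htq]; simp [htp, htq, huv]
      · refine congrArg Finset.card (filter_congr fun r _ => ?_)
        rw [sw_apply m p q u v huv]
        simp [hcu, hcv]

/-- a function invariant under 2 x 2 switches is constant on every row class -/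
theorem tables_conn (ρ : Fin 3 → ℕ) (s : ι → ℕ) (f : (ι → Fin 3 → Bool) → ℝ)
    (hf : ∀ m ∈ tabs ρ s, ∀ m' ∈ tabs ρ s, IsSw m m' → f m = f m') (r : Fin 3) :
    ∀ m ∈ tabs ρ s, ∀ m' ∈ tabs ρ s, rowKey r m = rowKey r m' → f m = f m' := by
  intro m hm m' hm' hkey
  induction hD : (univ.filter (fun c => m c ≠ m' c)).card using Nat.strong_induction_on
    generalizing m with
  | _ n ih =>
    have hrow : ∀ r, (univ.filter (fun c => m c r = true)).card = ρ r := (mem_filter.1 hm).2.1
    have hcol : ∀ c, (univ.filter (fun r => m c r = true)).card = s c := (mem_filter.1 hm).2.2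
    have hrow' : ∀ r, (univ.filter (fun c => m' c r = true)).card = ρ r := (mem_filter.1 hm').2.1
    have hcol' : ∀ c, (univ.filter (fun r => m' c r = true)).card = s c :=
      (mem_filter.1 hm').2.2
    have hk : ∀ c, m c r = m' c r := fun c => congrFun hkey c
    by_cases hmm : m = m'
    · rw [hmm]
    -- a differing column and a differing entry
    obtain ⟨c0, hc0⟩ : ∃ c, m c ≠ m' c := by
      by_contra hcon
      push Not at hcon
      exact hmm (funext hcon)
    obtain ⟨a0, ha0⟩ : ∃ a, m c0 a ≠ m' c0 a := by
      by_contra hcon
      push Not at hcon
      exact hc0 (funext hcon)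
    have ha0r : a0 ≠ r := by
      rintro rfl
      exact ha0 (hk c0)
    -- choose the row `a` with `m c0 a = true`, `m' c0 a = false`
    obtain ⟨a, b, har, hba, hbr, hall, e1, e2, e3, e4⟩ : ∃ a b : Fin 3, a ≠ r ∧ b ≠ a ∧ b ≠ r ∧
        (∀ i, i = r ∨ i = a ∨ i = b) ∧ m c0 a = true ∧ m' c0 a = false ∧ m c0 b = false ∧
        m' c0 b = true := by
      cases hx : m c0 a0
      · have hy : m' c0 a0 = true := by
          cases hy : m' c0 a0
          · exact absurd (hx.trans hy.symm) ha0
          · rfl
        obtain ⟨b, hba, hbr, g1, g2, hall⟩ := col_lemma (m' c0) (m c0) r a0 ha0r (hk c0).symm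
          ((hcol' c0).trans (hcol c0).symm) hy hx
        refine ⟨b, a0, hbr, hba.symm, ha0r, ?_, g2, g1, hx, hy⟩
        intro i
        rcases hall i with h | h | h
        · exact Or.inl h
        · exact Or.inr (Or.inr h)
        · exact Or.inr (Or.inl h)
      · have hy : m' c0 a0 = false := by
          cases hy : m' c0 a0
          · rfl
          · exact absurd (hx.trans hy.symm) ha0
        obtain ⟨b, hba, hbr, g1, g2, hall⟩ := col_lemma (m c0) (m' c0) r a0 ha0r (hk c0)
          ((hcol c0).trans (hcol' c0).symm) hx hy
        exact ⟨a0, b, ha0r, hba, hbr, hall, hx, hy, g1, g2⟩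
    -- a column with the opposite difference in row `a`
    obtain ⟨c1, f1, f2⟩ : ∃ c1, m c1 a = false ∧ m' c1 a = true := by
      by_contra hcon
      push Not at hcon
      have hsub : univ.filter (fun c => m' c a = true) ⊂ univ.filter (fun c => m c a = true) := by
        refine ⟨fun c hc => ?_, fun hsub => ?_⟩
        · simp only [mem_filter, mem_univ, true_and] at hc ⊢
          cases hmc : m c a
          · exact absurd hc (by simpa using hcon c hmc)
          · rfl
        · have : c0 ∈ univ.filter (fun c => m' c a = true) := hsub (by simp [e1])
          simp [e2] at this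
      have := card_lt_card hsub
      rw [hrow a, hrow' a] at this
      exact lt_irrefl _ this
    obtain ⟨b', hb'a, hb'r, f4, f3, hall'⟩ := col_lemma (m' c1) (m c1) r a har (hk c1).symm
      ((hcol' c1).trans (hcol c1).symm) f2 f1
    have hbb : b' = b := by
      rcases hall b' with h | h | h
      · exact absurd h hb'r
      · exact absurd h hb'a
      · exact h
    subst hbb
    have hc01 : c0 ≠ c1 := by
      rintro rfl
      rw [e1] at f1
      exact Bool.noConfusion f1
    set m2 : ι → Fin 3 → Bool := Function.update (Function.update m c0
      (Function.update (Function.update (m c0) a false) b' true))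
      c1 (Function.update (Function.update (m c1) a true) b' false) with hm2
    have hsw : IsSw m m2 := ⟨a, b', c0, c1, hba.symm, hc01, e1, e3, f1, f3, rfl⟩
    have hm2mem : m2 ∈ tabs ρ s := isSw_mem ρ s m m2 hm hsw
    have hm2c : ∀ c, c ≠ c0 → c ≠ c1 → m2 c = m c := by
      intro c h0 h1
      rw [hm2, Function.update_of_ne h1, Function.update_of_ne h0]
    have hm20 : m2 c0 = m' c0 := by
      funext i
      rw [hm2, sw_apply m a b' c0 c1 hc01]
      rcases hall i with rfl | rfl | rfl
      · simp [hc01, har.symm, hbr.symm, hk c0]
      · simp [hc01, hba.symm, e2]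
      · simp [hc01, e4]
    have hm21 : m2 c1 = m' c1 := by
      funext i
      rw [hm2, sw_apply m a b' c0 c1 hc01]
      rcases hall i with rfl | rfl | rfl
      · simp [har.symm, hbr.symm, hk c1]
      · simp [hba.symm, f2]
      · simp [f4]
    have hkey2 : rowKey r m2 = rowKey r m' := by
      funext c
      unfold rowKey
      by_cases h0 : c = c0
      · rw [h0, hm20]
      · by_cases h1 : c = c1
        · rw [h1, hm21]
        · rw [hm2c c h0 h1]; exact hk c
    have hlt : (univ.filter (fun c => m2 c ≠ m' c)).card < n := by
      rw [← hD]
      refine card_lt_card ⟨fun c hc => ?_, fun hsub => ?_⟩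
      · simp only [mem_filter, mem_univ, true_and] at hc ⊢
        by_cases h0 : c = c0
        · rw [h0, hm20] at hc; exact absurd rfl hc
        · by_cases h1 : c = c1
          · rw [h1, hm21] at hc; exact absurd rfl hc
          · rwa [hm2c c h0 h1] at hc
      · have : c0 ∈ univ.filter (fun c => m2 c ≠ m' c) := hsub (by simp [hc0])
        simp [hm20] at this
    rw [hf m hm m2 hm2mem hsw]
    exact ih _ hlt m2 hm2mem hkey2 rfl

end Vale.Agent.P335
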