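import Vale.Agent.P335.TablesStep2
import Vale.Agent.P335.TablesConn
import Vale.Agent.P335.Spectral
import Vale.Agent.P335.AvgTransfer

/-!
# P335: the three-row lemma for binary tables
-/

namespace Vale.Agent.P335

open Finset

variable {ι : Type*} [Fintype ι] [DecidableEq ι]

/-- the average of a function which is constant on the class -/
theorem avgOn_eq_self_of_const {X K : Type*} (S : Finset X) (κ : X → K) (f : X → ℝ) (x : X)
    (hx : x ∈ S) (h : ∀ y ∈ clsOn S κ x, f y = f x) : avgOn S κ f x = f x := by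
  unfold avgOn
  rw [Finset.sum_congr rfl h, Finset.sum_const, nsmul_eq_mul]
  have hc : ((clsOn S κ x).card : ℝ) ≠ 0 := by
    have : 0 < (clsOn S κ x).card := Finset.card_pos.2 ⟨x, (mem_clsOn S κ x x).2 ⟨hx, rfl⟩⟩
    positivity
  field_simp

/-- eigenfunctions of `P_0 + P_1 + P_2` with eigenvalue `> 2` are fixed by every `P_r` -/
theorem tables_eigen (ρ : Fin 3 → ℕ) (s : ι → ℕ) (f : (ι → Fin 3 → Bool) → ℝ) (lam : ℝ)
    (hlam : 2 < lam) (heig : ∀ m ∈ tabs ρ s, ∑ r, PT ρ s r f m = lam * f m) :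
    ∀ r, ∀ m ∈ tabs ρ s, PT ρ s r f m = f m := by
  have h1 := tables_step1 ρ s f lam hlam heig
  have h2 := tables_step2 ρ s f lam hlam heig h1
  have hf : ∀ m ∈ tabs ρ s, ∀ m' ∈ tabs ρ s, IsSw m m' → f m = f m' := by
    intro m hm m' hm' hsw
    rcases isSw_cases ρ s m m' hm hsw with ⟨i, j, hs, rfl⟩ | h | h
    · exact (h1 m hm i j hs).symm
    · exact h2 m hm m' hm' h
    · exact (h2 m' hm' m hm h).symm
  intro r m hm
  have hc := tables_conn ρ s f hf r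
  unfold PT
  apply avgOn_eq_self_of_const _ _ _ _ hm
  intro y hy
  rw [mem_clsOn] at hy
  exact hc y hy.1 m hm hy.2

/-- the operator `∑_r (1 - P_r)` on the subtype of tables -/
noncomputable def ATL (ρ : Fin 3 → ℕ) (s : ι → ℕ) :
    ({m : ι → Fin 3 → Bool // m ∈ tabs ρ s} → ℝ) →ₗ[ℝ]
      ({m : ι → Fin 3 → Bool // m ∈ tabs ρ s} → ℝ) :=
  ∑ r : Fin 3, (LinearMap.id - avgL (fun y : {m : ι → Fin 3 → Bool // m ∈ tabs ρ s} =>
    rowKey r y.1))

theorem ATL_apply (ρ : Fin 3 → ℕ) (s : ι → ℕ)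
    (F : {m : ι → Fin 3 → Bool // m ∈ tabs ρ s} → ℝ)
    (y : {m : ι → Fin 3 → Bool // m ∈ tabs ρ s}) :
    ATL ρ s F y = ∑ r : Fin 3, (F y - avg (fun y : {m : ι → Fin 3 → Bool // m ∈ tabs ρ s} =>
      rowKey r y.1) F y) := by
  simp [ATL, LinearMap.sum_apply, Finset.sum_apply]

theorem ATL_restrict (ρ : Fin 3 → ℕ) (s : ι → ℕ) (g : (ι → Fin 3 → Bool) → ℝ)
    (y : {m : ι → Fin 3 → Bool // m ∈ tabs ρ s}) :
    ATL ρ s (fun y => g y.1) y = AT ρ s g y.1 := by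
  rw [ATL_apply]
  unfold AT PT
  apply Finset.sum_congr rfl
  intro r _
  rw [avg_subtype_eq_avgOn]

theorem ATL_symm (ρ : Fin 3 → ℕ) (s : ι → ℕ)
    (F G : {m : ι → Fin 3 → Bool // m ∈ tabs ρ s} → ℝ) :
    ip (ATL ρ s F) G = ip F (ATL ρ s G) := by
  have h : ∀ r : Fin 3, ∑ y, avg (fun y : {m : ι → Fin 3 → Bool // m ∈ tabs ρ s} =>
      rowKey r y.1) F y * G y = ∑ y, F y * avg (fun y : {m : ι → Fin 3 → Bool // m ∈ tabs ρ s} =>
      rowKey r y.1) G y := fun r => avg_symm _ F G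
  unfold ip
  simp only [ATL_apply, Finset.sum_mul, Finset.mul_sum, sub_mul, mul_sub]
  rw [Finset.sum_comm]
  conv_rhs => rw [Finset.sum_comm]
  apply Finset.sum_congr rfl
  intro r _
  rw [Finset.sum_sub_distrib, Finset.sum_sub_distrib, h r]

theorem ATL_eigen (ρ : Fin 3 → ℕ) (s : ι → ℕ) (μ : ℝ)
    (f : {m : ι → Fin 3 → Bool // m ∈ tabs ρ s} → ℝ) (hf : f ≠ 0) (h : ATL ρ s f = μ • f) :
    μ = 0 ∨ 1 ≤ μ := by
  classical
  by_contra hcon
  push Not at hcon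
  obtain ⟨hμ0, hμ1⟩ := hcon
  set f' : (ι → Fin 3 → Bool) → ℝ := fun m => if hm : m ∈ tabs ρ s then f ⟨m, hm⟩ else 0 with hf'
  have hres : (fun y : {m : ι → Fin 3 → Bool // m ∈ tabs ρ s} => f' y.1) = f := by
    funext y
    simp [hf', y.2]
  have hAT : ∀ y : {m : ι → Fin 3 → Bool // m ∈ tabs ρ s}, AT ρ s f' y.1 = μ * f y := by
    intro y
    rw [← ATL_restrict, hres, h]
    simp
  have heig : ∀ m ∈ tabs ρ s, ∑ r, PT ρ s r f' m = (3 - μ) * f' m := by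
    intro m hm
    have h3 := hAT ⟨m, hm⟩
    have h4 : f' m = f ⟨m, hm⟩ := by simp [hf', hm]
    unfold AT at h3
    rw [Finset.sum_sub_distrib] at h3
    simp only [Finset.sum_const, Finset.card_univ, Fintype.card_fin, nsmul_eq_mul] at h3
    rw [h4] at h3 ⊢
    push_cast at h3
    linarith
  have hfix := tables_eigen ρ s f' (3 - μ) (by linarith) heig
  apply hf
  funext y
  have h5 := hAT y
  unfold AT at h5
  have h6 : ∑ r : Fin 3, (f' y.1 - PT ρ s r f' y.1) = 0 := by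
    apply Finset.sum_eq_zero
    intro r _
    rw [hfix r y.1 y.2, sub_self]
  rw [h6] at h5
  rcases mul_eq_zero.1 h5.symm with h7 | h7
  · exact absurd h7 hμ0
  · simpa using h7

/-- three-row lemma: `A ≤ A²` for `A = ∑_r (1 - P_r)` -/
theorem three_row_tables (ρ : Fin 3 → ℕ) (s : ι → ℕ) (g : (ι → Fin 3 → Bool) → ℝ) :
    ∑ m ∈ tabs ρ s, g m * AT ρ s g m ≤ ∑ m ∈ tabs ρ s, (AT ρ s g m) ^ 2 := by
  have key := sq_ge_of_eigen (ATL ρ s) (ATL_symm ρ s) (ATL_eigen ρ s) (fun y => g y.1)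
  unfold ip at key
  simp only [ATL_restrict] at key
  rw [← Finset.sum_coe_sort (tabs ρ s) (fun m => g m * AT ρ s g m),
    ← Finset.sum_coe_sort (tabs ρ s) (fun m => (AT ρ s g m) ^ 2)]
  calc ∑ y : {m : ι → Fin 3 → Bool // m ∈ tabs ρ s}, g y.1 * AT ρ s g y.1
      ≤ ∑ y : {m : ι → Fin 3 → Bool // m ∈ tabs ρ s}, AT ρ s g y.1 * AT ρ s g y.1 := key
    _ = ∑ y : {m : ι → Fin 3 → Bool // m ∈ tabs ρ s}, (AT ρ s g y.1) ^ 2 := by
        apply Finset.sum_congr rfl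
        intro y _
        ring

end Vale.Agent.P335
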