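import Vale.Agent.P335.TablesDefs
import Vale.Agent.P335.AvgBasic

/-!
# P335: three-row tables, step 2: the types `(c, c)` and the partition into types
-/

namespace Vale.Agent.P335

open Finset

variable {ι : Type*} [Fintype ι] [DecidableEq ι]

theorem colE_card_c2s (p : Fin 3) : (univ.filter (fun r => colE p r = true)).card = 1 := by
  revert p; decide

theorem colN_card_c2s (p : Fin 3) : (univ.filter (fun r => colN p r = true)).card = 2 := by
  revert p; decide

theorem col_eq_colE_c2s (a : Fin 3 → Bool) (p : Fin 3) (h1 : a p = true)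
    (h2 : (univ.filter (fun r => a r = true)).card = 1) : a = colE p := by
  revert a p; decide

theorem col_eq_colN_c2s (a : Fin 3 → Bool) (p : Fin 3) (h1 : a p = false)
    (h2 : (univ.filter (fun r => a r = true)).card = 2) : a = colN p := by
  revert a p; decide

theorem col_exists_colE_c2s (a : Fin 3 → Bool) (p : Fin 3) (h1 : a p = false)
    (h2 : (univ.filter (fun r => a r = true)).card = 1) : ∃ c, c ≠ p ∧ a = colE c := by
  revert a p; decide

theorem col_exists_colN_c2s (a : Fin 3 → Bool) (p : Fin 3) (h1 : a p = true)
    (h2 : (univ.filter (fun r => a r = true)).card = 2) : ∃ c, c ≠ p ∧ a = colN c := by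
  revert a p; decide

theorem colEN_ind_c2s (p r : Fin 3) :
    (if colE p r = true then 1 else 0) + (if colN p r = true then 1 else 0) = 1 := by
  revert p r; decide

theorem mem_tabs_c2s (ρ : Fin 3 → ℕ) (s : ι → ℕ) (m : ι → Fin 3 → Bool) :
    m ∈ tabs ρ s ↔ (∀ r, (univ.filter (fun c => m c r = true)).card = ρ r) ∧
      ∀ c, (univ.filter (fun r => m c r = true)).card = s c := by
  simp [tabs]

/-- splitting a sum over all columns -/
theorem sum_split_two_c2s (g : ι → ℕ) (u v : ι) (huv : u ≠ v) :
    ∑ c, g c = g u + g v + ∑ c ∈ (univ.erase u).erase v, g c := by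
  rw [← Finset.add_sum_erase univ g (mem_univ u),
    ← Finset.add_sum_erase (univ.erase u) g (mem_erase.2 ⟨huv.symm, mem_univ v⟩), add_assoc]

/-- the move `X -> Y` stays inside the tables with the same margins -/
theorem uneq_mem (ρ : Fin 3 → ℕ) (s : ι → ℕ) (p q : Fin 3) (u v : ι) (huv : u ≠ v)
    (X : ι → Fin 3 → Bool) (hX : X ∈ tabs ρ s) (hXu : X u = colE p) (hXv : X v = colN p) :
    Function.update (Function.update X u (colE q)) v (colN q) ∈ tabs ρ s := by
  rw [mem_tabs_c2s] at hX ⊢
  obtain ⟨hr, hc⟩ := hX
  constructor
  · intro r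
    rw [← hr r, Finset.card_filter, Finset.card_filter, sum_split_two_c2s _ u v huv,
      sum_split_two_c2s (fun c => if X c r = true then 1 else 0) u v huv]
    congr 1
    · simp only [Function.update_self, Function.update_of_ne huv, hXu, hXv, colEN_ind_c2s]
    · apply Finset.sum_congr rfl
      intro c hc'
      rw [mem_erase, mem_erase] at hc'
      rw [Function.update_of_ne hc'.1, Function.update_of_ne hc'.2.1]
  · intro c
    by_cases h1 : c = v
    · subst h1
      rw [Function.update_self, colN_card_c2s, ← hc c, hXv, colN_card_c2s]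
    · rw [Function.update_of_ne h1]
      by_cases h2 : c = u
      · subst h2
        rw [Function.update_self, colE_card_c2s, ← hc c, hXu, colE_card_c2s]
      · rw [Function.update_of_ne h2, hc c]

/-- in the class of `X` (row `p` fixed) the columns `u`, `v` are frozen -/
theorem core2_clsX (ρ : Fin 3 → ℕ) (s : ι → ℕ) (p : Fin 3) (u v : ι)
    (X : ι → Fin 3 → Bool) (hX : X ∈ tabs ρ s) (hXu : X u = colE p) (hXv : X v = colN p) :
    ∀ x ∈ clsOn (tabs ρ s) (rowKey p) X, x u = colE p ∧ x v = colN p := by
  intro x hx
  rw [mem_clsOn] at hx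
  obtain ⟨hxt, hk⟩ := hx
  rw [mem_tabs_c2s] at hX hxt
  constructor
  · apply col_eq_colE_c2s
    · have := congrFun hk u
      simp only [rowKey] at this
      rw [this, hXu]
      simp [colE]
    · rw [hxt.2 u, ← hX.2 u, hXu, colE_card_c2s]
  · apply col_eq_colN_c2s
    · have := congrFun hk v
      simp only [rowKey] at this
      rw [this, hXv]
      simp [colN]
    · rw [hxt.2 v, ← hX.2 v, hXv, colN_card_c2s]

/-- in the class of `Y` (row `p` fixed) the columns `u`, `v` have one of four types -/
theorem core2_partition (ρ : Fin 3 → ℕ) (s : ι → ℕ) (p q : Fin 3) (u v : ι) (hpq : p ≠ q)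
    (huv : u ≠ v) (X : ι → Fin 3 → Bool) (hX : X ∈ tabs ρ s)
    (hXu : X u = colE p) (hXv : X v = colN p) :
    ∀ y ∈ clsOn (tabs ρ s) (rowKey p) (Function.update (Function.update X u (colE q)) v (colN q)),
      ∃ c c' : Fin 3, c ≠ p ∧ c' ≠ p ∧ y u = colE c ∧ y v = colN c' := by
  intro y hy
  rw [mem_clsOn] at hy
  obtain ⟨hyt, hk⟩ := hy
  rw [mem_tabs_c2s] at hX hyt
  obtain ⟨c, hc, hcu⟩ := col_exists_colE_c2s (y u) p (by
      have := congrFun hk u
      simp only [rowKey, Function.update_of_ne huv, Function.update_self] at this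
      rw [this]
      simp [colE, hpq]) (by rw [hyt.2 u, ← hX.2 u, hXu, colE_card_c2s])
  obtain ⟨c', hc', hcv⟩ := col_exists_colN_c2s (y v) p (by
      have := congrFun hk v
      simp only [rowKey, Function.update_self] at this
      rw [this]
      simp [colN, hpq]) (by rw [hyt.2 v, ← hX.2 v, hXv, colN_card_c2s])
  exact ⟨c, c', hc, hc', hcu, hcv⟩

open Classical in
/-- type `(c, c)`: bijection with the class of `X` -/
theorem core2_same (ρ : Fin 3 → ℕ) (s : ι → ℕ) (f : (ι → Fin 3 → Bool) → ℝ)
    (D : ℝ) (hD : 0 ≤ D)
    (hLip : ∀ m ∈ tabs ρ s, ∀ m' ∈ tabs ρ s, IsUneq m m' → |f m - f m'| ≤ D)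
    (p q : Fin 3) (u v : ι) (hpq : p ≠ q) (huv : u ≠ v) (X : ι → Fin 3 → Bool) (hX : X ∈ tabs ρ s)
    (hXu : X u = colE p) (hXv : X v = colN p) (c : Fin 3) (hc : c ≠ p) :
    |∑ y ∈ (clsOn (tabs ρ s) (rowKey p)
          (Function.update (Function.update X u (colE q)) v (colN q))).filter
          (fun y => y u = colE c ∧ y v = colN c), (f y - PT ρ s p f X)| ≤
      D * (((clsOn (tabs ρ s) (rowKey p)
          (Function.update (Function.update X u (colE q)) v (colN q))).filter
          (fun y => y u = colE c ∧ y v = colN c)).card : ℝ) := by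
  set YS := (clsOn (tabs ρ s) (rowKey p)
          (Function.update (Function.update X u (colE q)) v (colN q))).filter
          (fun y => y u = colE c ∧ y v = colN c) with hYS
  set CX := clsOn (tabs ρ s) (rowKey p) X with hCX
  have memYS : ∀ y, y ∈ YS ↔ (y ∈ tabs ρ s ∧ rowKey p y =
      rowKey p (Function.update (Function.update X u (colE q)) v (colN q))) ∧
      y u = colE c ∧ y v = colN c := by
    intro y
    rw [hYS, mem_filter, mem_clsOn]
  -- the two maps
  have h1 : ∀ y ∈ YS, Function.update (Function.update y u (colE p)) v (colN p) ∈ CX := by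
    intro y hy
    rw [memYS] at hy
    obtain ⟨⟨hyt, hk⟩, hyu, hyv⟩ := hy
    rw [hCX, mem_clsOn]
    refine ⟨uneq_mem ρ s c p u v huv y hyt hyu hyv, ?_⟩
    funext col
    simp only [rowKey]
    by_cases e1 : col = v
    · subst e1
      rw [Function.update_self, hXv]
    · rw [Function.update_of_ne e1]
      by_cases e2 : col = u
      · subst e2
        rw [Function.update_self, hXu]
      · rw [Function.update_of_ne e2]
        have := congrFun hk col
        simp only [rowKey, Function.update_of_ne e1, Function.update_of_ne e2] at this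
        exact this
  have h2 : ∀ x ∈ CX, Function.update (Function.update x u (colE c)) v (colN c) ∈ YS := by
    intro x hx
    obtain ⟨hxu, hxv⟩ := core2_clsX ρ s p u v X hX hXu hXv x hx
    rw [hCX, mem_clsOn] at hx
    obtain ⟨hxt, hk⟩ := hx
    rw [memYS]
    refine ⟨⟨uneq_mem ρ s p c u v huv x hxt hxu hxv, ?_⟩, ?_, ?_⟩
    · funext col
      simp only [rowKey]
      by_cases e1 : col = v
      · subst e1
        rw [Function.update_self, Function.update_self]
        simp [colN, hpq, hc.symm]
      · rw [Function.update_of_ne e1, Function.update_of_ne e1]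
        by_cases e2 : col = u
        · subst e2
          rw [Function.update_self, Function.update_self]
          simp [colE, hpq, hc.symm]
        · rw [Function.update_of_ne e2, Function.update_of_ne e2]
          exact congrFun hk col
    · rw [Function.update_of_ne huv, Function.update_self]
    · rw [Function.update_self]
  have h3 : ∀ y ∈ YS, Function.update (Function.update
      (Function.update (Function.update y u (colE p)) v (colN p)) u (colE c)) v (colN c) = y := by
    intro y hy
    rw [memYS] at hy
    obtain ⟨-, hyu, hyv⟩ := hy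
    funext col
    by_cases e1 : col = v
    · subst e1
      rw [Function.update_self, hyv]
    · rw [Function.update_of_ne e1]
      by_cases e2 : col = u
      · subst e2
        rw [Function.update_self, hyu]
      · rw [Function.update_of_ne e2, Function.update_of_ne e1, Function.update_of_ne e2]
  have h4 : ∀ x ∈ CX, Function.update (Function.update
      (Function.update (Function.update x u (colE c)) v (colN c)) u (colE p)) v (colN p) = x := by
    intro x hx
    obtain ⟨hxu, hxv⟩ := core2_clsX ρ s p u v X hX hXu hXv x hx
    funext col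
    by_cases e1 : col = v
    · subst e1
      rw [Function.update_self, hxv]
    · rw [Function.update_of_ne e1]
      by_cases e2 : col = u
      · subst e2
        rw [Function.update_self, hxu]
      · rw [Function.update_of_ne e2, Function.update_of_ne e1, Function.update_of_ne e2]
  have hsum : ∑ y ∈ YS, f (Function.update (Function.update y u (colE p)) v (colN p))
      = ∑ x ∈ CX, f x :=
    Finset.sum_bij' (fun y _ => Function.update (Function.update y u (colE p)) v (colN p))
      (fun x _ => Function.update (Function.update x u (colE c)) v (colN c)) h1 h2 h3 h4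
      (fun _ _ => rfl)
  have hcard : YS.card = CX.card :=
    Finset.card_bij' (fun y _ => Function.update (Function.update y u (colE p)) v (colN p))
      (fun x _ => Function.update (Function.update x u (colE c)) v (colN c)) h1 h2 h3 h4
  have hXmem : X ∈ CX := by
    rw [hCX, mem_clsOn]
    exact ⟨hX, rfl⟩
  have hpos : (0 : ℝ) < (CX.card : ℝ) := by
    have : 0 < CX.card := card_pos.2 ⟨X, hXmem⟩
    exact_mod_cast this
  have hPT : PT ρ s p f X = (∑ x ∈ CX, f x) / (CX.card : ℝ) := rfl
  have hkey : ∑ y ∈ YS, (f y - PT ρ s p f X)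
      = ∑ y ∈ YS, (f y - f (Function.update (Function.update y u (colE p)) v (colN p))) := by
    rw [Finset.sum_sub_distrib, Finset.sum_sub_distrib, hsum, Finset.sum_const, nsmul_eq_mul, hcard,
      hPT]
    field_simp
  rw [hkey]
  calc |∑ y ∈ YS, (f y - f (Function.update (Function.update y u (colE p)) v (colN p)))|
      ≤ ∑ y ∈ YS, |f y - f (Function.update (Function.update y u (colE p)) v (colN p))| :=
        Finset.abs_sum_le_sum_abs _ _
    _ ≤ ∑ _y ∈ YS, D := by
        apply Finset.sum_le_sum
        intro y hy
        have hy' := (memYS y).1 hy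
        have hm := h1 y hy
        rw [hCX, mem_clsOn] at hm
        exact hLip y hy'.1.1 _ hm.1 ⟨c, p, u, v, hc, huv, hy'.2.1, hy'.2.2, rfl⟩
    _ = D * (YS.card : ℝ) := by
        rw [Finset.sum_const, nsmul_eq_mul, mul_comm]

end Vale.Agent.P335
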