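import Vale.Agent.P335.TablesDefs
import Vale.Agent.P335.AvgBasic
import Vale.Agent.P335.TablesStep1
import Vale.Agent.P335.TablesCore2Same

/-!
# P335: three-row tables, step 2: the mixed types `(c, c')`, `c ≠ c'`
-/

namespace Vale.Agent.P335

open Finset

set_option linter.unusedSectionVars false

variable {ι : Type*} [Fintype ι] [DecidableEq ι]

/-! ### facts on single columns (finite checks) -/

theorem mx_col_card : ∀ (p c c' : Fin 3), c ≠ p → c' ≠ p → c ≠ c' → ∀ col : Fin 3 → Bool,
    ((col c = true ∧ col c' = true) ↔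
      (univ.filter (fun r => col r = true)).card = if col p = true then 3 else 2) := by
  decide

theorem mx_colE_card : ∀ p : Fin 3, (univ.filter (fun r => colE p r = true)).card = 1 := by
  decide

theorem mx_colN_card : ∀ p : Fin 3, (univ.filter (fun r => colN p r = true)).card = 2 := by
  decide

/-- a column with entries `0, 1` in rows `c, c'` and `0` in the third row -/
theorem mx_col_A : ∀ (p c c' : Fin 3), c ≠ p → c' ≠ p → c ≠ c' → ∀ col : Fin 3 → Bool,
    col c = false → col c' = true → col p = false →
      (col = colE c' ∧ Function.update (Function.update col c true) c' false = colE c) := by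
  decide

/-- a column with entries `0, 1` in rows `c, c'` and `1` in the third row -/
theorem mx_col_B : ∀ (p c c' : Fin 3), c ≠ p → c' ≠ p → c ≠ c' → ∀ col : Fin 3 → Bool,
    col c = false → col c' = true → col p = true →
      (col = colN c ∧ Function.update (Function.update col c true) c' false = colN c') := by
  decide

/-- a column with entries `1, 0` in rows `c, c'` and `0` in the third row -/
theorem mx_col_A' : ∀ (p c c' : Fin 3), c ≠ p → c' ≠ p → c ≠ c' → ∀ col : Fin 3 → Bool,
    col c = true → col c' = false → col p = false →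
      (col = colE c ∧ Function.update (Function.update col c false) c' true = colE c') := by
  decide

/-- a column with entries `1, 0` in rows `c, c'` and `1` in the third row -/
theorem mx_col_B' : ∀ (p c c' : Fin 3), c ≠ p → c' ≠ p → c ≠ c' → ∀ col : Fin 3 → Bool,
    col c = true → col c' = false → col p = true →
      (col = colN c' ∧ Function.update (Function.update col c false) c' true = colN c) := by
  decide

theorem mx_col_inv : ∀ (c c' : Fin 3), c ≠ c' → ∀ col : Fin 3 → Bool,
    col c = false → col c' = true →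
      Function.update (Function.update
        (Function.update (Function.update col c true) c' false) c false) c' true = col := by
  decide

theorem mx_col_inv' : ∀ (c c' : Fin 3), c ≠ c' → ∀ col : Fin 3 → Bool,
    col c = true → col c' = false →
      Function.update (Function.update
        (Function.update (Function.update col c false) c' true) c true) c' false = col := by
  decide


theorem mx_colE_self (c : Fin 3) : colE c c = true := by simp [colE]

theorem mx_colE_ne {c r : Fin 3} (h : r ≠ c) : colE c r = false := by simp [colE, h]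

theorem mx_colN_self (c : Fin 3) : colN c c = false := by simp [colN]

theorem mx_colN_ne {c r : Fin 3} (h : r ≠ c) : colN c r = true := by simp [colN, h]

theorem mx_mem_tabs (ρ : Fin 3 → ℕ) (s : ι → ℕ) (m : ι → Fin 3 → Bool) :
    m ∈ tabs ρ s ↔ (∀ r, (univ.filter (fun c => m c r = true)).card = ρ r) ∧
      ∀ c, (univ.filter (fun r => m c r = true)).card = s c := by
  simp [tabs]

/-! ### the two maps -/

/-- from type `(c, c')` to the class of `X` -/
def phiMx (p c c' : Fin 3) (u v : ι) (y : ι → Fin 3 → Bool) (i : ι) : ι → Fin 3 → Bool :=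
  Function.update (Function.update (Function.update y u (colE p)) v (colN p)) i
    (Function.update (Function.update (y i) c true) c' false)

/-- from the class of `X` to type `(c, c')` -/
def psiMx (c c' : Fin 3) (u v : ι) (x : ι → Fin 3 → Bool) (i : ι) : ι → Fin 3 → Bool :=
  Function.update (Function.update (Function.update x u (colE c)) v (colN c')) i
    (Function.update (Function.update (x i) c false) c' true)

/-- `phiMx` lands in the tables and changes `f` by at most `D` -/
theorem mx_phi_spec (ρ : Fin 3 → ℕ) (s : ι → ℕ) (f : (ι → Fin 3 → Bool) → ℝ)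
    (h1 : ∀ m ∈ tabs ρ s, ∀ i j : ι, s i = s j → f (fun c => m (Equiv.swap i j c)) = f m)
    (D : ℝ)
    (hLip : ∀ m ∈ tabs ρ s, ∀ m' ∈ tabs ρ s, IsUneq m m' → |f m - f m'| ≤ D)
    (p c c' : Fin 3) (u v : ι) (huv : u ≠ v) (hc : c ≠ p) (hc' : c' ≠ p) (hcc' : c ≠ c')
    (y : ι → Fin 3 → Bool) (hy : y ∈ tabs ρ s) (hyu : y u = colE c) (hyv : y v = colN c')
    (i : ι) (hi1 : y i c = false) (hi2 : y i c' = true) :
    phiMx p c c' u v y i ∈ tabs ρ s ∧ |f y - f (phiMx p c c' u v y i)| ≤ D := by
  have hiu : i ≠ u := by
    rintro rfl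
    rw [hyu, mx_colE_self] at hi1
    exact absurd hi1 (by decide)
  have hiv : i ≠ v := by
    rintro rfl
    rw [hyv, mx_colN_self] at hi2
    exact absurd hi2 (by decide)
  have hy' := (mx_mem_tabs ρ s y).1 hy
  have hsu : s u = 1 := by rw [← hy'.2 u, hyu]; exact mx_colE_card c
  have hsv : s v = 2 := by rw [← hy'.2 v, hyv]; exact mx_colN_card c'
  rcases Bool.eq_false_or_eq_true (y i p) with hp | hp
  · -- column `i` has sum two
    obtain ⟨e1, e2⟩ := mx_col_B p c c' hc hc' hcc' (y i) hi1 hi2 hp
    have hsi : s i = 2 := by rw [← hy'.2 i, e1]; exact mx_colN_card c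
    set y2 : ι → Fin 3 → Bool := fun k => y (Equiv.swap v i k) with hy2
    have hy2m : y2 ∈ tabs ρ s := swap_mem_tabs_step1 ρ s v i (by rw [hsv, hsi]) y hy
    have hf : f y2 = f y := h1 y hy v i (by rw [hsv, hsi])
    have hy2u : y2 u = colE c := by
      simp only [hy2]
      rw [Equiv.swap_apply_of_ne_of_ne huv hiu.symm, hyu]
    have hy2v : y2 v = colN c := by
      simp only [hy2]
      rw [Equiv.swap_apply_left, e1]
    have hphi : phiMx p c c' u v y i =
        Function.update (Function.update y2 u (colE p)) v (colN p) := by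
      funext k
      unfold phiMx
      by_cases hki : k = i
      · subst hki
        rw [Function.update_self, Function.update_of_ne hiv, Function.update_of_ne hiu, e2]
        simp only [hy2]
        rw [Equiv.swap_apply_right, hyv]
      · rw [Function.update_of_ne hki]
        by_cases hkv : k = v
        · subst hkv
          rw [Function.update_self, Function.update_self]
        · rw [Function.update_of_ne hkv, Function.update_of_ne hkv]
          by_cases hku : k = u
          · subst hku
            rw [Function.update_self, Function.update_self]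
          · rw [Function.update_of_ne hku, Function.update_of_ne hku]
            simp only [hy2]
            rw [Equiv.swap_apply_of_ne_of_ne hkv hki]
    have hm : Function.update (Function.update y2 u (colE p)) v (colN p) ∈ tabs ρ s :=
      uneq_mem ρ s c p u v huv y2 hy2m hy2u hy2v
    rw [hphi]
    refine ⟨hm, ?_⟩
    rw [← hf]
    exact hLip y2 hy2m _ hm ⟨c, p, u, v, hc, huv, hy2u, hy2v, rfl⟩
  · -- column `i` has sum one
    obtain ⟨e1, e2⟩ := mx_col_A p c c' hc hc' hcc' (y i) hi1 hi2 hp
    have hsi : s i = 1 := by rw [← hy'.2 i, e1]; exact mx_colE_card c'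
    set y2 : ι → Fin 3 → Bool := fun k => y (Equiv.swap u i k) with hy2
    have hy2m : y2 ∈ tabs ρ s := swap_mem_tabs_step1 ρ s u i (by rw [hsu, hsi]) y hy
    have hf : f y2 = f y := h1 y hy u i (by rw [hsu, hsi])
    have hy2u : y2 u = colE c' := by
      simp only [hy2]
      rw [Equiv.swap_apply_left, e1]
    have hy2v : y2 v = colN c' := by
      simp only [hy2]
      rw [Equiv.swap_apply_of_ne_of_ne huv.symm hiv.symm, hyv]
    have hphi : phiMx p c c' u v y i =
        Function.update (Function.update y2 u (colE p)) v (colN p) := by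
      funext k
      unfold phiMx
      by_cases hki : k = i
      · subst hki
        rw [Function.update_self, Function.update_of_ne hiv, Function.update_of_ne hiu, e2]
        simp only [hy2]
        rw [Equiv.swap_apply_right, hyu]
      · rw [Function.update_of_ne hki]
        by_cases hkv : k = v
        · subst hkv
          rw [Function.update_self, Function.update_self]
        · rw [Function.update_of_ne hkv, Function.update_of_ne hkv]
          by_cases hku : k = u
          · subst hku
            rw [Function.update_self, Function.update_self]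
          · rw [Function.update_of_ne hku, Function.update_of_ne hku]
            simp only [hy2]
            rw [Equiv.swap_apply_of_ne_of_ne hku hki]
    have hm : Function.update (Function.update y2 u (colE p)) v (colN p) ∈ tabs ρ s :=
      uneq_mem ρ s c' p u v huv y2 hy2m hy2u hy2v
    rw [hphi]
    refine ⟨hm, ?_⟩
    rw [← hf]
    exact hLip y2 hy2m _ hm ⟨c', p, u, v, hc', huv, hy2u, hy2v, rfl⟩

/-- `psiMx` lands in the tables -/
theorem mx_psi_spec (ρ : Fin 3 → ℕ) (s : ι → ℕ)
    (p c c' : Fin 3) (u v : ι) (huv : u ≠ v) (hc : c ≠ p) (hc' : c' ≠ p) (hcc' : c ≠ c')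
    (x : ι → Fin 3 → Bool) (hx : x ∈ tabs ρ s) (hxu : x u = colE p) (hxv : x v = colN p)
    (i : ι) (hi1 : x i c = true) (hi2 : x i c' = false) :
    psiMx c c' u v x i ∈ tabs ρ s := by
  have hiu : i ≠ u := by
    rintro rfl
    rw [hxu, mx_colE_ne hc] at hi1
    exact absurd hi1 (by decide)
  have hiv : i ≠ v := by
    rintro rfl
    rw [hxv, mx_colN_ne hc'] at hi2
    exact absurd hi2 (by decide)
  have hx' := (mx_mem_tabs ρ s x).1 hx
  have hsu : s u = 1 := by rw [← hx'.2 u, hxu]; exact mx_colE_card p
  have hsv : s v = 2 := by rw [← hx'.2 v, hxv]; exact mx_colN_card p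
  rcases Bool.eq_false_or_eq_true (x i p) with hp | hp
  · -- column `i` has sum two
    obtain ⟨e1, e2⟩ := mx_col_B' p c c' hc hc' hcc' (x i) hi1 hi2 hp
    have hsi : s i = 2 := by rw [← hx'.2 i, e1]; exact mx_colN_card c'
    set x2 : ι → Fin 3 → Bool := Function.update (Function.update x u (colE c)) v (colN c)
      with hx2
    have hx2m : x2 ∈ tabs ρ s := uneq_mem ρ s p c u v huv x hx hxu hxv
    have hpsi : psiMx c c' u v x i = fun k => x2 (Equiv.swap v i k) := by
      funext k
      unfold psiMx
      by_cases hki : k = i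
      · subst hki
        rw [Function.update_self, Equiv.swap_apply_right, e2, hx2, Function.update_self]
      · rw [Function.update_of_ne hki]
        by_cases hkv : k = v
        · subst hkv
          rw [Function.update_self, Equiv.swap_apply_left, hx2, Function.update_of_ne hiv,
            Function.update_of_ne hiu, e1]
        · rw [Function.update_of_ne hkv, Equiv.swap_apply_of_ne_of_ne hkv hki, hx2,
            Function.update_of_ne hkv]
    rw [hpsi]
    exact swap_mem_tabs_step1 ρ s v i (by rw [hsv, hsi]) x2 hx2m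
  · -- column `i` has sum one
    obtain ⟨e1, e2⟩ := mx_col_A' p c c' hc hc' hcc' (x i) hi1 hi2 hp
    have hsi : s i = 1 := by rw [← hx'.2 i, e1]; exact mx_colE_card c
    set x2 : ι → Fin 3 → Bool := Function.update (Function.update x u (colE c')) v (colN c')
      with hx2
    have hx2m : x2 ∈ tabs ρ s := uneq_mem ρ s p c' u v huv x hx hxu hxv
    have hpsi : psiMx c c' u v x i = fun k => x2 (Equiv.swap u i k) := by
      funext k
      unfold psiMx
      by_cases hki : k = i
      · subst hki
        rw [Function.update_self, Equiv.swap_apply_right, e2, hx2, Function.update_of_ne huv,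
          Function.update_self]
      · rw [Function.update_of_ne hki]
        by_cases hkv : k = v
        · subst hkv
          rw [Function.update_self, Equiv.swap_apply_of_ne_of_ne huv.symm hki, hx2,
            Function.update_self]
        · rw [Function.update_of_ne hkv]
          by_cases hku : k = u
          · subst hku
            rw [Function.update_self, Equiv.swap_apply_left, hx2, Function.update_of_ne hiv,
              Function.update_of_ne hiu, e1]
          · rw [Function.update_of_ne hku, Equiv.swap_apply_of_ne_of_ne hku hki, hx2,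
              Function.update_of_ne hkv, Function.update_of_ne hku]
    rw [hpsi]
    exact swap_mem_tabs_step1 ρ s u i (by rw [hsu, hsi]) x2 hx2m

/-- `psiMx` inverts `phiMx` -/
theorem mx_psi_phi (p c c' : Fin 3) (u v : ι) (hcc' : c ≠ c')
    (y : ι → Fin 3 → Bool) (hyu : y u = colE c) (hyv : y v = colN c')
    (i : ι) (hi1 : y i c = false) (hi2 : y i c' = true) :
    psiMx c c' u v (phiMx p c c' u v y i) i = y := by
  funext k
  unfold psiMx
  by_cases hki : k = i
  · subst hki
    rw [Function.update_self]
    unfold phiMx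
    rw [Function.update_self]
    exact mx_col_inv c c' hcc' (y k) hi1 hi2
  · rw [Function.update_of_ne hki]
    by_cases hkv : k = v
    · subst hkv
      rw [Function.update_self, hyv]
    · rw [Function.update_of_ne hkv]
      by_cases hku : k = u
      · subst hku
        rw [Function.update_self, hyu]
      · rw [Function.update_of_ne hku]
        unfold phiMx
        rw [Function.update_of_ne hki, Function.update_of_ne hkv, Function.update_of_ne hku]

/-- `phiMx` inverts `psiMx` -/
theorem mx_phi_psi (p c c' : Fin 3) (u v : ι) (hcc' : c ≠ c')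
    (x : ι → Fin 3 → Bool) (hxu : x u = colE p) (hxv : x v = colN p)
    (i : ι) (hi1 : x i c = true) (hi2 : x i c' = false) :
    phiMx p c c' u v (psiMx c c' u v x i) i = x := by
  funext k
  unfold phiMx
  by_cases hki : k = i
  · subst hki
    rw [Function.update_self]
    unfold psiMx
    rw [Function.update_self]
    exact mx_col_inv' c c' hcc' (x k) hi1 hi2
  · rw [Function.update_of_ne hki]
    by_cases hkv : k = v
    · subst hkv
      rw [Function.update_self, hxv]
    · rw [Function.update_of_ne hkv]
      by_cases hku : k = u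
      · subst hku
        rw [Function.update_self, hxu]
      · rw [Function.update_of_ne hku]
        unfold psiMx
        rw [Function.update_of_ne hki, Function.update_of_ne hkv, Function.update_of_ne hku]

/-! ### counting admissible columns -/

theorem mx_count (ρ : Fin 3 → ℕ) (s : ι → ℕ) (p c c' : Fin 3) (hc : c ≠ p) (hc' : c' ≠ p)
    (hcc' : c ≠ c') (m : ι → Fin 3 → Bool) (hm : m ∈ tabs ρ s) :
    (univ.filter (fun i => m i c = true ∧ m i c' = false)).card
      + (univ.filter (fun i => s i = if m i p = true then 3 else 2)).card = ρ c := by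
  have hm' := (mx_mem_tabs ρ s m).1 hm
  rw [← hm'.1 c]
  have h2 : (univ.filter (fun i => s i = if m i p = true then 3 else 2)) =
      univ.filter (fun i => m i c = true ∧ m i c' = true) := by
    apply Finset.filter_congr
    intro i _
    rw [mx_col_card p c c' hc hc' hcc' (m i), hm'.2 i]
  rw [h2, ← Finset.card_union_of_disjoint]
  · congr 1
    ext i
    simp only [Finset.mem_union, Finset.mem_filter, Finset.mem_univ, true_and]
    cases m i c' <;> simp
  · rw [Finset.disjoint_left]
    intro i h3 h4
    simp only [Finset.mem_filter, Finset.mem_univ, true_and] at h3 h4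
    rw [h3.2] at h4
    exact absurd h4.2 (by decide)

/-- row `p` of `phiMx` -/
theorem mx_phi_row (p q c c' : Fin 3) (u v : ι) (huv : u ≠ v) (hc : c ≠ p) (hc' : c' ≠ p)
    (X y : ι → Fin 3 → Bool) (hXu : X u = colE p) (hXv : X v = colN p)
    (hrow : rowKey p y = rowKey p (Function.update (Function.update X u (colE q)) v (colN q)))
    (i : ι) (hiu : i ≠ u) (hiv : i ≠ v) :
    rowKey p (phiMx p c c' u v y i) = rowKey p X := by
  have hr : ∀ k, k ≠ u → k ≠ v → y k p = X k p := by
    intro k hku hkv
    have := congrFun hrow k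
    simp only [rowKey] at this
    rw [this, Function.update_of_ne hkv, Function.update_of_ne hku]
  funext k
  simp only [rowKey]
  unfold phiMx
  by_cases hki : k = i
  · subst hki
    rw [Function.update_self, Function.update_of_ne hc'.symm, Function.update_of_ne hc.symm]
    exact hr k hiu hiv
  · rw [Function.update_of_ne hki]
    by_cases hkv : k = v
    · subst hkv
      rw [Function.update_self, hXv]
    · rw [Function.update_of_ne hkv]
      by_cases hku : k = u
      · subst hku
        rw [Function.update_self, hXu]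
      · rw [Function.update_of_ne hku]
        exact hr k hku hkv

/-- row `p` of `psiMx` -/
theorem mx_psi_row (p q c c' : Fin 3) (u v : ι) (hpq : p ≠ q) (huv : u ≠ v) (hc : c ≠ p)
    (hc' : c' ≠ p) (X x : ι → Fin 3 → Bool)
    (hrow : rowKey p x = rowKey p X)
    (i : ι) (hiu : i ≠ u) (hiv : i ≠ v) :
    rowKey p (psiMx c c' u v x i) =
      rowKey p (Function.update (Function.update X u (colE q)) v (colN q)) := by
  have hr : ∀ k, x k p = X k p := by
    intro k
    have := congrFun hrow k
    simpa only [rowKey] using this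
  funext k
  simp only [rowKey]
  unfold psiMx
  by_cases hki : k = i
  · subst hki
    rw [Function.update_self, Function.update_of_ne hc'.symm, Function.update_of_ne hc.symm,
      Function.update_of_ne hiv, Function.update_of_ne hiu]
    exact hr k
  · rw [Function.update_of_ne hki]
    by_cases hkv : k = v
    · subst hkv
      rw [Function.update_self, Function.update_self, mx_colN_ne hc'.symm, mx_colN_ne hpq]
    · rw [Function.update_of_ne hkv, Function.update_of_ne hkv]
      by_cases hku : k = u
      · subst hku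
        rw [Function.update_self, Function.update_self, mx_colE_ne hc.symm, mx_colE_ne hpq]
      · rw [Function.update_of_ne hku, Function.update_of_ne hku]
        exact hr k

/-- the number of columns with residual sum two drops by one from `X` to `Y` -/
theorem mx_K (ρ : Fin 3 → ℕ) (s : ι → ℕ) (p q : Fin 3) (u v : ι) (hpq : p ≠ q) (huv : u ≠ v)
    (X : ι → Fin 3 → Bool) (hX : X ∈ tabs ρ s) (hXu : X u = colE p) (hXv : X v = colN p) :
    (univ.filter (fun i => s i = if X i p = true then 3 else 2)).card =
      (univ.filter (fun i => s i =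
        if (Function.update (Function.update X u (colE q)) v (colN q)) i p = true
          then 3 else 2)).card + 1 := by
  have hX' := (mx_mem_tabs ρ s X).1 hX
  have hsu : s u = 1 := by rw [← hX'.2 u, hXu]; exact mx_colE_card p
  have hsv : s v = 2 := by rw [← hX'.2 v, hXv]; exact mx_colN_card p
  have hv : v ∉ (univ.filter (fun i => s i =
        if (Function.update (Function.update X u (colE q)) v (colN q)) i p = true
          then 3 else 2)) := by
    simp only [Finset.mem_filter, Finset.mem_univ, true_and]
    rw [Function.update_self, mx_colN_ne hpq, hsv]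
    simp
  rw [← Finset.card_insert_of_notMem hv]
  congr 1
  ext k
  simp only [Finset.mem_insert, Finset.mem_filter, Finset.mem_univ, true_and]
  by_cases hkv : k = v
  · subst hkv
    rw [hXv, mx_colN_self, hsv]
    simp
  · rw [Function.update_of_ne hkv]
    by_cases hku : k = u
    · subst hku
      rw [Function.update_self, hsu]
      simp only [hkv, false_or]
      constructor
      · intro h; split_ifs at h <;> omega
      · intro h; split_ifs at h <;> omega
    · rw [Function.update_of_ne hku]
      simp [hkv]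

open Classical in
/-- type `(c, c')` with `c ≠ c'`: double counting against the class of `X` -/
theorem core2_mixed (ρ : Fin 3 → ℕ) (s : ι → ℕ) (f : (ι → Fin 3 → Bool) → ℝ)
    (h1 : ∀ m ∈ tabs ρ s, ∀ i j : ι, s i = s j → f (fun c => m (Equiv.swap i j c)) = f m)
    (D : ℝ) (hD : 0 ≤ D)
    (hLip : ∀ m ∈ tabs ρ s, ∀ m' ∈ tabs ρ s, IsUneq m m' → |f m - f m'| ≤ D)
    (p q : Fin 3) (u v : ι) (hpq : p ≠ q) (huv : u ≠ v) (X : ι → Fin 3 → Bool) (hX : X ∈ tabs ρ s)
    (hXu : X u = colE p) (hXv : X v = colN p) (c c' : Fin 3) (hc : c ≠ p) (hc' : c' ≠ p)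
    (hcc' : c ≠ c') :
    |∑ y ∈ (clsOn (tabs ρ s) (rowKey p)
          (Function.update (Function.update X u (colE q)) v (colN q))).filter
          (fun y => y u = colE c ∧ y v = colN c'), (f y - PT ρ s p f X)| ≤
      D * (((clsOn (tabs ρ s) (rowKey p)
          (Function.update (Function.update X u (colE q)) v (colN q))).filter
          (fun y => y u = colE c ∧ y v = colN c')).card : ℝ) := by
  set Y0 : ι → Fin 3 → Bool := Function.update (Function.update X u (colE q)) v (colN q) with hY0
  set CX := clsOn (tabs ρ s) (rowKey p) X with hCX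
  set YY := (clsOn (tabs ρ s) (rowKey p) Y0).filter (fun y => y u = colE c ∧ y v = colN c')
    with hYY
  have hmemY : ∀ y, y ∈ YY ↔
      (y ∈ tabs ρ s ∧ rowKey p y = rowKey p Y0) ∧ y u = colE c ∧ y v = colN c' := by
    intro y
    rw [hYY, Finset.mem_filter, mem_clsOn]
  have hmemX : ∀ x, x ∈ CX ↔ x ∈ tabs ρ s ∧ rowKey p x = rowKey p X := by
    intro x
    rw [hCX, mem_clsOn]
  have hXfro : ∀ x ∈ CX, x u = colE p ∧ x v = colN p := core2_clsX ρ s p u v X hX hXu hXv
  set AY : (ι → Fin 3 → Bool) → Finset ι :=
    fun y => univ.filter (fun i => y i c' = true ∧ y i c = false) with hAYdef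
  set AX : (ι → Fin 3 → Bool) → Finset ι :=
    fun x => univ.filter (fun i => x i c = true ∧ x i c' = false) with hAXdef
  set KX := (univ.filter (fun i => s i = if X i p = true then 3 else 2)).card with hKX
  set KY := (univ.filter (fun i => s i = if Y0 i p = true then 3 else 2)).card with hKY
  have hK : KX = KY + 1 := mx_K ρ s p q u v hpq huv X hX hXu hXv
  have hAX : ∀ x ∈ CX, (AX x).card + KX = ρ c := by
    intro x hx
    have h2 := (hmemX x).1 hx
    have h3 := mx_count ρ s p c c' hc hc' hcc' x h2.1
    have h4 : ∀ i, x i p = X i p := fun i => by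
      have := congrFun h2.2 i
      simpa only [rowKey] using this
    simp only [h4] at h3
    exact h3
  have hAY : ∀ y ∈ YY, (AY y).card + KY = ρ c' := by
    intro y hy
    have h2 := (hmemY y).1 hy
    have h3 := mx_count ρ s p c' c hc' hc hcc'.symm y h2.1.1
    have h4 : ∀ i, y i p = Y0 i p := fun i => by
      have := congrFun h2.1.2 i
      simpa only [rowKey] using this
    simp only [h4] at h3
    exact h3
  have hX3 := mx_count ρ s p c' c hc' hc hcc'.symm X hX
  obtain ⟨β, hβ⟩ : ∃ β : ℕ, ρ c' = (β + 1) + KY := ⟨_, by rw [← hX3, ← hKX, hK]; ring⟩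
  have hAYβ : ∀ y ∈ YY, (AY y).card = β + 1 := by
    intro y hy
    have := hAY y hy
    omega
  have hXmem : X ∈ CX := (hmemX X).2 ⟨hX, rfl⟩
  set α := (AX X).card with hα
  have hAXα : ∀ x ∈ CX, (AX x).card = α := by
    intro x hx
    have h2 := hAX x hx
    have h3 := hAX X hXmem
    omega
  -- the two sets of pairs
  set SY := YY.sigma AY with hSY
  set SX := CX.sigma AX with hSX
  have hSYmem : ∀ z : (_ : ι → Fin 3 → Bool) × ι, z ∈ SY ↔
      z.1 ∈ YY ∧ z.1 z.2 c' = true ∧ z.1 z.2 c = false := by
    intro z
    rw [hSY, Finset.mem_sigma]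
    simp only [hAYdef, Finset.mem_filter, Finset.mem_univ, true_and]
  have hSXmem : ∀ z : (_ : ι → Fin 3 → Bool) × ι, z ∈ SX ↔
      z.1 ∈ CX ∧ z.1 z.2 c = true ∧ z.1 z.2 c' = false := by
    intro z
    rw [hSX, Finset.mem_sigma]
    simp only [hAXdef, Finset.mem_filter, Finset.mem_univ, true_and]
  set Φ : ((_ : ι → Fin 3 → Bool) × ι) → ((_ : ι → Fin 3 → Bool) × ι) :=
    fun z => ⟨phiMx p c c' u v z.1 z.2, z.2⟩ with hΦ
  set Ψ : ((_ : ι → Fin 3 → Bool) × ι) → ((_ : ι → Fin 3 → Bool) × ι) :=
    fun z => ⟨psiMx c c' u v z.1 z.2, z.2⟩ with hΨ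
  have hΦmaps : ∀ z ∈ SY, Φ z ∈ SX := by
    intro z hz
    obtain ⟨hz1, hz2, hz3⟩ := (hSYmem z).1 hz
    obtain ⟨⟨hzt, hzr⟩, hzu, hzv⟩ := (hmemY z.1).1 hz1
    have hiu : z.2 ≠ u := by
      intro h
      rw [h, hzu, mx_colE_self] at hz3
      exact absurd hz3 (by decide)
    have hiv : z.2 ≠ v := by
      intro h
      rw [h, hzv, mx_colN_self] at hz2
      exact absurd hz2 (by decide)
    rw [hSXmem]
    refine ⟨(hmemX _).2 ⟨(mx_phi_spec ρ s f h1 D hLip p c c' u v huv hc hc' hcc' z.1 hzt hzu hzv
      z.2 hz3 hz2).1, mx_phi_row p q c c' u v huv hc hc' X z.1 hXu hXv hzr z.2 hiu hiv⟩, ?_, ?_⟩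
    · simp only [hΦ, phiMx]
      rw [Function.update_self, Function.update_of_ne hcc', Function.update_self]
    · simp only [hΦ, phiMx]
      rw [Function.update_self, Function.update_self]
  have hΨmaps : ∀ z ∈ SX, Ψ z ∈ SY := by
    intro z hz
    obtain ⟨hz1, hz2, hz3⟩ := (hSXmem z).1 hz
    obtain ⟨hzt, hzr⟩ := (hmemX z.1).1 hz1
    obtain ⟨hzu, hzv⟩ := hXfro z.1 hz1
    have hiu : z.2 ≠ u := by
      intro h
      rw [h, hzu, mx_colE_ne hc] at hz2
      exact absurd hz2 (by decide)
    have hiv : z.2 ≠ v := by
      intro h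
      rw [h, hzv, mx_colN_ne hc'] at hz3
      exact absurd hz3 (by decide)
    rw [hSYmem]
    refine ⟨(hmemY _).2 ⟨⟨mx_psi_spec ρ s p c c' u v huv hc hc' hcc' z.1 hzt hzu hzv z.2 hz2 hz3,
      mx_psi_row p q c c' u v hpq huv hc hc' X z.1 hzr z.2 hiu hiv⟩, ?_, ?_⟩, ?_, ?_⟩
    · simp only [hΨ, psiMx]
      rw [Function.update_of_ne hiu.symm, Function.update_of_ne huv, Function.update_self]
    · simp only [hΨ, psiMx]
      rw [Function.update_of_ne hiv.symm, Function.update_self]
    · simp only [hΨ, psiMx]
      rw [Function.update_self, Function.update_self]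
    · simp only [hΨ, psiMx]
      rw [Function.update_self, Function.update_of_ne hcc', Function.update_self]
  have hΨΦ : ∀ z ∈ SY, Ψ (Φ z) = z := by
    intro z hz
    obtain ⟨hz1, hz2, hz3⟩ := (hSYmem z).1 hz
    obtain ⟨-, hzu, hzv⟩ := (hmemY z.1).1 hz1
    simp only [hΦ, hΨ]
    rw [mx_psi_phi p c c' u v hcc' z.1 hzu hzv z.2 hz3 hz2]
  have hΦΨ : ∀ z ∈ SX, Φ (Ψ z) = z := by
    intro z hz
    obtain ⟨hz1, hz2, hz3⟩ := (hSXmem z).1 hz
    obtain ⟨hzu, hzv⟩ := hXfro z.1 hz1
    simp only [hΦ, hΨ]
    rw [mx_phi_psi p c c' u v hcc' z.1 hzu hzv z.2 hz2 hz3]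
  have hsumΦ : ∑ z ∈ SY, f (Φ z).1 = ∑ w ∈ SX, f w.1 :=
    Finset.sum_nbij' Φ Ψ hΦmaps hΨmaps hΨΦ hΦΨ (fun _ _ => rfl)
  have hcardΦ : SY.card = SX.card := Finset.card_nbij' Φ Ψ hΦmaps hΨmaps hΨΦ hΦΨ
  have hcardY : (SY.card : ℝ) = ((β : ℝ) + 1) * (YY.card : ℝ) := by
    rw [hSY, Finset.card_sigma, Finset.sum_congr rfl hAYβ, Finset.sum_const, smul_eq_mul]
    push_cast
    ring
  have hcardX : (SX.card : ℝ) = (α : ℝ) * (CX.card : ℝ) := by
    rw [hSX, Finset.card_sigma, Finset.sum_congr rfl hAXα, Finset.sum_const, smul_eq_mul]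
    push_cast
    ring
  have hsumY : ∑ z ∈ SY, f z.1 = ((β : ℝ) + 1) * ∑ y ∈ YY, f y := by
    rw [hSY, Finset.sum_sigma, Finset.mul_sum]
    refine Finset.sum_congr rfl fun y hy => ?_
    show ∑ _i ∈ AY y, f y = _
    rw [Finset.sum_const, hAYβ y hy, nsmul_eq_mul]
    push_cast
    ring
  have hsumX : ∑ w ∈ SX, f w.1 = (α : ℝ) * ∑ x ∈ CX, f x := by
    rw [hSX, Finset.sum_sigma, Finset.mul_sum]
    refine Finset.sum_congr rfl fun x hx => ?_
    show ∑ _i ∈ AX x, f x = _
    rw [Finset.sum_const, hAXα x hx, nsmul_eq_mul]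
  have hT1 : |∑ z ∈ SY, (f z.1 - f (Φ z).1)| ≤ D * (SY.card : ℝ) := by
    calc |∑ z ∈ SY, (f z.1 - f (Φ z).1)| ≤ ∑ z ∈ SY, |f z.1 - f (Φ z).1| :=
          Finset.abs_sum_le_sum_abs _ _
      _ ≤ ∑ _z ∈ SY, D := by
          refine Finset.sum_le_sum fun z hz => ?_
          obtain ⟨hz1, hz2, hz3⟩ := (hSYmem z).1 hz
          obtain ⟨⟨hzt, -⟩, hzu, hzv⟩ := (hmemY z.1).1 hz1
          exact (mx_phi_spec ρ s f h1 D hLip p c c' u v huv hc hc' hcc' z.1 hzt hzu hzv
            z.2 hz3 hz2).2
      _ = D * (SY.card : ℝ) := by rw [Finset.sum_const, nsmul_eq_mul]; ring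
  have hCXpos : (0 : ℝ) < (CX.card : ℝ) := by
    have : 0 < CX.card := Finset.card_pos.2 ⟨X, hXmem⟩
    exact_mod_cast this
  have ha : (∑ x ∈ CX, f x) = PT ρ s p f X * (CX.card : ℝ) := by
    unfold PT avgOn
    rw [← hCX]
    field_simp
  have hβpos : (0 : ℝ) < (β : ℝ) + 1 := by positivity
  have hmain : ((β : ℝ) + 1) * ∑ y ∈ YY, (f y - PT ρ s p f X) =
      ∑ z ∈ SY, (f z.1 - f (Φ z).1) := by
    rw [Finset.sum_sub_distrib, Finset.sum_sub_distrib, hsumΦ, hsumY, hsumX, ha,
      Finset.sum_const, nsmul_eq_mul]
    have h5 : ((β : ℝ) + 1) * (YY.card : ℝ) = (α : ℝ) * (CX.card : ℝ) := by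
      rw [← hcardY, ← hcardX, hcardΦ]
    linear_combination (-(PT ρ s p f X)) * h5
  have h6 : ((β : ℝ) + 1) * |∑ y ∈ YY, (f y - PT ρ s p f X)| ≤
      ((β : ℝ) + 1) * (D * (YY.card : ℝ)) := by
    rw [← abs_of_pos hβpos, ← abs_mul, abs_of_pos hβpos, hmain]
    calc |∑ z ∈ SY, (f z.1 - f (Φ z).1)| ≤ D * (SY.card : ℝ) := hT1
      _ = ((β : ℝ) + 1) * (D * (YY.card : ℝ)) := by rw [hcardY]; ring
  exact le_of_mul_le_mul_left h6 hβpos

end Vale.Agent.P335
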