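import Vale.Agent.P335.TablesCore2Same
import Vale.Agent.P335.TablesCore2Mixed

/-!
# P335: three-row tables, step 2: the core estimate
-/

namespace Vale.Agent.P335

open Finset

/-- a sum is bounded if it is bounded fibre by fibre -/
theorem abs_sum_le_fiberwise {α β : Type*} [DecidableEq β] (S : Finset α) (τ : α → β)
    (g : α → ℝ) (D : ℝ)
    (h : ∀ t ∈ S.image τ, |∑ y ∈ S.filter (fun y => τ y = t), g y| ≤
      D * ((S.filter (fun y => τ y = t)).card : ℝ)) :
    |∑ y ∈ S, g y| ≤ D * (S.card : ℝ) := by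
  rw [← Finset.sum_fiberwise_of_maps_to (t := S.image τ)
    (fun y hy => Finset.mem_image_of_mem τ hy) g]
  calc |∑ t ∈ S.image τ, ∑ y ∈ S.filter (fun y => τ y = t), g y|
      ≤ ∑ t ∈ S.image τ, |∑ y ∈ S.filter (fun y => τ y = t), g y| :=
        Finset.abs_sum_le_sum_abs _ _
    _ ≤ ∑ t ∈ S.image τ, D * ((S.filter (fun y => τ y = t)).card : ℝ) := Finset.sum_le_sum h
    _ = D * (S.card : ℝ) := by
      rw [← Finset.mul_sum, ← Nat.cast_sum,
        ← Finset.card_eq_sum_card_fiberwise (fun y hy => Finset.mem_image_of_mem τ hy)]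

variable {ι : Type*} [Fintype ι] [DecidableEq ι]

/-- core estimate: for a canonical unequal move `X -> Y` in rows `p, q`, the averages given row `p`
differ by at most `D` -/
theorem tables_core2 (ρ : Fin 3 → ℕ) (s : ι → ℕ) (f : (ι → Fin 3 → Bool) → ℝ)
    (h1 : ∀ m ∈ tabs ρ s, ∀ i j : ι, s i = s j → f (fun c => m (Equiv.swap i j c)) = f m)
    (D : ℝ) (hD : 0 ≤ D)
    (hLip : ∀ m ∈ tabs ρ s, ∀ m' ∈ tabs ρ s, IsUneq m m' → |f m - f m'| ≤ D)
    (p q : Fin 3) (u v : ι) (hpq : p ≠ q) (huv : u ≠ v) (X : ι → Fin 3 → Bool) (hX : X ∈ tabs ρ s)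
    (hXu : X u = colE p) (hXv : X v = colN p) :
    |PT ρ s p f X - PT ρ s p f (Function.update (Function.update X u (colE q)) v (colN q))| ≤ D := by
  classical
  have hYmem := uneq_mem ρ s p q u v huv X hX hXu hXv
  have hpart := core2_partition ρ s p q u v hpq huv X hX hXu hXv
  have hsame := core2_same ρ s f D hD hLip p q u v hpq huv X hX hXu hXv
  have hmixed := core2_mixed ρ s f h1 D hD hLip p q u v hpq huv X hX hXu hXv
  generalize Function.update (Function.update X u (colE q)) v (colN q) = Y at *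
  generalize PT ρ s p f X = a at *
  have hne : 0 < (clsOn (tabs ρ s) (rowKey p) Y).card :=
    Finset.card_pos.mpr ⟨Y, (mem_clsOn _ _ _ _).2 ⟨hYmem, rfl⟩⟩
  have hsum : |∑ y ∈ clsOn (tabs ρ s) (rowKey p) Y, (f y - a)| ≤
      D * ((clsOn (tabs ρ s) (rowKey p) Y).card : ℝ) := by
    apply abs_sum_le_fiberwise _ (fun y => (y u, y v))
    intro t ht
    obtain ⟨y0, hy0, rfl⟩ := Finset.mem_image.1 ht
    obtain ⟨c, c', hc, hc', hyu, hyv⟩ := hpart y0 hy0
    have hfil : (clsOn (tabs ρ s) (rowKey p) Y).filter (fun y => (y u, y v) = (y0 u, y0 v))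
        = (clsOn (tabs ρ s) (rowKey p) Y).filter (fun y => y u = colE c ∧ y v = colN c') := by
      apply Finset.filter_congr
      intro y _
      rw [hyu, hyv, Prod.mk.injEq]
    rw [hfil]
    by_cases hcc : c = c'
    · subst hcc
      convert hsame c hc
    · convert hmixed c c' hc hc' hcc
  have hcard : (0 : ℝ) < ((clsOn (tabs ρ s) (rowKey p) Y).card : ℝ) := by exact_mod_cast hne
  have hPT : PT ρ s p f Y - a
      = (∑ y ∈ clsOn (tabs ρ s) (rowKey p) Y, (f y - a)) /
        ((clsOn (tabs ρ s) (rowKey p) Y).card : ℝ) := by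
    unfold PT avgOn
    rw [Finset.sum_sub_distrib, Finset.sum_const, nsmul_eq_mul]
    field_simp
  rw [abs_sub_comm, hPT, abs_div, Nat.abs_cast, div_le_iff₀ hcard]
  exact hsum

end Vale.Agent.P335
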