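import Vale.Agent.P335.Avg

/-!
# P335: binary tables with three rows and prescribed margins (definitions)
A table is stored column by column: `m c r` is the entry in column `c` and row `r`.
-/

namespace Vale.Agent.P335

open Finset

variable {ι : Type*} [Fintype ι] [DecidableEq ι]

/-- tables with row sums `ρ` and column sums `s` -/
def tabs (ρ : Fin 3 → ℕ) (s : ι → ℕ) : Finset (ι → Fin 3 → Bool) :=
  univ.filter (fun m => (∀ r, (univ.filter (fun c => m c r = true)).card = ρ r) ∧
    ∀ c, (univ.filter (fun r => m c r = true)).card = s c)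

/-- the row `r` of a table -/
def rowKey (r : Fin 3) (m : ι → Fin 3 → Bool) : ι → Bool := fun c => m c r

/-- conditional expectation given row `r` -/
noncomputable def PT (ρ : Fin 3 → ℕ) (s : ι → ℕ) (r : Fin 3) (g : (ι → Fin 3 → Bool) → ℝ)
    (m : ι → Fin 3 → Bool) : ℝ := avgOn (tabs ρ s) (rowKey r) g m

/-- `∑_r (1 - P_r) g` -/
noncomputable def AT (ρ : Fin 3 → ℕ) (s : ι → ℕ) (g : (ι → Fin 3 → Bool) → ℝ)
    (m : ι → Fin 3 → Bool) : ℝ := ∑ r, (g m - PT ρ s r g m)

/-- `m'` arises from `m` by a 2 x 2 switch in rows `p, q` and columns `u, v` -/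
def IsSw (m m' : ι → Fin 3 → Bool) : Prop :=
  ∃ (p q : Fin 3) (u v : ι), p ≠ q ∧ u ≠ v ∧
    m u p = true ∧ m u q = false ∧ m v p = false ∧ m v q = true ∧
    m' = Function.update (Function.update m u (Function.update (Function.update (m u) p false) q true))
      v (Function.update (Function.update (m v) p true) q false)

/-- the unit column `e_p` -/
def colE (p : Fin 3) : Fin 3 → Bool := fun r => decide (r = p)

/-- the complementary column `1 - e_p` -/
def colN (p : Fin 3) : Fin 3 → Bool := fun r => decide (r ≠ p)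

/-- canonical unequal move: columns `u, v` change from `(e_p, 1 - e_p)` to `(e_q, 1 - e_q)` -/
def IsUneq (m m' : ι → Fin 3 → Bool) : Prop :=
  ∃ (p q : Fin 3) (u v : ι), p ≠ q ∧ u ≠ v ∧ m u = colE p ∧ m v = colN p ∧
    m' = Function.update (Function.update m u (colE q)) v (colN q)

end Vale.Agent.P335
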