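import Vale.Agent.P335.TablesStep1
import Vale.Agent.P335.TablesCore2

/-!
# P335: three-row tables, step 2 (unequal moves)
-/

namespace Vale.Agent.P335

open Finset

theorem card_pair_step2 : ∀ p q : Fin 3, p ≠ q →
    (univ.filter (fun r : Fin 3 => r = p ∨ r = q)).card = 2 := by
  decide

variable {ι : Type*} [Fintype ι] [DecidableEq ι]

theorem tables_step2 (ρ : Fin 3 → ℕ) (s : ι → ℕ) (f : (ι → Fin 3 → Bool) → ℝ) (lam : ℝ)
    (hlam : 2 < lam) (heig : ∀ m ∈ tabs ρ s, ∑ r, PT ρ s r f m = lam * f m)
    (h1 : ∀ m ∈ tabs ρ s, ∀ i j : ι, s i = s j → f (fun c => m (Equiv.swap i j c)) = f m) :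
    ∀ m ∈ tabs ρ s, ∀ m' ∈ tabs ρ s, IsUneq m m' → f m = f m' := by
  refine lipschitz_zero (tabs ρ s) IsUneq f (fun m => ∑ r, PT ρ s r f m) lam hlam heig ?_
  intro D hD0 hlip X hX Y hY hXY
  obtain ⟨p, q, u, v, hpq, huv, hXu, hXv, rfl⟩ := hXY
  have hYu : Function.update (Function.update X u (colE q)) v (colN q) u = colE q := by
    rw [Function.update_of_ne huv, Function.update_self]
  have hYv : Function.update (Function.update X u (colE q)) v (colN q) v = colN q := by
    rw [Function.update_self]
  have hback : Function.update (Function.update
      (Function.update (Function.update X u (colE q)) v (colN q)) u (colE p)) v (colN p) = X := by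
    funext c
    by_cases hcv : c = v
    · subst hcv
      rw [Function.update_self, hXv]
    · by_cases hcu : c = u
      · subst hcu
        rw [Function.update_of_ne hcv, Function.update_self, hXu]
      · rw [Function.update_of_ne hcv, Function.update_of_ne hcu, Function.update_of_ne hcv,
          Function.update_of_ne hcu]
  have bp := tables_core2 ρ s f h1 D hD0 hlip p q u v hpq huv X hX hXu hXv
  have bq := tables_core2 ρ s f h1 D hD0 hlip q p u v hpq.symm huv _ hY hYu hYv
  rw [hback, abs_sub_comm] at bq
  have hb : ∀ r, |PT ρ s r f X
      - PT ρ s r f (Function.update (Function.update X u (colE q)) v (colN q))|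
      ≤ if r = p ∨ r = q then D else 0 := by
    intro r
    by_cases hrp : r = p
    · subst hrp
      simpa using bp
    · by_cases hrq : r = q
      · subst hrq
        simpa using bq
      · have hrow : rowKey r (Function.update (Function.update X u (colE q)) v (colN q))
            = rowKey r X := by
          funext c
          simp only [rowKey]
          by_cases hcv : c = v
          · subst hcv
            rw [Function.update_self, hXv]
            simp [colN, hrp, hrq]
          · by_cases hcu : c = u
            · subst hcu
              rw [Function.update_of_ne hcv, Function.update_self, hXu]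
              simp [colE, hrp, hrq]
            · rw [Function.update_of_ne hcv, Function.update_of_ne hcu]
        have h0 : PT ρ s r f X
            - PT ρ s r f (Function.update (Function.update X u (colE q)) v (colN q)) = 0 := by
          unfold PT avgOn clsOn
          rw [hrow]
          ring
        rw [h0]
        simp [hrp, hrq]
  show |∑ r, PT ρ s r f X
      - ∑ r, PT ρ s r f (Function.update (Function.update X u (colE q)) v (colN q))| ≤ 2 * D
  rw [← Finset.sum_sub_distrib]
  calc |∑ r, (PT ρ s r f X
        - PT ρ s r f (Function.update (Function.update X u (colE q)) v (colN q)))|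
      ≤ ∑ r, |PT ρ s r f X
        - PT ρ s r f (Function.update (Function.update X u (colE q)) v (colN q))| :=
        Finset.abs_sum_le_sum_abs _ _
    _ ≤ ∑ r : Fin 3, (if r = p ∨ r = q then D else 0) := Finset.sum_le_sum (fun r _ => hb r)
    _ = 2 * D := by
      rw [← Finset.sum_filter, Finset.sum_const, card_pair_step2 p q hpq, nsmul_eq_mul]
      norm_num

end Vale.Agent.P335
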