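import Vale.Agent.P335.GraphBasic

/-!
# P335: the two-row model.  The class of a state for the block of all cells touching `{u, v}`
is in bijection with the `k`-subsets of the set `D` of free columns.
-/

namespace Vale.Agent.P335

open Finset

set_option linter.unusedSectionVars false

variable {V : Type*} [Fintype V] [DecidableEq V] {d : V → ℕ}

open Classical in
/-- columns `w ∉ {u, v}` adjacent to `u` but not to `v` -/
noncomputable def upSet (u v : V) (G : Om d) : Finset V :=
  univ.filter (fun w => w ≠ u ∧ w ≠ v ∧ G.1.Adj u w ∧ ¬ G.1.Adj v w)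

open Classical in
/-- free columns: `w ∉ {u, v}` adjacent to exactly one of `u`, `v` -/
noncomputable def freeCols (u v : V) (G : Om d) : Finset V :=
  univ.filter (fun w => w ≠ u ∧ w ≠ v ∧ (G.1.Adj u w ↔ ¬ G.1.Adj v w))

theorem tr19_mem_upSet (u v : V) (G : Om d) (w : V) :
    w ∈ upSet u v G ↔ w ≠ u ∧ w ≠ v ∧ G.1.Adj u w ∧ ¬ G.1.Adj v w := by
  classical
  simp [upSet]

theorem tr19_mem_freeCols (u v : V) (G : Om d) (w : V) :
    w ∈ freeCols u v G ↔ w ≠ u ∧ w ≠ v ∧ (G.1.Adj u w ↔ ¬ G.1.Adj v w) := by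
  classical
  simp [freeCols]

theorem tr19_sum_split_two (u v : V) (huv : u ≠ v) (f : V → ℤ) :
    ∑ w, f w = f u + f v + ∑ w ∈ univ.filter (fun w => w ≠ u ∧ w ≠ v), f w := by
  have h : (univ : Finset V) = insert u (insert v (univ.filter (fun w => w ≠ u ∧ w ≠ v))) := by
    ext w
    simp only [mem_univ, mem_insert, mem_filter, true_and, true_iff]
    by_cases h1 : w = u
    · exact Or.inl h1
    · by_cases h2 : w = v
      · exact Or.inr (Or.inl h2)
      · exact Or.inr (Or.inr ⟨h1, h2⟩)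
  conv_lhs => rw [h]
  rw [sum_insert, sum_insert]
  · ring
  · simp
  · simp [huv]

theorem tr19_two_row_bool_aux (p q p' q' : Prop) [Decidable p] [Decidable q] [Decidable p']
    [Decidable q']
    (h : (if p then (1 : ℤ) else 0) + (if q then 1 else 0)
      = (if p' then 1 else 0) + (if q' then 1 else 0)) :
    ((p ↔ ¬ q) ↔ (p' ↔ ¬ q')) ∧ (¬ (p ↔ ¬ q) → (p ↔ p') ∧ (q ↔ q')) ∧
      ((p ∧ q) ↔ (p' ∧ q')) := by
  by_cases hp : p <;> by_cases hq : q <;> by_cases hp' : p' <;> by_cases hq' : q' <;>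
    simp_all

theorem tr19_two_row_off (u v : V) (G G' : Om d)
    (h : key (blk {u, v} univ) G = key (blk {u, v} univ) G') (x y : V)
    (hxu : x ≠ u) (hxv : x ≠ v) (hyu : y ≠ u) (hyv : y ≠ v) :
    G.1.Adj x y ↔ G'.1.Adj x y := by
  rw [key_eq_iff] at h
  apply h
  rw [blk_adj]
  simp [hxu, hxv, hyu, hyv]

open Classical in
/-- the column sums are frozen -/
theorem tr19_two_row_col (u v : V) (huv : u ≠ v) (G G' : Om d)
    (h : key (blk {u, v} univ) G = key (blk {u, v} univ) G') (w : V) (hwu : w ≠ u)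
    (hwv : w ≠ v) :
    (if G.1.Adj u w then (1 : ℤ) else 0) + (if G.1.Adj v w then 1 else 0)
      = (if G'.1.Adj u w then 1 else 0) + (if G'.1.Adj v w then 1 else 0) := by
  have h1 := Om.sum_ind G w
  have h2 := Om.sum_ind G' w
  rw [tr19_sum_split_two u v huv] at h1 h2
  have h3 : ∑ x ∈ univ.filter (fun x => x ≠ u ∧ x ≠ v), (if G.1.Adj w x then (1 : ℤ) else 0)
      = ∑ x ∈ univ.filter (fun x => x ≠ u ∧ x ≠ v), (if G'.1.Adj w x then (1 : ℤ) else 0) := by
    refine Finset.sum_congr rfl (fun x hx => ?_)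
    have hx' := (mem_filter.1 hx).2
    simp only [tr19_two_row_off u v G G' h w x hwu hwv hx'.1 hx'.2]
  simp only [G.1.adj_comm u w, G.1.adj_comm v w, G'.1.adj_comm u w, G'.1.adj_comm v w]
  linarith

open Classical in
theorem tr19_two_row_row_sum (u v : V) (huv : u ≠ v) (G : Om d) :
    (if G.1.Adj u v then (1 : ℤ) else 0)
      + ∑ w ∈ univ.filter (fun w => w ≠ u ∧ w ≠ v), (if G.1.Adj u w then (1 : ℤ) else 0)
      = d u := by
  have h1 := Om.sum_ind G u
  rw [tr19_sum_split_two u v huv] at h1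
  have h0 : ¬ G.1.Adj u u := G.1.loopless.irrefl u
  simp only [h0, if_false, zero_add] at h1
  exact h1

open Classical in
theorem tr19_two_row_row_sum' (u v : V) (huv : u ≠ v) (G : Om d) :
    (if G.1.Adj u v then (1 : ℤ) else 0)
      + ∑ w ∈ univ.filter (fun w => w ≠ u ∧ w ≠ v), (if G.1.Adj v w then (1 : ℤ) else 0)
      = d v := by
  have h1 := Om.sum_ind G v
  rw [tr19_sum_split_two u v huv] at h1
  have h0 : ¬ G.1.Adj v v := G.1.loopless.irrefl v
  simp only [h0, if_false, add_zero, G.1.adj_comm v u] at h1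
  exact h1

open Classical in
theorem tr19_two_row_uv (u v : V) (huv : u ≠ v) (G G' : Om d)
    (h : key (blk {u, v} univ) G = key (blk {u, v} univ) G') :
    G.1.Adj u v ↔ G'.1.Adj u v := by
  have a1 := tr19_two_row_row_sum u v huv G
  have a2 := tr19_two_row_row_sum' u v huv G
  have b1 := tr19_two_row_row_sum u v huv G'
  have b2 := tr19_two_row_row_sum' u v huv G'
  have hs : ∑ w ∈ univ.filter (fun w => w ≠ u ∧ w ≠ v), (if G.1.Adj u w then (1 : ℤ) else 0)
      + ∑ w ∈ univ.filter (fun w => w ≠ u ∧ w ≠ v), (if G.1.Adj v w then (1 : ℤ) else 0)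
      = ∑ w ∈ univ.filter (fun w => w ≠ u ∧ w ≠ v), (if G'.1.Adj u w then (1 : ℤ) else 0)
      + ∑ w ∈ univ.filter (fun w => w ≠ u ∧ w ≠ v), (if G'.1.Adj v w then (1 : ℤ) else 0) := by
    rw [← Finset.sum_add_distrib, ← Finset.sum_add_distrib]
    refine Finset.sum_congr rfl (fun w hw => ?_)
    have hw' := (mem_filter.1 hw).2
    exact tr19_two_row_col u v huv G G' h w hw'.1 hw'.2
  have hfin : (if G.1.Adj u v then (1 : ℤ) else 0) = (if G'.1.Adj u v then (1 : ℤ) else 0) := by
    linarith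
  by_cases p : G.1.Adj u v <;> by_cases q : G'.1.Adj u v <;> simp_all

open Classical in
theorem tr19_card_upSet_eq (u v : V) (huv : u ≠ v) (G : Om d) :
    ((upSet u v G).card : ℤ) = d u - (if G.1.Adj u v then (1 : ℤ) else 0)
      - ∑ w ∈ univ.filter (fun w => w ≠ u ∧ w ≠ v),
          (if G.1.Adj u w ∧ G.1.Adj v w then (1 : ℤ) else 0) := by
  have h1 : upSet u v G = (univ.filter (fun w => w ≠ u ∧ w ≠ v)).filter
      (fun w => G.1.Adj u w ∧ ¬ G.1.Adj v w) := by
    ext w
    rw [tr19_mem_upSet]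
    simp only [mem_filter, mem_univ, true_and]
    tauto
  have h2 : ((upSet u v G).card : ℤ) = ∑ w ∈ univ.filter (fun w => w ≠ u ∧ w ≠ v),
      (if G.1.Adj u w ∧ ¬ G.1.Adj v w then (1 : ℤ) else 0) := by
    rw [h1, Finset.sum_boole]
  have h3 : ∑ w ∈ univ.filter (fun w => w ≠ u ∧ w ≠ v),
      (if G.1.Adj u w ∧ ¬ G.1.Adj v w then (1 : ℤ) else 0)
      = ∑ w ∈ univ.filter (fun w => w ≠ u ∧ w ≠ v), (if G.1.Adj u w then (1 : ℤ) else 0)
        - ∑ w ∈ univ.filter (fun w => w ≠ u ∧ w ≠ v),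
          (if G.1.Adj u w ∧ G.1.Adj v w then (1 : ℤ) else 0) := by
    rw [← Finset.sum_sub_distrib]
    refine Finset.sum_congr rfl (fun w _ => ?_)
    by_cases p : G.1.Adj u w <;> by_cases q : G.1.Adj v w <;> simp [p, q]
  have h4 := tr19_two_row_row_sum u v huv G
  rw [h2, h3]
  linarith

/-- within a class, the cell `uv`, the free columns and the non-free columns are frozen -/
theorem two_row_frozen (u v : V) (huv : u ≠ v) (G G' : Om d)
    (h : key (blk {u, v} univ) G = key (blk {u, v} univ) G') :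
    (G.1.Adj u v ↔ G'.1.Adj u v) ∧ freeCols u v G = freeCols u v G' ∧
      (∀ w, w ∉ freeCols u v G → ((G.1.Adj u w ↔ G'.1.Adj u w) ∧ (G.1.Adj v w ↔ G'.1.Adj v w))) ∧
      (upSet u v G).card = (upSet u v G').card := by
  classical
  have huvf := tr19_two_row_uv u v huv G G' h
  refine ⟨huvf, ?_, ?_, ?_⟩
  · ext w
    rw [tr19_mem_freeCols, tr19_mem_freeCols]
    constructor
    · rintro ⟨h1, h2, h3⟩
      exact ⟨h1, h2, (tr19_two_row_bool_aux _ _ _ _ (tr19_two_row_col u v huv G G' h w h1 h2)).1.1 h3⟩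
    · rintro ⟨h1, h2, h3⟩
      exact ⟨h1, h2, (tr19_two_row_bool_aux _ _ _ _ (tr19_two_row_col u v huv G G' h w h1 h2)).1.2 h3⟩
  · intro w hw
    rw [tr19_mem_freeCols] at hw
    by_cases h1 : w = u
    · subst h1
      refine ⟨?_, ?_⟩
      · simp
      · rw [G.1.adj_comm v w, G'.1.adj_comm v w]
        exact huvf
    · by_cases h2 : w = v
      · subst h2
        refine ⟨huvf, ?_⟩
        simp
      · have h3 : ¬ (G.1.Adj u w ↔ ¬ G.1.Adj v w) := fun h3 => hw ⟨h1, h2, h3⟩
        exact (tr19_two_row_bool_aux _ _ _ _ (tr19_two_row_col u v huv G G' h w h1 h2)).2.1 h3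
  · have c1 := tr19_card_upSet_eq u v huv G
    have c2 := tr19_card_upSet_eq u v huv G'
    have hs : ∑ w ∈ univ.filter (fun w => w ≠ u ∧ w ≠ v),
          (if G.1.Adj u w ∧ G.1.Adj v w then (1 : ℤ) else 0)
        = ∑ w ∈ univ.filter (fun w => w ≠ u ∧ w ≠ v),
          (if G'.1.Adj u w ∧ G'.1.Adj v w then (1 : ℤ) else 0) := by
      refine Finset.sum_congr rfl (fun w hw => ?_)
      have hw' := (mem_filter.1 hw).2
      have := (tr19_two_row_bool_aux _ _ _ _ (tr19_two_row_col u v huv G G' h w hw'.1 hw'.2)).2.2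
      simp only [this]
    have hi : (if G.1.Adj u v then (1 : ℤ) else 0) = (if G'.1.Adj u v then (1 : ℤ) else 0) := by
      simp only [huvf]
    have : ((upSet u v G).card : ℤ) = ((upSet u v G').card : ℤ) := by
      rw [c1, c2, hs, hi]
    exact_mod_cast this

theorem tr19_upSet_subset_freeCols (u v : V) (G : Om d) : upSet u v G ⊆ freeCols u v G := by
  intro w hw
  rw [tr19_mem_upSet] at hw
  rw [tr19_mem_freeCols]
  exact ⟨hw.1, hw.2.1, by simp [hw.2.2.1, hw.2.2.2]⟩

theorem two_row_maps (u v : V) (huv : u ≠ v) (G₀ : Om d) :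
    ∀ G ∈ cls (key (blk {u, v} univ)) G₀,
      upSet u v G ∈ powersetCard (upSet u v G₀).card (freeCols u v G₀) := by
  intro G hG
  rw [mem_cls] at hG
  obtain ⟨-, h2, -, h4⟩ := two_row_frozen u v huv G G₀ hG
  rw [mem_powersetCard]
  exact ⟨h2 ▸ tr19_upSet_subset_freeCols u v G, h4⟩

/-- the two rows agree at a column which is not free or has the same status in both -/
theorem tr19_two_row_rows (u v : V) (huv : u ≠ v) (G G' : Om d)
    (h : key (blk {u, v} univ) G = key (blk {u, v} univ) G') (w : V)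
    (hw : w ∈ upSet u v G ↔ w ∈ upSet u v G') :
    (G.1.Adj u w ↔ G'.1.Adj u w) ∧ (G.1.Adj v w ↔ G'.1.Adj v w) := by
  obtain ⟨-, h2, h3, -⟩ := two_row_frozen u v huv G G' h
  by_cases hf : w ∈ freeCols u v G
  · have hf' : w ∈ freeCols u v G' := h2 ▸ hf
    rw [tr19_mem_freeCols] at hf hf'
    rw [tr19_mem_upSet, tr19_mem_upSet] at hw
    obtain ⟨a1, a2, a3⟩ := hf
    obtain ⟨-, -, b3⟩ := hf'
    by_cases p : G.1.Adj u w <;> by_cases q : G.1.Adj v w <;> by_cases p' : G'.1.Adj u w <;>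
      by_cases q' : G'.1.Adj v w <;> simp_all
  · exact h3 w hf

theorem two_row_inj (u v : V) (huv : u ≠ v) (G₀ : Om d) :
    ∀ G ∈ cls (key (blk {u, v} univ)) G₀, ∀ G' ∈ cls (key (blk {u, v} univ)) G₀,
      upSet u v G = upSet u v G' → G = G' := by
  intro G hG G' hG' hU
  rw [mem_cls] at hG hG'
  have h : key (blk {u, v} univ) G = key (blk {u, v} univ) G' := hG.trans hG'.symm
  have hrows := fun w => tr19_two_row_rows u v huv G G' h w (by rw [hU])
  apply Om.ext'
  ext x y
  by_cases hxu : x = u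
  · subst hxu
    exact (hrows y).1
  by_cases hxv : x = v
  · subst hxv
    exact (hrows y).2
  by_cases hyu : y = u
  · subst hyu
    rw [G.1.adj_comm, G'.1.adj_comm]
    exact (hrows x).1
  by_cases hyv : y = v
  · subst hyv
    rw [G.1.adj_comm, G'.1.adj_comm]
    exact (hrows x).2
  exact tr19_two_row_off u v G G' h x y hxu hxv hyu hyv

/-- sub-blocks `{u,v} × c` correspond to the key `W \ c` -/
theorem two_row_compat (u v : V) (huv : u ≠ v) (G₀ : Om d) (c : Finset V)
    (hu : u ∉ c) (hv : v ∉ c) :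
    ∀ G ∈ cls (key (blk {u, v} univ)) G₀, ∀ G' ∈ cls (key (blk {u, v} univ)) G₀,
      (key (blk {u, v} c) G = key (blk {u, v} c) G' ↔ upSet u v G \ c = upSet u v G' \ c) := by
  intro G hG G' hG'
  rw [mem_cls] at hG hG'
  have h : key (blk {u, v} univ) G = key (blk {u, v} univ) G' := hG.trans hG'.symm
  constructor
  · intro hk
    rw [key_eq_iff] at hk
    ext w
    rw [mem_sdiff, mem_sdiff, tr19_mem_upSet, tr19_mem_upSet]
    by_cases hwc : w ∈ c
    · simp [hwc]
    · have e1 : G.1.Adj u w ↔ G'.1.Adj u w := by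
        apply hk
        rw [blk_adj]
        simp [hwc, hu]
      have e2 : G.1.Adj v w ↔ G'.1.Adj v w := by
        apply hk
        rw [blk_adj]
        simp [hwc, hv]
      rw [e1, e2]
  · intro hU
    have hrows : ∀ w, w ∉ c →
        (G.1.Adj u w ↔ G'.1.Adj u w) ∧ (G.1.Adj v w ↔ G'.1.Adj v w) := by
      intro w hwc
      apply tr19_two_row_rows u v huv G G' h w
      have : w ∈ upSet u v G \ c ↔ w ∈ upSet u v G' \ c := by rw [hU]
      simpa [mem_sdiff, hwc] using this
    rw [key_eq_iff]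
    intro x y hxy
    rw [blk_adj] at hxy
    by_cases hxu : x = u
    · subst hxu
      by_cases hyc : y ∈ c
      · exfalso
        apply hxy
        refine ⟨fun e => hu (e ▸ hyc), Or.inl ⟨by simp, hyc⟩⟩
      · exact (hrows y hyc).1
    by_cases hxv : x = v
    · subst hxv
      by_cases hyc : y ∈ c
      · exfalso
        apply hxy
        refine ⟨fun e => hv (e ▸ hyc), Or.inl ⟨by simp, hyc⟩⟩
      · exact (hrows y hyc).2
    by_cases hyu : y = u
    · subst hyu
      by_cases hxc : x ∈ c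
      · exfalso
        apply hxy
        refine ⟨hxu, Or.inr ⟨by simp, hxc⟩⟩
      · rw [G.1.adj_comm, G'.1.adj_comm]
        exact (hrows x hxc).1
    by_cases hyv : y = v
    · subst hyv
      by_cases hxc : x ∈ c
      · exfalso
        apply hxy
        refine ⟨hxv, Or.inr ⟨by simp, hxc⟩⟩
      · rw [G.1.adj_comm, G'.1.adj_comm]
        exact (hrows x hxc).2
    exact tr19_two_row_off u v G G' h x y hxu hxv hyu hyv

end Vale.Agent.P335
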