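import Vale.Agent.P335.GraphBasic
import Vale.Agent.P335.TablesDefs
import Vale.Agent.P335.TwoRow

/-!
# P335: the three-row model.  The class of a state for the block of all cells touching the
triple `T = {t 0, t 1, t 2}` is in bijection with binary three-row tables with fixed margins.
Columns: the vertices outside `T`, and one virtual column `none` whose entry in row `r` is the
negation of the cell opposite to `t r` in the triangle on `T`.
-/

namespace Vale.Agent.P335

open Finset

set_option linter.unusedSectionVars false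

variable {V : Type*} [Fintype V] [DecidableEq V] {d : V → ℕ}

/-- column index type -/
abbrev Col (t : Fin 3 → V) : Type _ := Option {c : V // c ∉ Set.range t}

noncomputable instance (t : Fin 3 → V) : Fintype (Col t) := Fintype.ofFinite _

noncomputable instance (t : Fin 3 → V) : DecidableEq (Col t) := Classical.decEq _

open Classical in
/-- the table of a state -/
noncomputable def tabOf (t : Fin 3 → V) (G : Om d) : Col t → Fin 3 → Bool
  | some c, r => decide (G.1.Adj (t r) c.1)
  | none, r => decide (¬ G.1.Adj (t (r + 1)) (t (r + 2)))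

/-- row sums of a table -/
def rowSums {ι : Type*} [Fintype ι] (m : ι → Fin 3 → Bool) : Fin 3 → ℕ :=
  fun r => (univ.filter (fun c => m c r = true)).card

/-- column sums of a table -/
def colSums {ι : Type*} (m : ι → Fin 3 → Bool) : ι → ℕ :=
  fun c => (univ.filter (fun r => m c r = true)).card

open Classical in
theorem tr_sum_split (t : Fin 3 → V) (ht : Function.Injective t) (f : V → ℤ) :
    ∑ w, f w = f (t 0) + f (t 1) + f (t 2) + ∑ c : {c : V // c ∉ Set.range t}, f c.1 := by
  rw [← Fintype.sum_subtype_add_sum_subtype (fun x => x ∈ Set.range t) f]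
  congr 1
  rw [← Fin.sum_univ_three (fun r => f (t r))]
  symm
  refine (Fintype.sum_equiv (Equiv.ofInjective t ht) (fun r => f (t r))
    (fun x : Set.range t => f x.1) (fun r => rfl)).trans ?_
  refine Finset.sum_congr ?_ (fun _ _ => rfl)
  ext x; simp

open Classical in
theorem tr_sum_col (t : Fin 3 → V) (f : Col t → ℤ) :
    ∑ c, f c = f none + ∑ c : {c : V // c ∉ Set.range t}, f (some c) := by
  have e : (Finset.univ : Finset (Col t))
      = @Finset.univ (Option {c : V // c ∉ Set.range t}) instFintypeOption := by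
    ext x; simp
  rw [e]
  exact Fintype.sum_option f

open Classical in
/-- number of edges inside the triple -/
noncomputable def trH (t : Fin 3 → V) (G : Om d) : ℤ :=
  (if G.1.Adj (t 0) (t 1) then 1 else 0) + (if G.1.Adj (t 0) (t 2) then 1 else 0)
    + (if G.1.Adj (t 1) (t 2) then 1 else 0)

open Classical in
/-- number of neighbours of `t r` outside the triple -/
noncomputable def trS (t : Fin 3 → V) (G : Om d) (r : Fin 3) : ℤ :=
  ∑ c : {c : V // c ∉ Set.range t}, (if G.1.Adj (t r) c.1 then 1 else 0)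

open Classical in
theorem tr_rowSums (t : Fin 3 → V) (G : Om d) (r : Fin 3) :
    ((rowSums (tabOf t G) r : ℕ) : ℤ)
      = (if G.1.Adj (t (r + 1)) (t (r + 2)) then 0 else 1) + trS t G r := by
  unfold rowSums trS
  rw [Finset.natCast_card_filter, tr_sum_col]
  simp [tabOf]

open Classical in
theorem tr_colSums_some (t : Fin 3 → V) (G : Om d) (c : {c : V // c ∉ Set.range t}) :
    ((colSums (tabOf t G) (some c) : ℕ) : ℤ)
      = (if G.1.Adj (t 0) c.1 then 1 else 0) + (if G.1.Adj (t 1) c.1 then 1 else 0)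
        + (if G.1.Adj (t 2) c.1 then 1 else 0) := by
  unfold colSums
  rw [Finset.natCast_card_filter, Fin.sum_univ_three]
  simp [tabOf]

open Classical in
theorem tr_colSums_none (t : Fin 3 → V) (G : Om d) :
    ((colSums (tabOf t G) none : ℕ) : ℤ) = 3 - trH t G := by
  unfold colSums trH
  rw [Finset.natCast_card_filter, Fin.sum_univ_three]
  have e1 : (1 : Fin 3) + 2 = 0 := rfl
  have e2 : (2 : Fin 3) + 1 = 0 := rfl
  have e3 : (2 : Fin 3) + 2 = 1 := rfl
  have e4 : (1 : Fin 3) + 1 = 2 := rfl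
  have e5 : (0 : Fin 3) + 1 = 1 := rfl
  have e6 : (0 : Fin 3) + 2 = 2 := rfl
  simp only [tabOf, e1, e2, e3, e4, e5, e6, decide_eq_true_eq]
  rw [G.1.adj_comm (t 2) (t 0)]
  by_cases h1 : G.1.Adj (t 0) (t 1) <;> by_cases h2 : G.1.Adj (t 0) (t 2) <;>
    by_cases h3 : G.1.Adj (t 1) (t 2) <;> simp [h1, h2, h3]

open Classical in
theorem tr_deg (t : Fin 3 → V) (ht : Function.Injective t) (G : Om d) :
    (d (t 0) : ℤ) = (if G.1.Adj (t 0) (t 1) then 1 else 0) + (if G.1.Adj (t 0) (t 2) then 1 else 0)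
        + trS t G 0 ∧
    (d (t 1) : ℤ) = (if G.1.Adj (t 0) (t 1) then 1 else 0) + (if G.1.Adj (t 1) (t 2) then 1 else 0)
        + trS t G 1 ∧
    (d (t 2) : ℤ) = (if G.1.Adj (t 0) (t 2) then 1 else 0) + (if G.1.Adj (t 1) (t 2) then 1 else 0)
        + trS t G 2 := by
  refine ⟨?_, ?_, ?_⟩
  · rw [← Om.sum_ind G (t 0), tr_sum_split t ht]
    simp [trS]
  · rw [← Om.sum_ind G (t 1), tr_sum_split t ht, G.1.adj_comm (t 1) (t 0)]
    simp [trS]
  · rw [← Om.sum_ind G (t 2), tr_sum_split t ht, G.1.adj_comm (t 2) (t 0),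
      G.1.adj_comm (t 2) (t 1)]
    simp [trS]

open Classical in
theorem tr_deg_col (t : Fin 3 → V) (ht : Function.Injective t) (G : Om d)
    (c : {c : V // c ∉ Set.range t}) :
    (d c.1 : ℤ) = ((colSums (tabOf t G) (some c) : ℕ) : ℤ)
      + ∑ c' : {c : V // c ∉ Set.range t}, (if G.1.Adj c.1 c'.1 then 1 else 0) := by
  rw [← Om.sum_ind G c.1, tr_sum_split t ht, tr_colSums_some, G.1.adj_comm c.1 (t 0),
    G.1.adj_comm c.1 (t 1), G.1.adj_comm c.1 (t 2)]

theorem tr_key_iff (t : Fin 3 → V) (G G' : Om d) :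
    key (blk (univ.image t) univ) G = key (blk (univ.image t) univ) G' ↔
      ∀ x y, x ∉ Set.range t → y ∉ Set.range t → (G.1.Adj x y ↔ G'.1.Adj x y) := by
  rw [key_eq_iff]
  constructor
  · intro h x y hx hy
    apply h
    rw [blk_adj]
    simp only [mem_image, mem_univ, true_and, and_true]
    rintro ⟨-, h1 | h1⟩
    · exact hx h1
    · exact hy h1
  · intro h x y hxy
    rw [blk_adj] at hxy
    simp only [mem_image, mem_univ, true_and, and_true] at hxy
    by_cases hne : x = y
    · subst hne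
      simp
    · apply h
      · intro hx
        exact hxy ⟨hne, Or.inl hx⟩
      · intro hy
        exact hxy ⟨hne, Or.inr hy⟩

open Classical in
theorem tr_frozen (t : Fin 3 → V) (ht : Function.Injective t) (G G' : Om d)
    (h : key (blk (univ.image t) univ) G = key (blk (univ.image t) univ) G') :
    (∀ c, colSums (tabOf t G) (some c) = colSums (tabOf t G') (some c)) ∧
      trH t G = trH t G' := by
  rw [tr_key_iff] at h
  have hc : ∀ c, colSums (tabOf t G) (some c) = colSums (tabOf t G') (some c) := by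
    intro c
    have h1 := tr_deg_col t ht G c
    have h2 := tr_deg_col t ht G' c
    have h3 : ∑ c' : {c : V // c ∉ Set.range t}, (if G.1.Adj c.1 c'.1 then (1 : ℤ) else 0)
        = ∑ c' : {c : V // c ∉ Set.range t}, (if G'.1.Adj c.1 c'.1 then (1 : ℤ) else 0) := by
      apply Finset.sum_congr rfl
      intro c' _
      simp only [h c.1 c'.1 c.2 c'.2]
    have : ((colSums (tabOf t G) (some c) : ℕ) : ℤ) = ((colSums (tabOf t G') (some c) : ℕ) : ℤ) := by
      linarith
    exact_mod_cast this
  refine ⟨hc, ?_⟩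
  have hs : ∀ K : Om d, trS t K 0 + trS t K 1 + trS t K 2
      = ∑ c : {c : V // c ∉ Set.range t}, ((colSums (tabOf t K) (some c) : ℕ) : ℤ) := by
    intro K
    simp only [trS, tr_colSums_some, Finset.sum_add_distrib]
  have h1 := tr_deg t ht G
  have h2 := tr_deg t ht G'
  have h3 := hs G
  have h4 := hs G'
  have h5 : ∑ c : {c : V // c ∉ Set.range t}, ((colSums (tabOf t G) (some c) : ℕ) : ℤ)
      = ∑ c : {c : V // c ∉ Set.range t}, ((colSums (tabOf t G') (some c) : ℕ) : ℤ) := by
    apply Finset.sum_congr rfl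
    intro c _
    rw [hc c]
  unfold trH
  obtain ⟨a1, a2, a3⟩ := h1
  obtain ⟨b1, b2, b3⟩ := h2
  linarith

open Classical in
theorem tr_rowSums' (t : Fin 3 → V) (ht : Function.Injective t) (G : Om d) (r : Fin 3) :
    ((rowSums (tabOf t G) r : ℕ) : ℤ) = 1 + d (t r) - trH t G := by
  rw [tr_rowSums]
  obtain ⟨a1, a2, a3⟩ := tr_deg t ht G
  unfold trH
  have e1 : (1 : Fin 3) + 2 = 0 := rfl
  have e2 : (2 : Fin 3) + 1 = 0 := rfl
  have e3 : (2 : Fin 3) + 2 = 1 := rfl
  have e4 : (1 : Fin 3) + 1 = 2 := rfl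
  have e5 : (0 : Fin 3) + 1 = 1 := rfl
  have e6 : (0 : Fin 3) + 2 = 2 := rfl
  have hite : ∀ p : Prop, (if p then (0 : ℤ) else 1) = 1 - (if p then 1 else 0) := by
    intro p
    by_cases hp : p <;> simp [hp]
  rw [hite]
  fin_cases r
  · simp only [Fin.zero_eta, e5, e6]
    linarith
  · simp only [Fin.mk_one, e1, e4]
    rw [G.1.adj_comm (t 2) (t 0)]
    linarith
  · simp only [Fin.reduceFinMk, e2, e3]
    linarith

theorem three_row_maps (t : Fin 3 → V) (ht : Function.Injective t) (G₀ : Om d) :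
    ∀ G ∈ cls (key (blk (univ.image t) univ)) G₀,
      tabOf t G ∈ tabs (rowSums (tabOf t G₀)) (colSums (tabOf t G₀)) := by
  intro G hG
  rw [mem_cls] at hG
  obtain ⟨hc, hH⟩ := tr_frozen t ht G G₀ hG
  unfold tabs
  rw [mem_filter]
  refine ⟨mem_univ _, ?_, ?_⟩
  · intro r
    have h1 := tr_rowSums' t ht G r
    have h2 := tr_rowSums' t ht G₀ r
    have : ((rowSums (tabOf t G) r : ℕ) : ℤ) = ((rowSums (tabOf t G₀) r : ℕ) : ℤ) := by
      rw [h1, h2, hH]
    exact_mod_cast this
  · intro c
    cases c with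
    | none =>
      have h1 := tr_colSums_none t G
      have h2 := tr_colSums_none t G₀
      have : ((colSums (tabOf t G) none : ℕ) : ℤ) = ((colSums (tabOf t G₀) none : ℕ) : ℤ) := by
        rw [h1, h2, hH]
      exact_mod_cast this
    | some c => exact hc c

theorem tr_tab_some (t : Fin 3 → V) (G G' : Om d) (c : {c : V // c ∉ Set.range t}) (r : Fin 3)
    (h : tabOf t G (some c) r = tabOf t G' (some c) r) :
    (G.1.Adj (t r) c.1 ↔ G'.1.Adj (t r) c.1) := by
  simpa [tabOf] using h

theorem tr_tab_none (t : Fin 3 → V) (G G' : Om d) (r : Fin 3)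
    (h : tabOf t G none r = tabOf t G' none r) :
    (G.1.Adj (t (r + 1)) (t (r + 2)) ↔ G'.1.Adj (t (r + 1)) (t (r + 2))) := by
  simpa [tabOf] using h

theorem tr_fin3_a : ∀ r r' : Fin 3, r' ≠ r → r' = r + 1 ∨ r' = r + 2 := by decide

theorem tr_fin3_b : ∀ r : Fin 3, r + 1 ≠ r := by decide

theorem tr_fin3_c : ∀ r : Fin 3, r + 2 ≠ r := by decide

theorem tr_fin3_d : ∀ r : Fin 3, r + 1 ≠ r + 2 := by decide

theorem tr_fin3_e : ∀ r r' : Fin 3, r' = r ∨ r' = r + 1 ∨ r' = r + 2 := by decide

theorem three_row_inj (t : Fin 3 → V) (ht : Function.Injective t) (G₀ : Om d) :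
    ∀ G ∈ cls (key (blk (univ.image t) univ)) G₀, ∀ G' ∈ cls (key (blk (univ.image t) univ)) G₀,
      tabOf t G = tabOf t G' → G = G' := by
  intro G hG G' hG' htab
  rw [mem_cls] at hG hG'
  have hk := hG.trans hG'.symm
  rw [tr_key_iff] at hk
  have hs : ∀ (r : Fin 3) (c : V), c ∉ Set.range t → (G.1.Adj (t r) c ↔ G'.1.Adj (t r) c) := by
    intro r c hc
    exact tr_tab_some t G G' ⟨c, hc⟩ r (by rw [htab])
  have hn : ∀ r : Fin 3, (G.1.Adj (t (r + 1)) (t (r + 2)) ↔ G'.1.Adj (t (r + 1)) (t (r + 2))) := by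
    intro r
    exact tr_tab_none t G G' r (by rw [htab])
  have h12 := hn 0
  have h20 := hn 1
  have h01 := hn 2
  have e1 : (1 : Fin 3) + 2 = 0 := rfl
  have e2 : (2 : Fin 3) + 1 = 0 := rfl
  have e3 : (2 : Fin 3) + 2 = 1 := rfl
  have e4 : (1 : Fin 3) + 1 = 2 := rfl
  have e5 : (0 : Fin 3) + 1 = 1 := rfl
  have e6 : (0 : Fin 3) + 2 = 2 := rfl
  rw [e5, e6] at h12
  rw [e4, e1] at h20
  rw [e2, e3] at h01
  apply Om.ext'
  ext x y
  by_cases hx : x ∈ Set.range t
  · obtain ⟨r, rfl⟩ := hx
    by_cases hy : y ∈ Set.range t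
    · obtain ⟨r', rfl⟩ := hy
      fin_cases r <;> fin_cases r' <;>
        simp only [Fin.zero_eta, Fin.mk_one, Fin.reduceFinMk, SimpleGraph.irrefl]
      · exact h01
      · rw [G.1.adj_comm, G'.1.adj_comm]; exact h20
      · rw [G.1.adj_comm, G'.1.adj_comm]; exact h01
      · exact h12
      · exact h20
      · rw [G.1.adj_comm, G'.1.adj_comm]; exact h12
    · exact hs r y hy
  · by_cases hy : y ∈ Set.range t
    · obtain ⟨r', rfl⟩ := hy
      rw [G.1.adj_comm, G'.1.adj_comm]
      exact hs r' x hx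
    · exact hk x y hx hy

theorem tr_erase (t : Fin 3 → V) (ht : Function.Injective t) (r : Fin 3) :
    (univ.image t).erase (t r) = {t (r + 1), t (r + 2)} := by
  ext x
  simp only [mem_erase, mem_image, mem_univ, true_and, mem_insert, mem_singleton]
  constructor
  · rintro ⟨hne, r', rfl⟩
    have hr : r' ≠ r := fun h => hne (by rw [h])
    have : r' = r + 1 ∨ r' = r + 2 := tr_fin3_a r r' hr
    rcases this with h | h
    · left; rw [h]
    · right; rw [h]
  · rintro (rfl | rfl)
    · exact ⟨fun h => tr_fin3_b r (ht h), _, rfl⟩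
    · exact ⟨fun h => tr_fin3_c r (ht h), _, rfl⟩

/-- resampling the two rows other than `t r` corresponds to conditioning on row `r` -/
theorem three_row_compat (t : Fin 3 → V) (ht : Function.Injective t) (G₀ : Om d) (r : Fin 3) :
    ∀ G ∈ cls (key (blk (univ.image t) univ)) G₀, ∀ G' ∈ cls (key (blk (univ.image t) univ)) G₀,
      (key (blk ((univ.image t).erase (t r)) univ) G = key (blk ((univ.image t).erase (t r)) univ) G'
        ↔ rowKey r (tabOf t G) = rowKey r (tabOf t G')) := by
  intro G hG G' hG'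
  rw [mem_cls] at hG hG'
  have hk := hG.trans hG'.symm
  rw [tr_key_iff] at hk
  rw [tr_erase t ht r]
  have hne : t (r + 1) ≠ t (r + 2) := fun h => tr_fin3_d r (ht h)
  have hr1 : t r ≠ t (r + 1) := fun h => tr_fin3_b r (ht h).symm
  have hr2 : t r ≠ t (r + 2) := fun h => tr_fin3_c r (ht h).symm
  constructor
  · intro h
    have hfro := (two_row_frozen (t (r + 1)) (t (r + 2)) hne G G' h).1
    rw [key_eq_iff] at h
    funext c
    cases c with
    | none =>
      simp only [rowKey, tabOf]
      exact decide_eq_decide.mpr (not_congr hfro)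
    | some c =>
      simp only [rowKey, tabOf]
      have : G.1.Adj (t r) c.1 ↔ G'.1.Adj (t r) c.1 := by
        apply h
        rw [blk_adj]
        simp only [mem_insert, mem_singleton, mem_univ, and_true]
        rintro ⟨-, (h1 | h1) | (h1 | h1)⟩
        · exact hr1 h1
        · exact hr2 h1
        · exact c.2 ⟨_, h1.symm⟩
        · exact c.2 ⟨_, h1.symm⟩
      exact decide_eq_decide.mpr this
  · intro h
    have hs : ∀ c : V, c ∉ Set.range t → (G.1.Adj (t r) c ↔ G'.1.Adj (t r) c) := by
      intro c hc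
      exact tr_tab_some t G G' ⟨c, hc⟩ r (congrFun h (some ⟨c, hc⟩))
    rw [key_eq_iff]
    intro x y hxy
    rw [blk_adj] at hxy
    simp only [mem_insert, mem_singleton, mem_univ, and_true] at hxy
    by_cases hxy' : x = y
    · subst hxy'
      simp
    have hx1 : x ≠ t (r + 1) := fun h1 => hxy ⟨hxy', Or.inl (Or.inl h1)⟩
    have hx2 : x ≠ t (r + 2) := fun h1 => hxy ⟨hxy', Or.inl (Or.inr h1)⟩
    have hy1 : y ≠ t (r + 1) := fun h1 => hxy ⟨hxy', Or.inr (Or.inl h1)⟩
    have hy2 : y ≠ t (r + 2) := fun h1 => hxy ⟨hxy', Or.inr (Or.inr h1)⟩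
    have hcase : ∀ z : V, z ≠ t (r + 1) → z ≠ t (r + 2) → z ∈ Set.range t → z = t r := by
      rintro z hz1 hz2 ⟨r', rfl⟩
      have : r' = r ∨ r' = r + 1 ∨ r' = r + 2 := tr_fin3_e r r'
      rcases this with h1 | h1 | h1
      · rw [h1]
      · exact absurd (by rw [h1]) hz1
      · exact absurd (by rw [h1]) hz2
    by_cases hx : x ∈ Set.range t
    · have hxr := hcase x hx1 hx2 hx
      by_cases hy : y ∈ Set.range t
      · have hyr := hcase y hy1 hy2 hy
        exact absurd (hxr.trans hyr.symm) hxy'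
      · rw [hxr]
        exact hs y hy
    · by_cases hy : y ∈ Set.range t
      · have hyr := hcase y hy1 hy2 hy
        rw [hyr, G.1.adj_comm, G'.1.adj_comm]
        exact hs x hx
      · exact hk x y hx hy

end Vale.Agent.P335
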