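import Vale.Agent.P335.ThreeRowSurj
import Vale.Agent.P335.Tables

/-!
# P335: the three-row lemma for the graph operators
-/

namespace Vale.Agent.P335

open Finset

set_option linter.unusedSectionVars false

variable {V : Type*} [Fintype V] [DecidableEq V] {d : V → ℕ}

/-- three-row lemma with named rows -/
theorem three_row_graph (t : Fin 3 → V) (ht : Function.Injective t) (F : Om d → ℝ) :
    ip F (∑ r, Qb ((univ.image t).erase (t r)) F) ≤
      ip (∑ r, Qb ((univ.image t).erase (t r)) F) (∑ r, Qb ((univ.image t).erase (t r)) F) := by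
  obtain ⟨A, hA⟩ : ∃ A : Om d → ℝ, A = ∑ r, Qb ((univ.image t).erase (t r)) F := ⟨_, rfl⟩
  rw [← hA]
  have hApply : ∀ G, A G = ∑ r, (F G - Eb ((univ.image t).erase (t r)) F G) := by
    intro G
    rw [hA, Finset.sum_apply]
    rfl
  have key1 : 0 ≤ ∑ G, ((A G) ^ 2 - F G * A G) := by
    apply sum_nonneg_of_classwise (key (blk (univ.image t) univ))
    intro G₀
    obtain ⟨g, hg⟩ := exists_model_fun (key (blk (univ.image t) univ)) (tabOf t) G₀
      (three_row_inj t ht G₀) F
    have hAT : ∀ G ∈ cls (key (blk (univ.image t) univ)) G₀,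
        A G = AT (rowSums (tabOf t G₀)) (colSums (tabOf t G₀)) g (tabOf t G) := by
      intro G hG
      rw [hApply, AT]
      refine sum_congr rfl (fun r _ => ?_)
      rw [hg G hG]
      have h := avg_transfer (key (blk (univ.image t) univ))
        (key (blk ((univ.image t).erase (t r)) univ)) (tabOf t)
        (tabs (rowSums (tabOf t G₀)) (colSums (tabOf t G₀))) (rowKey r) G₀
        (fun ω ω' h => key_mono (blk_mono (erase_subset _ _) (Subset.refl _)) h)
        (three_row_maps t ht G₀) (three_row_inj t ht G₀) (three_row_surj t ht G₀)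
        (three_row_compat t ht G₀ r) F g hg G hG
      have h' : Eb ((univ.image t).erase (t r)) F G
          = PT (rowSums (tabOf t G₀)) (colSums (tabOf t G₀)) r g (tabOf t G) := h
      rw [h']
    have h1 : ∑ G ∈ cls (key (blk (univ.image t) univ)) G₀, ((A G) ^ 2 - F G * A G)
        = ∑ G ∈ cls (key (blk (univ.image t) univ)) G₀,
          (fun m => (AT (rowSums (tabOf t G₀)) (colSums (tabOf t G₀)) g m) ^ 2
            - g m * AT (rowSums (tabOf t G₀)) (colSums (tabOf t G₀)) g m) (tabOf t G) :=
      sum_congr rfl (fun G hG => by simp only [hAT G hG, hg G hG])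
    have h1' := sum_cls_transfer (key (blk (univ.image t) univ)) (tabOf t)
      (tabs (rowSums (tabOf t G₀)) (colSums (tabOf t G₀))) G₀
      (three_row_maps t ht G₀) (three_row_inj t ht G₀) (three_row_surj t ht G₀)
      (fun m => (AT (rowSums (tabOf t G₀)) (colSums (tabOf t G₀)) g m) ^ 2
            - g m * AT (rowSums (tabOf t G₀)) (colSums (tabOf t G₀)) g m)
    rw [h1, h1']
    have h2 := three_row_tables (rowSums (tabOf t G₀)) (colSums (tabOf t G₀)) g
    rw [sum_sub_distrib]
    linarith
  unfold ip
  have h3 : ∑ G, ((A G) ^ 2 - F G * A G) = ∑ G, A G * A G - ∑ G, F G * A G := by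
    rw [← sum_sub_distrib]
    refine sum_congr rfl (fun G _ => ?_)
    ring
  linarith

end Vale.Agent.P335
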