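import Vale.Agent.P335.ThreeRow

/-!
# P335: the three-row model, surjectivity
-/

namespace Vale.Agent.P335

open Finset

set_option linter.unusedSectionVars false

variable {V : Type*} [Fintype V] [DecidableEq V] {d : V → ℕ}

/-- integer value of a bit -/
def bI (b : Bool) : ℤ := if b = true then 1 else 0

theorem sum_option_any {α : Type*} [Fintype α] [inst : Fintype (Option α)] (f : Option α → ℤ) :
    ∑ o, f o = f none + ∑ a, f (some a) := by
  have : inst = instFintypeOption := Subsingleton.elim _ _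
  subst this
  exact Fintype.sum_option f

theorem fin3_sum (g : Fin 3 → ℤ) (r : Fin 3) : ∑ a, g a = g r + g (r + 1) + g (r + 2) := by
  rw [Fin.sum_univ_three]
  fin_cases r
  · rfl
  · show g 0 + g 1 + g 2 = g 1 + g 2 + g 0
    ring
  · show g 0 + g 1 + g 2 = g 2 + g 0 + g 1
    ring

theorem fin3_arith : ∀ r : Fin 3, r + 2 + 1 = r ∧ r + 2 + 2 = r + 1 ∧ r + 1 + 1 = r + 2 ∧
    r + 1 + 2 = r ∧ r + 1 ≠ r + 2 ∧ r ≠ r + 1 ∧ r ≠ r + 2 := by
  decide

theorem fin3_cancel : ∀ r r' : Fin 3, (r + 1 = r' + 1 → r = r') ∧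
    (r + 2 = r' + 1 → r + 1 = r' + 2 → False) := by
  decide

theorem sum_split (t : Fin 3 → V) (ht : Function.Injective t)
    [inst : Fintype {c : V // c ∉ Set.range t}] (f : V → ℤ) :
    ∑ w, f w = ∑ a, f (t a) + ∑ c : {c : V // c ∉ Set.range t}, f c.1 := by
  classical
  have hi : inst = Subtype.fintype _ := Subsingleton.elim _ _
  subst hi
  rw [← Fintype.sum_subtype_add_sum_subtype (fun x => x ∈ Set.range t) f]
  congr 1
  exact (@Fintype.sum_equiv _ _ _ _ (Subtype.fintype fun x => x ∈ Set.range t) _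
    (Equiv.ofInjective t ht) (fun a => f (t a)) (fun i => f i.1) (fun a => rfl)).symm

open Classical in
/-- the table of a graph -/
noncomputable def tabG (t : Fin 3 → V) (K : SimpleGraph V) : Col t → Fin 3 → Bool
  | some c, r => decide (K.Adj (t r) c.1)
  | none, r => decide (¬ K.Adj (t (r + 1)) (t (r + 2)))

theorem tabOf_eq_tabG (t : Fin 3 → V) (G : Om d) : tabOf t G = tabG t G.1 := by
  funext c r
  cases c <;> rfl

open Classical in
theorem bI_decide (p : Prop) : bI (decide p) = if p then 1 else 0 := by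
  unfold bI
  by_cases h : p <;> simp [h]

open Classical in
theorem bI_decide_not (p : Prop) : bI (decide (¬ p)) = 1 - if p then 1 else 0 := by
  unfold bI
  by_cases h : p <;> simp [h]

open Classical in
theorem sum_adj_row (t : Fin 3 → V) (ht : Function.Injective t) (K : SimpleGraph V) (r : Fin 3) :
    ∑ w, (if K.Adj (t r) w then (1 : ℤ) else 0)
      = 2 - ∑ a, bI (tabG t K none a) + ∑ o : Col t, bI (tabG t K o r) := by
  have : Fintype {c : V // c ∉ Set.range t} := Fintype.ofFinite _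
  obtain ⟨e1, e2, e3, e4, -, -, -⟩ := fin3_arith r
  rw [sum_split t ht, fin3_sum _ r, fin3_sum (fun a => bI (tabG t K none a)) r, sum_option_any]
  have h0 : (if K.Adj (t r) (t r) then (1 : ℤ) else 0) = 0 := by simp
  have h1 : bI (tabG t K none (r + 2)) = 1 - if K.Adj (t r) (t (r + 1)) then (1 : ℤ) else 0 := by
    show bI (decide (¬ K.Adj (t (r + 2 + 1)) (t (r + 2 + 2)))) = _
    rw [e1, e2, bI_decide_not]
  have h2 : bI (tabG t K none (r + 1)) = 1 - if K.Adj (t r) (t (r + 2)) then (1 : ℤ) else 0 := by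
    show bI (decide (¬ K.Adj (t (r + 1 + 1)) (t (r + 1 + 2)))) = _
    rw [e3, e4, bI_decide_not]
    simp only [K.adj_comm]
  have h3 : ∀ c : {c : V // c ∉ Set.range t}, bI (tabG t K (some c) r)
      = if K.Adj (t r) c.1 then (1 : ℤ) else 0 := fun c => bI_decide _
  rw [h0, h1, h2, Finset.sum_congr rfl (fun c _ => h3 c)]
  ring

open Classical in
theorem sum_adj_col (t : Fin 3 → V) (ht : Function.Injective t) (K : SimpleGraph V)
    [Fintype {c : V // c ∉ Set.range t}] (c : {c : V // c ∉ Set.range t}) :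
    ∑ w, (if K.Adj c.1 w then (1 : ℤ) else 0)
      = ∑ a, bI (tabG t K (some c) a)
        + ∑ c' : {c : V // c ∉ Set.range t}, (if K.Adj c.1 c'.1 then (1 : ℤ) else 0) := by
  rw [sum_split t ht]
  congr 1
  refine Finset.sum_congr rfl fun a _ => ?_
  show _ = bI (decide (K.Adj (t a) c.1))
  rw [bI_decide]
  simp only [K.adj_comm]

theorem sum_bI_eq_card {ι : Type*} [Fintype ι] (g : ι → Bool) :
    ∑ i, bI (g i) = ((univ.filter (fun i => g i = true)).card : ℤ) := by
  unfold bI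
  rw [Finset.sum_boole]

theorem three_row_surj (t : Fin 3 → V) (ht : Function.Injective t) (G₀ : Om d) :
    ∀ m ∈ tabs (rowSums (tabOf t G₀)) (colSums (tabOf t G₀)),
      ∃ G ∈ cls (key (blk (univ.image t) univ)) G₀, tabOf t G = m := by
  classical
  intro m hm
  have hrow : ∀ r, (univ.filter (fun c => m c r = true)).card = rowSums (tabOf t G₀) r :=
    (mem_filter.1 hm).2.1
  have hcol : ∀ c, (univ.filter (fun r => m c r = true)).card = colSums (tabOf t G₀) c :=
    (mem_filter.1 hm).2.2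
  have hnr : ∀ (r : Fin 3) (c : {c : V // c ∉ Set.range t}), t r ≠ c.1 :=
    fun r c h => c.2 ⟨r, h⟩
  -- the graph
  obtain ⟨H, hH⟩ : ∃ H : SimpleGraph V, ∀ x y, H.Adj x y ↔
      ((∃ (r : Fin 3) (c : {c : V // c ∉ Set.range t}),
          ((x = t r ∧ y = c.1) ∨ (y = t r ∧ x = c.1)) ∧ m (some c) r = true) ∨
        (∃ r : Fin 3, ((x = t (r + 1) ∧ y = t (r + 2)) ∨ (y = t (r + 1) ∧ x = t (r + 2))) ∧
          m none r = false) ∨
        (x ∉ Set.range t ∧ y ∉ Set.range t ∧ G₀.1.Adj x y)) := ⟨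
    { Adj := fun x y =>
        (∃ (r : Fin 3) (c : {c : V // c ∉ Set.range t}),
          ((x = t r ∧ y = c.1) ∨ (y = t r ∧ x = c.1)) ∧ m (some c) r = true) ∨
        (∃ r : Fin 3, ((x = t (r + 1) ∧ y = t (r + 2)) ∨ (y = t (r + 1) ∧ x = t (r + 2))) ∧
          m none r = false) ∨
        (x ∉ Set.range t ∧ y ∉ Set.range t ∧ G₀.1.Adj x y)
      symm := ⟨fun x y h => by
        rcases h with ⟨r, c, h1, h2⟩ | ⟨r, h1, h2⟩ | ⟨h1, h2, h3⟩
        · exact Or.inl ⟨r, c, h1.symm, h2⟩
        · exact Or.inr (Or.inl ⟨r, h1.symm, h2⟩)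
        · exact Or.inr (Or.inr ⟨h2, h1, h3.symm⟩)⟩
      loopless := ⟨fun x h => by
        rcases h with ⟨r, c, h1, -⟩ | ⟨r, h1, -⟩ | ⟨-, -, h3⟩
        · rcases h1 with ⟨h1, h2⟩ | ⟨h1, h2⟩
          · exact hnr r c (h1.symm.trans h2)
          · exact hnr r c (h1.symm.trans h2)
        · rcases h1 with ⟨h1, h2⟩ | ⟨h1, h2⟩
          · exact (fin3_arith r).2.2.2.2.1 (ht (h1.symm.trans h2))
          · exact (fin3_arith r).2.2.2.2.1 (ht (h1.symm.trans h2))
        · exact G₀.1.loopless.irrefl x h3⟩ }, fun _ _ => Iff.rfl⟩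
  have F1 : ∀ (r : Fin 3) (c : {c : V // c ∉ Set.range t}),
      H.Adj (t r) c.1 ↔ m (some c) r = true := by
    intro r c
    rw [hH]
    constructor
    · rintro (⟨r', c', h1, h2⟩ | ⟨r', h1, -⟩ | ⟨h1, -, -⟩)
      · rcases h1 with ⟨h1, h3⟩ | ⟨h1, -⟩
        · have := ht h1
          have h4 : c = c' := Subtype.ext h3
          subst this; subst h4
          exact h2
        · exact absurd h1.symm (hnr r' c)
      · rcases h1 with ⟨-, h1⟩ | ⟨h1, -⟩
        · exact absurd h1.symm (hnr _ c)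
        · exact absurd h1.symm (hnr _ c)
      · exact absurd ⟨r, rfl⟩ h1
    · intro h
      exact Or.inl ⟨r, c, Or.inl ⟨rfl, rfl⟩, h⟩
  have F2 : ∀ r : Fin 3, H.Adj (t (r + 1)) (t (r + 2)) ↔ m none r = false := by
    intro r
    rw [hH]
    constructor
    · rintro (⟨r', c', h1, -⟩ | ⟨r', h1, h2⟩ | ⟨h1, -, -⟩)
      · rcases h1 with ⟨-, h1⟩ | ⟨-, h1⟩
        · exact absurd h1 (hnr _ c')
        · exact absurd h1 (hnr _ c')
      · rcases h1 with ⟨h1, -⟩ | ⟨h1, h3⟩
        · have := (fin3_cancel r r').1 (ht h1)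
          subst this
          exact h2
        · exact ((fin3_cancel r r').2 (ht h1) (ht h3)).elim
      · exact absurd ⟨_, rfl⟩ h1
    · intro h
      exact Or.inr (Or.inl ⟨r, Or.inl ⟨rfl, rfl⟩, h⟩)
  have F3 : ∀ x y, x ∉ Set.range t → y ∉ Set.range t → (H.Adj x y ↔ G₀.1.Adj x y) := by
    intro x y hx hy
    rw [hH]
    constructor
    · rintro (⟨r', c', h1, -⟩ | ⟨r', h1, -⟩ | ⟨-, -, h1⟩)
      · rcases h1 with ⟨h1, -⟩ | ⟨h1, -⟩
        · exact absurd ⟨_, h1.symm⟩ hx
        · exact absurd ⟨_, h1.symm⟩ hy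
      · rcases h1 with ⟨h1, -⟩ | ⟨h1, -⟩
        · exact absurd ⟨_, h1.symm⟩ hx
        · exact absurd ⟨_, h1.symm⟩ hy
      · exact h1
    · intro h
      exact Or.inr (Or.inr ⟨hx, hy, h⟩)
  have htab : tabG t H = m := by
    funext o r
    cases o with
    | none =>
      show decide (¬ H.Adj (t (r + 1)) (t (r + 2))) = m none r
      rw [F2 r]
      cases m none r <;> simp
    | some c =>
      show decide (H.Adj (t r) c.1) = m (some c) r
      rw [F1 r c]
      cases m (some c) r <;> simp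
  have hrowZ : ∀ r, ∑ o : Col t, bI (m o r) = ∑ o : Col t, bI (tabG t G₀.1 o r) := by
    intro r
    rw [sum_bI_eq_card, sum_bI_eq_card, hrow r, tabOf_eq_tabG]
    rfl
  have hcolZ : ∀ o : Col t, ∑ a, bI (m o a) = ∑ a, bI (tabG t G₀.1 o a) := by
    intro o
    rw [sum_bI_eq_card, sum_bI_eq_card, hcol o, tabOf_eq_tabG]
    rfl
  have hsum : ∀ v, ∑ w, (if H.Adj v w then (1 : ℤ) else 0) = d v := by
    intro v
    rw [← Om.sum_ind G₀ v]
    by_cases hv : v ∈ Set.range t
    · obtain ⟨r, rfl⟩ := hv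
      rw [sum_adj_row t ht H r, sum_adj_row t ht G₀.1 r, htab, hrowZ r, hcolZ none]
    · have : Fintype {c : V // c ∉ Set.range t} := Fintype.ofFinite _
      have h1 := sum_adj_col t ht H ⟨v, hv⟩
      have h2 := sum_adj_col t ht G₀.1 ⟨v, hv⟩
      simp only at h1 h2
      rw [h1, h2, htab, hcolZ]
      congr 1
      refine Finset.sum_congr rfl fun c' _ => ?_
      simp only [F3 v c'.1 hv c'.2]
  obtain ⟨G, hG⟩ := Om.exists_of_sum_ind (d := d) H hsum
  refine ⟨G, ?_, ?_⟩
  · unfold cls clsOn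
    refine mem_filter.2 ⟨mem_univ _, ?_⟩
    rw [key_eq_iff]
    intro x y hxy
    rw [hG]
    by_cases hxy' : x = y
    · subst hxy'
      simp
    · rw [blk_adj] at hxy
      have hx : x ∉ Set.range t := by
        rintro ⟨r, rfl⟩
        exact hxy ⟨hxy', Or.inl ⟨mem_image_of_mem t (mem_univ r), mem_univ _⟩⟩
      have hy : y ∉ Set.range t := by
        rintro ⟨r, rfl⟩
        exact hxy ⟨hxy', Or.inr ⟨mem_image_of_mem t (mem_univ r), mem_univ _⟩⟩
      exact F3 x y hx hy
  · rw [tabOf_eq_tabG, hG, htab]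

end Vale.Agent.P335
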