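import Vale.Agent.P335.ThreeRowGraph

/-!
# P335: the three-row lemma for the graph operators; overlapping pairs
-/

namespace Vale.Agent.P335

open Finset

set_option linter.unusedSectionVars false

variable {V : Type*} [Fintype V] [DecidableEq V] {d : V → ℕ}

theorem ip_sum_left_tov {Ω ι : Type*} [Fintype Ω] (s : Finset ι) (f : ι → Ω → ℝ) (G : Ω → ℝ) :
    ip (∑ r ∈ s, f r) G = ∑ r ∈ s, ip (f r) G := by
  unfold ip
  rw [Finset.sum_comm]
  refine Finset.sum_congr rfl fun ω _ => ?_
  rw [Finset.sum_apply, Finset.sum_mul]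

theorem ip_sum_right_tov {Ω ι : Type*} [Fintype Ω] (s : Finset ι) (f : ι → Ω → ℝ) (G : Ω → ℝ) :
    ip G (∑ r ∈ s, f r) = ∑ r ∈ s, ip G (f r) := by
  unfold ip
  rw [Finset.sum_comm]
  refine Finset.sum_congr rfl fun ω _ => ?_
  rw [Finset.sum_apply, Finset.mul_sum]

theorem ip_self_Qb (b : Finset V) (F : Om d → ℝ) : ip F (Qb b F) = ip (Qb b F) (Qb b F) := by
  unfold Qb Eb EB
  exact ip_self_sub_avg _ F

/-- the contribution of the pairs inside a triple is nonnegative -/
theorem Tov_triple (T : Finset V) (hT : T.card = 3) (F : Om d → ℝ) :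
    0 ≤ ∑ b ∈ powersetCard 2 T, ∑ b' ∈ (powersetCard 2 T).erase b, ip (Qb b F) (Qb b' F) := by
  obtain ⟨x, y, z, hxy, hxz, hyz, hTe⟩ := Finset.card_eq_three.mp hT
  set t : Fin 3 → V := ![x, y, z] with ht
  have htinj : Function.Injective t := by
    intro i j hij
    fin_cases i <;> fin_cases j <;> simp_all [t]
  have himg : (univ : Finset (Fin 3)).image t = T := by
    rw [hTe]
    ext a
    simp only [Finset.mem_image, Finset.mem_univ, true_and, Finset.mem_insert,
      Finset.mem_singleton]
    constructor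
    · rintro ⟨i, rfl⟩
      fin_cases i <;> simp [t]
    · rintro (rfl | rfl | rfl)
      · exact ⟨0, rfl⟩
      · exact ⟨1, rfl⟩
      · exact ⟨2, rfl⟩
  have htmem : ∀ r, t r ∈ T := fun r => by
    rw [← himg]; exact Finset.mem_image_of_mem t (Finset.mem_univ r)
  set e : Fin 3 → Finset V := fun r => T.erase (t r) with he
  have heinj : Function.Injective e := by
    intro r r' h
    have h1 : t r ∉ T.erase (t r') := by
      have : t r ∉ e r := Finset.notMem_erase _ _
      rw [h] at this
      exact this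
    rw [Finset.mem_erase] at h1
    by_contra hne
    exact h1 ⟨fun h2 => hne (htinj h2), htmem r⟩
  have hps : powersetCard 2 T = (univ : Finset (Fin 3)).image e := by
    ext b
    simp only [Finset.mem_powersetCard, Finset.mem_image, Finset.mem_univ, true_and]
    constructor
    · rintro ⟨hsub, hc⟩
      have hc1 : (T \ b).card = 1 := by
        rw [Finset.card_sdiff_of_subset hsub, hT, hc]
      obtain ⟨a, ha⟩ := Finset.card_eq_one.mp hc1
      have haT : a ∈ T \ b := by rw [ha]; exact Finset.mem_singleton_self a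
      rw [Finset.mem_sdiff] at haT
      have : a ∈ (univ : Finset (Fin 3)).image t := by rw [himg]; exact haT.1
      obtain ⟨r, _, hr⟩ := Finset.mem_image.mp this
      refine ⟨r, ?_⟩
      simp only [he, hr]
      ext c
      rw [Finset.mem_erase]
      constructor
      · rintro ⟨hca, hcT⟩
        by_contra hcb
        have : c ∈ T \ b := Finset.mem_sdiff.mpr ⟨hcT, hcb⟩
        rw [ha, Finset.mem_singleton] at this
        exact hca this
      · intro hcb
        exact ⟨fun h => haT.2 (h ▸ hcb), hsub hcb⟩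
    · rintro ⟨r, rfl⟩
      refine ⟨Finset.erase_subset _ _, ?_⟩
      simp only [he]
      rw [Finset.card_erase_of_mem (htmem r), hT]
  have key3 := three_row_graph t htinj F
  rw [himg] at key3
  -- rewrite the double sum
  have hsum : ∑ b ∈ powersetCard 2 T, ∑ b' ∈ (powersetCard 2 T).erase b, ip (Qb b F) (Qb b' F)
      = ∑ r, ∑ r' ∈ (univ : Finset (Fin 3)).erase r, ip (Qb (e r) F) (Qb (e r') F) := by
    rw [hps, Finset.sum_image (fun a _ b _ h => heinj h)]
    refine Finset.sum_congr rfl fun r _ => ?_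
    rw [← Finset.image_erase heinj, Finset.sum_image (fun a _ b _ h => heinj h)]
  rw [hsum]
  have h1 : ∀ r : Fin 3, ∑ r' ∈ (univ : Finset (Fin 3)).erase r, ip (Qb (e r) F) (Qb (e r') F)
      = ∑ r', ip (Qb (e r) F) (Qb (e r') F) - ip (Qb (e r) F) (Qb (e r) F) := by
    intro r
    rw [← Finset.add_sum_erase _ _ (Finset.mem_univ r)]
    ring
  rw [Finset.sum_congr rfl (fun r _ => h1 r), Finset.sum_sub_distrib]
  have h2 : ∑ r, ∑ r', ip (Qb (e r) F) (Qb (e r') F)
      = ip (∑ r, Qb (e r) F) (∑ r, Qb (e r) F) := by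
    rw [ip_sum_left_tov]
    refine Finset.sum_congr rfl fun r _ => ?_
    rw [ip_sum_right_tov]
  have h3 : ∑ r, ip (Qb (e r) F) (Qb (e r) F) = ip F (∑ r, Qb (e r) F) := by
    rw [ip_sum_right_tov]
    refine Finset.sum_congr rfl fun r _ => ?_
    rw [ip_self_Qb]
  rw [h2, h3]
  have : ip F (∑ r, Qb (e r) F) ≤ ip (∑ r, Qb (e r) F) (∑ r, Qb (e r) F) := key3
  linarith

/-- the total contribution of overlapping pairs is nonnegative -/
theorem Tov_nonneg (F : Om d → ℝ) :
    0 ≤ ∑ b ∈ pairs V, ∑ b' ∈ (pairs V).filter (fun b' => (b ∩ b').card = 1),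
      ip (Qb b F) (Qb b' F) := by
  set f : Finset V → Finset V → ℝ := fun b b' => ip (Qb b F) (Qb b' F) with hf
  set P : Finset (Finset V × Finset V) :=
    ((pairs V) ×ˢ (pairs V)).filter (fun p => (p.1 ∩ p.2).card = 1) with hP
  have h1 : ∑ b ∈ pairs V, ∑ b' ∈ (pairs V).filter (fun b' => (b ∩ b').card = 1), f b b'
      = ∑ p ∈ P, f p.1 p.2 := by
    rw [hP, Finset.sum_filter, Finset.sum_product]
    refine Finset.sum_congr rfl fun b _ => ?_
    rw [Finset.sum_filter]
  have hmaps : ∀ p ∈ P, p.1 ∪ p.2 ∈ powersetCard 3 (univ : Finset V) := by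
    intro p hp
    rw [hP, Finset.mem_filter, Finset.mem_product] at hp
    obtain ⟨⟨hp1, hp2⟩, hc⟩ := hp
    have c1 : p.1.card = 2 := (Finset.mem_powersetCard.mp hp1).2
    have c2 : p.2.card = 2 := (Finset.mem_powersetCard.mp hp2).2
    rw [Finset.mem_powersetCard]
    refine ⟨Finset.subset_univ _, ?_⟩
    have := Finset.card_union_add_card_inter p.1 p.2
    omega
  have h2 : ∑ p ∈ P, f p.1 p.2
      = ∑ T ∈ powersetCard 3 (univ : Finset V), ∑ p ∈ P.filter (fun p => p.1 ∪ p.2 = T),
          f p.1 p.2 := (Finset.sum_fiberwise_of_maps_to hmaps _).symm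
  have h3 : ∀ T ∈ powersetCard 3 (univ : Finset V),
      ∑ p ∈ P.filter (fun p => p.1 ∪ p.2 = T), f p.1 p.2
        = ∑ b ∈ powersetCard 2 T, ∑ b' ∈ (powersetCard 2 T).erase b, f b b' := by
    intro T hT
    have hTc : T.card = 3 := (Finset.mem_powersetCard.mp hT).2
    have hset : P.filter (fun p => p.1 ∪ p.2 = T)
        = ((powersetCard 2 T) ×ˢ (powersetCard 2 T)).filter (fun p => p.2 ≠ p.1) := by
      ext p
      simp only [hP, Finset.mem_filter, Finset.mem_product, pairs, Finset.mem_powersetCard,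
        Finset.subset_univ, true_and]
      constructor
      · rintro ⟨⟨⟨c1, c2⟩, hc⟩, hu⟩
        refine ⟨⟨⟨?_, c1⟩, ⟨?_, c2⟩⟩, ?_⟩
        · rw [← hu]; exact Finset.subset_union_left
        · rw [← hu]; exact Finset.subset_union_right
        · intro h
          rw [h, Finset.inter_self, c1] at hc
          omega
      · rintro ⟨⟨⟨s1, c1⟩, ⟨s2, c2⟩⟩, hne⟩
        have hsub : p.1 ∪ p.2 ⊆ T := Finset.union_subset s1 s2
        have hle : (p.1 ∪ p.2).card ≤ 3 := hTc ▸ Finset.card_le_card hsub
        have hadd := Finset.card_union_add_card_inter p.1 p.2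
        have hne2 : (p.1 ∩ p.2).card ≠ 2 := by
          intro h2
          have e1 : p.1 ∩ p.2 = p.1 :=
            Finset.eq_of_subset_of_card_le Finset.inter_subset_left (by rw [h2, c1])
          have e2 : p.1 ∩ p.2 = p.2 :=
            Finset.eq_of_subset_of_card_le Finset.inter_subset_right (by rw [h2, c2])
          exact hne (e2.symm.trans e1)
        have hle2 : (p.1 ∩ p.2).card ≤ 2 := c1 ▸ Finset.card_le_card Finset.inter_subset_left
        have hc : (p.1 ∩ p.2).card = 1 := by omega
        refine ⟨⟨⟨c1, c2⟩, hc⟩, ?_⟩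
        exact Finset.eq_of_subset_of_card_le hsub (by rw [hTc]; omega)
    rw [hset, Finset.sum_filter, Finset.sum_product]
    refine Finset.sum_congr rfl fun b _ => ?_
    rw [← Finset.sum_filter, Finset.filter_ne']
  rw [h1, h2]
  refine Finset.sum_nonneg fun T hT => ?_
  rw [h3 T hT]
  exact Tov_triple T (Finset.mem_powersetCard.mp hT).2 F

end Vale.Agent.P335
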