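import Vale.Agent.P335.TwoRow

/-!
# P335: the two-row model, surjectivity
-/

namespace Vale.Agent.P335

open Finset

set_option linter.unusedSectionVars false

variable {V : Type*} [Fintype V] [DecidableEq V] {d : V → ℕ}

theorem surj_mem_freeCols (u v : V) (G : Om d) (w : V) :
    w ∈ freeCols u v G ↔ w ≠ u ∧ w ≠ v ∧ (G.1.Adj u w ↔ ¬ G.1.Adj v w) := by
  classical
  simp [freeCols]

theorem surj_mem_upSet (u v : V) (G : Om d) (w : V) :
    w ∈ upSet u v G ↔ w ≠ u ∧ w ≠ v ∧ G.1.Adj u w ∧ ¬ G.1.Adj v w := by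
  classical
  simp [upSet]

/-- a purely propositional computation: toggling a cell -/
theorem surj_ind_aux (A B W U : Prop) [Decidable A] [Decidable B] [Decidable W] [Decidable U]
    (hB : B ↔ ((A ∧ ¬ ((W ∧ ¬ U) ∨ (U ∧ ¬ W))) ∨ (((W ∧ ¬ U) ∨ (U ∧ ¬ W)) ∧ ¬ A)))
    (h1 : W → ¬ U → ¬ A) (h2 : U → ¬ W → A) :
    (if B then (1 : ℤ) else 0) =
      (if A then 1 else 0) + ((if W then 1 else 0) - (if U then 1 else 0)) := by
  by_cases hA : A <;> by_cases hW : W <;> by_cases hU : U <;> by_cases hBB : B <;> simp_all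

theorem surj_ind_aux' (A B W U : Prop) [Decidable A] [Decidable B] [Decidable W] [Decidable U]
    (hB : B ↔ ((A ∧ ¬ ((W ∧ ¬ U) ∨ (U ∧ ¬ W))) ∨ (((W ∧ ¬ U) ∨ (U ∧ ¬ W)) ∧ ¬ A)))
    (h1 : W → ¬ U → A) (h2 : U → ¬ W → ¬ A) :
    (if B then (1 : ℤ) else 0) =
      (if A then 1 else 0) - ((if W then 1 else 0) - (if U then 1 else 0)) := by
  by_cases hA : A <;> by_cases hW : W <;> by_cases hU : U <;> by_cases hBB : B <;> simp_all

/-- Toggle the cells `uc`, `vc` for all columns `c` with `tg c`. -/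
theorem surj_toggle (K : SimpleGraph V) (u v : V) (tg : V → Prop) (htu : ¬ tg u) (htv : ¬ tg v) :
    ∃ H : SimpleGraph V,
      (∀ c, H.Adj u c ↔ ((K.Adj u c ∧ ¬ tg c) ∨ (tg c ∧ ¬ K.Adj u c))) ∧
      (∀ c, H.Adj v c ↔ ((K.Adj v c ∧ ¬ tg c) ∨ (tg c ∧ ¬ K.Adj v c))) ∧
      (∀ x y, x ≠ u → x ≠ v → y ≠ u → y ≠ v → (H.Adj x y ↔ K.Adj x y)) := by
  let T : V → V → Prop := fun x y => ((x = u ∨ x = v) ∧ tg y) ∨ ((y = u ∨ y = v) ∧ tg x)
  have hTsymm : ∀ x y, T x y → T y x := by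
    intro x y h
    rcases h with h | h
    · exact Or.inr h
    · exact Or.inl h
  have hTirr : ∀ x, ¬ T x x := by
    intro x h
    rcases h with ⟨h1 | h1, h2⟩ | ⟨h1 | h1, h2⟩
    · exact htu (h1 ▸ h2)
    · exact htv (h1 ▸ h2)
    · exact htu (h1 ▸ h2)
    · exact htv (h1 ▸ h2)
  have hTu : ∀ c, T u c ↔ tg c := by
    intro c
    constructor
    · rintro (⟨-, h⟩ | ⟨-, h⟩)
      · exact h
      · exact absurd h htu
    · intro h
      exact Or.inl ⟨Or.inl rfl, h⟩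
  have hTv : ∀ c, T v c ↔ tg c := by
    intro c
    constructor
    · rintro (⟨-, h⟩ | ⟨-, h⟩)
      · exact h
      · exact absurd h htv
    · intro h
      exact Or.inl ⟨Or.inr rfl, h⟩
  refine ⟨
    { Adj := fun x y => (K.Adj x y ∧ ¬ T x y) ∨ (T x y ∧ ¬ K.Adj x y)
      symm := ⟨fun x y h => by
        rcases h with ⟨h1, h2⟩ | ⟨h1, h2⟩
        · exact Or.inl ⟨h1.symm, fun h => h2 (hTsymm _ _ h)⟩
        · exact Or.inr ⟨hTsymm _ _ h1, fun h => h2 h.symm⟩⟩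
      loopless := ⟨fun x h => by
        rcases h with ⟨h1, -⟩ | ⟨h1, -⟩
        · exact K.loopless.irrefl x h1
        · exact hTirr x h1⟩ }, ?_, ?_, ?_⟩
  · intro c
    show ((K.Adj u c ∧ ¬ T u c) ∨ (T u c ∧ ¬ K.Adj u c)) ↔ _
    rw [hTu]
  · intro c
    show ((K.Adj v c ∧ ¬ T v c) ∨ (T v c ∧ ¬ K.Adj v c)) ↔ _
    rw [hTv]
  · intro x y hxu hxv hyu hyv
    show ((K.Adj x y ∧ ¬ T x y) ∨ (T x y ∧ ¬ K.Adj x y)) ↔ _
    have hT : ¬ T x y := by
      rintro (⟨h1 | h1, -⟩ | ⟨h1 | h1, -⟩)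
      · exact hxu h1
      · exact hxv h1
      · exact hyu h1
      · exact hyv h1
    constructor
    · rintro (⟨h, -⟩ | ⟨h, -⟩)
      · exact h
      · exact absurd h hT
    · intro h
      exact Or.inl ⟨h, hT⟩

open Classical in
/-- Degrees are unchanged if rows `u`, `v` change by `+s`, `-s` with `∑ s = 0`. -/
theorem surj_degrees (K H : SimpleGraph V) (u v : V) (huv : u ≠ v) (s : V → ℤ)
    (hs : ∑ c, s c = 0)
    (hrowu : ∀ c, (if H.Adj u c then (1 : ℤ) else 0) = (if K.Adj u c then 1 else 0) + s c)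
    (hrowv : ∀ c, (if H.Adj v c then (1 : ℤ) else 0) = (if K.Adj v c then 1 else 0) - s c)
    (hoff : ∀ x y, x ≠ u → x ≠ v → y ≠ u → y ≠ v → (H.Adj x y ↔ K.Adj x y)) (x : V) :
    ∑ y, (if H.Adj x y then (1 : ℤ) else 0) = ∑ y, (if K.Adj x y then (1 : ℤ) else 0) := by
  have hadjsymm : ∀ (K : SimpleGraph V) (x y : V),
      (if K.Adj x y then (1 : ℤ) else 0) = (if K.Adj y x then 1 else 0) := by
    intro K x y
    simp only [K.adj_comm x y]
  by_cases hxu : x = u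
  · subst hxu
    rw [Finset.sum_congr rfl (fun y _ => hrowu y), Finset.sum_add_distrib, hs, add_zero]
  · by_cases hxv : x = v
    · subst hxv
      rw [Finset.sum_congr rfl (fun y _ => hrowv y), Finset.sum_sub_distrib, hs, sub_zero]
    · have hpt : ∀ y, (if H.Adj x y then (1 : ℤ) else 0) = (if K.Adj x y then 1 else 0)
          + (if y = u then s x else 0) - (if y = v then s x else 0) := by
        intro y
        by_cases hyu : y = u
        · subst hyu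
          rw [hadjsymm H, hadjsymm K, hrowu x, if_pos rfl, if_neg huv, sub_zero]
        · by_cases hyv : y = v
          · subst hyv
            rw [hadjsymm H, hadjsymm K, hrowv x, if_pos rfl, if_neg hyu, add_zero]
          · rw [if_neg hyu, if_neg hyv, add_zero, sub_zero]
            simp only [hoff x y hxu hxv hyu hyv]
      rw [Finset.sum_congr rfl (fun y _ => hpt y), Finset.sum_sub_distrib,
        Finset.sum_add_distrib, Finset.sum_ite_eq' univ u, Finset.sum_ite_eq' univ v,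
        if_pos (mem_univ _), if_pos (mem_univ _)]
      ring

/-- propositional part of `upSet = W` -/
theorem surj_prop_aux (Au Av Hu Hv W U : Prop)
    (hHu : Hu ↔ ((Au ∧ ¬ ((W ∧ ¬ U) ∨ (U ∧ ¬ W))) ∨ (((W ∧ ¬ U) ∨ (U ∧ ¬ W)) ∧ ¬ Au)))
    (hHv : Hv ↔ ((Av ∧ ¬ ((W ∧ ¬ U) ∨ (U ∧ ¬ W))) ∨ (((W ∧ ¬ U) ∨ (U ∧ ¬ W)) ∧ ¬ Av)))
    (hU : U ↔ (Au ∧ ¬ Av)) (hW : W → (Au ↔ ¬ Av)) : (Hu ∧ ¬ Hv) ↔ W := by
  by_cases h1 : Au <;> by_cases h2 : Av <;> by_cases h3 : W <;> by_cases h4 : U <;> simp_all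

theorem two_row_surj (u v : V) (huv : u ≠ v) (G₀ : Om d) :
    ∀ W ∈ powersetCard (upSet u v G₀).card (freeCols u v G₀),
      ∃ G ∈ cls (key (blk {u, v} univ)) G₀, upSet u v G = W := by
  classical
  intro W hW
  rw [mem_powersetCard] at hW
  obtain ⟨hWD, hWc⟩ := hW
  have hDm : ∀ c, c ∈ freeCols u v G₀ → c ≠ u ∧ c ≠ v ∧ (G₀.1.Adj u c ↔ ¬ G₀.1.Adj v c) :=
    fun c hc => (surj_mem_freeCols u v G₀ c).1 hc
  have hUm : ∀ c, c ∈ upSet u v G₀ ↔ c ≠ u ∧ c ≠ v ∧ G₀.1.Adj u c ∧ ¬ G₀.1.Adj v c := fun c =>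
    surj_mem_upSet u v G₀ c
  have htu : ¬ ((u ∈ W ∧ u ∉ upSet u v G₀) ∨ (u ∈ upSet u v G₀ ∧ u ∉ W)) := by
    rintro (⟨h, -⟩ | ⟨h, -⟩)
    · exact (hDm u (hWD h)).1 rfl
    · exact ((hUm u).1 h).1 rfl
  have htv : ¬ ((v ∈ W ∧ v ∉ upSet u v G₀) ∨ (v ∈ upSet u v G₀ ∧ v ∉ W)) := by
    rintro (⟨h, -⟩ | ⟨h, -⟩)
    · exact (hDm v (hWD h)).2.1 rfl
    · exact ((hUm v).1 h).2.1 rfl
  obtain ⟨H, hHu, hHv, hHoff⟩ := surj_toggle G₀.1 u v
    (fun c => (c ∈ W ∧ c ∉ upSet u v G₀) ∨ (c ∈ upSet u v G₀ ∧ c ∉ W)) htu htv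
  have hrowu : ∀ c, (if H.Adj u c then (1 : ℤ) else 0) = (if G₀.1.Adj u c then 1 else 0)
      + ((if c ∈ W then (1 : ℤ) else 0) - (if c ∈ upSet u v G₀ then 1 else 0)) := by
    intro c
    refine surj_ind_aux (G₀.1.Adj u c) (H.Adj u c) (c ∈ W) (c ∈ upSet u v G₀) (hHu c) ?_ ?_
    · intro h1 h2 h3
      obtain ⟨h4, h5, h6⟩ := hDm c (hWD h1)
      exact h2 ((hUm c).2 ⟨h4, h5, h3, h6.1 h3⟩)
    · intro h1 _
      exact ((hUm c).1 h1).2.2.1
  have hrowv : ∀ c, (if H.Adj v c then (1 : ℤ) else 0) = (if G₀.1.Adj v c then 1 else 0)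
      - ((if c ∈ W then (1 : ℤ) else 0) - (if c ∈ upSet u v G₀ then 1 else 0)) := by
    intro c
    refine surj_ind_aux' (G₀.1.Adj v c) (H.Adj v c) (c ∈ W) (c ∈ upSet u v G₀) (hHv c) ?_ ?_
    · intro h1 h2
      obtain ⟨h4, h5, h6⟩ := hDm c (hWD h1)
      by_contra h3
      exact h2 ((hUm c).2 ⟨h4, h5, h6.2 h3, h3⟩)
    · intro h1 _
      exact ((hUm c).1 h1).2.2.2
  have hsum_s : ∑ c, ((if c ∈ W then (1 : ℤ) else 0) - (if c ∈ upSet u v G₀ then 1 else 0)) = 0 := by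
    simp only [Finset.sum_sub_distrib, Finset.sum_boole, Finset.filter_mem_eq_inter,
      Finset.univ_inter]
    rw [hWc]
    ring
  have hsum : ∀ x, ∑ y, (if H.Adj x y then (1 : ℤ) else 0) = d x := by
    intro x
    rw [surj_degrees G₀.1 H u v huv _ hsum_s hrowu hrowv hHoff x, Om.sum_ind G₀ x]
  obtain ⟨G, hG⟩ := Om.exists_of_sum_ind (d := d) H hsum
  refine ⟨G, ?_, ?_⟩
  · rw [mem_cls, key_eq_iff]
    intro x y hxy
    rw [hG]
    rw [blk_adj] at hxy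
    by_cases hxy' : x = y
    · subst hxy'
      exact ⟨fun h => absurd h (H.loopless.irrefl x), fun h => absurd h (G₀.1.loopless.irrefl x)⟩
    · apply hHoff
      · intro h
        exact hxy ⟨hxy', Or.inl ⟨by simp [h], mem_univ _⟩⟩
      · intro h
        exact hxy ⟨hxy', Or.inl ⟨by simp [h], mem_univ _⟩⟩
      · intro h
        exact hxy ⟨hxy', Or.inr ⟨by simp [h], mem_univ _⟩⟩
      · intro h
        exact hxy ⟨hxy', Or.inr ⟨by simp [h], mem_univ _⟩⟩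
  · ext c
    rw [surj_mem_upSet, hG]
    by_cases hcu : c = u
    · subst hcu
      constructor
      · intro h
        exact absurd rfl h.1
      · intro h
        exact absurd rfl (hDm c (hWD h)).1
    · by_cases hcv : c = v
      · subst hcv
        constructor
        · intro h
          exact absurd rfl h.2.1
        · intro h
          exact absurd rfl (hDm c (hWD h)).2.1
      · have key := surj_prop_aux (G₀.1.Adj u c) (G₀.1.Adj v c) (H.Adj u c) (H.Adj v c) (c ∈ W)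
          (c ∈ upSet u v G₀) (hHu c) (hHv c)
          ⟨fun h => ((hUm c).1 h).2.2, fun h => (hUm c).2 ⟨hcu, hcv, h⟩⟩
          (fun h => (hDm c (hWD h)).2.2)
        constructor
        · intro h
          exact key.1 h.2.2
        · intro h
          exact ⟨hcu, hcv, key.2 h⟩

end Vale.Agent.P335
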