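import Vale.Agent.P335.TwoRowSurj
import Vale.Agent.P335.AvgTransfer
import Vale.Agent.P335.SubsetDefs

/-!
# P335: the operators `Qb`, `qq`, `Zb` and the set `swC` in the two-row model
-/

namespace Vale.Agent.P335

open Finset

set_option linter.unusedSectionVars false

variable {V : Type*} [Fintype V] [DecidableEq V] {d : V → ℕ}

/-- sub-block averaging in the two-row model -/
theorem EB_transfer_aux (u v : V) (huv : u ≠ v) (c : Finset V) (hu : u ∉ c) (hv : v ∉ c)
    (G₀ : Om d) (F : Om d → ℝ) (g : Finset V → ℝ)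
    (hg : ∀ G ∈ cls (key (blk {u, v} univ)) G₀, g (upSet u v G) = F G) :
    ∀ G ∈ cls (key (blk {u, v} univ)) G₀,
      EB (blk {u, v} c) F G =
        avgOn (powersetCard (upSet u v G₀).card (freeCols u v G₀)) (fun W' => W' \ c) g
          (upSet u v G) :=
  avg_transfer (key (blk {u, v} univ)) (key (blk {u, v} c)) (upSet u v)
    (powersetCard (upSet u v G₀).card (freeCols u v G₀)) (fun W' => W' \ c) G₀
    (fun _ _ h => key_mono (blk_mono (Finset.Subset.refl _) (Finset.subset_univ c)) h)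
    (two_row_maps u v huv G₀) (two_row_inj u v huv G₀) (two_row_surj u v huv G₀)
    (two_row_compat u v huv G₀ c hu hv) F g hg

/-- full block averaging in the two-row model -/
theorem Eb_transfer_aux (u v : V) (huv : u ≠ v)
    (G₀ : Om d) (F : Om d → ℝ) (g : Finset V → ℝ)
    (hg : ∀ G ∈ cls (key (blk {u, v} univ)) G₀, g (upSet u v G) = F G) :
    ∀ G ∈ cls (key (blk {u, v} univ)) G₀,
      Eb {u, v} F G =
        avgOn (powersetCard (upSet u v G₀).card (freeCols u v G₀)) (fun _ => ()) g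
          (upSet u v G) :=
  avg_transfer (key (blk {u, v} univ)) (key (blk {u, v} univ)) (upSet u v)
    (powersetCard (upSet u v G₀).card (freeCols u v G₀)) (fun _ => ()) G₀
    (fun _ _ h => h)
    (two_row_maps u v huv G₀) (two_row_inj u v huv G₀) (two_row_surj u v huv G₀)
    (fun ω hω ω' hω' => by
      rw [mem_cls] at hω hω'
      constructor
      · intro _; rfl
      · intro _; rw [hω, hω']) F g hg

theorem upSet_sdiff_compl_aux (u v : V) (b' : Finset V) (G : Om d) :
    upSet u v G \ ({u, v} ∪ b')ᶜ = upSet u v G ∩ b' := by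
  ext w
  simp only [upSet, mem_sdiff, mem_filter, mem_univ, true_and, mem_compl, mem_union, mem_insert,
    mem_singleton, mem_inter, not_not]
  tauto

theorem not_mem_of_disjoint_aux (u v : V) (b' : Finset V) (hb' : Disjoint {u, v} b') :
    u ∉ b' ∧ v ∉ b' := by
  rw [Finset.disjoint_left] at hb'
  exact ⟨hb' (by simp), hb' (by simp)⟩

theorem Qb_transfer (u v : V) (huv : u ≠ v) (G₀ : Om d) (F : Om d → ℝ) (g : Finset V → ℝ)
    (hg : ∀ G ∈ cls (key (blk {u, v} univ)) G₀, g (upSet u v G) = F G) :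
    ∀ G ∈ cls (key (blk {u, v} univ)) G₀,
      Qb {u, v} F G = QS (powersetCard (upSet u v G₀).card (freeCols u v G₀)) g (upSet u v G) := by
  intro G hG
  simp only [Qb, QS, Pi.sub_apply]
  rw [Eb_transfer_aux u v huv G₀ F g hg G hG, hg G hG]

theorem qq_transfer (u v : V) (huv : u ≠ v) (b' : Finset V) (hb' : Disjoint {u, v} b')
    (G₀ : Om d) (F : Om d → ℝ) (g : Finset V → ℝ)
    (hg : ∀ G ∈ cls (key (blk {u, v} univ)) G₀, g (upSet u v G) = F G) :
    ∀ G ∈ cls (key (blk {u, v} univ)) G₀,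
      qq {u, v} b' F G =
        qS (powersetCard (upSet u v G₀).card (freeCols u v G₀)) b' g (upSet u v G) := by
  intro G hG
  obtain ⟨hu, hv⟩ := not_mem_of_disjoint_aux u v b' hb'
  simp only [qq, qS, Pi.sub_apply]
  rw [EB_transfer_aux u v huv b' hu hv G₀ F g hg G hG, hg G hG]

theorem Zb_transfer (u v : V) (huv : u ≠ v) (b' : Finset V) (hb' : Disjoint {u, v} b')
    (G₀ : Om d) (F : Om d → ℝ) (g : Finset V → ℝ)
    (hg : ∀ G ∈ cls (key (blk {u, v} univ)) G₀, g (upSet u v G) = F G) :
    ∀ G ∈ cls (key (blk {u, v} univ)) G₀,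
      Zb {u, v} b' F G =
        ZS (powersetCard (upSet u v G₀).card (freeCols u v G₀)) b' g (upSet u v G) := by
  intro G hG
  obtain ⟨hu, hv⟩ := not_mem_of_disjoint_aux u v b' hb'
  have hu' : u ∉ ({u, v} ∪ b')ᶜ := by simp
  have hv' : v ∉ ({u, v} ∪ b')ᶜ := by simp
  have h1 : ∀ G ∈ cls (key (blk {u, v} univ)) G₀,
      avgOn (powersetCard (upSet u v G₀).card (freeCols u v G₀)) (fun W' => W' \ b') g
        (upSet u v G) = EB (blk {u, v} b') F G :=
    fun G hG => (EB_transfer_aux u v huv b' hu hv G₀ F g hg G hG).symm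
  have h2 : EB (blk {u, v} ({u, v} ∪ b')ᶜ) (EB (blk {u, v} b') F) G =
      avgOn (powersetCard (upSet u v G₀).card (freeCols u v G₀)) (fun W' => W' ∩ b')
        (avgOn (powersetCard (upSet u v G₀).card (freeCols u v G₀)) (fun W' => W' \ b') g)
        (upSet u v G) :=
    avg_transfer (key (blk {u, v} univ)) (key (blk {u, v} ({u, v} ∪ b')ᶜ)) (upSet u v)
      (powersetCard (upSet u v G₀).card (freeCols u v G₀)) (fun W' => W' ∩ b') G₀
      (fun _ _ h => key_mono (blk_mono (Finset.Subset.refl _) (Finset.subset_univ _)) h)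
      (two_row_maps u v huv G₀) (two_row_inj u v huv G₀) (two_row_surj u v huv G₀)
      (fun ω hω ω' hω' => by
        rw [two_row_compat u v huv G₀ _ hu' hv' ω hω ω' hω', upSet_sdiff_compl_aux,
          upSet_sdiff_compl_aux])
      (EB (blk {u, v} b') F) _ h1 G hG
  simp only [Zb, ZS, Pi.sub_apply]
  rw [h2, Eb_transfer_aux u v huv G₀ F g hg G hG]

theorem swC_transfer (u v : V) (huv : u ≠ v) (b' : Finset V) (hb' : Disjoint {u, v} b')
    (G₀ : Om d) :
    ∀ G ∈ cls (key (blk {u, v} univ)) G₀,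
      (G ∈ swC {u, v} b' ↔
        upSet u v G ∈ CS (powersetCard (upSet u v G₀).card (freeCols u v G₀)) b') := by
  intro G hG
  obtain ⟨hu, hv⟩ := not_mem_of_disjoint_aux u v b' hb'
  simp only [swC, CS, mem_filter, mem_univ, true_and]
  constructor
  · rintro ⟨G', hne, hk⟩
    have hG' : G' ∈ cls (key (blk {u, v} univ)) G₀ := by
      rw [mem_cls] at hG ⊢
      rw [← hG]
      exact key_mono (blk_mono (Finset.Subset.refl _) (Finset.subset_univ b')) hk
    refine ⟨two_row_maps u v huv G₀ G hG, upSet u v G', two_row_maps u v huv G₀ G' hG', ?_, ?_⟩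
    · intro h
      exact hne (two_row_inj u v huv G₀ G' hG' G hG h)
    · exact (two_row_compat u v huv G₀ b' hu hv G' hG' G hG).1 hk
  · rintro ⟨_, W', hW', hne, hk⟩
    obtain ⟨G', hG', rfl⟩ := two_row_surj u v huv G₀ W' hW'
    refine ⟨G', ?_, (two_row_compat u v huv G₀ b' hu hv G' hG' G hG).2 hk⟩
    rintro rfl
    exact hne rfl

end Vale.Agent.P335
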