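import Vale.Agent.P335.TwoRowTransfer
import Vale.Agent.P335.SubsetBridge

/-!
# P335: vanishing of Zb on column patterns
-/

namespace Vale.Agent.P335

open Finset

set_option linter.unusedSectionVars false

variable {V : Type*} [Fintype V] [DecidableEq V] {d : V → ℕ}

/-- `Zb` vanishes where both columns of `b'` are non-free for `b` -/
theorem Zb_eq_zero (b b' : Finset V) (hb : b ∈ pairs V) (hb' : b' ∈ pairs V) (hd : Disjoint b b')
    (G : Om d) (h : ∀ y ∈ b', ∀ x ∈ b, ∀ x' ∈ b, (G.1.Adj x y ↔ G.1.Adj x' y)) (F : Om d → ℝ) :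
    Zb b b' F G = 0 := by
  classical
  have hb2 : b.card = 2 := (Finset.mem_powersetCard.1 hb).2
  obtain ⟨u, v, huv, rfl⟩ := Finset.card_eq_two.1 hb2
  obtain ⟨g, hg⟩ := exists_model_fun (key (blk {u, v} univ)) (upSet u v) G
    (two_row_inj u v huv G) F
  have hself : G ∈ cls (key (blk {u, v} univ)) G := self_mem_cls _ _
  rw [Zb_transfer u v huv b' hd G F g hg G hself]
  refine ZS_eq_zero (freeCols u v G) (upSet u v G).card b' ?_ g (upSet u v G)
    (two_row_maps u v huv G G hself)
  rw [Finset.disjoint_left]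
  intro y hy hyD
  have hyD' := (Finset.mem_filter.1 hyD).2
  have h1 : G.1.Adj u y ↔ G.1.Adj v y :=
    h y hy u (Finset.mem_insert_self _ _)
      v (Finset.mem_insert_of_mem (Finset.mem_singleton_self _))
  have h2 := hyD'.2.2
  tauto

end Vale.Agent.P335
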